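import Vale.Agent.P227.PCalc

/-! A priori two sided Hessian bounds. -/

set_option linter.unusedSectionVars false
set_option linter.unusedVariables false

namespace Vale.Agent.P227

open scoped ContDiff
open MeasureTheory Set Filter Topology Matrix

variable {n : ℕ} {V : X n → ℝ} {T c C : ℝ} {u : ℝ → X n → ℝ}

theorem hasP_qf {τ : X n → Mat n} {A : ℝ → X n → Mat n} {P : Mat n} {t : ℝ} {x : X n}
    (h : ∀ a b, HasP T τ (fun s y => A s y a b) t x (P a b)) (ξ : X n) :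
    HasP T τ (fun s y => qf (A s y) ξ) t x (qf P ξ) := by
  have h1 := HasP.sum Finset.univ fun a _ => HasP.sum Finset.univ fun b _ =>
    (h a b).const_mul (ξ a * ξ b)
  have e : ∀ B : Mat n, qf B ξ = ∑ a, ∑ b, ξ a * ξ b * B a b := fun B =>
    Finset.sum_congr rfl fun a _ => Finset.sum_congr rfl fun b _ => by ring
  simp only [e]
  exact h1

theorem continuous_qf {A : ℝ → X n → Mat n}
    (h : ∀ a b, Continuous fun p : ℝ × X n => A p.1 p.2 a b) (ξ : X n) :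
    Continuous fun p : ℝ × X n => qf (A p.1 p.2) ξ :=
  continuous_finsetSum _ fun a _ => continuous_finsetSum _ fun b _ =>
    ((h a b).mul continuous_const).mul continuous_const

theorem qf_sub (A B : Mat n) (ξ : X n) : qf (A - B) ξ = qf A ξ - qf B ξ := by
  simp only [qf_eq_dot, Matrix.sub_mulVec, dotProduct_sub]

theorem qf_conj {τ : Mat n} (hτ : τ.IsSymm) (B : Mat n) (ξ : X n) :
    qf (τ * B * τ) ξ = qf B (τ *ᵥ ξ) := by
  simp only [qf_eq_dot]
  rw [Matrix.mul_assoc, ← Matrix.mulVec_mulVec, ← Matrix.mulVec_mulVec, Matrix.dotProduct_mulVec,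
    ← Matrix.mulVec_transpose, hτ.eq]

theorem qf_one (ξ : X n) : qf (1 : Mat n) ξ = nsq ξ := by
  simp [qf_eq_dot, nsq, dotProduct, sq]

theorem ap_ub (hu : NSol V T u) (hV : Sm V) (h0 : u 0 = q0 n) (hC : 1 ≤ C)
    (hVu : ∀ x, UB C (hess V x)) : ∀ t ∈ Icc 0 T, ∀ x, UB C (hess (u t) x) := by
  intro t ht x ξ
  obtain ⟨Cτ, hCτ⟩ := hu.tau_max
  obtain ⟨c, hc, hl⟩ := hu.pos
  refine max_principle (T := T) (τ := fun t => tau (u t)) (f := fun s y => qf (hess (u s) y) ξ)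
    (M := C * nsq ξ) (continuous_qf (A := fun s => hess (u s)) (fun a b => hu.sol.jc.2 [a, b]) ξ)
    ?_ hCτ ?_ ?_ t ht x
  · have h : ∀ p : Fin n × Fin n, ∃ B, ∀ t x, |hess (u t) x p.1 p.2| ≤ B := fun p =>
      hu.sol.bdd [p.1, p.2] le_rfl
    choose B hB using h
    refine ⟨n * (∑ p, |B p|) * nsq ξ, fun t _ x => ub_of_entry (fun i j => ?_) ξ⟩
    exact (hB (i, j) t x).trans ((le_abs_self _).trans (Finset.single_le_sum
      (f := fun p => |B p|) (fun _ _ => abs_nonneg _) (Finset.mem_univ (i, j))))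
  · intro t ht' x hq
    have ht : t ∈ Icc 0 T := Ioc_subset_Icc_self ht'
    have hs : Sm (u t) := hu.sol.jc.1 t
    refine ⟨_, ?_, hasP_qf (A := fun s => hess (u s)) (hu.hasP_hess hV ht x) ξ⟩
    have h1 := lb_of_posSemidef (sig_posSemidef hs ((hl t x).posDef hc (hess_isSymm hs x))) ξ
    have h2 := hVu x ξ
    rw [qf_sub, qf_sub]
    linarith
  · intro x
    rw [h0, hess_q0, qf_one]
    nlinarith [nsq_nonneg ξ]

theorem ap_lb (hu : NSol V T u) (hV : Sm V) (h0 : u 0 = q0 n) (hc : 0 < c) (hc1 : c ≤ 1)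
    (hVl : ∀ x, LB c (hess V x)) : ∀ t ∈ Icc 0 T, ∀ x, LB c (hess (u t) x) := by
  intro t ht x
  obtain ⟨Cτ, hCτ⟩ := hu.tau_max
  obtain ⟨c0, hc0, hl⟩ := hu.pos
  have hpd : ∀ t x, (hess (u t) x).PosDef := fun t x =>
    (hl t x).posDef hc0 (hess_isSymm (hu.sol.jc.1 t) x)
  have hi : 0 < c⁻¹ := inv_pos.mpr hc
  rw [← inv_inv c]
  refine lb_of_inv_ub (hpd t x) hi fun ξ => ?_
  refine max_principle (T := T) (τ := fun t => tau (u t)) (f := fun s y => qf (tau (u s) y) ξ)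
    (M := c⁻¹ * nsq ξ) (continuous_qf (A := fun s => tau (u s))
      (fun a b => (hu.sol.jc.tau (fun t x => (hu.det_pos t x).ne') a b).cont) ξ)
    ⟨c0⁻¹ * nsq ξ, fun t _ x => (hl t x).inv_ub hc0 (hess_isSymm (hu.sol.jc.1 t) x) ξ⟩
    hCτ ?_ ?_ t ht x
  · intro t ht' x hq
    have ht : t ∈ Icc 0 T := Ioc_subset_Icc_self ht'
    have hs : Sm (u t) := hu.sol.jc.1 t
    refine ⟨_, ?_, hasP_qf (A := fun s => tau (u s)) (hu.hasP_tau hV ht x) ξ⟩
    have hsy := tau_isSymm hs x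
    rw [qf_sub, qf_sub, qf_conj hsy, qf_conj hsy]
    have h1 := lb_of_posSemidef (sig_posSemidef hs (hpd t x)) (tau (u t) x *ᵥ ξ)
    have h2 := hVl x (tau (u t) x *ᵥ ξ)
    have h3 := qf_sq_le (tau (u t) x) ξ
    have h4 := nsq_nonneg ξ
    have h5 := nsq_nonneg (tau (u t) x *ᵥ ξ)
    have h6 : nsq ξ < c * qf (tau (u t) x) ξ := by
      have := mul_lt_mul_of_pos_left hq hc
      rwa [← mul_assoc, mul_inv_cancel₀ hc.ne', one_mul] at this
    have h7 : 0 < qf (tau (u t) x) ξ := (mul_pos_iff_of_pos_left hc).mp (h4.trans_lt h6)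
    have h8 : qf (tau (u t) x) ξ * qf (tau (u t) x) ξ
        ≤ qf (tau (u t) x) ξ * (c * nsq (tau (u t) x *ᵥ ξ)) := by
      have := mul_le_mul_of_nonneg_right h6.le h5
      linarith
    have h9 := le_of_mul_le_mul_left h8 h7
    linarith
  · intro x
    rw [h0, tau, hess_q0, inv_one, qf_one]
    have : 1 ≤ c⁻¹ := (one_le_inv₀ hc).mpr hc1
    nlinarith [nsq_nonneg ξ]

end Vale.Agent.P227
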