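import Vale.Agent.P227.RemBound

/-! A priori bounds for derivatives of order at least four. -/

set_option linter.unusedSectionVars false
set_option linter.unusedVariables false

namespace Vale.Agent.P227

open scoped ContDiff
open MeasureTheory Set Filter Topology Matrix

theorem apk_real {c D0 D1 K E : ℝ} (hc : 0 < c) (hD0 : 0 ≤ D0) (hD1 : 0 ≤ D1) (hK : 0 ≤ K)
    (hE : 0 ≤ E) : ∃ B a0 : ℝ, 1 ≤ B ∧ 0 ≤ a0 ∧ ∀ a b α P0 P1 Γ : ℝ, 0 ≤ b → a0 ≤ a → B ≤ α →
      α ≤ B + E → P1 ≤ D1 * (a * ((1 + a) ^ 2 + b + 1)) - 2 * c * b ^ 2 →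
      P0 ≤ D0 * (1 + a) - 2 * c * a ^ 2 → |Γ| ≤ K * (a ^ 2 * b) →
      α * P1 + a ^ 2 * P0 - 2 * Γ ≤ 0 := by
  obtain ⟨k, hk⟩ : ∃ k, K = c * k := ⟨K / c, by field_simp⟩
  obtain ⟨B, hB⟩ : ∃ B, B = k ^ 2 + 1 := ⟨_, rfl⟩
  have hB1 : 1 ≤ B := by rw [hB]; linarith [sq_nonneg k]
  obtain ⟨G, hG⟩ : ∃ G, G = (B + E) * D1 := ⟨_, rfl⟩
  have hG0 : 0 ≤ G := hG ▸ mul_nonneg (by linarith) hD1
  obtain ⟨g, hg⟩ : ∃ g, G = c * g := ⟨G / c, by field_simp⟩
  obtain ⟨H, hH⟩ : ∃ H, H = 5 * G + c * g ^ 2 + 2 * D0 := ⟨_, rfl⟩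
  have hH0 : 0 ≤ H := by rw [hH]; positivity
  refine ⟨B, 1 + H / c, hB1, by positivity, fun a b α P0 P1 Γ hb ha hα hα' h1 h0 hΓ => ?_⟩
  have hHc : 0 ≤ H / c := by positivity
  have ha1 : 1 ≤ a := by linarith
  have ha0 : 0 ≤ a := by linarith
  have hHa : H ≤ c * a := by
    have : H / c ≤ a := by linarith
    rwa [div_le_iff₀ hc, mul_comm] at this
  have hw : 0 ≤ a * ((1 + a) ^ 2 + b + 1) := by positivity
  have e1 : α * P1 ≤ G * (a * ((1 + a) ^ 2 + b + 1)) - 2 * c * B * b ^ 2 := by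
    have t1 : α * P1 ≤ α * (D1 * (a * ((1 + a) ^ 2 + b + 1)) - 2 * c * b ^ 2) :=
      mul_le_mul_of_nonneg_left h1 (by linarith)
    have t2 : α * (D1 * (a * ((1 + a) ^ 2 + b + 1)))
        ≤ (B + E) * (D1 * (a * ((1 + a) ^ 2 + b + 1))) :=
      mul_le_mul_of_nonneg_right hα' (mul_nonneg hD1 hw)
    have t3 : B * (2 * c * b ^ 2) ≤ α * (2 * c * b ^ 2) :=
      mul_le_mul_of_nonneg_right hα (by positivity)
    rw [hG]
    linarith
  have e2 : a ^ 2 * P0 ≤ a ^ 2 * (D0 * (1 + a) - 2 * c * a ^ 2) :=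
    mul_le_mul_of_nonneg_left h0 (sq_nonneg a)
  have e3 : -Γ ≤ K * (a ^ 2 * b) := (neg_le_abs Γ).trans hΓ
  have e4 : 2 * (K * (a ^ 2 * b)) ≤ c * a ^ 4 + c * k ^ 2 * b ^ 2 := by
    have := mul_nonneg hc.le (sq_nonneg (a ^ 2 - k * b))
    rw [hk]
    linarith
  have e5 : G * (a * b) ≤ c * b ^ 2 + c * g ^ 2 * a ^ 2 := by
    have := mul_nonneg hc.le (sq_nonneg (b - g * a))
    have h2 : 0 ≤ G * (a * b) := by positivity
    rw [hg] at h2 ⊢
    linarith
  have a23 : a ^ 2 ≤ a ^ 3 := pow_le_pow_right₀ ha1 (by norm_num)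
  have a13 : a ≤ a ^ 3 := by simpa using pow_le_pow_right₀ ha1 (show 1 ≤ 3 by norm_num)
  have e6 : G * (a * ((1 + a) ^ 2 + 1)) ≤ G * (5 * a ^ 3) :=
    mul_le_mul_of_nonneg_left (by linarith) hG0
  have e7 : c * g ^ 2 * a ^ 2 ≤ c * g ^ 2 * a ^ 3 :=
    mul_le_mul_of_nonneg_left a23 (by positivity)
  have e8 : D0 * (a ^ 2 * (1 + a)) ≤ D0 * (2 * a ^ 3) :=
    mul_le_mul_of_nonneg_left (by linarith) hD0
  have e9 : H * a ^ 3 ≤ c * a * a ^ 3 := mul_le_mul_of_nonneg_right hHa (by positivity)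
  have e10 : 0 ≤ c * b ^ 2 := by positivity
  have e11 : 0 ≤ c * k ^ 2 * b ^ 2 := by positivity
  rw [hH] at e9
  rw [hB] at e1
  linarith

variable {n : ℕ}

theorem sm_An {u : X n → ℝ} (hu : Sm u) (j : ℕ) : Sm (An j u) :=
  ContDiff.sum fun l _ => (hu.pds l).pow 2

theorem abs_pd_An_le {u : X n → ℝ} (hu : Sm u) (j : ℕ) (x : X n) {U : ℝ}
    (hU : ∀ l : List (Fin n), l.length = j → |pds l u x| ≤ U) (i : Fin n) :
    |pd i (An j u) x| ≤ (wordsEq (Fin n) j).card * (2 * U * Real.sqrt (An (j + 1) u x)) := by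
  have e : pd i (An j u) x = ∑ l ∈ wordsEq (Fin n) j, 2 * pds l u x * pds (i :: l) u x := by
    have : An j u = fun y => ∑ l ∈ wordsEq (Fin n) j, pds l u y * pds l u y := by
      funext y; simp only [An, sq]
    rw [this, pd_sum _ fun l _ => Sm.diff ((hu.pds l).mul (hu.pds l)) x]
    refine Finset.sum_congr rfl fun l _ => ?_
    rw [pd_mul ((hu.pds l).diff x) ((hu.pds l).diff x), pds_cons]
    ring
  rw [e, ← nsmul_eq_mul]
  refine (Finset.abs_sum_le_sum_abs _ _).trans (Finset.sum_le_card_nsmul _ _ _ fun l hl => ?_)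
  have hl' := mem_wordsEq.mp hl
  have h1 := hU l hl'
  have h2 := abs_pds_le_sqrt_An u x (i :: l)
  rw [List.length_cons, hl'] at h2
  rw [abs_mul, abs_mul, abs_two]
  exact mul_le_mul (by linarith) h2 (abs_nonneg _) (by linarith [abs_nonneg (pds l u x)])

theorem abs_gam_le {τ : X n → Mat n} {f g : X n → ℝ} {x : X n} {C F G : ℝ}
    (hτ : ∀ i j, |τ x i j| ≤ C) (hf : ∀ i, |pd i f x| ≤ F) (hg : ∀ i, |pd i g x| ≤ G) :
    |Gam τ f g x| ≤ n * (n * (C * F * G)) := by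
  unfold Gam
  refine (Finset.abs_sum_le_sum_abs _ _).trans ?_
  have : ∀ i ∈ (Finset.univ : Finset (Fin n)),
      |∑ j, τ x i j * pd i f x * pd j g x| ≤ n * (C * F * G) := by
    intro i _
    refine (Finset.abs_sum_le_sum_abs _ _).trans ?_
    have : ∀ j ∈ (Finset.univ : Finset (Fin n)), |τ x i j * pd i f x * pd j g x| ≤ C * F * G := by
      intro j _
      rw [abs_mul, abs_mul]
      have h0 : 0 ≤ C := (abs_nonneg _).trans (hτ i j)
      have h1 : 0 ≤ F := (abs_nonneg _).trans (hf i)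
      exact mul_le_mul (mul_le_mul (hτ i j) (hf i) (abs_nonneg _) h0) (hg j) (abs_nonneg _)
        (mul_nonneg h0 h1)
    simpa using Finset.sum_le_card_nsmul _ _ _ this
  simpa using Finset.sum_le_card_nsmul _ _ _ this

theorem NSol.hasP_An {V : X n → ℝ} {T t : ℝ} {u : ℝ → X n → ℝ} (hu : NSol V T u) (hV : Sm V)
    (ht : t ∈ Icc 0 T) (x : X n) {j : ℕ} (hj : 1 ≤ j) {c U R : ℝ}
    (hτ : LB c (tau (u t) x)) (hU : ∀ l : List (Fin n), l.length = j → |pds l (u t) x| ≤ U)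
    (hR : ∀ l : List (Fin n), l.length = j → |Rem l (u t) x| + |pds l V x| ≤ R) :
    ∃ p, p ≤ (wordsEq (Fin n) j).card * (2 * U * R) - 2 * c * An (j + 1) (u t) x ∧
      HasP T (tau (u t)) (fun s => An j (u s)) t x p := by
  have hs : Sm (u t) := hu.sol.jc.1 t
  have h := HasP.sum (wordsEq (Fin n) j) fun l _ =>
    (hu.hasP_pds hV ht x l).mul (hu.hasP_pds hV ht x l) (tau_isSymm hs x)
  have e : (fun s => An j (u s))
      = fun r y => ∑ l ∈ wordsEq (Fin n) j, pds l (u r) y * pds l (u r) y := by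
    funext r y; simp only [An, sq]
  refine ⟨_, ?_, e ▸ h⟩
  rw [An_succ, Finset.mul_sum, ← nsmul_eq_mul, ← Finset.sum_const, ← Finset.sum_sub_distrib]
  refine Finset.sum_le_sum fun l hl => ?_
  have hl' := mem_wordsEq.mp hl
  have h1 := hU l hl'
  have h2 := hR l hl'
  have h3 := hτ fun i => pd i (pds l (u t)) x
  rw [← gam_self] at h3
  simp only [nsq] at h3
  have h4 : (0 : ℝ) ≤ (l.length : ℝ) - 1 := by
    rw [hl']
    have : (1 : ℝ) ≤ j := by exact_mod_cast hj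
    linarith
  have h5 : pds l (u t) x * (Rem l (u t) x + pds l V x) ≤ U * R := by
    refine (le_abs_self _).trans ?_
    rw [abs_mul]
    exact mul_le_mul h1 ((abs_add_le _ _).trans h2) (abs_nonneg _) ((abs_nonneg _).trans h1)
  have h6 := mul_nonneg h4 (sq_nonneg (pds l (u t) x))
  nlinarith

theorem Sol.An_bdd {Op : (X n → ℝ) → X n → ℝ} {T : ℝ} {u : ℝ → X n → ℝ} (hu : Sol Op T u)
    {j : ℕ} (hj : 2 ≤ j) : ∃ C, ∀ t x, An j (u t) x ≤ C := by
  have h : ∀ l : List (Fin n), ∃ C, l.length = j → ∀ t x, |pds l (u t) x| ≤ C := by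
    intro l
    by_cases hl : l.length = j
    · obtain ⟨C, hC⟩ := hu.bdd l (by omega)
      exact ⟨C, fun _ => hC⟩
    · exact ⟨0, fun h => absurd h hl⟩
  choose C hC using h
  refine ⟨∑ l ∈ wordsEq (Fin n) j, C l ^ 2, fun t x => Finset.sum_le_sum fun l hl => ?_⟩
  exact sq_le_sq' (abs_le.mp (hC l (mem_wordsEq.mp hl) t x)).1
    (abs_le.mp (hC l (mem_wordsEq.mp hl) t x)).2

theorem JC.cont_An {u : ℝ → X n → ℝ} (hu : JC u) (j : ℕ) :
    Continuous fun p : ℝ × X n => An j (u p.1) p.2 :=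
  continuous_finsetSum _ fun l _ => (hu.2 l).pow 2

theorem ap_step {n : ℕ} {V : X n → ℝ} (hV : Pot V) {c : ℝ} (hc : 0 < c) {m : ℕ} (hm : 3 ≤ m)
    (M : ℝ) : ∃ M', ∀ (T : ℝ) (u : ℝ → X n → ℝ), NSol V T u → u 0 = q0 n →
      (∀ t ∈ Icc 0 T, ∀ x, LB c (hess (u t) x)) →
      (∀ l : List (Fin n), 2 ≤ l.length → l.length ≤ m → ∀ t ∈ Icc 0 T, ∀ x,
        |pds l (u t) x| ≤ M) →
      ∀ l : List (Fin n), l.length = m + 1 → ∀ t ∈ Icc 0 T, ∀ x, |pds l (u t) x| ≤ M' := by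
  obtain ⟨K, hK, hRem⟩ := rem_le n hc hm M
  obtain ⟨MV, hMV⟩ := hV.v2.exists_bound
  obtain ⟨N0, hN0⟩ : ∃ N0 : ℝ, N0 = ((wordsEq (Fin n) m).card : ℝ) := ⟨_, rfl⟩
  obtain ⟨N1, hN1⟩ : ∃ N1 : ℝ, N1 = ((wordsEq (Fin n) (m + 1)).card : ℝ) := ⟨_, rfl⟩
  have N0n : 0 ≤ N0 := hN0 ▸ Nat.cast_nonneg _
  have N1n : 0 ≤ N1 := hN1 ▸ Nat.cast_nonneg _
  have hC1 : (0 : ℝ) < n * |M| + 1 := by positivity
  obtain ⟨B, a0, hB, ha0, hreal⟩ := apk_real (c := (n * |M| + 1)⁻¹)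
    (D0 := N0 * (2 * |M| * (K + |MV m|))) (D1 := N1 * (2 * (K + |MV (m + 1)|)))
    (K := n * (n * (c⁻¹ * (N0 * (2 * |M|)) * (N1 * 2)))) (E := N0 * M ^ 2)
    (by positivity) (by positivity) (by positivity) (by positivity) (by positivity)
  refine ⟨Real.sqrt ((B + N0 * M ^ 2) * a0 ^ 2), fun T u hu h0 hlb hM l hl t ht x => ?_⟩
  have hAm : ∀ t ∈ Icc 0 T, ∀ x, An m (u t) x ≤ N0 * M ^ 2 := by
    intro t ht x
    rw [hN0, ← nsmul_eq_mul]
    refine Finset.sum_le_card_nsmul _ _ _ fun l hl => ?_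
    have hl' := mem_wordsEq.mp hl
    have := hM l (by omega) hl'.le t ht x
    exact sq_le_sq' (abs_le.mp this).1 (abs_le.mp this).2
  obtain ⟨Cτ, hCτ⟩ := hu.tau_max
  have key := max_principle (T := T) (τ := fun t => tau (u t))
    (f := fun s y => (B + An m (u s) y) * An (m + 1) (u s) y) (M := (B + N0 * M ^ 2) * a0 ^ 2)
    ((continuous_const.add (hu.sol.jc.cont_An m)).mul (hu.sol.jc.cont_An (m + 1))) ?_ hCτ ?_ ?_
  · have h1 := key t ht x
    have h2 := abs_pds_le_sqrt_An (u t) x l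
    rw [hl] at h2
    refine h2.trans (Real.sqrt_le_sqrt ?_)
    have h3 := An_nonneg m (u t) x
    have h4 := An_nonneg (m + 1) (u t) x
    have h5 : 0 ≤ (B - 1 + An m (u t) x) * An (m + 1) (u t) x := mul_nonneg (by linarith) h4
    linarith
  · obtain ⟨C, hC⟩ := hu.sol.An_bdd (j := m + 1) (by omega)
    refine ⟨(B + N0 * M ^ 2) * C, fun t ht x => ?_⟩
    have h3 := An_nonneg m (u t) x
    exact mul_le_mul (by linarith [hAm t ht x]) (hC t x) (An_nonneg _ _ _) (by positivity)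
  · intro t ht' x hq
    have ht : t ∈ Icc 0 T := Ioc_subset_Icc_self ht'
    have hs : Sm (u t) := hu.sol.jc.1 t
    have hsy := hess_isSymm hs x
    have hub : UB (n * |M| + 1) (hess (u t) x) :=
      (ub_of_entry (M := |M|) fun i j =>
        (hM [i, j] le_rfl (by simp; omega) t ht x).trans (le_abs_self M)).mono (by linarith)
    have hτ : LB (n * |M| + 1)⁻¹ (tau (u t) x) := hub.inv_lb hC1 ((hlb t ht x).posDef hc hsy)
    obtain ⟨hR0, hR1⟩ := hRem (u t) hs (hlb t ht) (fun l h1 h2 => hM l h1 h2 t ht) x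
    set a := Real.sqrt (An (m + 1) (u t) x) with ha
    set b := Real.sqrt (An (m + 2) (u t) x) with hb
    have a_nn : 0 ≤ a := Real.sqrt_nonneg _
    have b_nn : 0 ≤ b := Real.sqrt_nonneg _
    have ea : a ^ 2 = An (m + 1) (u t) x := Real.sq_sqrt (An_nonneg _ _ _)
    have eb : b ^ 2 = An (m + 1 + 1) (u t) x := Real.sq_sqrt (An_nonneg _ _ _)
    have hU0 : ∀ l : List (Fin n), l.length = m → |pds l (u t) x| ≤ |M| := fun l hl =>
      (hM l (by omega) hl.le t ht x).trans (le_abs_self M)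
    have hU1 : ∀ l : List (Fin n), l.length = m + 1 → |pds l (u t) x| ≤ a := fun l hl => by
      have := abs_pds_le_sqrt_An (u t) x l
      rwa [hl] at this
    obtain ⟨P0, hP0, H0⟩ := hu.hasP_An hV.v2.1 ht x (j := m) (by omega) hτ hU0
      (R := (K + |MV m|) * (1 + a)) fun l hl => by
        have h1 := hR0 l hl
        have h2 := hMV l (by omega) x
        rw [hl] at h2
        have h3 := le_abs_self (MV m)
        have h4 := mul_nonneg (abs_nonneg (MV m)) a_nn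
        nlinarith
    obtain ⟨P1, hP1, H1⟩ := hu.hasP_An hV.v2.1 ht x (j := m + 1) (by omega) hτ hU1
      (R := (K + |MV (m + 1)|) * ((1 + a) ^ 2 + b + 1)) fun l hl => by
        have h1 := hR1 l hl
        have h2 := hMV l (by omega) x
        rw [hl] at h2
        have h3 := le_abs_self (MV (m + 1))
        have h4 := mul_nonneg (abs_nonneg (MV (m + 1))) (show 0 ≤ (1 + a) ^ 2 + b by positivity)
        nlinarith
    rw [← hN0] at hP0
    rw [← hN1] at hP1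
    have H := ((HasP.const B).add H0).mul H1 (tau_isSymm hs x)
    refine ⟨_, ?_, H⟩
    have hΓ := abs_gam_le (τ := tau (u t)) (f := fun y => B + An m (u t) y)
      (g := An (m + 1) (u t)) (x := x) (C := c⁻¹) (F := N0 * (2 * |M| * a))
      (G := N1 * (2 * a * b)) (fun i j => (hlb t ht x).abs_inv_entry_le hc hsy i j)
      (fun i => by
        rw [pd_add (differentiableAt_const B) ((sm_An hs m).diff x), pd_const, zero_add]
        exact hN0 ▸ abs_pd_An_le hs m x hU0 i)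
      (fun i => hN1 ▸ abs_pd_An_le hs (m + 1) x hU1 i)
    have hA0 := An_nonneg m (u t) x
    have hA1 := hAm t ht x
    have haa : a0 ≤ a := by
      by_contra hlt
      have h1 : a ^ 2 ≤ a0 ^ 2 := pow_le_pow_left₀ a_nn (not_le.mp hlt).le 2
      have h2 : (B + An m (u t) x) * An (m + 1) (u t) x ≤ (B + N0 * M ^ 2) * a0 ^ 2 :=
        mul_le_mul (by linarith) (ea ▸ h1) (An_nonneg _ _ _) (by positivity)
      exact absurd hq (not_lt.mpr h2)
    have := hreal a b (B + An m (u t) x) P0 P1 _ b_nn haa (by linarith) (by linarith)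
      (by rw [eb]; linarith) (by rw [ea]; linarith) (hΓ.trans_eq (by ring))
    rw [ea] at this
    simpa using this
  · intro x
    have : An (m + 1) (u 0) x = 0 := by
      refine Finset.sum_eq_zero fun l hl => ?_
      rw [h0, pds_q0 (by rw [mem_wordsEq.mp hl]; omega)]
      simp
    simp only [this, mul_zero]
    positivity

end Vale.Agent.P227
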