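import Mathlib

/-! Basic definitions for the analytic part of the proof (all proved, no gaps). -/

set_option linter.unusedSectionVars false

namespace Vale.Agent.P227

open scoped ContDiff
open MeasureTheory Set Filter

/-- Coordinate space. -/
abbrev X (n : ℕ) := Fin n → ℝ

/-- Real square matrices. -/
abbrev Mat (n : ℕ) := Matrix (Fin n) (Fin n) ℝ

section generic
variable {ι : Type*} [Fintype ι] [DecidableEq ι]

/-- Smooth scalar functions. -/
abbrev Sm (f : (ι → ℝ) → ℝ) : Prop := ContDiff ℝ ∞ f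

/-- Coordinate derivative. -/
noncomputable def pd (i : ι) (f : (ι → ℝ) → ℝ) : (ι → ℝ) → ℝ :=
  fun x => fderiv ℝ f x (Pi.single i 1)

/-- Iterated coordinate derivative along a word (outermost letter first). -/
noncomputable def pds : List ι → ((ι → ℝ) → ℝ) → (ι → ℝ) → ℝ
  | [], f => f
  | i :: l, f => pd i (pds l f)

@[simp] theorem pds_nil (f : (ι → ℝ) → ℝ) : pds [] f = f := rfl
@[simp] theorem pds_cons (i : ι) (l : List ι) (f : (ι → ℝ) → ℝ) :
    pds (i :: l) f = pd i (pds l f) := rfl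

/-- All words of length at most `k`. -/
noncomputable def words (ι : Type*) [Fintype ι] (k : ℕ) : Finset (List ι) :=
  (List.finite_length_le ι k).toFinset

@[simp] theorem mem_words {k : ℕ} {l : List ι} : l ∈ words ι k ↔ l.length ≤ k := by
  simp [words]

/-- All words of length exactly `k`. -/
noncomputable def wordsEq (ι : Type*) [Fintype ι] (k : ℕ) : Finset (List ι) :=
  (List.finite_length_eq ι k).toFinset

@[simp] theorem mem_wordsEq {k : ℕ} {l : List ι} : l ∈ wordsEq ι k ↔ l.length = k := by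
  simp [wordsEq]

/-- Even functions. -/
def Ev (f : (ι → ℝ) → ℝ) : Prop := ∀ x, f (-x) = f x

/-- Bounded smooth: every derivative is bounded. -/
def BS (f : (ι → ℝ) → ℝ) : Prop := Sm f ∧ ∀ l : List ι, ∃ C, ∀ x, |pds l f x| ≤ C

/-- Smooth with every derivative of order at least two bounded. -/
def V2 (f : (ι → ℝ) → ℝ) : Prop :=
  Sm f ∧ ∀ l : List ι, 2 ≤ l.length → ∃ C, ∀ x, |pds l f x| ≤ C

/-- Smooth family, every derivative polynomially bounded uniformly in the parameter. -/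
def PGF {α : Type*} (f : α → (ι → ℝ) → ℝ) : Prop :=
  (∀ a, Sm (f a)) ∧ ∀ l : List ι, ∃ (C : ℝ) (N : ℕ), ∀ a x, |pds l (f a) x| ≤ C * (1 + ‖x‖) ^ N

/-- Smooth with every derivative polynomially bounded. -/
def PG (f : (ι → ℝ) → ℝ) : Prop :=
  Sm f ∧ ∀ l : List ι, ∃ (C : ℝ) (N : ℕ), ∀ x, |pds l f x| ≤ C * (1 + ‖x‖) ^ N

/-- Smooth family, every space derivative jointly continuous in (time, space). -/
def JC (f : ℝ → (ι → ℝ) → ℝ) : Prop :=
  (∀ t, Sm (f t)) ∧ ∀ l : List ι, Continuous (fun p : ℝ × (ι → ℝ) => pds l (f p.1) p.2)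

end generic

variable {n : ℕ}

/-- Squared Euclidean norm. -/
def nsq (ξ : X n) : ℝ := ∑ i, ξ i ^ 2

/-- Euclidean inner product. -/
def dot (a x : X n) : ℝ := ∑ i, a i * x i

/-- Quadratic form of a matrix. -/
def qf (A : Mat n) (ξ : X n) : ℝ := ∑ i, ∑ j, A i j * ξ i * ξ j

/-- `c • 1 ≤ A` as quadratic forms. -/
def LB (c : ℝ) (A : Mat n) : Prop := ∀ ξ, c * nsq ξ ≤ qf A ξ

/-- `A ≤ C • 1` as quadratic forms. -/
def UB (C : ℝ) (A : Mat n) : Prop := ∀ ξ, qf A ξ ≤ C * nsq ξ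

/-- Hessian matrix. -/
noncomputable def hess (f : X n → ℝ) (x : X n) : Mat n :=
  Matrix.of fun i j => pd i (pd j f) x

@[simp] theorem hess_apply (f : X n → ℝ) (x : X n) (i j : Fin n) :
    hess f x i j = pd i (pd j f) x := rfl

/-- Inverse Hessian. -/
noncomputable def tau (u : X n → ℝ) (x : X n) : Mat n := (hess u x)⁻¹

/-- The operator `L g = τ : D² g - x · ∇ g`. -/
noncomputable def Lop (τ : X n → Mat n) (g : X n → ℝ) : X n → ℝ :=
  fun x => ∑ i, ∑ j, τ x i j * pd i (pd j g) x - ∑ i, x i * pd i g x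

/-- The carre du champ `τ(∇ f, ∇ g)`. -/
noncomputable def Gam (τ : X n → Mat n) (f g : X n → ℝ) : X n → ℝ :=
  fun x => ∑ i, ∑ j, τ x i j * pd i f x * pd j g x

/-- The nonlinear operator `log det D² u - x · ∇ u + u + V`. -/
noncomputable def Nop (V u : X n → ℝ) : X n → ℝ :=
  fun x => Real.log (hess u x).det - ∑ i, x i * pd i u x + u x + V x

/-- The initial datum `|x|² / 2`. -/
noncomputable def q0 (n : ℕ) : X n → ℝ := fun x => nsq x / 2

/-- Clamp to `[0, T]`. -/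
def cl (T t : ℝ) : ℝ := max 0 (min t T)

/-- Even solution of `u_t = Op u` on `[0, T]`, with bounded derivatives of order `≥ 2`. -/
structure Sol (Op : (X n → ℝ) → X n → ℝ) (T : ℝ) (u : ℝ → X n → ℝ) : Prop where
  jc : JC u
  ev : ∀ t, Ev (u t)
  bdd0 : ∃ C, ∀ t, |u t 0| ≤ C
  bdd : ∀ l : List (Fin n), 2 ≤ l.length → ∃ C, ∀ t x, |pds l (u t) x| ≤ C
  eq : ∀ t ∈ Icc 0 T, ∀ x, HasDerivWithinAt (fun s => u s x) (Op (u t) x) (Icc 0 T) t

/-- Uniformly convex solution of the nonlinear flow `u_t = log det D² u - x · ∇ u + u + V`. -/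
structure NSol (V : X n → ℝ) (T : ℝ) (u : ℝ → X n → ℝ) : Prop where
  sol : Sol (Nop V) T u
  pos : ∃ c > 0, ∀ t x, LB c (hess (u t) x)

/-- `(∂_t - L) f = p` at the point `(t, x)`, with `L = Lop τ`. -/
structure HasP (T : ℝ) (τ : X n → Mat n) (f : ℝ → X n → ℝ) (t : ℝ) (x : X n) (p : ℝ) :
    Prop where
  sm : Sm (f t)
  dt : HasDerivWithinAt (fun s => f s x) (p + Lop τ (f t) x) (Icc 0 T) t

/-- The weight `e^{-W}` is the moment measure of the Legendre transform of `u`, in gradient form: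
`∇ (log det D² u - x · ∇ u + u + W) = 0`. -/
structure KEPair (W u : X n → ℝ) : Prop where
  pgW : PG W
  coer : ∃ c > 0, ∃ C, ∀ x, c * nsq x - C ≤ W x
  v2 : V2 u
  lb : ∃ c > 0, ∀ x, LB c (hess u x)
  eq : ∀ x k, ∑ a, ∑ b, tau u x a b * pd k (pd a (pd b u)) x
    = ∑ a, x a * hess u x a k - pd k W x

/-- Admissible potentials: even, uniformly convex, bounded derivatives of order `≥ 2`. -/
structure Pot (V : X n → ℝ) : Prop where
  v2 : V2 V
  ev : Ev V
  lb : ∃ c > 0, ∀ x, LB c (hess V x)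

/-- Admissible one-dimensional profiles. -/
structure Prof (ψ : ℝ → ℝ) : Prop where
  sm : ContDiff ℝ ∞ ψ
  ev : ∀ s, ψ (-s) = ψ s
  conv : ∀ s, 0 ≤ deriv (deriv ψ) s
  bdd : ∀ k, 2 ≤ k → ∃ C, ∀ s, |iteratedDeriv k ψ s| ≤ C
  bdd' : ∀ k, 2 ≤ k → ∃ C, ∀ s, |iteratedDeriv k (fun s => s * deriv ψ s) s| ≤ C

/-- Index set of 2-jets `(x, r)`. -/
abbrev JI (n : ℕ) := Fin n ⊕ Fin n × Fin n

/-- The point `(x, r)` of jet space. -/
def jet (x : X n) (r : Mat n) : JI n → ℝ := Sum.elim x (fun p => r p.1 p.2)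

@[simp] theorem jet_inl (x : X n) (r : Mat n) (i : Fin n) : jet x r (Sum.inl i) = x i := rfl
@[simp] theorem jet_inr (x : X n) (r : Mat n) (p : Fin n × Fin n) :
    jet x r (Sum.inr p) = r p.1 p.2 := rfl

end Vale.Agent.P227
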