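import Vale.Agent.P227.Setup

/-! Adjoints, commutation relations and the two elementary Bochner formulas. -/

set_option linter.unusedSectionVars false
set_option linter.unusedVariables false

namespace Vale.Agent.P227

open scoped ContDiff
open MeasureTheory Set Filter Topology Matrix

namespace Setup

variable {n : ℕ} {A : Type} [CommRing A] [Algebra ℝ A] (S : Setup n A)

theorem h_mul : S.h * S.τ = 1 := mul_eq_one_comm.mp S.τ_mul

theorem d_mul (a : Fin n) (f f' : A) : S.d a (f * f') = S.d a f * f' + f * S.d a f' := by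
  rw [Derivation.leibniz, smul_eq_mul, smul_eq_mul]
  ring

theorem sum_τ_h (a b : Fin n) : ∑ k, S.τ a k * S.h k b = if a = b then 1 else 0 := by
  have := congrFun (congrFun S.τ_mul a) b
  rwa [Matrix.mul_apply, Matrix.one_apply] at this

theorem sum_h_τ (a b : Fin n) : ∑ k, S.h a k * S.τ k b = if a = b then 1 else 0 := by
  have := congrFun (congrFun S.h_mul a) b
  rwa [Matrix.mul_apply, Matrix.one_apply] at this

theorem D_add (a : Fin n) (f f' : A) : S.D a (f + f') = S.D a f + S.D a f' := by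
  simp only [D, map_add, mul_add, Finset.sum_add_distrib]

theorem D_neg (a : Fin n) (f : A) : S.D a (-f) = -S.D a f := by
  simp only [D, map_neg, mul_neg, Finset.sum_neg_distrib]

theorem D_mul (a : Fin n) (f f' : A) : S.D a (f * f') = S.D a f * f' + f * S.D a f' := by
  simp only [D, S.d_mul, mul_add, Finset.sum_add_distrib, Finset.sum_mul, Finset.mul_sum]
  congr 1 <;> exact Finset.sum_congr rfl fun _ _ => by ring

theorem D_sum {κ : Type*} (s : Finset κ) (a : Fin n) (F : κ → A) :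
    S.D a (∑ k ∈ s, F k) = ∑ k ∈ s, S.D a (F k) := by
  simp only [D, map_sum, Finset.mul_sum]
  exact Finset.sum_comm

theorem D_x (a b : Fin n) : S.D a (S.x b) = S.τ a b := by
  simp [D, S.d_x]

theorem d_eq_h_D (b : Fin n) (f : A) : S.d b f = ∑ m, S.h b m * S.D m f := by
  simp only [D, Finset.mul_sum]
  rw [Finset.sum_comm]
  simp only [← mul_assoc, ← Finset.sum_mul, S.sum_h_τ]
  simp

theorem d_τ (k a b : Fin n) :
    S.d k (S.τ a b) = -∑ p, ∑ q, S.τ a p * S.d k (S.h p q) * S.τ q b := by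
  have h1 : ∀ q, ∑ p, S.τ a p * S.d k (S.h p q) = -∑ p, S.d k (S.τ a p) * S.h p q := by
    intro q
    have := congrArg (S.d k) (S.sum_τ_h a q)
    rw [map_sum] at this
    simp only [S.d_mul, Finset.sum_add_distrib] at this
    have h0 : S.d k (if a = q then (1 : A) else 0) = 0 := by split_ifs <;> simp
    rw [h0] at this
    linear_combination this
  rw [Finset.sum_comm]
  simp only [← Finset.sum_mul, h1, neg_mul, Finset.sum_neg_distrib, neg_neg]
  simp only [Finset.sum_mul]
  rw [Finset.sum_comm]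
  simp only [mul_assoc, ← Finset.mul_sum, S.sum_h_τ]
  simp

theorem D_τ (a b c : Fin n) :
    S.D c (S.τ a b) = -∑ k, ∑ p, ∑ q, S.τ c k * S.τ a p * S.d k (S.h p q) * S.τ q b := by
  simp only [D, S.d_τ, mul_neg, Finset.mul_sum, Finset.sum_neg_distrib, mul_assoc]

/-- Total symmetry of `D_c τ_{ab}`. -/
theorem D_τ_symm (a b c : Fin n) : S.D c (S.τ a b) = S.D a (S.τ c b) := by
  rw [S.D_τ, S.D_τ, Finset.sum_comm]
  congr 1
  refine Finset.sum_congr rfl fun p _ => Finset.sum_congr rfl fun k _ =>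
    Finset.sum_congr rfl fun q _ => ?_
  rw [S.codazzi k p q]
  ring

theorem D_D (a b : Fin n) (f : A) : S.D a (S.D b f)
    = ∑ l, S.D a (S.τ b l) * S.d l f + ∑ l, ∑ k, S.τ b l * S.τ a k * S.d k (S.d l f) := by
  conv_lhs => rw [D.eq_1 S b f, S.D_sum]
  simp only [S.D_mul, Finset.sum_add_distrib]
  congr 1
  simp only [D, Finset.mul_sum, mul_assoc]

theorem D_comm (a b : Fin n) (f : A) : S.D a (S.D b f) = S.D b (S.D a f) := by
  rw [S.D_D, S.D_D]
  congr 1
  · exact Finset.sum_congr rfl fun l _ => by rw [S.D_τ_symm]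
  · rw [Finset.sum_comm]
    refine Finset.sum_congr rfl fun k _ => Finset.sum_congr rfl fun l _ => ?_
    rw [S.d_comm]
    ring

theorem E_ds (a : Fin n) (f f' : A) : S.E (f * S.ds a f') = S.E (S.d a f * f') := by
  have h := S.ibp a (f * f')
  rw [S.d_mul, map_add] at h
  have : f * S.ds a f' = S.g a * (f * f') - f * S.d a f' := by
    rw [ds]
    ring
  rw [this, map_sub]
  linarith

theorem E_D (a : Fin n) (f : A) : S.E (S.D a f) = S.E (S.x a * f) := by
  have h1 : S.D a f = ∑ k, (S.d k (S.τ a k * f) - S.d k (S.τ a k) * f) := by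
    refine Finset.sum_congr rfl fun k _ => ?_
    rw [S.d_mul]
    ring
  have h2 : S.x a * f = ∑ k, (S.g k * (S.τ a k * f) - S.d k (S.τ a k) * f) := by
    have := S.stein a
    rw [← neg_neg (S.x a), ← this, ← Finset.sum_neg_distrib, Finset.sum_mul]
    refine Finset.sum_congr rfl fun k _ => ?_
    rw [S.τ_symm k a]
    ring
  rw [h1, h2, map_sum, map_sum]
  refine Finset.sum_congr rfl fun k _ => ?_
  rw [map_sub, map_sub, S.ibp]

theorem E_Ds (a : Fin n) (f f' : A) : S.E (f * S.Ds a f') = S.E (S.D a f * f') := by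
  have h := S.E_D a (f * f')
  rw [S.D_mul, map_add] at h
  have : f * S.Ds a f' = S.x a * (f * f') - f * S.D a f' := by
    rw [Ds]
    ring
  rw [this, map_sub]
  linarith

theorem L_eq_ds (f : A) : S.L f = -∑ a, S.ds a (S.D a f) := by
  have h1 : ∑ a, S.ds a (S.D a f) = -∑ a, ∑ k, S.τ a k * S.d a (S.d k f)
      - ∑ a, ∑ k, (S.d a (S.τ a k) - S.g a * S.τ a k) * S.d k f := by
    simp only [ds, D, map_sum, S.d_mul, Finset.mul_sum, ← Finset.sum_neg_distrib,
      ← Finset.sum_add_distrib, ← Finset.sum_sub_distrib]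
    exact Finset.sum_congr rfl fun _ _ => Finset.sum_congr rfl fun _ _ => by ring
  have h2 : ∑ a, ∑ k, (S.d a (S.τ a k) - S.g a * S.τ a k) * S.d k f
      = -∑ k, S.x k * S.d k f := by
    rw [Finset.sum_comm, ← Finset.sum_neg_distrib]
    refine Finset.sum_congr rfl fun k _ => ?_
    rw [← Finset.sum_mul, S.stein]
    ring
  rw [h1, h2, L]
  ring

theorem L_eq_Ds (f : A) : S.L f = -∑ a, S.Ds a (S.d a f) := by
  simp only [L, Ds, D, Finset.sum_add_distrib, Finset.sum_neg_distrib]
  have : ∑ i, ∑ j, S.τ i j * S.d i (S.d j f) = ∑ i, ∑ j, S.τ i j * S.d j (S.d i f) :=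
    Finset.sum_congr rfl fun _ _ => Finset.sum_congr rfl fun _ _ => by rw [S.d_comm]
  rw [this]
  ring

theorem E_mul_L' (f f' : A) : S.E (f * S.L f') = -S.E (∑ a, S.d a f * S.D a f') := by
  rw [S.L_eq_ds, mul_neg, map_neg, Finset.mul_sum, map_sum, map_sum]
  simp only [S.E_ds]

theorem Γ_eq (f f' : A) : S.Γ f f' = ∑ a, S.d a f * S.D a f' := by
  simp only [Γ, D, Finset.mul_sum]
  exact Finset.sum_congr rfl fun _ _ => Finset.sum_congr rfl fun _ _ => by ring

theorem E_mul_L (f f' : A) : S.E (f * S.L f') = -S.E (S.Γ f f') := by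
  rw [S.E_mul_L', S.Γ_eq]

theorem E_L (f : A) : S.E (S.L f) = 0 := by
  have := S.E_mul_L' 1 f
  simpa using this

/-- `D_k (L + 1) w = - D_a^* P_{ak}`. -/
theorem D_L (w : A) (k : Fin n) : S.D k (S.L w + w) = -∑ a, S.Ds a (S.P w a k) := by
  rw [S.D_add, S.L_eq_Ds, S.D_neg, S.D_sum]
  have h1 : ∀ a, S.D k (S.Ds a (S.d a w)) = S.Ds a (S.P w a k) + S.τ k a * S.d a w := by
    intro a
    simp only [Ds, P, S.D_add, S.D_neg, S.D_mul, S.D_x, S.D_comm k a]
    ring
  simp only [h1, Finset.sum_add_distrib]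
  rw [D]
  ring

theorem D_d_comm (a b : Fin n) (f : A) :
    S.d b (S.D a f) = S.D a (S.d b f) + ∑ c, S.d b (S.τ a c) * S.d c f := by
  simp only [D, map_sum, S.d_mul, Finset.sum_add_distrib, S.d_comm b]
  ring

theorem D_ds_comm (a b : Fin n) (f : A) :
    S.D a (S.ds b f) = S.ds b (S.D a f) + ∑ c, S.d b (S.τ a c) * S.d c f
      + (∑ c, S.τ a c * S.d c (S.g b)) * f := by
  simp only [ds, S.D_add, S.D_neg, S.D_mul, S.D_d_comm]
  rw [D.eq_1 S a (S.g b)]
  ring

theorem d_Ds_comm (a b : Fin n) (f : A) :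
    S.d b (S.Ds a f) = S.Ds a (S.d b f) - ∑ c, S.d b (S.τ a c) * S.d c f
      + (if a = b then f else 0) := by
  simp only [Ds, map_add, map_neg, S.d_mul, S.D_d_comm, S.d_x]
  by_cases h : a = b
  · subst h
    simp only [if_true]
    ring
  · rw [if_neg h, if_neg (Ne.symm h)]
    ring

theorem d_ds_comm (a b : Fin n) (f : A) :
    S.d a (S.ds b f) = S.ds b (S.d a f) + S.d a (S.g b) * f := by
  simp only [ds, map_add, map_neg, S.d_mul, S.d_comm a b]
  ring

theorem bochner1 (f : A) :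
    S.E (S.L f * S.L f) = S.E (∑ a, ∑ b, S.d b (S.D a f) * S.d a (S.D b f))
      + S.E (∑ a, ∑ b, S.d a (S.g b) * S.D a f * S.D b f) := by
  rw [S.E_mul_L', S.L_eq_ds, ← map_neg, ← Finset.sum_neg_distrib, ← map_add,
    ← Finset.sum_add_distrib, map_sum, map_sum]
  refine Finset.sum_congr rfl fun a _ => ?_
  rw [map_neg (S.d a), map_sum (S.d a), neg_mul, neg_neg, Finset.sum_mul,
    ← Finset.sum_add_distrib, map_sum, map_sum]
  refine Finset.sum_congr rfl fun b _ => ?_
  rw [S.d_ds_comm, add_mul, map_add, map_add, mul_comm (S.ds b _), S.E_ds]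
  congr 2
  ring

theorem bochner2 (z : A) :
    S.E (S.L z * S.L z) = S.E (∑ a, ∑ k, S.P z k a * S.P z a k) + S.E (S.Γ z z) := by
  have h1 : ∀ k, S.D k (S.L z) = -∑ a, S.Ds a (S.P z a k) - S.D k z := by
    intro k
    rw [← S.D_L, S.D_add]
    ring
  have h2 : S.E (S.L z * S.L z) = -S.E (∑ k, S.d k z * S.D k (S.L z)) := by
    rw [S.E_mul_L, ← S.Γ_eq]
    congr 2
    simp only [Γ]
    rw [Finset.sum_comm]
    exact Finset.sum_congr rfl fun _ _ => Finset.sum_congr rfl fun _ _ => by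
      rw [S.τ_symm]
      ring
  rw [h2, S.Γ_eq, Finset.sum_comm, ← map_neg, ← Finset.sum_neg_distrib, ← map_add,
    ← Finset.sum_add_distrib, map_sum, map_sum]
  refine Finset.sum_congr rfl fun k _ => ?_
  have : -(S.d k z * S.D k (S.L z))
      = ∑ a, S.d k z * S.Ds a (S.P z a k) + S.d k z * S.D k z := by
    rw [h1, ← Finset.mul_sum]
    ring
  rw [this, map_add, map_add, map_sum, map_sum]
  simp only [S.E_Ds]
  rfl

theorem E_mono {f f' : A} (h : ∀ p, S.ev p f ≤ S.ev p f') : S.E f ≤ S.E f' := by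
  have := S.E_nonneg (f' - f) fun p => by rw [map_sub]; linarith [h p]
  rw [map_sub] at this
  linarith

end Setup

end Vale.Agent.P227
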