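import Vale.Agent.P227.BochR

/-! The key inequality κ ≤ Q. -/

set_option linter.unusedSectionVars false
set_option linter.unusedVariables false

namespace Vale.Agent.P227

open scoped ContDiff
open MeasureTheory Set Filter Topology Matrix

namespace Setup

variable {n : ℕ} {A : Type} [CommRing A] [Algebra ℝ A] (S : Setup n A)

theorem bk_term (a b : Fin n) (u v : A) :
    2 * S.E (S.ds b u * S.Ds a v)
      = S.E (if a = b then u * v else 0)
        + S.E ((∑ c, S.τ a c * S.d c (S.g b)) * u * v)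
        + S.E (2 * (S.D a u * S.d b v)
          + ∑ c, S.d b (S.τ a c) * (S.d c u * v - u * S.d c v)) := by
  have h1 : S.E (S.ds b u * S.Ds a v)
      = S.E (S.D a u * S.d b v) + S.E ((∑ c, S.d b (S.τ a c) * S.d c u) * v)
        + S.E ((∑ c, S.τ a c * S.d c (S.g b)) * u * v) := by
    rw [S.E_Ds, S.D_ds_comm, add_mul, add_mul, map_add, map_add, mul_comm (S.ds b _) v,
      S.E_ds, mul_comm (S.d b v)]
  have h2 : S.E (S.ds b u * S.Ds a v)
      = S.E (S.D a u * S.d b v) - S.E (u * ∑ c, S.d b (S.τ a c) * S.d c v)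
        + S.E (if a = b then u * v else 0) := by
    rw [mul_comm (S.ds b u), S.E_ds, S.d_Ds_comm, add_mul, sub_mul, map_add, map_sub,
      mul_comm (S.Ds a _) u, S.E_Ds, mul_comm _ u]
    congr 2
    split_ifs
    · ring
    · simp
  have h3 : (2 * (S.D a u * S.d b v) + ∑ c, S.d b (S.τ a c) * (S.d c u * v - u * S.d c v))
      = S.D a u * S.d b v + S.D a u * S.d b v + (∑ c, S.d b (S.τ a c) * S.d c u) * v
        - u * ∑ c, S.d b (S.τ a c) * S.d c v := by
    rw [Finset.sum_mul, Finset.mul_sum, add_sub_assoc, ← Finset.sum_sub_distrib, two_mul]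
    congr 1
    exact Finset.sum_congr rfl fun c _ => by ring
  rw [h3, map_sub, map_add, map_add]
  linarith

open scoped MatrixOrder in
theorem bk_trace_nonneg {H B : Mat n} (hH : H.PosSemidef) (hB : Bᵀ = B) :
    0 ≤ (H * B * (H * B)).trace := by
  obtain ⟨C, rfl⟩ := CStarAlgebra.nonneg_iff_eq_star_mul_self.mp hH.nonneg
  have hC : star C = Cᵀ := by
    ext i j
    simp [Matrix.star_apply]
  have e : (Cᵀ * C * B * (Cᵀ * C * B)).trace = ((C * B * Cᵀ) * (C * B * Cᵀ)ᵀ).trace := by
    rw [Matrix.transpose_mul, Matrix.transpose_mul, Matrix.transpose_transpose, hB]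
    simp only [Matrix.mul_assoc]
    rw [Matrix.trace_mul_comm]
    simp only [Matrix.mul_assoc]
  rw [hC, e]
  simp only [Matrix.trace, Matrix.diag, Matrix.mul_apply (M := C * B * Cᵀ), Matrix.transpose_apply]
  exact Finset.sum_nonneg fun _ _ => Finset.sum_nonneg fun _ _ => mul_self_nonneg _

/-- The double commutation identity. -/
theorem double_comm (w : A) :
    2 * S.E ((∑ k, (∑ b, S.ds b (S.P w k b)) * ∑ a, S.Ds a (S.P w a k)))
      = S.E (∑ a, ∑ k, S.P w k a * S.P w a k)
        + S.E (∑ a, ∑ b, ∑ k, (∑ c, S.τ a c * S.d c (S.g b)) * S.P w k b * S.P w a k)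
        + S.E (S.R2 w) := by
  have e1 : (∑ k, (∑ b, S.ds b (S.P w k b)) * ∑ a, S.Ds a (S.P w a k))
      = ∑ a, ∑ b, ∑ k, S.ds b (S.P w k b) * S.Ds a (S.P w a k) := by
    simp only [Finset.sum_mul, Finset.mul_sum]
    refine Finset.sum_comm.trans ?_
    exact Finset.sum_congr rfl fun a _ => Finset.sum_comm
  have e2 : (∑ a, ∑ k, S.P w k a * S.P w a k)
      = ∑ a, ∑ b, ∑ k, if a = b then S.P w k b * S.P w a k else 0 := by
    refine Finset.sum_congr rfl fun a _ => ?_
    rw [Finset.sum_comm]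
    simp
  rw [e1, e2, R2]
  simp only [map_sum, Finset.mul_sum, ← Finset.sum_add_distrib]
  refine Finset.sum_congr rfl fun a _ => Finset.sum_congr rfl fun b _ =>
    Finset.sum_congr rfl fun k _ => ?_
  exact S.bk_term a b _ _

/-- Pointwise Cauchy-Schwarz. -/
theorem cs_point (w f : A) (p : X n) :
    S.ev p (-2 * ∑ k, ∑ b, S.P w k b * S.d b (S.D k f))
      ≤ S.ev p (∑ a, ∑ k, S.P w k a * S.P w a k
        + ∑ a, ∑ b, S.d b (S.D a f) * S.d a (S.D b f)) := by
  set B : Matrix (Fin n) (Fin n) A := Matrix.of fun m b =>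
    (∑ j, S.τ m j * S.P w j b) + S.D m (S.D b f) with hB
  have hBs : ∀ m b, B m b = B b m := by
    intro m b
    simp only [hB, Matrix.of_apply, Setup.P, S.D_comm m b]
    congr 1
    simp only [Setup.D, Finset.mul_sum]
    rw [Finset.sum_comm]
    refine Finset.sum_congr rfl fun j _ => Finset.sum_congr rfl fun r _ => ?_
    rw [S.d_comm j r]
    ring
  have hM : ∀ k b, (S.h * B) k b = S.P w k b + S.d k (S.D b f) := by
    intro k b
    have h1 : ∑ m, S.h k m * ∑ j, S.τ m j * S.P w j b = S.P w k b := by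
      have h2 : ∑ m, S.h k m * ∑ j, S.τ m j * S.P w j b
          = ∑ j, (S.h * S.τ) k j * S.P w j b := by
        simp only [Matrix.mul_apply, Finset.mul_sum, Finset.sum_mul]
        rw [Finset.sum_comm]
        exact Finset.sum_congr rfl fun _ _ => Finset.sum_congr rfl fun _ _ => by ring
      rw [h2, S.h_mul]
      simp [Matrix.one_apply]
    rw [Matrix.mul_apply, S.d_eq_h_D k, ← h1, ← Finset.sum_add_distrib]
    refine Finset.sum_congr rfl fun m _ => ?_
    simp only [hB, Matrix.of_apply]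
    ring
  have hT : (S.h * B * (S.h * B)).trace
      = (∑ a, ∑ k, S.P w k a * S.P w a k + ∑ a, ∑ b, S.d b (S.D a f) * S.d a (S.D b f))
        - -2 * ∑ k, ∑ b, S.P w k b * S.d b (S.D k f) := by
    have e : ∑ k, ∑ b, S.P w k b * S.d b (S.D k f)
        = ∑ k, ∑ b, S.P w b k * S.d k (S.D b f) := Finset.sum_comm
    have e' : -2 * ∑ k, ∑ b, S.P w k b * S.d b (S.D k f)
        = -(∑ k, ∑ b, S.P w k b * S.d b (S.D k f))
          - ∑ k, ∑ b, S.P w b k * S.d k (S.D b f) := by
      rw [← e]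
      ring
    rw [e']
    simp only [Matrix.trace, Matrix.diag, Matrix.mul_apply (M := S.h * B), hM,
      ← Finset.sum_neg_distrib, ← Finset.sum_sub_distrib, ← Finset.sum_add_distrib]
    exact Finset.sum_congr rfl fun _ _ => Finset.sum_congr rfl fun _ _ => by ring
  have hpos := bk_trace_nonneg (S.h_pos p) (B := B.map (S.ev p)) (by
    ext i j
    simp [hBs j i])
  have hev : S.ev p (S.h * B * (S.h * B)).trace
      = (S.h.map (S.ev p) * B.map (S.ev p) * (S.h.map (S.ev p) * B.map (S.ev p))).trace := by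
    simp only [Matrix.trace, Matrix.diag, Matrix.mul_apply, map_sum, map_mul, Matrix.map_apply]
  rw [← hev, hT, map_sub] at hpos
  linarith

theorem key (w : A) :
    S.E (∑ a, ∑ b, ∑ k, (∑ c, S.τ a c * S.d c (S.g b)) * S.P w k b * S.P w a k)
      ≤ S.E (∑ a, ∑ b, S.d b (S.D a (S.L w + w)) * S.d a (S.D b (S.L w + w))) := by
  have h1 := S.double_comm w
  have h2 := S.E_mono (S.cs_point w (S.L w + w))
  have h3 := S.E_nonneg _ (S.R2_nonneg w)
  have h4 : S.E (-2 * ∑ k, ∑ b, S.P w k b * S.d b (S.D k (S.L w + w)))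
      = 2 * S.E ((∑ k, (∑ b, S.ds b (S.P w k b)) * ∑ a, S.Ds a (S.P w a k))) := by
    have e : (-2 : A) * ∑ k, ∑ b, S.P w k b * S.d b (S.D k (S.L w + w))
        = (-2 : ℝ) • ∑ k, ∑ b, S.P w k b * S.d b (S.D k (S.L w + w)) := by
      rw [Algebra.smul_def, map_neg, map_ofNat]
    rw [e, map_smul, smul_eq_mul, neg_mul, ← mul_neg]
    congr 1
    simp only [map_sum, ← Finset.sum_neg_distrib]
    refine Finset.sum_congr rfl fun k _ => ?_
    rw [Finset.sum_mul, map_sum]
    refine Finset.sum_congr rfl fun b _ => ?_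
    rw [mul_comm (S.P w k b), ← S.E_ds, S.D_L, neg_mul, map_neg, neg_neg, mul_comm]
  rw [map_add] at h2
  linarith

end Setup

end Vale.Agent.P227
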