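import Vale.Agent.P227.BochKey

/-! The dual form of the variance inequality. -/

set_option linter.unusedSectionVars false
set_option linter.unusedVariables false

namespace Vale.Agent.P227

open scoped ContDiff
open MeasureTheory Set Filter Topology Matrix

namespace Setup

variable {n : ℕ} {A : Type} [CommRing A] [Algebra ℝ A] (S : Setup n A)

theorem ev_qf_nonneg (ξ : Fin n → A) (z : X n) :
    0 ≤ S.ev z (∑ k, ∑ r, S.τ k r * ξ k * ξ r) := by
  have h1 : S.τ.map (S.ev z) * S.h.map (S.ev z) = 1 := by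
    have := congrArg (fun M : Matrix (Fin n) (Fin n) A => M.map (S.ev z)) S.τ_mul
    simp only [Matrix.map_mul] at this
    rw [this]
    exact Matrix.map_one _ (map_zero _) (map_one _)
  have h2 := (S.h_pos z).inv
  rw [Matrix.inv_eq_left_inv h1] at h2
  have h3 := h2.dotProduct_mulVec_nonneg fun k => S.ev z (ξ k)
  simp only [dotProduct, Matrix.mulVec, Matrix.map_apply, star_trivial, Finset.mul_sum] at h3
  simp only [map_sum, map_mul]
  refine h3.trans_eq (Finset.sum_congr rfl fun _ _ => Finset.sum_congr rfl fun _ _ => ?_)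
  ring

theorem main' {J : Type} [Fintype J] (α : J → Fin n → A) (δ : J → A) (p m s : J → A)
    (hα : ∀ j k i, S.d i (α j k) = 0) (hδ : ∀ j i, S.d i (δ j) = 0)
    (hs : ∀ j, s j = ∑ k, α j k * S.x k) (hp : ∀ j k, S.d k (p j) = α j k * m j)
    (hm : ∀ j z, 0 ≤ S.ev z (m j)) (hg : ∀ k, S.g k = ∑ j, α j k * p j) (w : A) :
    2 * S.E ((∑ j, δ j * (p j * s j)) * S.L (S.L w + w))
        - S.E (S.L (S.L w + w) * S.L (S.L w + w))
      ≤ S.E (∑ j, δ j ^ 2 * (m j * s j ^ 2 + p j * s j)) := by
  have hkey := S.key w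
  have hDL := S.D_L w
  set G := S.L w + w with hG
  set y : J → A := fun j => ∑ k, α j k * S.D k G with hy
  set t : J → Fin n → A := fun j a => ∑ c, S.τ a c * α j c with ht
  set ν : J → Fin n → A := fun j a => ∑ k, S.P w a k * α j k with hν
  have hds : ∀ j k, S.d k (s j) = α j k := by
    intro j k
    simp [hs, map_sum, S.d_mul, hα, S.d_x]
  have hDα : ∀ j k a, S.D a (α j k) = 0 := by
    intro j k a
    simp [D, hα]
  have hDδ : ∀ j a, S.D a (δ j) = 0 := by
    intro j a
    simp [D, hδ]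
  have hDp : ∀ j a, S.D a (p j) = m j * t j a := by
    intro j a
    simp only [D, hp, ht, Finset.mul_sum]
    exact Finset.sum_congr rfl fun _ _ => by ring
  have hdg : ∀ c b, S.d c (S.g b) = ∑ j, α j b * α j c * m j := by
    intro c b
    simp only [hg, map_sum, S.d_mul, hα, hp, zero_mul, zero_add, mul_assoc]
  -- first variation
  have e1 : S.E ((∑ j, δ j * (p j * s j)) * S.L G)
      = -S.E (∑ j, δ j * (m j * s j * y j)) - S.E (∑ j, δ j * p j * y j) := by
    rw [S.E_mul_L', ← neg_add', ← map_add, ← Finset.sum_add_distrib]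
    congr 2
    simp only [map_sum, S.d_mul, hδ, hp, hds, hy, Finset.sum_mul, Finset.mul_sum]
    rw [Finset.sum_comm]
    refine Finset.sum_congr rfl fun j _ => ?_
    rw [← Finset.sum_add_distrib]
    exact Finset.sum_congr rfl fun _ _ => by ring
  have e2 : ∀ j, -S.E (δ j * p j * y j) = S.E (δ j * m j * ∑ a, t j a * ν j a) := by
    intro j
    have : -(δ j * p j * y j) = ∑ k, ∑ a, δ j * p j * α j k * S.Ds a (S.P w a k) := by
      simp only [hy, hDL, Finset.mul_sum, mul_neg, Finset.sum_neg_distrib, neg_neg, mul_assoc]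
    rw [← map_neg, this]
    simp only [map_sum, S.E_Ds, S.D_mul, hDα, hDδ, hDp, hν, Finset.mul_sum]
    rw [Finset.sum_comm]
    refine Finset.sum_congr rfl fun _ _ => Finset.sum_congr rfl fun _ _ => ?_
    congr 1
    ring
  have e3 : ∀ j, S.E (δ j ^ 2 * (p j * s j)) = S.E (δ j ^ 2 * m j * ∑ k, α j k * t j k) := by
    intro j
    have : δ j ^ 2 * (p j * s j) = ∑ k, S.x k * (δ j * δ j * α j k * p j) := by
      simp only [hs, Finset.mul_sum]
      exact Finset.sum_congr rfl fun _ _ => by ring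
    rw [this]
    simp only [map_sum, ← S.E_D, S.D_mul, hDα, hDδ, hDp, Finset.mul_sum]
    refine Finset.sum_congr rfl fun _ _ => ?_
    congr 1
    ring
  have hνt : ∀ j k, ∑ a, t j a * S.P w a k = ∑ r, S.τ k r * ν j r := by
    intro j k
    simp only [ht, hν, P, D, Finset.mul_sum, Finset.sum_mul]
    calc ∑ a, ∑ r, ∑ c, S.τ a c * α j c * (S.τ k r * S.d r (S.d a w))
        = ∑ r, ∑ a, ∑ c, S.τ a c * α j c * (S.τ k r * S.d r (S.d a w)) := Finset.sum_comm
      _ = _ := by
        refine Finset.sum_congr rfl fun r _ => Finset.sum_comm.trans ?_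
        refine Finset.sum_congr rfl fun c _ => Finset.sum_congr rfl fun a _ => ?_
        rw [S.d_comm r a, S.τ_symm a c]
        ring
  have e4 : ∑ a, ∑ b, ∑ k, (∑ c, S.τ a c * S.d c (S.g b)) * S.P w k b * S.P w a k
      = ∑ j, m j * ∑ k, ∑ r, S.τ k r * ν j k * ν j r := by
    have h1 : ∀ a b, ∑ c, S.τ a c * S.d c (S.g b) = ∑ j, m j * t j a * α j b := by
      intro a b
      simp only [hdg, ht, Finset.mul_sum, Finset.sum_mul]
      rw [Finset.sum_comm]
      exact Finset.sum_congr rfl fun _ _ => Finset.sum_congr rfl fun _ _ => by ring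
    have h2 : ∀ j k, ∑ r, S.τ k r * ν j k * ν j r
        = ∑ a, ∑ b, t j a * α j b * S.P w k b * S.P w a k := by
      intro j k
      have : ∑ r, S.τ k r * ν j k * ν j r = ν j k * ∑ r, S.τ k r * ν j r := by
        rw [Finset.mul_sum]
        exact Finset.sum_congr rfl fun _ _ => by ring
      rw [this, ← hνt, Finset.mul_sum]
      refine Finset.sum_congr rfl fun a _ => ?_
      simp only [hν, Finset.sum_mul]
      exact Finset.sum_congr rfl fun _ _ => by ring
    simp only [h1, h2, Finset.sum_mul, Finset.mul_sum]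
    calc ∑ a, ∑ b, ∑ k, ∑ j, m j * t j a * α j b * S.P w k b * S.P w a k
        = ∑ a, ∑ k, ∑ j, ∑ b, m j * t j a * α j b * S.P w k b * S.P w a k := by
          refine Finset.sum_congr rfl fun a _ => Finset.sum_comm.trans ?_
          exact Finset.sum_congr rfl fun k _ => Finset.sum_comm
      _ = ∑ k, ∑ j, ∑ a, ∑ b, m j * t j a * α j b * S.P w k b * S.P w a k := by
          refine Finset.sum_comm.trans (Finset.sum_congr rfl fun k _ => Finset.sum_comm)
      _ = _ := by
          refine Finset.sum_comm.trans ?_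
          exact Finset.sum_congr rfl fun _ _ => Finset.sum_congr rfl fun _ _ =>
            Finset.sum_congr rfl fun _ _ => Finset.sum_congr rfl fun _ _ => by ring
  have e5 : ∑ a, ∑ b, S.d a (S.g b) * S.D a G * S.D b G = ∑ j, m j * y j ^ 2 := by
    simp only [hdg, hy, Finset.sum_mul, Finset.mul_sum, pow_two]
    refine ((Finset.sum_congr rfl fun a _ => Finset.sum_comm).trans Finset.sum_comm).trans ?_
    exact Finset.sum_congr rfl fun _ _ => Finset.sum_congr rfl fun _ _ =>
      Finset.sum_congr rfl fun _ _ => by ring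
  have i1 : ∀ j, 0 ≤ S.E (δ j ^ 2 * m j * ∑ k, α j k * t j k)
      - 2 * S.E (δ j * m j * ∑ a, t j a * ν j a)
      + S.E (m j * ∑ k, ∑ r, S.τ k r * ν j k * ν j r) := by
    intro j
    have h := S.E_nonneg (m j * ∑ k, ∑ r, S.τ k r * (δ j * α j k - ν j k) * (δ j * α j r - ν j r))
      fun z => by
        rw [map_mul]
        exact mul_nonneg (hm j z) (S.ev_qf_nonneg _ z)
    have c1 : ∑ k, ∑ r, S.τ k r * α j k * α j r = ∑ k, α j k * t j k := by
      simp only [ht, Finset.mul_sum]
      exact Finset.sum_congr rfl fun _ _ => Finset.sum_congr rfl fun _ _ => by ring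
    have c2 : ∑ k, ∑ r, S.τ k r * ν j k * α j r = ∑ k, t j k * ν j k := by
      simp only [ht, Finset.sum_mul]
      exact Finset.sum_congr rfl fun _ _ => Finset.sum_congr rfl fun _ _ => by ring
    have c3 : ∑ k, ∑ r, S.τ k r * α j k * ν j r = ∑ k, t j k * ν j k := by
      rw [← c2, Finset.sum_comm]
      exact Finset.sum_congr rfl fun _ _ => Finset.sum_congr rfl fun _ _ => by
        rw [S.τ_symm]
        ring
    have c4 : ∑ k, ∑ r, S.τ k r * (δ j * α j k - ν j k) * (δ j * α j r - ν j r)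
        = δ j ^ 2 * ∑ k, ∑ r, S.τ k r * α j k * α j r
          - δ j * ∑ k, ∑ r, S.τ k r * ν j k * α j r - δ j * ∑ k, ∑ r, S.τ k r * α j k * ν j r
          + ∑ k, ∑ r, S.τ k r * ν j k * ν j r := by
      simp only [Finset.mul_sum, ← Finset.sum_add_distrib, ← Finset.sum_sub_distrib]
      exact Finset.sum_congr rfl fun _ _ => Finset.sum_congr rfl fun _ _ => by ring
    rw [c4, c1, c2, c3] at h
    refine h.trans_eq ?_
    rw [two_mul, ← map_add, ← map_sub, ← map_add]
    congr 1
    ring
  have i2 : ∀ j, 0 ≤ S.E (δ j ^ 2 * (m j * s j ^ 2)) + 2 * S.E (δ j * (m j * s j * y j))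
      + S.E (m j * y j ^ 2) := by
    intro j
    have h := S.E_nonneg (m j * (δ j * s j + y j) ^ 2) fun z => by
      rw [map_mul, map_pow]
      exact mul_nonneg (hm j z) (sq_nonneg _)
    refine h.trans_eq ?_
    rw [two_mul, ← map_add, ← map_add, ← map_add]
    congr 1
    ring
  have s1 := Finset.sum_nonneg fun j (_ : j ∈ Finset.univ) => i1 j
  have s2 := Finset.sum_nonneg fun j (_ : j ∈ Finset.univ) => i2 j
  rw [S.bochner1, e1, e5]
  rw [e4] at hkey
  simp only [mul_add, map_add, Finset.sum_add_distrib, Finset.sum_sub_distrib, ← e2, ← e3,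
    ← Finset.mul_sum, Finset.sum_neg_distrib] at s1 s2 ⊢
  simp only [map_sum S.E (s := (Finset.univ : Finset J))] at hkey ⊢
  linarith

theorem main {J : Type} [Fintype J] (a : J → X n) (δ : J → ℝ) (p m s : J → A)
    (hs : ∀ j, s j = ∑ k, a j k • S.x k) (hp : ∀ j k, S.d k (p j) = a j k • m j)
    (hm : ∀ j z, 0 ≤ S.ev z (m j)) (hg : ∀ k, S.g k = ∑ j, a j k • p j) (w : A) :
    2 * S.E ((∑ j, δ j • (p j * s j)) * S.L (S.L w + w))
        - S.E (S.L (S.L w + w) * S.L (S.L w + w))
      ≤ S.E (∑ j, δ j ^ 2 • (m j * s j ^ 2 + p j * s j)) := by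
  simp only [Algebra.smul_def, map_pow] at hs hp hg ⊢
  exact S.main' (fun j k => algebraMap ℝ A (a j k)) (fun j => algebraMap ℝ A (δ j)) p m s
    (fun _ _ _ => Derivation.map_algebraMap _ _) (fun _ _ => Derivation.map_algebraMap _ _)
    hs hp hm hg w

end Setup

end Vale.Agent.P227
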