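import Vale.Agent.P227.BochA

/-! Positivity of the third order remainder. -/

set_option linter.unusedSectionVars false
set_option linter.unusedVariables false

namespace Vale.Agent.P227

open scoped ContDiff
open MeasureTheory Set Filter Topology Matrix

section slots

variable {n : ℕ} {R : Type} [CommRing R]

/-- Three-tensors. -/
abbrev T3 (n : ℕ) (R : Type) := Fin n → Fin n → Fin n → R

/-- Action on the first slot. -/
def s1 (M : Matrix (Fin n) (Fin n) R) (Y : T3 n R) : T3 n R := fun k b c => ∑ r, M k r * Y r b c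
/-- Action on the second slot. -/
def s2 (M : Matrix (Fin n) (Fin n) R) (Y : T3 n R) : T3 n R := fun k b c => ∑ r, M b r * Y k r c
/-- Action on the third slot. -/
def s3 (M : Matrix (Fin n) (Fin n) R) (Y : T3 n R) : T3 n R := fun k b c => ∑ r, M c r * Y k b r
/-- Swap of the first two slots. -/
def sw (Y : T3 n R) : T3 n R := fun k b c => Y b k c
/-- Euclidean pairing. -/
def ip3 (Y Z : T3 n R) : R := ∑ k, ∑ b, ∑ c, Y k b c * Z k b c

variable (M N : Matrix (Fin n) (Fin n) R) (Y Z W : T3 n R)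

theorem s1_s1 : s1 M (s1 N Y) = s1 (M * N) Y := by
  funext k b c
  simp only [s1, Matrix.mul_apply, Finset.mul_sum, Finset.sum_mul]
  rw [Finset.sum_comm]
  exact Finset.sum_congr rfl fun _ _ => Finset.sum_congr rfl fun _ _ => by ring

theorem s2_s2 : s2 M (s2 N Y) = s2 (M * N) Y := by
  funext k b c
  simp only [s2, Matrix.mul_apply, Finset.mul_sum, Finset.sum_mul]
  rw [Finset.sum_comm]
  exact Finset.sum_congr rfl fun _ _ => Finset.sum_congr rfl fun _ _ => by ring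

theorem s3_s3 : s3 M (s3 N Y) = s3 (M * N) Y := by
  funext k b c
  simp only [s3, Matrix.mul_apply, Finset.mul_sum, Finset.sum_mul]
  rw [Finset.sum_comm]
  exact Finset.sum_congr rfl fun _ _ => Finset.sum_congr rfl fun _ _ => by ring

theorem s1_one : s1 1 Y = Y := by
  funext k b c
  simp [s1, Matrix.one_apply]

theorem s2_s1 : s2 M (s1 N Y) = s1 N (s2 M Y) := by
  funext k b c
  simp only [s1, s2, Finset.mul_sum]
  rw [Finset.sum_comm]
  exact Finset.sum_congr rfl fun _ _ => Finset.sum_congr rfl fun _ _ => by ring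

theorem s3_s1 : s3 M (s1 N Y) = s1 N (s3 M Y) := by
  funext k b c
  simp only [s1, s3, Finset.mul_sum]
  rw [Finset.sum_comm]
  exact Finset.sum_congr rfl fun _ _ => Finset.sum_congr rfl fun _ _ => by ring

theorem s3_s2 : s3 M (s2 N Y) = s2 N (s3 M Y) := by
  funext k b c
  simp only [s2, s3, Finset.mul_sum]
  rw [Finset.sum_comm]
  exact Finset.sum_congr rfl fun _ _ => Finset.sum_congr rfl fun _ _ => by ring

theorem sw_s1 : sw (s1 M Y) = s2 M (sw Y) := rfl
theorem sw_s2 : sw (s2 M Y) = s1 M (sw Y) := rfl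
theorem sw_s3 : sw (s3 M Y) = s3 M (sw Y) := rfl
theorem sw_sw : sw (sw Y) = Y := rfl

theorem ip3_comm : ip3 Y Z = ip3 Z Y := by
  simp only [ip3, mul_comm]

theorem ip3_sw : ip3 (sw Y) (sw Z) = ip3 Y Z := by
  simp only [ip3, sw]
  rw [Finset.sum_comm]

theorem ip3_add : ip3 (Y + Z) W = ip3 Y W + ip3 Z W := by
  simp only [ip3, Pi.add_apply, add_mul, Finset.sum_add_distrib]

theorem ip3_s1 : ip3 (s1 M Y) Z = ip3 Y (s1 Mᵀ Z) := by
  simp only [ip3, s1, Finset.mul_sum, Finset.sum_mul, Matrix.transpose_apply]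
  calc ∑ k, ∑ b, ∑ c, ∑ r, M k r * Y r b c * Z k b c
      = ∑ k, ∑ r, ∑ b, ∑ c, M k r * Y r b c * Z k b c := by
        refine Finset.sum_congr rfl fun k _ => ?_
        exact (Finset.sum_congr rfl fun b _ => Finset.sum_comm).trans Finset.sum_comm
    _ = ∑ r, ∑ k, ∑ b, ∑ c, M k r * Y r b c * Z k b c := Finset.sum_comm
    _ = _ := by
        refine Finset.sum_congr rfl fun r _ => ?_
        refine Finset.sum_comm.trans (Finset.sum_congr rfl fun b _ => ?_)
        refine Finset.sum_comm.trans (Finset.sum_congr rfl fun c _ => ?_)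
        exact Finset.sum_congr rfl fun _ _ => by ring

theorem ip3_s2 : ip3 (s2 M Y) Z = ip3 Y (s2 Mᵀ Z) := by
  rw [← ip3_sw, sw_s2, ip3_s1, ← ip3_sw, sw_sw, sw_s1, sw_sw]

theorem ip3_s3 : ip3 (s3 M Y) Z = ip3 Y (s3 Mᵀ Z) := by
  simp only [ip3, s3, Finset.mul_sum, Finset.sum_mul, Matrix.transpose_apply]
  refine Finset.sum_congr rfl fun k _ => Finset.sum_congr rfl fun b _ => ?_
  rw [Finset.sum_comm]
  exact Finset.sum_congr rfl fun _ _ => Finset.sum_congr rfl fun _ _ => by ring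

/-- The cube of the form `M`. -/
def B3 (M : Matrix (Fin n) (Fin n) R) (Y Z : T3 n R) : R := ip3 Y (s1 M (s2 M (s3 M Z)))

theorem B3_add : B3 M (Y + Z) W = B3 M Y W + B3 M Z W := ip3_add _ _ _

theorem B3_sw : B3 M (sw Y) (sw Z) = B3 M Y Z := by
  rw [B3, B3, ← ip3_sw Y, sw_s1, sw_s2, sw_s3, s2_s1]

theorem B3_comm (hM : Mᵀ = M) : B3 M Y Z = B3 M Z Y := by
  rw [B3, B3, ip3_comm, ip3_s1, ip3_s2, ip3_s3, hM, s3_s2, s3_s1, s2_s1]

theorem R_identity {h τ : Matrix (Fin n) (Fin n) R} (hh : hᵀ = h) (h1 : h * τ = 1)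
    (U W N : T3 n R) (hU : U = N + W) (hN : sw (s1 τ N) = s1 τ N) :
    2 * (2 * ip3 U (s3 h (sw U)) + ip3 (s2 h (s1 τ W)) (s3 h U) - ip3 W (s3 h (sw U)))
      = B3 h (s1 τ U + sw (s1 τ U)) (s1 τ U + sw (s1 τ U)) := by
  have e : ∀ Y : T3 n R, s1 h (s1 τ Y) = Y := fun Y => by rw [s1_s1, h1, s1_one]
  have t1 : ∀ Y : T3 n R, ip3 Y (s3 h (sw U)) = B3 h (s1 τ Y) (sw (s1 τ U)) := fun Y => by
    have : s2 h (s3 h (sw (s1 τ U))) = s3 h (sw U) := by
      rw [← s3_s2, ← sw_s1, e]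
    rw [B3, this, ← hh, ← ip3_s1, hh, e]
  have t2 : ip3 (s2 h (s1 τ W)) (s3 h U) = B3 h (s1 τ W) (s1 τ U) := by
    rw [B3, ip3_s2, hh, ← s2_s1, ← s3_s1, e]
  have hs : s1 τ U = s1 τ N + s1 τ W := by
    funext k b c
    simp only [hU, s1, Pi.add_apply, mul_add, Finset.sum_add_distrib]
  rw [t1, t1, t2]
  set u := s1 τ U
  have a1 : B3 h u u = B3 h (s1 τ N) u + B3 h (s1 τ W) u := by
    conv_lhs => rw [hs]
    rw [← hs, ← B3_add, ← hs]
  have a2 : B3 h u (sw u) = B3 h (s1 τ N) (sw u) + B3 h (s1 τ W) (sw u) := by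
    rw [← B3_add, ← hs]
  have a3 : B3 h (s1 τ N) (sw u) = B3 h (s1 τ N) u := by
    rw [← B3_sw h (s1 τ N) u, hN]
  have a4 : B3 h (sw u) (sw u) = B3 h u u := B3_sw _ _ _
  have a5 : B3 h (sw u) u = B3 h u (sw u) := B3_comm _ _ _ hh
  rw [B3_add, B3_comm h u (u + sw u) hh, B3_comm h (sw u) (u + sw u) hh, B3_add, B3_add]
  linear_combination (-2 : R) * a1 + 2 * a2 + 2 * a3 - a4 - a5

open scoped MatrixOrder in
theorem B3_nonneg {H : Mat n} (hH : H.PosSemidef) (Y : T3 n ℝ) : 0 ≤ B3 H Y Y := by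
  obtain ⟨C, rfl⟩ := CStarAlgebra.nonneg_iff_eq_star_mul_self.mp hH.nonneg
  have hC : star C = Cᵀ := by
    ext i j
    simp [Matrix.star_apply]
  rw [hC, B3, ← s1_s1, ← s2_s2, ← s3_s3, ← ip3_s1, ← s2_s1, ← ip3_s2, ← s3_s2, ← s3_s1,
    ← ip3_s3, s3_s2, s3_s1, s2_s1]
  refine Finset.sum_nonneg fun _ _ => Finset.sum_nonneg fun _ _ =>
    Finset.sum_nonneg fun _ _ => mul_self_nonneg _

end slots

namespace Setup

variable {n : ℕ} {A : Type} [CommRing A] [Algebra ℝ A] (S : Setup n A)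

/-- The remainder left after averaging the two commutations. -/
def R2 (w : A) : A :=
  ∑ a, ∑ b, ∑ k, (2 * (S.D a (S.P w k b) * S.d b (S.P w a k))
    + ∑ c, S.d b (S.τ a c) * (S.d c (S.P w k b) * S.P w a k - S.P w k b * S.d c (S.P w a k)))

theorem ev_B3 (p : X n) (Y : T3 n A) :
    S.ev p (B3 S.h Y Y)
      = B3 (S.h.map (S.ev p)) (fun k b c => S.ev p (Y k b c)) fun k b c => S.ev p (Y k b c) := by
  simp only [B3, ip3, s1, s2, s3, map_sum, map_mul, Matrix.map_apply]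

theorem R2_eq (w : A) : ∃ Y : T3 n A, 2 * S.R2 w = B3 S.h Y Y := by
  have hh : S.hᵀ = S.h := by
    ext i j
    exact S.h_symm j i
  set U : T3 n A := fun k b c => S.D c (S.P w k b) with hUd
  set W : T3 n A := fun k b c => ∑ m, S.d k (S.d m w) * S.D m (S.τ b c) with hWd
  set w3 : T3 n A := fun k r p => S.d p (S.d r (S.d k w)) with hw3
  have hUs : ∀ k b c, U k b c = U k c b := fun k b c => S.D_comm _ _ _
  have hPa : ∀ k b, S.P w k b = ∑ r, S.τ b r * S.d r (S.d k w) := fun _ _ => rfl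
  have hU : U = s2 S.τ (s3 S.τ w3) + W := by
    funext k b c
    simp only [hUd, hWd, hPa, S.D_sum, S.D_mul, Pi.add_apply, s2, s3, Finset.sum_add_distrib]
    rw [add_comm]
    congr 1
    refine Finset.sum_congr rfl fun m _ => ?_
    rw [S.τ_symm b m, S.D_τ_symm, S.τ_symm c b, S.d_comm m k, mul_comm]
  have hN : sw (s1 S.τ (s2 S.τ (s3 S.τ w3))) = s1 S.τ (s2 S.τ (s3 S.τ w3)) := by
    have : sw w3 = w3 := by
      funext k r p
      simp only [sw, hw3]
      rw [S.d_comm k r]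
    rw [sw_s1, sw_s2, sw_s3, this, s2_s1]
  refine ⟨_, Eq.trans ?_ (R_identity hh S.h_mul U W _ hU hN)⟩
  congr 1
  have hdP : ∀ a k b, S.d b (S.P w a k) = s3 S.h (sw U) k a b := fun a k b => S.d_eq_h_D _ _
  have hdP' : ∀ k b c, S.d c (S.P w k b) = s3 S.h U k b c := fun k b c => S.d_eq_h_D _ _
  have e1 : ∑ a, ∑ b, ∑ k, 2 * (S.D a (S.P w k b) * S.d b (S.P w a k))
      = 2 * ip3 U (s3 S.h (sw U)) := by
    simp only [ip3, Finset.mul_sum]
    refine ((Finset.sum_congr rfl fun a _ => Finset.sum_comm).trans Finset.sum_comm).trans ?_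
    refine Finset.sum_congr rfl fun k _ => Finset.sum_congr rfl fun a _ =>
      Finset.sum_congr rfl fun b _ => ?_
    rw [hdP, ← hUs k b a]
  have q2 : ∀ k b c, ∑ a, S.d b (S.τ a c) * S.P w a k = s2 S.h (s1 S.τ W) k b c := by
    intro k b c
    simp only [s1, s2, hWd, hPa, S.d_eq_h_D b (S.τ _ c), Finset.mul_sum, Finset.sum_mul]
    calc ∑ a, ∑ r, ∑ m, S.h b m * S.D m (S.τ a c) * (S.τ k r * S.d r (S.d a w))
        = ∑ a, ∑ m, ∑ r, S.h b m * S.D m (S.τ a c) * (S.τ k r * S.d r (S.d a w)) :=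
          Finset.sum_congr rfl fun a _ => Finset.sum_comm
      _ = ∑ m, ∑ a, ∑ r, S.h b m * S.D m (S.τ a c) * (S.τ k r * S.d r (S.d a w)) :=
          Finset.sum_comm
      _ = _ := by
          refine Finset.sum_congr rfl fun m _ => Finset.sum_comm.trans ?_
          refine Finset.sum_congr rfl fun r _ => Finset.sum_congr rfl fun a _ => ?_
          rw [S.D_τ_symm a c m]
          ring
  have e2 : ∑ a, ∑ b, ∑ k, ∑ c, S.d b (S.τ a c) * (S.d c (S.P w k b) * S.P w a k)
      = ip3 (s2 S.h (s1 S.τ W)) (s3 S.h U) := by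
    simp only [ip3, ← q2, ← hdP', Finset.sum_mul]
    calc ∑ a, ∑ b, ∑ k, ∑ c, S.d b (S.τ a c) * (S.d c (S.P w k b) * S.P w a k)
        = ∑ b, ∑ k, ∑ c, ∑ a, S.d b (S.τ a c) * (S.d c (S.P w k b) * S.P w a k) := by
          refine Finset.sum_comm.trans (Finset.sum_congr rfl fun b _ => ?_)
          refine Finset.sum_comm.trans (Finset.sum_congr rfl fun k _ => ?_)
          exact Finset.sum_comm
      _ = _ := by
          refine Finset.sum_comm.trans ?_
          refine Finset.sum_congr rfl fun k _ => Finset.sum_congr rfl fun b _ =>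
            Finset.sum_congr rfl fun c _ => Finset.sum_congr rfl fun a _ => by ring
  have q3 : ∀ k a c, ∑ b, S.d b (S.τ a c) * S.P w k b = W k a c := by
    intro k a c
    simp only [hWd, hPa, Setup.D, Finset.mul_sum]
    refine Finset.sum_comm.trans ?_
    refine Finset.sum_congr rfl fun m _ => Finset.sum_congr rfl fun b _ => ?_
    rw [S.τ_symm b m, S.d_comm m k]
    ring
  have e3 : ∑ a, ∑ b, ∑ k, ∑ c, S.d b (S.τ a c) * (S.P w k b * S.d c (S.P w a k))
      = ip3 W (s3 S.h (sw U)) := by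
    simp only [ip3, ← q3, ← hdP, Finset.sum_mul]
    calc ∑ a, ∑ b, ∑ k, ∑ c, S.d b (S.τ a c) * (S.P w k b * S.d c (S.P w a k))
        = ∑ a, ∑ k, ∑ c, ∑ b, S.d b (S.τ a c) * (S.P w k b * S.d c (S.P w a k)) := by
          refine Finset.sum_congr rfl fun a _ => ?_
          refine Finset.sum_comm.trans (Finset.sum_congr rfl fun k _ => ?_)
          exact Finset.sum_comm
      _ = _ := by
          refine Finset.sum_comm.trans ?_
          refine Finset.sum_congr rfl fun k _ => Finset.sum_congr rfl fun a _ =>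
            Finset.sum_congr rfl fun c _ => Finset.sum_congr rfl fun b _ => by ring
  rw [← e1, ← e2, ← e3, R2]
  simp only [mul_sub, Finset.sum_add_distrib, Finset.sum_sub_distrib]
  ring

theorem R2_nonneg (w : A) (p : X n) : 0 ≤ S.ev p (S.R2 w) := by
  obtain ⟨Y, hY⟩ := S.R2_eq w
  have h := B3_nonneg (S.h_pos p) fun k b c => S.ev p (Y k b c)
  rw [← S.ev_B3, ← hY, map_mul, map_ofNat] at h
  linarith

end Setup

end Vale.Agent.P227
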