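import Vale.Agent.P227.Classes

/-! One dimensional profiles and cutoffs; ridge functions. -/

set_option linter.unusedSectionVars false
set_option linter.unusedVariables false

namespace Vale.Agent.P227

open scoped ContDiff
open MeasureTheory Set Filter Topology Matrix

variable {n : ℕ}

theorem bdd_of_const (k : ℕ) : ∀ {h : ℝ → ℝ} (_ : ContDiff ℝ ∞ h) {c R : ℝ}
    (_ : ∀ s, R ≤ |s| → h s = c), ∃ C, ∀ s, |iteratedDeriv k h s| ≤ C := by
  induction k with
  | zero =>
    intro h hs c R hc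
    obtain ⟨C, hC⟩ := (isCompact_Icc (a := -R) (b := R)).exists_bound_of_continuousOn
      hs.continuous.continuousOn
    refine ⟨max C |c|, fun s => ?_⟩
    rw [iteratedDeriv_zero]
    rcases le_total R |s| with h1 | h1
    · rw [hc s h1]; exact le_max_right _ _
    · exact (hC s (abs_le.1 h1)).trans (le_max_left _ _)
  | succ k ih =>
    intro h hs c R hc
    rw [iteratedDeriv_succ']
    refine ih (contDiff_infty_iff_deriv.1 hs).2 (c := 0) (R := R + 1) fun s h1 => ?_
    have h2 : h =ᶠ[𝓝 s] fun _ => c := by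
      have h3 : ∀ᶠ y in 𝓝 s, R < |y| :=
        continuous_abs.continuousAt.eventually (lt_mem_nhds (by linarith))
      exact h3.mono fun y hy => hc y hy.le
    rw [h2.deriv_eq, deriv_const]

theorem bdd_of_deriv2 {h : ℝ → ℝ} (hs : ContDiff ℝ ∞ h) {c R : ℝ}
    (hc : ∀ s, R ≤ |s| → deriv (deriv h) s = c) (k : ℕ) (hk : 2 ≤ k) :
    ∃ C, ∀ s, |iteratedDeriv k h s| ≤ C := by
  obtain ⟨k, rfl⟩ : ∃ j, k = j + 1 + 1 := ⟨k - 2, by omega⟩
  rw [iteratedDeriv_succ', iteratedDeriv_succ']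
  exact bdd_of_const k (contDiff_infty_iff_deriv.1 (contDiff_infty_iff_deriv.1 hs).2).2 hc

/-- The primitive vanishing at the origin. -/
noncomputable def prim (m : ℝ → ℝ) (s : ℝ) : ℝ := ∫ r in (0 : ℝ)..s, m r

theorem hasDerivAt_prim {m : ℝ → ℝ} (hm : Continuous m) (s : ℝ) : HasDerivAt (prim m) (m s) s :=
  intervalIntegral.integral_hasDerivAt_right (hm.intervalIntegrable _ _)
    (hm.stronglyMeasurableAtFilter _ _) hm.continuousAt

theorem deriv_prim {m : ℝ → ℝ} (hm : Continuous m) : deriv (prim m) = m :=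
  funext fun s => (hasDerivAt_prim hm s).deriv

theorem contDiff_prim {m : ℝ → ℝ} (hm : ContDiff ℝ ∞ m) : ContDiff ℝ ∞ (prim m) := by
  refine contDiff_infty_iff_deriv.2 ⟨fun s => (hasDerivAt_prim hm.continuous s).differentiableAt,
    ?_⟩
  rw [deriv_prim hm.continuous]
  exact hm

theorem prim_neg (m : ℝ → ℝ) (s : ℝ) : prim m (-s) = -prim (fun r => m (-r)) s := by
  unfold prim
  rw [intervalIntegral.integral_comp_neg, neg_zero, intervalIntegral.integral_symm]

theorem prim_eq_zero {m : ℝ → ℝ} (h : ∀ s, |s| ≤ 1 → m s = 0) (s : ℝ) (hs : |s| ≤ 1) :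
    prim m s = 0 := by
  unfold prim
  rw [intervalIntegral.integral_congr (g := fun _ => 0), intervalIntegral.integral_zero]
  intro r hr
  refine h r ?_
  rw [abs_le] at hs ⊢
  rcases mem_uIcc.1 hr with h1 | h1 <;> constructor <;> linarith [h1.1, h1.2, hs.1, hs.2]

theorem prim_pos {m : ℝ → ℝ} (hm : Continuous m) (h : ∀ s, |s| ≤ 1 → m s = 0)
    (hp : ∀ s, 1 < s → 0 < m s) (s : ℝ) (hs : 1 < s) : 0 < prim m s := by
  have h1 : StrictMonoOn (prim m) (Ici 1) := strictMonoOn_of_deriv_pos (convex_Ici 1)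
    (fun r _ => (hasDerivAt_prim hm r).continuousAt.continuousWithinAt) fun r hr => by
      rw [deriv_prim hm]
      rw [interior_Ici] at hr
      exact hp r hr
  have h2 := h1 (mem_Ici.2 le_rfl) (mem_Ici.2 hs.le) hs
  rwa [prim_eq_zero h 1 (by simp)] at h2

theorem deriv2_mul_deriv {ψ : ℝ → ℝ} (hψ : ContDiff ℝ ∞ ψ) (s : ℝ) :
    deriv (deriv fun s => s * deriv ψ s) s
      = s * deriv (deriv (deriv ψ)) s + 2 * deriv (deriv ψ) s := by
  have h1 := (contDiff_infty_iff_deriv.1 hψ).2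
  have h2 := contDiff_infty_iff_deriv.1 h1
  have h3 := (contDiff_infty_iff_deriv.1 h2.2).1
  have e : (deriv fun s => s * deriv ψ s) = fun s => deriv ψ s + s * deriv (deriv ψ) s := by
    funext r
    have := ((hasDerivAt_id r).mul (h2.1 r).hasDerivAt).deriv
    refine Eq.trans this ?_
    simp only [id]
    ring
  rw [e]
  have := ((h2.1 s).hasDerivAt.add ((hasDerivAt_id s).mul (h3 s).hasDerivAt)).deriv
  refine Eq.trans this ?_
  simp only [id]
  ring

theorem dot_neg (a x : X n) : dot a (-x) = -dot a x := by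
  simp [dot]

theorem Prof.deriv_neg {ψ : ℝ → ℝ} (hψ : Prof ψ) (s : ℝ) : deriv ψ (-s) = -deriv ψ s := by
  have h1 : (fun x => ψ (-x)) = ψ := funext hψ.ev
  have h2 := deriv_comp_neg (f := ψ) (x := s)
  rw [h1] at h2
  linarith

/-- A convex profile vanishing exactly on `[-1, 1]`. -/
theorem exists_prof : ∃ φ : ℝ → ℝ, Prof φ ∧ (∀ s, |s| ≤ 1 → φ s = 0) ∧
    ∀ s, 1 < |s| → 0 < φ s := by
  obtain ⟨m, hm⟩ : ∃ m : ℝ → ℝ,
      m = fun s => Real.smoothTransition (s - 1) + Real.smoothTransition (-s - 1) := ⟨_, rfl⟩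
  have hs : ContDiff ℝ ∞ m := by
    rw [hm]
    exact (Real.smoothTransition.contDiff.comp (contDiff_id.sub contDiff_const)).add
      (Real.smoothTransition.contDiff.comp (contDiff_id.neg.sub contDiff_const))
  have hev : (fun r => m (-r)) = m := by
    funext r
    simp only [hm, neg_neg, add_comm]
  have h0 : ∀ s, |s| ≤ 1 → m s = 0 := by
    intro s h
    rw [abs_le] at h
    simp only [hm]
    rw [Real.smoothTransition.zero_of_nonpos (by linarith),
      Real.smoothTransition.zero_of_nonpos (by linarith), add_zero]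
  have h1 : ∀ s, 2 ≤ |s| → m s = 1 := by
    intro s h
    simp only [hm]
    rcases le_abs.1 h with h | h
    · rw [Real.smoothTransition.one_of_one_le (by linarith),
        Real.smoothTransition.zero_of_nonpos (by linarith), add_zero]
    · rw [Real.smoothTransition.zero_of_nonpos (by linarith),
        Real.smoothTransition.one_of_one_le (by linarith), zero_add]
  have hnn : ∀ s, 0 ≤ m s := fun s => by
    simp only [hm]
    exact add_nonneg (Real.smoothTransition.nonneg _) (Real.smoothTransition.nonneg _)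
  have hp : ∀ s, 1 < s → 0 < m s := fun s h => by
    simp only [hm]
    exact add_pos_of_pos_of_nonneg (Real.smoothTransition.pos_of_pos (by linarith))
      (Real.smoothTransition.nonneg _)
  have hs1 := contDiff_prim hs
  have hs2 := contDiff_prim hs1
  have hd : deriv (deriv (prim (prim m))) = m := by
    rw [deriv_prim hs1.continuous, deriv_prim hs.continuous]
  have hodd : (fun r => prim m (-r)) = fun r => -prim m r := by
    funext r
    rw [prim_neg, hev]
  have hev2 : ∀ s, prim (prim m) (-s) = prim (prim m) s := by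
    intro s
    rw [prim_neg, hodd]
    unfold prim
    rw [intervalIntegral.integral_neg, neg_neg]
  have hp2 := prim_pos hs1.continuous (prim_eq_zero h0) (prim_pos hs.continuous h0 hp)
  refine ⟨prim (prim m), ⟨hs2, hev2, fun s => by rw [hd]; exact hnn s,
    bdd_of_deriv2 hs2 (c := 1) (R := 2) fun s h => by rw [hd]; exact h1 s h,
    bdd_of_deriv2 (contDiff_id.mul (contDiff_infty_iff_deriv.1 hs2).2) (c := 2) (R := 3)
      fun s h => ?_⟩, prim_eq_zero (prim_eq_zero h0), fun s h => ?_⟩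
  · have h2 : m =ᶠ[𝓝 s] fun _ => 1 := by
      have h3 : ∀ᶠ y in 𝓝 s, 2 < |y| :=
        continuous_abs.continuousAt.eventually (lt_mem_nhds (by linarith))
      exact h3.mono fun y hy => h1 y hy.le
    refine (deriv2_mul_deriv hs2 s).trans ?_
    rw [hd, h2.deriv_eq, deriv_const, h1 s (by linarith)]
    ring
  · rcases lt_abs.1 h with h | h
    · exact hp2 s h
    · rw [← hev2]
      exact hp2 _ h

theorem Prof.const_mul {ψ : ℝ → ℝ} (hψ : Prof ψ) {c : ℝ} (hc : 0 ≤ c) :
    Prof fun s => c * ψ s := by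
  refine ⟨contDiff_const.mul hψ.sm, fun s => by rw [hψ.ev], fun s => ?_, fun k hk => ?_,
    fun k hk => ?_⟩
  · rw [deriv_const_mul_field', deriv_const_mul_field']
    exact mul_nonneg hc (hψ.conv s)
  · obtain ⟨C, hC⟩ := hψ.bdd k hk
    refine ⟨c * C, fun s => ?_⟩
    rw [iteratedDeriv_const_mul_field, abs_mul, abs_of_nonneg hc]
    exact mul_le_mul_of_nonneg_left (hC s) hc
  · obtain ⟨C, hC⟩ := hψ.bdd' k hk
    refine ⟨c * C, fun s => ?_⟩
    have e : (fun s => s * deriv (fun s => c * ψ s) s) = fun s => c * (s * deriv ψ s) := by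
      funext r
      rw [deriv_const_mul_field']
      ring
    rw [e, iteratedDeriv_const_mul_field, abs_mul, abs_of_nonneg hc]
    exact mul_le_mul_of_nonneg_left (hC s) hc

theorem prof_sq : Prof fun s => s ^ 2 / 2 := by
  have hs : ContDiff ℝ ∞ fun s : ℝ => s ^ 2 / 2 := (contDiff_id.pow 2).div_const 2
  have h1 : (deriv fun s : ℝ => s ^ 2 / 2) = fun s => s := by
    funext s
    simp
  have h2 : (deriv (deriv fun s : ℝ => s ^ 2 / 2)) = fun _ => 1 := by
    rw [h1]
    exact deriv_id''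
  refine ⟨hs, fun s => by simp, fun s => by rw [h2]; exact zero_le_one,
    bdd_of_deriv2 hs (c := 1) (R := 0) fun s _ => by rw [h2],
    bdd_of_deriv2 (contDiff_id.mul (contDiff_infty_iff_deriv.1 hs).2) (c := 2) (R := 0)
      fun s _ => ?_⟩
  refine (deriv2_mul_deriv hs s).trans ?_
  rw [h2, deriv_const]
  ring

/-- A bounded smooth cutoff equal to the identity near `[-ρ, ρ]`. -/
theorem exists_cutoff {ρ : ℝ} (hρ : 0 < ρ) : ∃ χ : ℝ → ℝ, ContDiff ℝ ∞ χ ∧
    (∀ s, |s| ≤ ρ → χ s = s) ∧ (∀ s, |s| ≤ ρ → deriv χ s = 1) ∧ (∀ s, |χ s| ≤ 3 * ρ) ∧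
    ∀ k, ∃ C, ∀ s, |iteratedDeriv k χ s| ≤ C := by
  let β : ContDiffBump (0 : ℝ) := ⟨2 * ρ, 3 * ρ, by linarith, by linarith⟩
  have hs : ContDiff ℝ ∞ fun s => s * β s := contDiff_id.mul β.contDiff
  have hz : ∀ s, 3 * ρ ≤ |s| → s * β s = 0 := fun s h => by
    rw [β.zero_of_le_dist (by rwa [Real.dist_0_eq_abs]), mul_zero]
  refine ⟨fun s => s * β s, hs, fun s h => ?_, fun s h => ?_, fun s => ?_,
    fun k => bdd_of_const k hs hz⟩
  · have h1 : β s = 1 := β.one_of_mem_closedBall (by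
      rw [Metric.mem_closedBall, Real.dist_0_eq_abs]
      show |s| ≤ 2 * ρ
      linarith)
    simp only [h1, mul_one]
  · have h1 : β =ᶠ[𝓝 s] 1 := β.eventuallyEq_one_of_mem_ball (by
      rw [Metric.mem_ball, Real.dist_0_eq_abs]
      show |s| < 2 * ρ
      linarith)
    have h2 : (fun s => s * β s) =ᶠ[𝓝 s] fun s => s := h1.mono fun y hy => by
      simp only [hy, Pi.one_apply, mul_one]
    rw [h2.deriv_eq, deriv_id'']
  · rcases le_total (3 * ρ) |s| with h | h
    · simp only [hz s h, abs_zero]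
      linarith
    · simp only [abs_mul, abs_of_nonneg β.nonneg]
      exact (mul_le_of_le_one_right (abs_nonneg _) β.le_one).trans h

theorem v2_ridge {φ : ℝ → ℝ} (hφ : ContDiff ℝ ∞ φ)
    (hb : ∀ k, 2 ≤ k → ∃ C, ∀ s, |iteratedDeriv k φ s| ≤ C) (a : X n) :
    V2 fun x => φ (dot a x) := by
  refine ⟨hφ.comp (sm_dot a), fun l hl => ?_⟩
  obtain ⟨C, hC⟩ := hb _ hl
  refine ⟨|(l.map a).prod| * C, fun x => ?_⟩
  rw [pds_ridge hφ, abs_mul]
  exact mul_le_mul_of_nonneg_left (hC _) (abs_nonneg _)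

theorem pd_ridge {φ : ℝ → ℝ} (hφ : ContDiff ℝ ∞ φ) (a : X n) (k : Fin n) (x : X n) :
    pd k (fun y => φ (dot a y)) x = deriv φ (dot a x) * a k := by
  rw [pd_comp_real (hφ.differentiable (by simp) _) ((sm_dot a).diff x), pd_dot]

theorem Prof.pg_deriv {ψ : ℝ → ℝ} (hψ : Prof ψ) (a : X n) :
    PG fun x => deriv ψ (dot a x) := by
  refine (v2_ridge (contDiff_infty_iff_deriv.1 hψ.sm).2 (fun k hk => ?_) a).pg
  rw [← iteratedDeriv_succ']
  exact hψ.bdd _ (by omega)

theorem Prof.pg_deriv2 {ψ : ℝ → ℝ} (hψ : Prof ψ) (a : X n) :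
    PG fun x => deriv (deriv ψ) (dot a x) := by
  refine (v2_ridge (contDiff_infty_iff_deriv.1 (contDiff_infty_iff_deriv.1 hψ.sm).2).2
    (fun k hk => ?_) a).pg
  rw [← iteratedDeriv_succ', ← iteratedDeriv_succ']
  exact hψ.bdd _ (by omega)

theorem qf_hess_ridge_sum {J : Type*} [Fintype J] {ψ : J → ℝ → ℝ} (hψ : ∀ j, Prof (ψ j))
    (a : J → X n) (x ξ : X n) :
    qf (hess (fun y => ∑ j, ψ j (dot (a j) y)) x) ξ
      = ∑ j, deriv (deriv (ψ j)) (dot (a j) x) * dot (a j) ξ ^ 2 := by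
  have h1 : ∀ i k, hess (fun y => ∑ j, ψ j (dot (a j) y)) x i k
      = ∑ j, a j i * a j k * deriv (deriv (ψ j)) (dot (a j) x) := by
    intro i k
    have h2 := congrFun (pds_sum Finset.univ (F := fun j y => ψ j (dot (a j) y))
      (fun j _ => (hψ j).sm.comp (sm_dot (a j))) [i, k]) x
    refine Eq.trans h2 (Finset.sum_congr rfl fun j _ => ?_)
    rw [pds_ridge (hψ j).sm]
    simp [iteratedDeriv_succ]
  unfold qf
  simp only [h1, Finset.sum_mul]
  calc ∑ i, ∑ k, ∑ j, a j i * a j k * deriv (deriv (ψ j)) (dot (a j) x) * ξ i * ξ k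
      = ∑ i, ∑ j, ∑ k, a j i * a j k * deriv (deriv (ψ j)) (dot (a j) x) * ξ i * ξ k :=
        Finset.sum_congr rfl fun i _ => Finset.sum_comm
    _ = ∑ j, ∑ i, ∑ k, a j i * a j k * deriv (deriv (ψ j)) (dot (a j) x) * ξ i * ξ k :=
        Finset.sum_comm
    _ = _ := by
        refine Finset.sum_congr rfl fun j _ => ?_
        have e : dot (a j) ξ ^ 2 = ∑ i, ∑ k, a j i * ξ i * (a j k * ξ k) := by
          rw [pow_two]
          exact Finset.sum_mul_sum _ _ _ _
        rw [e, Finset.mul_sum]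
        refine Finset.sum_congr rfl fun i _ => ?_
        rw [Finset.mul_sum]
        exact Finset.sum_congr rfl fun k _ => by ring

theorem pot_ridge_sum {J : Type*} [Fintype J] {ψ : J → ℝ → ℝ} (hψ : ∀ j, Prof (ψ j))
    (a : J → X n)
    (hc : ∃ c > 0, ∀ x ξ, c * nsq ξ ≤ ∑ j, deriv (deriv (ψ j)) (dot (a j) x) * dot (a j) ξ ^ 2) :
    Pot fun y => ∑ j, ψ j (dot (a j) y) := by
  obtain ⟨c, hc0, hc⟩ := hc
  refine ⟨V2.sum _ fun j _ => v2_ridge (hψ j).sm (hψ j).bdd (a j), fun x => ?_,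
    c, hc0, fun x ξ => ?_⟩
  · simp only [dot_neg, (hψ _).ev]
  · rw [qf_hess_ridge_sum hψ]
    exact hc x ξ

/-- The test function `∑ d_j s_j ψ_j'(s_j)` is even with bounded higher derivatives. -/
theorem v2_test {J : Type*} [Fintype J] {ψ : J → ℝ → ℝ} (hψ : ∀ j, Prof (ψ j))
    (a : J → X n) (d : J → ℝ) :
    V2 (fun y => ∑ j, d j * (deriv (ψ j) (dot (a j) y) * dot (a j) y)) ∧
      Ev fun y => ∑ j, d j * (deriv (ψ j) (dot (a j) y) * dot (a j) y) := by
  refine ⟨V2.sum _ fun j _ => V2.const_mul ?_ (d j), fun x => ?_⟩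
  · have := v2_ridge (φ := fun s => s * deriv (ψ j) s)
      (contDiff_id.mul (contDiff_infty_iff_deriv.1 (hψ j).sm).2) (hψ j).bdd' (a j)
    simpa only [mul_comm] using this
  · simp only [dot_neg, (hψ _).deriv_neg, neg_mul_neg]

end Vale.Agent.P227
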