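import Vale.Agent.P227.PCalc

/-! Linear changes of variables. -/

set_option linter.unusedSectionVars false
set_option linter.unusedVariables false

namespace Vale.Agent.P227

open scoped ContDiff
open MeasureTheory Set Filter Topology Matrix

variable {n : ℕ} {A : Mat n}

theorem sm_linear {f : X n → ℝ} (hf : Sm f) (A : Mat n) : Sm fun y => f (A *ᵥ y) :=
  Sm.comp_pi (G := fun y => A *ᵥ y) hf fun k => sm_dot (A k)

theorem pd_linear {f : X n → ℝ} (hf : Sm f) (A : Mat n) (a : Fin n) :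
    pd a (fun y => f (A *ᵥ y)) = fun y => ∑ i, A i a * pd i f (A *ᵥ y) := by
  funext y
  rw [pd_comp (G := fun y => A *ᵥ y) (hf.diff _) fun k => (sm_dot (A k)).diff y]
  refine Finset.sum_congr rfl fun i _ => ?_
  rw [show (fun y : X n => (A *ᵥ y) i) = dot (A i) from rfl, pd_dot, mul_comm]

theorem lc_sm {g : Fin n → X n → ℝ} (hg : ∀ j, Sm (g j)) (c : Fin n → ℝ) :
    Sm fun x => ∑ j, c j * g j x := ContDiff.sum fun j _ => contDiff_const.mul (hg j)

theorem lc_pds {g : Fin n → X n → ℝ} (hg : ∀ j, Sm (g j)) (c : Fin n → ℝ) (l : List (Fin n)) :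
    pds l (fun x => ∑ j, c j * g j x) = fun x => ∑ j, c j * pds l (g j) x := by
  rw [pds_sum (F := fun j x => c j * g j x) _ fun j _ => contDiff_const.mul (hg j)]
  simp only [pds_const_mul (hg _)]

theorem lc_cons {f : X n → ℝ} (hf : Sm f) (A : Mat n) (a : Fin n) (l : List (Fin n)) :
    pds (a :: l) (fun y => f (A *ᵥ y)) =
      pds l fun y => (fun x => ∑ i, A i a * pd i f x) (A *ᵥ y) := by
  rw [pds_cons, ← pds_pd (sm_linear hf A), pd_linear hf]

theorem hess_linear {f : X n → ℝ} (hf : Sm f) (A : Mat n) (y : X n) :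
    hess (fun y => f (A *ᵥ y)) y = Aᵀ * hess f (A *ᵥ y) * A := by
  ext a b
  rw [hess_apply, pd_linear hf, pd_linear (lc_sm hf.pd fun i => A i b)]
  simp only [Matrix.mul_apply, transpose_apply, hess_apply, Finset.sum_mul]
  rw [Finset.sum_comm]
  refine Finset.sum_congr rfl fun i _ => ?_
  rw [show pd i (fun x => ∑ j, A j b * pd j f x) = _ from lc_pds hf.pd (fun j => A j b) [i],
    Finset.mul_sum]
  exact Finset.sum_congr rfl fun j _ => by simp only [pds_cons, pds_nil]; ring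

theorem hess_pd_linear {f : X n → ℝ} (hf : Sm f) (A : Mat n) (a : Fin n) (y : X n) :
    hess (pd a fun y => f (A *ᵥ y)) y = Aᵀ * (∑ i, A i a • hess (pd i f) (A *ᵥ y)) * A := by
  rw [pd_linear hf, hess_linear (lc_sm hf.pd fun i => A i a)]
  congr 2
  ext j k
  rw [Matrix.sum_apply]
  exact congrFun (lc_pds hf.pd (fun i => A i a) [j, k]) _

theorem pds_three_linear {f : X n → ℝ} (hf : Sm f) (A : Mat n) (a b c : Fin n) (y : X n) :
    pds [a, b, c] (fun y => f (A *ᵥ y)) y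
      = ∑ i, ∑ j, ∑ k, A i a * A j b * A k c * pds [i, j, k] f (A *ᵥ y) := by
  refine (congrFun (congrFun (hess_pd_linear hf A c y) a) b).trans ?_
  simp only [Matrix.mul_apply, Finset.sum_mul]
  rw [Finset.sum_comm]
  simp only [transpose_apply, Matrix.sum_apply, Matrix.smul_apply, hess_apply,
    smul_eq_mul, Finset.sum_mul, Finset.mul_sum, pds_cons, pds_nil]
  exact Finset.sum_congr rfl fun i _ => Finset.sum_congr rfl fun j _ =>
    Finset.sum_congr rfl fun k _ => by ring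

theorem tau_linear {f : X n → ℝ} (hf : Sm f) (hA : IsUnit A.det) (y : X n) :
    tau (fun y => f (A *ᵥ y)) y = A⁻¹ * tau f (A *ᵥ y) * A⁻¹ᵀ := by
  rw [tau, hess_linear hf, Matrix.mul_inv_rev, Matrix.mul_inv_rev, transpose_nonsing_inv, tau,
    Matrix.mul_assoc]

theorem lc_cancel (hA : IsUnit A.det) (τ h : Mat n) :
    A⁻¹ * τ * A⁻¹ᵀ * (Aᵀ * h * A) = A⁻¹ * (τ * h) * A := by
  have : A⁻¹ᵀ * Aᵀ = 1 := by rw [← transpose_mul, mul_nonsing_inv _ hA, transpose_one]
  calc _ = A⁻¹ * τ * (A⁻¹ᵀ * Aᵀ) * h * A := by simp only [Matrix.mul_assoc]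
    _ = _ := by rw [this]; simp only [Matrix.mul_assoc, Matrix.one_mul]

theorem lc_trace (hA : IsUnit A.det) (B : Mat n) : (A⁻¹ * B * A).trace = B.trace := by
  rw [trace_mul_cycle, mul_nonsing_inv _ hA, Matrix.one_mul]

theorem lc_pair (hA : IsUnit A.det) (τ h : Mat n) :
    ∑ i, ∑ j, (A⁻¹ * τ * A⁻¹ᵀ) i j * (Aᵀ * h * A) i j = ∑ i, ∑ j, τ i j * h i j := by
  have e : ∀ P Q : Mat n, ∑ i, ∑ j, P i j * Q i j = (P * Qᵀ).trace := fun P Q => rfl
  rw [e, e, transpose_mul, transpose_mul, transpose_transpose, ← Matrix.mul_assoc Aᵀ,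
    lc_cancel hA, lc_trace hA]

theorem lc_drift {g : X n → ℝ} (hg : Sm g) (A : Mat n) (y : X n) :
    ∑ i, y i * pd i (fun y => g (A *ᵥ y)) y = ∑ i, (A *ᵥ y) i * pd i g (A *ᵥ y) := by
  simp only [pd_linear hg, Finset.mul_sum]
  rw [Finset.sum_comm]
  refine Finset.sum_congr rfl fun i _ => ?_
  rw [show (A *ᵥ y) i = ∑ j, A i j * y j from rfl, Finset.sum_mul]
  exact Finset.sum_congr rfl fun j _ => by ring

theorem lop_linear {u g : X n → ℝ} (hu : Sm u) (hg : Sm g) (hA : IsUnit A.det) (y : X n) :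
    Lop (tau fun y => u (A *ᵥ y)) (fun y => g (A *ᵥ y)) y = Lop (tau u) g (A *ᵥ y) := by
  simp only [Lop, ← hess_apply]
  rw [lc_drift hg, tau_linear hu hA, hess_linear hg, lc_pair hA]

theorem cal_linear {u : X n → ℝ} (hu : Sm u) (hA : IsUnit A.det) (y : X n) :
    cal (fun y => u (A *ᵥ y)) y = cal u (A *ᵥ y) := by
  have h : sig (fun y => u (A *ᵥ y)) y = Aᵀ * sig u (A *ᵥ y) * A := by
    ext a b
    rw [sig, of_apply, tau_linear hu hA, hess_pd_linear hu, hess_pd_linear hu, Matrix.mul_assoc _ _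
      (Aᵀ * _ * A), lc_cancel hA, lc_cancel hA, Matrix.mul_assoc _ A, ← Matrix.mul_assoc A,
      ← Matrix.mul_assoc A, mul_nonsing_inv _ hA, Matrix.one_mul, ← Matrix.mul_assoc _ _ A,
      Matrix.mul_assoc A⁻¹, lc_trace hA]
    simp only [Matrix.sum_mul, Matrix.mul_smul, Matrix.smul_mul, trace_sum,
      trace_smul, smul_eq_mul, Finset.mul_sum]
    simp only [Matrix.mul_apply, sig, of_apply, transpose_apply, Finset.sum_mul, Matrix.mul_assoc]
    exact Finset.sum_congr rfl fun i _ => Finset.sum_congr rfl fun j _ => by ring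
  rw [cal, h, tau_linear hu hA, lc_pair hA, cal]

theorem lc_bdd {α : Type} (A : Mat n) (l : List (Fin n)) : ∀ {F : α → X n → ℝ}, (∀ a, Sm (F a)) →
    (∀ m : List (Fin n), m.length = l.length → ∃ C, ∀ a x, |pds m (F a) x| ≤ C) →
    ∃ C, ∀ a x, |pds l (fun y => F a (A *ᵥ y)) x| ≤ C := by
  induction l with
  | nil =>
    intro F _ h
    obtain ⟨C, hC⟩ := h [] rfl
    exact ⟨C, fun a x => hC a _⟩
  | cons b l ih =>
    intro F hF h
    simp only [lc_cons (hF _)]
    refine ih (F := fun a x => ∑ i, A i b * pd i (F a) x) (fun a => lc_sm (hF a).pd _)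
      fun m hm => ?_
    choose C hC using fun i => h (i :: m) (by simp [hm])
    refine ⟨∑ i, |A i b| * C i, fun a x => ?_⟩
    rw [lc_pds (hF a).pd]
    refine (Finset.abs_sum_le_sum_abs _ _).trans (Finset.sum_le_sum fun i _ => ?_)
    rw [abs_mul, pds_pd (hF a)]
    exact mul_le_mul_of_nonneg_left (hC i a x) (abs_nonneg _)

theorem lc_nsq (B : Mat n) (η : X n) : nsq (B *ᵥ η) ≤ (∑ i, nsq (B i)) * nsq η := by
  rw [Finset.sum_mul]
  exact Finset.sum_le_sum fun i _ => dot_sq_le (B i) η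

theorem NSol.linear {V : X n → ℝ} {T : ℝ} {u : ℝ → X n → ℝ} (hu : NSol V T u) (hV : Sm V)
    (hA : IsUnit A.det) :
    NSol (fun y => V (A *ᵥ y) - Real.log (A.det ^ 2)) T fun t y => u t (A *ᵥ y) := by
  have hs := hu.sol.jc.1
  refine ⟨⟨hu.sol.jc.linear A, fun t y => ?_, ?_, fun l hl => ?_, fun t ht y => ?_⟩, ?_⟩
  · simp only [mulVec_neg, hu.sol.ev t _]
  · simpa only [mulVec_zero] using hu.sol.bdd0
  · exact lc_bdd A l hs fun m hm => hu.sol.bdd m (hm ▸ hl)
  · refine (hu.sol.eq t ht (A *ᵥ y)).congr_deriv ?_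
    simp only [Nop]
    rw [lc_drift (hs t), hess_linear (hs t), det_mul, det_mul, det_transpose, mul_right_comm, ← sq,
      Real.log_mul (pow_ne_zero 2 hA.ne_zero) (hu.det_pos t _).ne']
    ring
  · obtain ⟨c, hc, h⟩ := hu.pos
    have hK : 0 ≤ ∑ i, nsq (A⁻¹ i) := Finset.sum_nonneg fun i _ => nsq_nonneg _
    refine ⟨c / (∑ i, nsq (A⁻¹ i) + 1), by positivity, fun t y ξ => ?_⟩
    have h1 := lc_nsq A⁻¹ (A *ᵥ ξ)
    rw [mulVec_mulVec, nonsing_inv_mul _ hA, one_mulVec] at h1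
    have h2 := h t (A *ᵥ y) (A *ᵥ ξ)
    rw [hess_linear (hs t), qf_eq_dot, ← mulVec_mulVec, ← mulVec_mulVec, dotProduct_mulVec,
      vecMul_transpose, ← qf_eq_dot, div_mul_eq_mul_div, div_le_iff₀ (by positivity)]
    have h3 := nsq_nonneg (A *ᵥ ξ)
    nlinarith [mul_le_mul_of_nonneg_left h1 hc.le, mul_le_mul_of_nonneg_left h2 hK,
      mul_nonneg hc.le h3]

theorem HasP.of_linear {T t p : ℝ} {u : X n → ℝ} {f : ℝ → X n → ℝ} {y : X n} (hu : Sm u)
    (hf : Sm (f t)) (hA : IsUnit A.det)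
    (h : HasP T (tau fun y => u (A *ᵥ y)) (fun s y => f s (A *ᵥ y)) t y p) :
    HasP T (tau u) f t (A *ᵥ y) p :=
  ⟨hf, lop_linear hu hf hA y ▸ h.dt⟩

end Vale.Agent.P227
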