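import Vale.Agent.P227.CalabiP
import Vale.Agent.P227.LinChange

/-! A priori third derivative bound. -/

set_option linter.unusedSectionVars false
set_option linter.unusedVariables false

namespace Vale.Agent.P227

open scoped ContDiff
open MeasureTheory Set Filter Topology Matrix

theorem calabi_ds {n : ℕ} {α : Type*} {S : Subalgebra ℝ (α → X n → ℝ)} {u : α → X n → ℝ}
    (hs : ∀ a, Sm (u a)) (hτ : ∀ i j, DS S fun a x => tau (u a) x i j)
    (h3 : ∀ i j k, DS S fun a => pds [i, j, k] (u a)) : DS S fun a x => cal (u a) x := by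
  simp only [cp_cal_eq (hs _)]
  exact DS.sum _ fun a _ => DS.sum _ fun b _ => DS.sum _ fun c _ =>
    (DS.sum _ fun k _ => (hτ k c).mul (DS.sum _ fun l _ => (hτ l b).mul
      (DS.sum _ fun m _ => (hτ m a).mul (h3 m l k)))).mul (h3 a b c)

theorem calabi_tri {n : ℕ} {f : X n → ℝ} (hf : Sm f) {A : Mat n} {K M : ℝ} {y : X n}
    (hA : ∀ i j, |A i j| ≤ K) (hM : ∀ i j k, |pds [i, j, k] f (A *ᵥ y)| ≤ M) (a b c : Fin n) :
    |pds [a, b, c] (fun y => f (A *ᵥ y)) y| ≤ n ^ 3 * (K ^ 3 * M) := by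
  have hK : 0 ≤ K := (abs_nonneg _).trans (hA a a)
  rw [pds_three_linear hf]
  calc _ ≤ ∑ _i : Fin n, ∑ _j : Fin n, ∑ _k : Fin n, K ^ 3 * M := by
        refine (Finset.abs_sum_le_sum_abs _ _).trans (Finset.sum_le_sum fun i _ => ?_)
        refine (Finset.abs_sum_le_sum_abs _ _).trans (Finset.sum_le_sum fun j _ => ?_)
        refine (Finset.abs_sum_le_sum_abs _ _).trans (Finset.sum_le_sum fun k _ => ?_)
        rw [abs_mul, abs_mul, abs_mul, pow_three', mul_assoc K K K, ← mul_assoc K K K]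
        gcongr
        · exact hA _ _
        · exact hA _ _
        · exact hA _ _
        · exact hM _ _ _
    _ = _ := by simp; ring

theorem ap_three {n : ℕ} {V : X n → ℝ} (hV : Pot V) {c : ℝ} (hc : 0 < c) (C : ℝ) :
    ∃ M, ∀ (T : ℝ) (u : ℝ → X n → ℝ), NSol V T u → u 0 = q0 n →
      (∀ t ∈ Icc 0 T, ∀ x, LB c (hess (u t) x) ∧ UB C (hess (u t) x)) →
      ∀ l : List (Fin n), l.length = 3 → ∀ t ∈ Icc 0 T, ∀ x, |pds l (u t) x| ≤ M := by
  obtain ⟨K, hK⟩ := exists_frame n hc C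
  obtain ⟨MV, hMV⟩ := hV.v2.exists_bound
  have hVs : Sm V := hV.v2.1
  obtain ⟨cV, hcV, hVl⟩ := hV.lb
  set D : ℝ := n ^ 3 * (K ^ 3 * MV 3) with hD
  refine ⟨n ^ 3 * (K ^ 3 * Real.sqrt (4 * (n ^ 3 * D ^ 2))), fun T u hu h0 hb => ?_⟩
  have hs := hu.sol.jc.1
  have hfr : ∀ t ∈ Icc 0 T, ∀ x, ∃ E : Mat n, IsUnit E.det ∧ E *ᵥ (E⁻¹ *ᵥ x) = x ∧
      hess (fun y => u t (E *ᵥ y)) (E⁻¹ *ᵥ x) = 1 ∧ (∀ i j, |E i j| ≤ K) ∧
        ∀ i j, |E⁻¹ i j| ≤ K := by
    intro t ht x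
    obtain ⟨E, h1, h2, h3, h4⟩ := hK _ (hess_isSymm (hs t) x) (hb t ht x).1 (hb t ht x).2
    have h5 : E *ᵥ (E⁻¹ *ᵥ x) = x := by rw [mulVec_mulVec, mul_nonsing_inv _ h1, one_mulVec]
    exact ⟨E, h1, h5, by rw [hess_linear (hs t), h5, h2], h3, h4⟩
  have hmax : ∀ t ∈ Icc 0 T, ∀ x, cal (u t) x ≤ 4 * (n ^ 3 * D ^ 2) := by
    obtain ⟨C', hC'⟩ := hu.tau_max
    obtain ⟨c', hc', hl'⟩ := hu.pos
    refine max_principle (f := fun s => cal (u s)) (τ := fun s => tau (u s)) ?_ ?_ hC' ?_ ?_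
    · exact (calabi_ds (S := Qc) hs (hu.sol.jc.tau fun t x => (hu.det_pos t x).ne')
        fun i j k => hu.sol.jc.pds _).mem
    · obtain ⟨B, hB⟩ := mem_Qb_top.1 (calabi_ds hs (ds_tau hc' hs hu.sol.bdd hl')
        fun i j k => (ds_hess hs hu.sol.bdd j k).pd i).mem
      exact ⟨B, fun t _ x => (le_abs_self _).trans (hB t x)⟩
    · intro t ht x hlt
      have ht' : t ∈ Icc 0 T := ⟨ht.1.le, ht.2⟩
      obtain ⟨E, h1, h5, h2, h3, -⟩ := hfr t ht' x
      have hW : Sm fun y => V (E *ᵥ y) := sm_linear hVs E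
      have hp : ∀ l : List (Fin n), l ≠ [] →
          pds l (fun y => V (E *ᵥ y) - Real.log (E.det ^ 2)) = pds l fun y => V (E *ᵥ y) := by
        intro l hl
        rw [pds_sub hW contDiff_const, pds_const _ hl]
        simp
      have hh : hess (fun y => V (E *ᵥ y) - Real.log (E.det ^ 2)) (E⁻¹ *ᵥ x)
          = Eᵀ * hess V x * Eᵀᵀ := by
        rw [transpose_transpose, ← h5, ← hess_linear hVs, h5]
        ext i j
        exact congrFun (hp [i, j] (by simp)) _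
      obtain ⟨p, hP, hle⟩ := hasP_cal (hu.linear hVs h1) (hW.sub contDiff_const) ht' h2
        (by
          rw [hh]
          exact lb_of_posSemidef
            (psd_conj ((hVl x).posSemidef hcV.le (hess_isSymm hVs x)) _))
      have e : (fun s => cal fun y => u s (E *ᵥ y)) = fun s y => cal (u s) (E *ᵥ y) :=
        funext fun s => funext fun y => cal_linear (hs s) h1 y
      rw [e] at hP
      have hsm : Sm (cal (u t)) := (calabi_ds (S := Qc) hs
        (hu.sol.jc.tau fun t x => (hu.det_pos t x).ne') fun i j k => hu.sol.jc.pds _).1 t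
      have hP' := HasP.of_linear (f := fun s => cal (u s)) (hs t) hsm h1 hP
      rw [h5] at hP'
      refine ⟨p, hle.trans ?_, hP'⟩
      have hq := cal_linear (hs t) h1 (E⁻¹ *ᵥ x)
      rw [h5] at hq
      have hq' := cal_eq_of_one (sm_linear (hs t) E) h2
      have hsum : 2 * ∑ a, ∑ b, ∑ c, pds [a, b, c] (fun y => u t (E *ᵥ y)) (E⁻¹ *ᵥ x)
            * pds [a, b, c] (fun y => V (E *ᵥ y) - Real.log (E.det ^ 2)) (E⁻¹ *ᵥ x)
          ≤ ∑ a, ∑ b, ∑ c, (pds [a, b, c] (fun y => u t (E *ᵥ y)) (E⁻¹ *ᵥ x) ^ 2 / 2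
            + 2 * D ^ 2) := by
        simp only [Finset.mul_sum]
        refine Finset.sum_le_sum fun a _ => Finset.sum_le_sum fun b _ =>
          Finset.sum_le_sum fun c _ => ?_
        rw [hp _ (by simp)]
        have h6 := calabi_tri hVs (y := E⁻¹ *ᵥ x) (M := MV 3) h3
          (fun i j k => hMV [i, j, k] (by simp) _) a b c
        have h7 := sq_le_sq' (abs_le.1 h6).1 (abs_le.1 h6).2
        rw [← hD] at h7
        nlinarith [sq_nonneg (pds [a, b, c] (fun y => u t (E *ᵥ y)) (E⁻¹ *ᵥ x)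
          - 2 * pds [a, b, c] (fun y => V (E *ᵥ y)) (E⁻¹ *ᵥ x))]
      simp only [Finset.sum_add_distrib, ← Finset.sum_div, ← hq', Finset.sum_const,
        Finset.card_univ, Fintype.card_fin, nsmul_eq_mul] at hsum
      rw [hq] at hsum ⊢
      nlinarith
    · intro x
      rw [h0, cal_eq_of_one sm_q0 (hess_q0 x)]
      simp only [pds_q0 (l := [_, _, _]) le_rfl]
      simp
      positivity
  intro l hl t ht x
  obtain ⟨a, b, d, rfl⟩ := List.length_eq_three.1 hl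
  obtain ⟨E, h1, h5, h2, -, h4⟩ := hfr t ht x
  have e : u t = fun z => (fun y => u t (E *ᵥ y)) (E⁻¹ *ᵥ z) := funext fun z => by
    simp only [mulVec_mulVec, mul_nonsing_inv _ h1, one_mulVec]
  rw [e]
  refine calabi_tri (sm_linear (hs t) E) h4 (fun i j k => Real.abs_le_sqrt ?_) a b d
  have hq := cal_linear (hs t) h1 (E⁻¹ *ᵥ x)
  rw [h5, cal_eq_of_one (sm_linear (hs t) E) h2] at hq
  refine le_trans ?_ (hq.le.trans (hmax t ht x))
  refine le_trans ?_ (Finset.single_le_sum (f := fun a => ∑ b, ∑ c,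
    pds [a, b, c] (fun y => u t (E *ᵥ y)) (E⁻¹ *ᵥ x) ^ 2) (fun _ _ => by positivity)
    (Finset.mem_univ i))
  refine le_trans ?_ (Finset.single_le_sum (f := fun b => ∑ c,
    pds [i, b, c] (fun y => u t (E *ᵥ y)) (E⁻¹ *ᵥ x) ^ 2) (fun _ _ => by positivity)
    (Finset.mem_univ j))
  exact Finset.single_le_sum (f := fun c =>
    pds [i, j, c] (fun y => u t (E *ᵥ y)) (E⁻¹ *ᵥ x) ^ 2) (fun _ _ => by positivity)
    (Finset.mem_univ k)

end Vale.Agent.P227
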