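import Vale.Agent.P227.Basic

/-! The algebraic inequality behind Calabi's estimate. -/

set_option linter.unusedSectionVars false
set_option linter.unusedVariables false

namespace Vale.Agent.P227

open scoped ContDiff
open MeasureTheory Set Filter Topology Matrix

variable {n : ℕ}

theorem ca_sum4 {ι : Type*} [Fintype ι] {f g : ι → ι → ι → ι → ℝ}
    (φ ψ : ι × ι × ι × ι → ι × ι × ι × ι) (h1 : ∀ p, ψ (φ p) = p) (h2 : ∀ p, φ (ψ p) = p)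
    (h : ∀ p, f p.1 p.2.1 p.2.2.1 p.2.2.2 = g (φ p).1 (φ p).2.1 (φ p).2.2.1 (φ p).2.2.2) :
    ∑ a, ∑ b, ∑ c, ∑ d, f a b c d = ∑ a, ∑ b, ∑ c, ∑ d, g a b c d := by
  have e : ∀ f : ι → ι → ι → ι → ℝ, ∑ a, ∑ b, ∑ c, ∑ d, f a b c d
      = ∑ p : ι × ι × ι × ι, f p.1 p.2.1 p.2.2.1 p.2.2.2 := fun f => by
    simp only [Fintype.sum_prod_type]
  rw [e, e]
  exact Fintype.sum_equiv ⟨φ, ψ, h1, h2⟩ _ _ h

theorem ca_sq (S : Fin n → Fin n → Fin n → ℝ) :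
    ∑ a, ∑ b, ∑ c, ∑ d, (∑ m, S a b m * S c d m) ^ 2
      = ∑ a, ∑ b, (∑ i, ∑ j, S i j a * S i j b) ^ 2 := by
  have e : ∀ f : Fin n → Fin n → Fin n → Fin n → Fin n → Fin n → ℝ,
      ∑ a, ∑ b, ∑ c, ∑ d, ∑ e, ∑ k, f a b c d e k
      = ∑ p : Fin n × Fin n × Fin n × Fin n × Fin n × Fin n,
        f p.1 p.2.1 p.2.2.1 p.2.2.2.1 p.2.2.2.2.1 p.2.2.2.2.2 :=
    fun f => by simp only [Fintype.sum_prod_type]
  simp only [sq, Finset.sum_mul, Finset.mul_sum]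
  rw [e, e]
  refine Fintype.sum_equiv ⟨fun (a, b, c, d, m, l) => (m, l, a, b, c, d),
    fun (m, l, a, b, c, d) => (a, b, c, d, m, l), fun _ => rfl, fun _ => rfl⟩ _ _ ?_
  rintro ⟨a, b, c, d, m, l⟩
  simp only [Equiv.coe_fn_mk]
  ring

theorem ca_abs (Y F : Fin n → Fin n → Fin n → Fin n → ℝ)
    (hY1 : ∀ a b c d, Y a b c d = Y b a c d) (hY2 : ∀ a b c d, Y a b c d = Y a b d c)
    (hF2 : ∀ a b c d, F a b c d = F a c b d) (hF3 : ∀ a b c d, F a b c d = F a b d c) :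
    0 ≤ 2 * (∑ a, ∑ b, ∑ c, ∑ d, F a b c d ^ 2)
      - 6 * (∑ a, ∑ b, ∑ c, ∑ d, F a b c d * Y a b c d)
      + 3 * (∑ a, ∑ b, ∑ c, ∑ d, Y a b c d ^ 2)
      + 2 * (∑ a, ∑ b, ∑ c, ∑ d, Y a b c d * Y a c b d) := by
  have s2 : ∑ a, ∑ b, ∑ c, ∑ d, Y a c b d ^ 2 = ∑ a, ∑ b, ∑ c, ∑ d, Y a b c d ^ 2 :=
    ca_sum4 (fun (a, b, c, d) => (a, c, b, d)) (fun (a, c, b, d) => (a, b, c, d))
      (fun _ => rfl) (fun _ => rfl) fun _ => rfl
  have s3 : ∑ a, ∑ b, ∑ c, ∑ d, Y a d b c ^ 2 = ∑ a, ∑ b, ∑ c, ∑ d, Y a b c d ^ 2 :=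
    ca_sum4 (fun (a, b, c, d) => (a, d, b, c)) (fun (a, d, b, c) => (a, b, c, d))
      (fun _ => rfl) (fun _ => rfl) fun _ => rfl
  have z2 : ∑ a, ∑ b, ∑ c, ∑ d, Y a b c d * Y a d b c
      = ∑ a, ∑ b, ∑ c, ∑ d, Y a b c d * Y a c b d :=
    ca_sum4 (fun (a, b, c, d) => (a, b, d, c)) (fun (a, b, d, c) => (a, b, c, d))
      (fun _ => rfl) (fun _ => rfl) fun ⟨a, b, c, d⟩ => by
        simp only
        rw [hY2 a b c d]
  have z3 : ∑ a, ∑ b, ∑ c, ∑ d, Y a c b d * Y a d b c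
      = ∑ a, ∑ b, ∑ c, ∑ d, Y a b c d * Y a c b d :=
    ca_sum4 (fun (a, b, c, d) => (a, c, d, b)) (fun (a, c, d, b) => (a, b, c, d))
      (fun _ => rfl) (fun _ => rfl) fun ⟨a, b, c, d⟩ => by
        simp only
        rw [hY2 a c b d, hY2 a d b c]
  have f2 : ∑ a, ∑ b, ∑ c, ∑ d, F a b c d * Y a c b d
      = ∑ a, ∑ b, ∑ c, ∑ d, F a b c d * Y a b c d :=
    ca_sum4 (fun (a, b, c, d) => (a, c, b, d)) (fun (a, c, b, d) => (a, b, c, d))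
      (fun _ => rfl) (fun _ => rfl) fun ⟨a, b, c, d⟩ => by
        simp only
        rw [hF2 a b c d]
  have f3 : ∑ a, ∑ b, ∑ c, ∑ d, F a b c d * Y a d b c
      = ∑ a, ∑ b, ∑ c, ∑ d, F a b c d * Y a b c d :=
    ca_sum4 (fun (a, b, c, d) => (a, d, b, c)) (fun (a, d, b, c) => (a, b, c, d))
      (fun _ => rfl) (fun _ => rfl) fun ⟨a, b, c, d⟩ => by
        simp only
        rw [hF3 a b c d, hF2 a b d c]
  have h0 : 0 ≤ ∑ a, ∑ b, ∑ c, ∑ d,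
      (2 * (F a b c d - (Y a b c d + Y a c b d + Y a d b c) / 2) ^ 2
        + (Y a b c d - Y a c b d) ^ 2 / 2 + Y a b c d ^ 2 / 2) :=
    Finset.sum_nonneg fun _ _ => Finset.sum_nonneg fun _ _ => Finset.sum_nonneg fun _ _ =>
      Finset.sum_nonneg fun _ _ => by positivity
  have e : ∀ a b c d, (2 * (F a b c d - (Y a b c d + Y a c b d + Y a d b c) / 2) ^ 2
        + (Y a b c d - Y a c b d) ^ 2 / 2 + Y a b c d ^ 2 / 2)
      = 2 * F a b c d ^ 2 - 2 * (F a b c d * Y a b c d) - 2 * (F a b c d * Y a c b d)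
        - 2 * (F a b c d * Y a d b c) + (3 / 2) * Y a b c d ^ 2 + Y a c b d ^ 2
        + (1 / 2) * Y a d b c ^ 2 + Y a b c d * Y a d b c + Y a c b d * Y a d b c := by
    intro a b c d
    ring
  simp only [e, Finset.sum_add_distrib, Finset.sum_sub_distrib, ← Finset.mul_sum] at h0
  rw [s2, s3, z2, z3, f2, f3] at h0
  linarith

/-- `2 |F|² - 6 ⟨F, Y⟩ + 3 |Σ|² + 2 Z ≥ 0` for totally symmetric tensors. -/
theorem calabi_alg (S : Fin n → Fin n → Fin n → ℝ) (F : Fin n → Fin n → Fin n → Fin n → ℝ)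
    (hS1 : ∀ a b c, S a b c = S b a c) (hS2 : ∀ a b c, S a b c = S a c b)
    (hF1 : ∀ a b c d, F a b c d = F b a c d) (hF2 : ∀ a b c d, F a b c d = F a c b d)
    (hF3 : ∀ a b c d, F a b c d = F a b d c) :
    0 ≤ 2 * (∑ a, ∑ b, ∑ c, ∑ d, F a b c d ^ 2)
      - 6 * (∑ a, ∑ b, ∑ c, ∑ d, F a b c d * ∑ m, S a b m * S c d m)
      + 3 * (∑ a, ∑ b, (∑ i, ∑ j, S i j a * S i j b) ^ 2)
      + 2 * (∑ a, ∑ b, ∑ c, ∑ d, (∑ m, S a b m * S c d m) * ∑ m, S a c m * S b d m) := by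
  rw [← ca_sq S]
  exact ca_abs (fun a b c d => ∑ m, S a b m * S c d m) F
    (fun a b c d => Finset.sum_congr rfl fun m _ => by rw [hS1 a b m])
    (fun a b c d => Finset.sum_congr rfl fun m _ => by rw [hS1 c d m]) hF2 hF3

end Vale.Agent.P227
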