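import Vale.Agent.P227.CalabiAlg

/-! The tensor algebra in Calabi's computation. -/

set_option linter.unusedSectionVars false
set_option linter.unusedVariables false
set_option linter.unusedSimpArgs false

namespace Vale.Agent.P227

open scoped ContDiff
open MeasureTheory Set Filter Topology Matrix

section perm
variable {ι : Type*} [Fintype ι]

theorem cp_sum4 {f g : ι → ι → ι → ι → ℝ} (φ ψ : ι × ι × ι × ι → ι × ι × ι × ι)
    (h1 : ∀ p, ψ (φ p) = p) (h2 : ∀ p, φ (ψ p) = p)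
    (h : ∀ p, f p.1 p.2.1 p.2.2.1 p.2.2.2 = g (φ p).1 (φ p).2.1 (φ p).2.2.1 (φ p).2.2.2) :
    ∑ a, ∑ b, ∑ c, ∑ d, f a b c d = ∑ a, ∑ b, ∑ c, ∑ d, g a b c d := by
  have e : ∀ f : ι → ι → ι → ι → ℝ, ∑ a, ∑ b, ∑ c, ∑ d, f a b c d
      = ∑ p : ι × ι × ι × ι, f p.1 p.2.1 p.2.2.1 p.2.2.2 := fun f => by
    simp only [Fintype.sum_prod_type]
  rw [e, e]
  exact Fintype.sum_equiv ⟨φ, ψ, h1, h2⟩ _ _ h

theorem cp_sum5 {f g : ι → ι → ι → ι → ι → ℝ} (φ ψ : ι × ι × ι × ι × ι → ι × ι × ι × ι × ι)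
    (h1 : ∀ p, ψ (φ p) = p) (h2 : ∀ p, φ (ψ p) = p)
    (h : ∀ p, f p.1 p.2.1 p.2.2.1 p.2.2.2.1 p.2.2.2.2
      = g (φ p).1 (φ p).2.1 (φ p).2.2.1 (φ p).2.2.2.1 (φ p).2.2.2.2) :
    ∑ a, ∑ b, ∑ c, ∑ d, ∑ e, f a b c d e = ∑ a, ∑ b, ∑ c, ∑ d, ∑ e, g a b c d e := by
  have e : ∀ f : ι → ι → ι → ι → ι → ℝ, ∑ a, ∑ b, ∑ c, ∑ d, ∑ e, f a b c d e
      = ∑ p : ι × ι × ι × ι × ι, f p.1 p.2.1 p.2.2.1 p.2.2.2.1 p.2.2.2.2 := fun f => by
    simp only [Fintype.sum_prod_type]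
  rw [e, e]
  exact Fintype.sum_equiv ⟨φ, ψ, h1, h2⟩ _ _ h

theorem cp_sum6 {f g : ι → ι → ι → ι → ι → ι → ℝ}
    (φ ψ : ι × ι × ι × ι × ι × ι → ι × ι × ι × ι × ι × ι)
    (h1 : ∀ p, ψ (φ p) = p) (h2 : ∀ p, φ (ψ p) = p)
    (h : ∀ p, f p.1 p.2.1 p.2.2.1 p.2.2.2.1 p.2.2.2.2.1 p.2.2.2.2.2
      = g (φ p).1 (φ p).2.1 (φ p).2.2.1 (φ p).2.2.2.1 (φ p).2.2.2.2.1 (φ p).2.2.2.2.2) :
    ∑ a, ∑ b, ∑ c, ∑ d, ∑ e, ∑ k, f a b c d e k
      = ∑ a, ∑ b, ∑ c, ∑ d, ∑ e, ∑ k, g a b c d e k := by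
  have e : ∀ f : ι → ι → ι → ι → ι → ι → ℝ, ∑ a, ∑ b, ∑ c, ∑ d, ∑ e, ∑ k, f a b c d e k
      = ∑ p : ι × ι × ι × ι × ι × ι, f p.1 p.2.1 p.2.2.1 p.2.2.2.1 p.2.2.2.2.1 p.2.2.2.2.2 :=
    fun f => by simp only [Fintype.sum_prod_type]
  rw [e, e]
  exact Fintype.sum_equiv ⟨φ, ψ, h1, h2⟩ _ _ h

end perm

variable {n : ℕ} (S : Fin n → Fin n → Fin n → ℝ) (F : Fin n → Fin n → Fin n → Fin n → ℝ)
  (N : Fin n → Fin n → ℝ)

/-- The pairing of `F` with `S * S`. -/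
def cpFY : ℝ := ∑ a, ∑ b, ∑ c, ∑ d, ∑ m, F a b c d * S a b m * S c d m

/-- The tetrahedral quartic contraction. -/
def cpZ : ℝ := ∑ a, ∑ b, ∑ c, ∑ d, ∑ m, ∑ l, S a b m * S c d m * S a c l * S b d l

/-- The pairing of `N` with the Gram matrix of `S`. -/
def cpN : ℝ := ∑ k, ∑ a, ∑ i, ∑ j, N k a * S i j k * S i j a

/-- The squared norm of `F`. -/
def cpFF : ℝ := ∑ a, ∑ b, ∑ c, ∑ d, F a b c d * F a b c d

variable (hS1 : ∀ a b c, S a b c = S b a c) (hS2 : ∀ a b c, S a b c = S a c b)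
  (hF1 : ∀ a b c d, F a b c d = F b a c d) (hF2 : ∀ a b c d, F a b c d = F a c b d)
  (hF3 : ∀ a b c d, F a b c d = F a b d c)

section sym
include hS1 hS2

theorem cp_e4 : ∑ a, ∑ b, ∑ c, S a b c * ∑ i, ∑ k, (∑ j, S i j a * S j k b) * S k i c
    = cpZ S := by
  simp only [cpZ, Finset.mul_sum, Finset.sum_mul]
  refine cp_sum6 (fun (a, b, c, i, k, j) => (b, c, j, i, a, k)) (fun (b, c, j, i, a, k) => (a, b, c, i, k, j))
      (fun _ => rfl) (fun _ => rfl) ?_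
  rintro ⟨a, b, c, i, k, j⟩
  simp only [hS1, hS2]
  ring

theorem cp_z1 : ∑ a, ∑ b, ∑ c, S a b c * ∑ i, ∑ k, S i k b * ∑ m, S i m a * S m k c
    = cpZ S := by
  simp only [cpZ, Finset.mul_sum, Finset.sum_mul]
  refine cp_sum6 (fun (a, b, c, i, k, m) => (a, c, i, k, b, m)) (fun (a, c, i, k, b, m) => (a, b, c, i, k, m))
      (fun _ => rfl) (fun _ => rfl) ?_
  rintro ⟨a, b, c, i, k, m⟩
  simp only [hS1, hS2]
  ring

theorem cp_z2 : ∑ a, ∑ b, ∑ c, S a b c * ∑ i, ∑ k, S i k c * ∑ m, S i m a * S m b k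
    = cpZ S := by
  simp only [cpZ, Finset.mul_sum, Finset.sum_mul]
  refine cp_sum6 (fun (a, b, c, i, k, m) => (a, b, i, k, c, m)) (fun (a, b, i, k, c, m) => (a, b, c, i, k, m))
      (fun _ => rfl) (fun _ => rfl) ?_
  rintro ⟨a, b, c, i, k, m⟩
  simp only [hS1, hS2]
  ring

theorem cp_z3 : ∑ a, ∑ b, ∑ c, S a b c * ∑ i, ∑ k, S i k c * ∑ m, S i m b * S a m k
    = cpZ S := by
  simp only [cpZ, Finset.mul_sum, Finset.sum_mul]
  refine cp_sum6 (fun (a, b, c, i, k, m) => (b, a, i, k, c, m)) (fun (b, a, i, k, c, m) => (a, b, c, i, k, m))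
      (fun _ => rfl) (fun _ => rfl) ?_
  rintro ⟨a, b, c, i, k, m⟩
  simp only [hS1, hS2]
  ring

theorem cp_n1 : ∑ a, ∑ b, ∑ c, S a b c * ∑ k, N k a * S k b c
    = cpN S N := by
  simp only [cpN, Finset.mul_sum, Finset.sum_mul]
  refine cp_sum4 (fun (a, b, c, k) => (k, a, b, c)) (fun (k, a, b, c) => (a, b, c, k))
      (fun _ => rfl) (fun _ => rfl) ?_
  rintro ⟨a, b, c, k⟩
  simp only [hS1, hS2]
  ring

theorem cp_n2 : ∑ a, ∑ b, ∑ c, S a b c * ∑ k, N k b * S a k c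
    = cpN S N := by
  simp only [cpN, Finset.mul_sum, Finset.sum_mul]
  refine cp_sum4 (fun (a, b, c, k) => (k, b, a, c)) (fun (k, b, a, c) => (a, b, c, k))
      (fun _ => rfl) (fun _ => rfl) ?_
  rintro ⟨a, b, c, k⟩
  simp only [hS1, hS2]
  ring

theorem cp_n3 : ∑ a, ∑ b, ∑ c, S a b c * ∑ k, N k c * S a b k
    = cpN S N := by
  simp only [cpN, Finset.mul_sum, Finset.sum_mul]
  refine cp_sum4 (fun (a, b, c, k) => (k, c, a, b)) (fun (k, c, a, b) => (a, b, c, k))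
      (fun _ => rfl) (fun _ => rfl) ?_
  rintro ⟨a, b, c, k⟩
  simp only [hS1, hS2]
  ring

include hF1 hF2 hF3

theorem cp_e1 : ∑ a, ∑ b, ∑ c, S a b c * ∑ i, ∑ j, F i j a b * S j i c
    = cpFY S F := by
  simp only [cpFY, Finset.mul_sum, Finset.sum_mul]
  refine cp_sum5 (fun (a, b, c, i, j) => (i, j, a, b, c)) (fun (i, j, a, b, c) => (a, b, c, i, j))
      (fun _ => rfl) (fun _ => rfl) ?_
  rintro ⟨a, b, c, i, j⟩
  simp only [hS1, hS2, hF1, hF2, hF3]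
  ring

theorem cp_e2 : ∑ a, ∑ b, ∑ c, S a b c * ∑ i, ∑ j, F i j a c * S j i b
    = cpFY S F := by
  simp only [cpFY, Finset.mul_sum, Finset.sum_mul]
  refine cp_sum5 (fun (a, b, c, i, j) => (i, j, a, c, b)) (fun (i, j, a, c, b) => (a, b, c, i, j))
      (fun _ => rfl) (fun _ => rfl) ?_
  rintro ⟨a, b, c, i, j⟩
  simp only [hS1, hS2, hF1, hF2, hF3]
  ring

theorem cp_e3 : ∑ a, ∑ b, ∑ c, S a b c * ∑ i, ∑ j, F i j b c * S j i a
    = cpFY S F := by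
  simp only [cpFY, Finset.mul_sum, Finset.sum_mul]
  refine cp_sum5 (fun (a, b, c, i, j) => (i, j, b, c, a)) (fun (i, j, b, c, a) => (a, b, c, i, j))
      (fun _ => rfl) (fun _ => rfl) ?_
  rintro ⟨a, b, c, i, j⟩
  simp only [hS1, hS2, hF1, hF2, hF3]
  ring

theorem cp_f1 : ∑ a, ∑ b, ∑ c, S a b c * ∑ i, ∑ k, S i k a * F i k b c
    = cpFY S F := by
  simp only [cpFY, Finset.mul_sum, Finset.sum_mul]
  refine cp_sum5 (fun (a, b, c, i, k) => (i, k, b, c, a)) (fun (i, k, b, c, a) => (a, b, c, i, k))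
      (fun _ => rfl) (fun _ => rfl) ?_
  rintro ⟨a, b, c, i, k⟩
  simp only [hS1, hS2, hF1, hF2, hF3]
  ring

theorem cp_f2 : ∑ a, ∑ b, ∑ c, S a b c * ∑ i, ∑ k, S i k b * F i a k c
    = cpFY S F := by
  simp only [cpFY, Finset.mul_sum, Finset.sum_mul]
  refine cp_sum5 (fun (a, b, c, i, k) => (i, k, a, c, b)) (fun (i, k, a, c, b) => (a, b, c, i, k))
      (fun _ => rfl) (fun _ => rfl) ?_
  rintro ⟨a, b, c, i, k⟩
  simp only [hS1, hS2, hF1, hF2, hF3]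
  ring

theorem cp_f3 : ∑ a, ∑ b, ∑ c, S a b c * ∑ i, ∑ k, S i k c * F i a b k
    = cpFY S F := by
  simp only [cpFY, Finset.mul_sum, Finset.sum_mul]
  refine cp_sum5 (fun (a, b, c, i, k) => (i, k, a, b, c)) (fun (i, k, a, b, c) => (a, b, c, i, k))
      (fun _ => rfl) (fun _ => rfl) ?_
  rintro ⟨a, b, c, i, k⟩
  simp only [hS1, hS2, hF1, hF2, hF3]
  ring

theorem cp_g1 : ∑ a, ∑ b, ∑ c, ∑ i, (∑ k, S i k a * S k b c) * F i a b c
    = cpFY S F := by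
  simp only [cpFY, Finset.mul_sum, Finset.sum_mul]
  refine cp_sum5 (fun (a, b, c, i, k) => (i, a, b, c, k)) (fun (i, a, b, c, k) => (a, b, c, i, k))
      (fun _ => rfl) (fun _ => rfl) ?_
  rintro ⟨a, b, c, i, k⟩
  simp only [hS1, hS2, hF1, hF2, hF3]
  ring

theorem cp_g2 : ∑ a, ∑ b, ∑ c, ∑ i, (∑ k, S i k b * S a k c) * F i a b c
    = cpFY S F := by
  simp only [cpFY, Finset.mul_sum, Finset.sum_mul]
  refine cp_sum5 (fun (a, b, c, i, k) => (i, b, a, c, k)) (fun (i, b, a, c, k) => (a, b, c, i, k))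
      (fun _ => rfl) (fun _ => rfl) ?_
  rintro ⟨a, b, c, i, k⟩
  simp only [hS1, hS2, hF1, hF2, hF3]
  ring

theorem cp_g3 : ∑ a, ∑ b, ∑ c, ∑ i, (∑ k, S i k c * S a b k) * F i a b c
    = cpFY S F := by
  simp only [cpFY, Finset.mul_sum, Finset.sum_mul]
  refine cp_sum5 (fun (a, b, c, i, k) => (i, c, a, b, k)) (fun (i, c, a, b, k) => (a, b, c, i, k))
      (fun _ => rfl) (fun _ => rfl) ?_
  rintro ⟨a, b, c, i, k⟩
  simp only [hS1, hS2, hF1, hF2, hF3]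
  ring

end sym

theorem cp_g0 : ∑ a, ∑ b, ∑ c, ∑ i, F i a b c * F i a b c = cpFF F :=
  cp_sum4 (fun (a, b, c, i) => (i, a, b, c)) (fun (i, a, b, c) => (a, b, c, i))
    (fun _ => rfl) (fun _ => rfl) fun _ => rfl

/-- Gradient after raising the first index. -/
def cpG1 (i a b c : Fin n) : ℝ := F i a b c - ∑ k, S i k a * S k b c

/-- Gradient after raising two indices. -/
def cpG2 (i a b c : Fin n) : ℝ := cpG1 S F i a b c - ∑ k, S i k b * S a k c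

/-- Gradient after raising three indices. -/
def cpG3 (i a b c : Fin n) : ℝ := cpG2 S F i a b c - ∑ k, S i k c * S a b k

variable (p0 : Fin n → Fin n → Fin n → ℝ)

/-- Parabolic derivative after raising the first index. -/
def cpP1 (a b c : Fin n) : ℝ :=
  p0 a b c + ∑ k, N k a * S k b c + 2 * ∑ i, ∑ k, S i k a * F i k b c

/-- Parabolic derivative after raising two indices. -/
def cpP2 (a b c : Fin n) : ℝ :=
  cpP1 S F N p0 a b c + ∑ k, N k b * S a k c + 2 * ∑ i, ∑ k, S i k b * cpG1 S F i a k c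

/-- Parabolic derivative after raising three indices. -/
def cpP3 (a b c : Fin n) : ℝ :=
  cpP2 S F N p0 a b c + ∑ k, N k c * S a b k + 2 * ∑ i, ∑ k, S i k c * cpG2 S F i a b k

include hS1 hS2 hF1 hF2 hF3 in
theorem cp_total :
    ∑ a, ∑ b, ∑ c, (S a b c * p0 a b c + S a b c * cpP3 S F N p0 a b c
        - 2 * ∑ i, cpG3 S F i a b c * F i a b c)
      = 2 * (∑ a, ∑ b, ∑ c, S a b c * p0 a b c) + 3 * cpN S N + 12 * cpFY S F - 6 * cpZ S
        - 2 * cpFF F := by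
  have e : ∀ a b c, (S a b c * p0 a b c + S a b c * cpP3 S F N p0 a b c
        - 2 * ∑ i, cpG3 S F i a b c * F i a b c)
      = 2 * (S a b c * p0 a b c) + S a b c * ∑ k, N k a * S k b c
        + S a b c * ∑ k, N k b * S a k c + S a b c * ∑ k, N k c * S a b k
        + 2 * (S a b c * ∑ i, ∑ k, S i k a * F i k b c)
        + 2 * (S a b c * ∑ i, ∑ k, S i k b * F i a k c)
        + 2 * (S a b c * ∑ i, ∑ k, S i k c * F i a b k)
        - 2 * (S a b c * ∑ i, ∑ k, S i k b * ∑ m, S i m a * S m k c)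
        - 2 * (S a b c * ∑ i, ∑ k, S i k c * ∑ m, S i m a * S m b k)
        - 2 * (S a b c * ∑ i, ∑ k, S i k c * ∑ m, S i m b * S a m k)
        - 2 * (∑ i, F i a b c * F i a b c)
        + 2 * (∑ i, (∑ k, S i k a * S k b c) * F i a b c)
        + 2 * (∑ i, (∑ k, S i k b * S a k c) * F i a b c)
        + 2 * (∑ i, (∑ k, S i k c * S a b k) * F i a b c) := by
    intro a b c
    simp only [cpP3, cpP2, cpP1, cpG3, cpG2, cpG1, mul_sub, sub_mul, Finset.sum_sub_distrib]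
    ring
  simp only [e, Finset.sum_add_distrib, Finset.sum_sub_distrib, ← Finset.mul_sum (a := (2 : ℝ))]
  rw [cp_n1 S N hS1 hS2, cp_n2 S N hS1 hS2, cp_n3 S N hS1 hS2, cp_z1 S hS1 hS2, cp_z2 S hS1 hS2,
    cp_z3 S hS1 hS2, cp_f1 S F hS1 hS2 hF1 hF2 hF3, cp_f2 S F hS1 hS2 hF1 hF2 hF3,
    cp_f3 S F hS1 hS2 hF1 hF2 hF3, cp_g1 S F hS1 hS2 hF1 hF2 hF3, cp_g2 S F hS1 hS2 hF1 hF2 hF3,
    cp_g3 S F hS1 hS2 hF1 hF2 hF3, cp_g0]
  ring

include hS1 hS2 hF1 hF2 hF3 in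
theorem cp_alg (W : Fin n → Fin n → Fin n → ℝ) (Vh : Mat n) (hV : LB 0 Vh)
    (hp0 : ∀ a b c, p0 a b c = -(∑ i, ∑ j, F i j a b * S j i c) - (∑ i, ∑ j, F i j a c * S j i b)
      - (∑ i, ∑ j, F i j b c * S j i a) + 2 * (∑ i, ∑ k, (∑ j, S i j a * S j k b) * S k i c)
      - 2 * S a b c + W a b c)
    (hN : ∀ k a, N k a = (if k = a then 1 else 0) - Vh k a - ∑ i, ∑ j, S i j k * S j i a) :
    ∑ a, ∑ b, ∑ c, (S a b c * p0 a b c + S a b c * cpP3 S F N p0 a b c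
        - 2 * ∑ i, cpG3 S F i a b c * F i a b c)
      ≤ -(∑ a, ∑ b, ∑ c, S a b c ^ 2) + 2 * ∑ a, ∑ b, ∑ c, S a b c * W a b c := by
  have h0 : ∑ a, ∑ b, ∑ c, S a b c * p0 a b c
      = -3 * cpFY S F + 2 * cpZ S - 2 * (∑ a, ∑ b, ∑ c, S a b c ^ 2)
        + ∑ a, ∑ b, ∑ c, S a b c * W a b c := by
    have e : ∀ a b c, S a b c * p0 a b c
        = 2 * (S a b c * ∑ i, ∑ k, (∑ j, S i j a * S j k b) * S k i c)
          - S a b c * ∑ i, ∑ j, F i j a b * S j i c - S a b c * ∑ i, ∑ j, F i j a c * S j i b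
          - S a b c * ∑ i, ∑ j, F i j b c * S j i a - 2 * S a b c ^ 2 + S a b c * W a b c := by
      intro a b c
      rw [hp0]
      ring
    simp only [e, Finset.sum_add_distrib, Finset.sum_sub_distrib,
      ← Finset.mul_sum (a := (2 : ℝ))]
    rw [cp_e4 S hS1 hS2, cp_e1 S F hS1 hS2 hF1 hF2 hF3, cp_e2 S F hS1 hS2 hF1 hF2 hF3,
      cp_e3 S F hS1 hS2 hF1 hF2 hF3]
    ring
  have hVp : 0 ≤ cpN S fun k a => Vh k a := by
    have e : cpN S (fun k a => Vh k a) = ∑ i, ∑ j, qf Vh fun k => S i j k :=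
      cp_sum4 (fun (k, a, i, j) => (i, j, k, a)) (fun (i, j, k, a) => (k, a, i, j))
        (fun _ => rfl) (fun _ => rfl) fun _ => rfl
    rw [e]
    refine Finset.sum_nonneg fun i _ => Finset.sum_nonneg fun j _ => ?_
    have := hV fun k => S i j k
    rwa [zero_mul] at this
  have h1 : cpN S N = (∑ a, ∑ b, ∑ c, S a b c ^ 2) - cpN S (fun k a => Vh k a)
      - ∑ a, ∑ b, (∑ i, ∑ j, S i j a * S i j b) ^ 2 := by
    have e1 : ∑ k, ∑ a, ∑ i, ∑ j, (if k = a then (1 : ℝ) else 0) * S i j k * S i j a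
        = ∑ a, ∑ b, ∑ c, S a b c ^ 2 := by
      refine Finset.sum_congr rfl fun k _ => ?_
      rw [Finset.sum_eq_single k (fun a _ ha => by simp [Ne.symm ha]) (by simp)]
      refine Finset.sum_congr rfl fun i _ => Finset.sum_congr rfl fun j _ => ?_
      rw [hS2 i j k, hS1 i k j, if_pos rfl]
      ring
    have e2 : ∀ k a, ∑ i, ∑ j, (∑ i, ∑ j, S i j k * S j i a) * S i j k * S i j a
        = (∑ i, ∑ j, S i j k * S i j a) ^ 2 := by
      intro k a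
      have : ∑ i, ∑ j, S i j k * S j i a = ∑ i, ∑ j, S i j k * S i j a :=
        Finset.sum_congr rfl fun i _ => Finset.sum_congr rfl fun j _ => by rw [hS1 j i a]
      rw [this, sq]
      simp only [mul_assoc, ← Finset.mul_sum]
    simp only [cpN, hN, sub_mul, Finset.sum_sub_distrib, e2]
    rw [e1]
  have h2 := calabi_alg S F hS1 hS2 hF1 hF2 hF3
  have e3 : ∑ a, ∑ b, ∑ c, ∑ d, F a b c d ^ 2 = cpFF F := by simp only [cpFF, sq]
  have e4 : ∑ a, ∑ b, ∑ c, ∑ d, F a b c d * ∑ m, S a b m * S c d m = cpFY S F := by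
    simp only [cpFY, Finset.mul_sum, mul_assoc]
  have e5 : ∑ a, ∑ b, ∑ c, ∑ d, (∑ m, S a b m * S c d m) * ∑ m, S a c m * S b d m = cpZ S := by
    simp only [cpZ, Finset.sum_mul_sum, mul_assoc]
  rw [e3, e4, e5] at h2
  rw [cp_total S F N hS1 hS2 hF1 hF2 hF3, h0, h1]
  linarith

end Vale.Agent.P227
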