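import Vale.Agent.P227.PCalc
import Vale.Agent.P227.CalabiAlg
import Vale.Agent.P227.CalabiPAux

/-! Calabi's computation at a point where the Hessian is the identity. -/

set_option linter.unusedSectionVars false
set_option linter.unusedVariables false

namespace Vale.Agent.P227

open scoped ContDiff
open MeasureTheory Set Filter Topology Matrix

variable {n : ℕ} {V : X n → ℝ} {T t : ℝ} {u : ℝ → X n → ℝ} {x : X n}

/-- Value, gradient and parabolic derivative of a function at a point. -/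
structure CpJet (T : ℝ) (τ : X n → Mat n) (t : ℝ) (x : X n) (f : ℝ → X n → ℝ) (v : ℝ)
    (γ : Fin n → ℝ) (p : ℝ) : Prop where
  hp : HasP T τ f t x p
  val : f t x = v
  grad : ∀ i, pd i (f t) x = γ i

section jets
variable {τ : X n → Mat n} {f g : ℝ → X n → ℝ} {v v' p p' : ℝ} {γ γ' : Fin n → ℝ}

theorem CpJet.congr (hf : CpJet T τ t x f v γ p) (h1 : v = v') (h2 : ∀ i, γ i = γ' i)
    (h3 : p = p') : CpJet T τ t x f v' γ' p' :=
  ⟨hf.hp.congr h3, hf.val.trans h1, fun i => (hf.grad i).trans (h2 i)⟩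

theorem CpJet.mul (hτ : τ x = 1) (hf : CpJet T τ t x f v γ p) (hg : CpJet T τ t x g v' γ' p') :
    CpJet T τ t x (fun s y => f s y * g s y) (v * v') (fun i => γ i * v' + v * γ' i)
      (v * p' + v' * p - 2 * ∑ i, γ i * γ' i) := by
  refine ⟨(hf.hp.mul hg.hp (hτ ▸ Matrix.isSymm_one)).congr ?_, ?_, fun i => ?_⟩
  · rw [gam_one hτ, hf.val, hg.val]
    simp only [hf.grad, hg.grad]
  · rw [hf.val, hg.val]
  · rw [pd_mul (hf.hp.sm.diff x) (hg.hp.sm.diff x), hf.val, hg.val, hf.grad, hg.grad]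

theorem CpJet.sum {F : Fin n → ℝ → X n → ℝ} {w q : Fin n → ℝ} {G : Fin n → Fin n → ℝ}
    (hF : ∀ k, CpJet T τ t x (F k) (w k) (G k) (q k)) :
    CpJet T τ t x (fun s y => ∑ k, F k s y) (∑ k, w k) (fun i => ∑ k, G k i) (∑ k, q k) := by
  refine ⟨HasP.sum _ fun k _ => (hF k).hp, Finset.sum_congr rfl fun k _ => (hF k).val,
    fun i => ?_⟩
  rw [pd_sum _ fun k _ => (hF k).hp.sm.diff x]
  exact Finset.sum_congr rfl fun k _ => (hF k).grad i

theorem CpJet.raise (hτ : τ x = 1) {σ : ℝ → X n → Mat n} {S : Fin n → Fin n → Fin n → ℝ}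
    {N : Fin n → Fin n → ℝ}
    (hσ : ∀ k b, CpJet T τ t x (fun s y => σ s y k b) (if k = b then 1 else 0)
      (fun i => -S i k b) (N k b))
    {F : Fin n → ℝ → X n → ℝ} {w q : Fin n → ℝ} {G : Fin n → Fin n → ℝ}
    (hF : ∀ k, CpJet T τ t x (F k) (w k) (G k) (q k)) (b : Fin n) :
    CpJet T τ t x (fun s y => ∑ k, σ s y k b * F k s y) (w b)
      (fun i => G b i - ∑ k, S i k b * w k)
      (q b + ∑ k, N k b * w k + 2 * ∑ i, ∑ k, S i k b * G k i) := by
  refine (CpJet.sum fun k => (hσ k b).mul hτ (hF k)).congr (by simp) (fun i => ?_) ?_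
  · simp only [Finset.sum_add_distrib, neg_mul, Finset.sum_neg_distrib, ite_mul, one_mul,
      zero_mul, Finset.sum_ite_eq', Finset.mem_univ, if_true]
    ring
  · simp only [Finset.sum_add_distrib, Finset.sum_sub_distrib, neg_mul, Finset.sum_neg_distrib,
      ite_mul, one_mul, zero_mul, Finset.sum_ite_eq', Finset.mem_univ, if_true, mul_neg,
      ← Finset.mul_sum]
    rw [Finset.sum_comm (f := fun i k => S i k b * G k i)]
    simp only [mul_comm (w _)]
    ring

end jets

theorem cp_perm3 {u : X n → ℝ} (hu : Sm u) (y : X n) :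
    (∀ a b c, pds [a, b, c] u y = pds [b, a, c] u y) ∧
      ∀ a b c, pds [a, b, c] u y = pds [a, c, b] u y :=
  ⟨fun a b c => congrFun (pds_perm hu (List.Perm.swap b a [c])) y,
    fun a b c => congrFun (pds_perm hu ((List.Perm.swap c b []).cons a)) y⟩

theorem cp_cal_eq {u : X n → ℝ} (hu : Sm u) (y : X n) :
    cal u y = ∑ a, ∑ b, ∑ c, (∑ k, tau u y k c * ∑ l, tau u y l b * ∑ m, tau u y m a
      * pds [m, l, k] u y) * pds [a, b, c] u y := by
  obtain ⟨h1, h2⟩ := cp_perm3 hu y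
  have hτ : ∀ i j, tau u y i j = tau u y j i := fun i j => (tau_isSymm hu y).apply j i
  have hh : ∀ a i j, hess (pd a u) y i j = pds [i, j, a] u y := fun _ _ _ => rfl
  simp only [cal, sig, Matrix.of_apply, Matrix.trace, Matrix.diag, Matrix.mul_apply, hh,
    Finset.mul_sum, Finset.sum_mul]
  refine cp_sum6 (fun (a, b, p, s, r, q) => (p, s, b, a, r, q))
    (fun (p, s, b, a, r, q) => (a, b, p, s, r, q)) (fun _ => rfl) (fun _ => rfl) ?_
  rintro ⟨a, b, p, s, r, q⟩
  simp only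
  rw [hτ p q, h1 s p b]
  ring

theorem cal_eq_of_one {u : X n → ℝ} (hu : Sm u) (h1 : hess u x = 1) :
    cal u x = ∑ a, ∑ b, ∑ c, pds [a, b, c] u x ^ 2 := by
  have hτ : tau u x = 1 := by rw [tau, h1, inv_one]
  rw [cp_cal_eq hu, hτ]
  simp only [Matrix.one_apply, ite_mul, one_mul, zero_mul, Finset.sum_ite_eq', Finset.mem_univ,
    if_true, sq]

theorem hasP_cal (hu : NSol V T u) (hV : Sm V) (ht : t ∈ Icc 0 T) (h1 : hess (u t) x = 1)
    (hV0 : LB 0 (hess V x)) :
    ∃ p, HasP T (tau (u t)) (fun s => cal (u s)) t x p ∧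
      p ≤ -cal (u t) x + 2 * ∑ a, ∑ b, ∑ c, pds [a, b, c] (u t) x * pds [a, b, c] V x := by
  have hs : ∀ s, Sm (u s) := hu.sol.jc.1
  have hτ : tau (u t) x = 1 := by rw [tau, h1, inv_one]
  have hd : ∀ y, 0 < (hess (u t) y).det := hu.det_pos t
  set S : Fin n → Fin n → Fin n → ℝ := fun a b c => pds [a, b, c] (u t) x with hS
  set F : Fin n → Fin n → Fin n → Fin n → ℝ := fun i a b c => pds [i, a, b, c] (u t) x with hF
  set W : Fin n → Fin n → Fin n → ℝ := fun a b c => pds [a, b, c] V x with hW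
  set N : Fin n → Fin n → ℝ := fun k a =>
    (if k = a then 1 else 0) - hess V x k a - ∑ i, ∑ j, S i j k * S j i a with hN
  set p0 : Fin n → Fin n → Fin n → ℝ := fun a b c =>
    Rem [a, b, c] (u t) x - 2 * S a b c + W a b c with hp0
  obtain ⟨hS1, hS2⟩ : (∀ a b c, S a b c = S b a c) ∧ ∀ a b c, S a b c = S a c b :=
    cp_perm3 (hs t) x
  have hF1 : ∀ a b c d, F a b c d = F b a c d := fun a b c d =>
    congrFun (pds_perm (hs t) (List.Perm.swap b a [c, d])) x
  have hF2 : ∀ a b c d, F a b c d = F a c b d := fun a b c d =>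
    congrFun (pds_perm (hs t) ((List.Perm.swap c b [d]).cons a)) x
  have hF3 : ∀ a b c d, F a b c d = F a b d c := fun a b c d =>
    congrFun (pds_perm (hs t) (((List.Perm.swap d c []).cons b).cons a)) x
  have hh : ∀ a i j, hess (pd a (u t)) x i j = S i j a := fun _ _ _ => rfl
  have hh2 : ∀ a b i j, hess (pd a (pd b (u t))) x i j = F i j a b := fun _ _ _ _ => rfl
  have jT : ∀ a b c, CpJet T (tau (u t)) t x (fun s => pds [a, b, c] (u s)) (S a b c)
      (fun i => F i a b c) (p0 a b c) := fun a b c =>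
    ⟨(hu.hasP_pds hV ht x [a, b, c]).congr (by simp only [hp0, hS, hW, List.length]; norm_num),
      rfl, fun i => rfl⟩
  have jτ : ∀ k b, CpJet T (tau (u t)) t x (fun s y => tau (u s) y k b) (if k = b then 1 else 0)
      (fun i => -S i k b) (N k b) := by
    intro k b
    refine ⟨(hu.hasP_tau hV ht x k b).congr ?_, by rw [hτ, Matrix.one_apply], fun i => ?_⟩
    · simp only [hN, hτ, Matrix.one_mul, Matrix.mul_one, Matrix.sub_apply, Matrix.one_apply, sig,
        Matrix.of_apply, Matrix.trace, Matrix.diag, Matrix.mul_apply (M := hess _ _), hh]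
    · rw [pd_tau (hs t) (fun y => (hd y).ne'), hτ, Matrix.one_mul, Matrix.mul_one, hh,
        hS2 k b i, hS1 k i b]
  have j1 : ∀ a b c, CpJet T (tau (u t)) t x
      (fun s y => ∑ m, tau (u s) y m a * pds [m, b, c] (u s) y) (S a b c)
      (fun i => cpG1 S F i a b c) (cpP1 S F N p0 a b c) := fun a b c =>
    CpJet.raise hτ jτ (fun m => jT m b c) a
  have j2 : ∀ a b c, CpJet T (tau (u t)) t x
      (fun s y => ∑ l, tau (u s) y l b * ∑ m, tau (u s) y m a * pds [m, l, c] (u s) y) (S a b c)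
      (fun i => cpG2 S F i a b c) (cpP2 S F N p0 a b c) := fun a b c =>
    CpJet.raise hτ jτ (fun l => j1 a l c) b
  have j3 : ∀ a b c, CpJet T (tau (u t)) t x
      (fun s y => ∑ k, tau (u s) y k c * ∑ l, tau (u s) y l b * ∑ m, tau (u s) y m a
        * pds [m, l, k] (u s) y) (S a b c)
      (fun i => cpG3 S F i a b c) (cpP3 S F N p0 a b c) := fun a b c =>
    CpJet.raise hτ jτ (fun k => j2 a b k) c
  have j4 := (CpJet.sum fun a => CpJet.sum fun b => CpJet.sum fun c =>
    (j3 a b c).mul hτ (jT a b c)).hp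
  have e : (fun s => cal (u s)) = fun s y => ∑ a, ∑ b, ∑ c, (∑ k, tau (u s) y k c
      * ∑ l, tau (u s) y l b * ∑ m, tau (u s) y m a * pds [m, l, k] (u s) y)
        * pds [a, b, c] (u s) y := by
    funext s y
    exact cp_cal_eq (hs s) y
  refine ⟨_, e ▸ j4, ?_⟩
  rw [cal_eq_of_one (hs t) h1]
  refine cp_alg S F N hS1 hS2 hF1 hF2 hF3 p0 W (hess V x) hV0 (fun a b c => ?_) fun _ _ => rfl
  simp only [hp0, rem_three (hs t) hd, hτ, Matrix.one_mul, Matrix.mul_one, Matrix.trace,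
    Matrix.diag, Matrix.mul_apply, hh, hh2]

end Vale.Agent.P227
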