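import Vale.Agent.P227.Basic

/-! Calculus of coordinate derivatives. -/

set_option linter.unusedSectionVars false
set_option linter.unusedVariables false

namespace Vale.Agent.P227

open scoped ContDiff
open MeasureTheory Set Filter Topology Matrix

variable {ι : Type*} [Fintype ι] [DecidableEq ι] {f g : (ι → ℝ) → ℝ}

theorem Sm.diff (hf : Sm f) : Differentiable ℝ f := hf.differentiable (by simp)

theorem Sm.cont (hf : Sm f) : Continuous f := hf.continuous

theorem Sm.pd (hf : Sm f) (i : ι) : Sm (pd i f) := (hf.fderiv_right (m := ∞) le_rfl).clm_apply contDiff_const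

theorem Sm.pds (hf : Sm f) (l : List ι) : Sm (pds l f) := by
  induction l with
  | nil => exact hf
  | cons i l ih => exact ih.pd i

theorem sm_coord (j : ι) : Sm (fun x : ι → ℝ => x j) := contDiff_apply ℝ ℝ j

theorem fderiv_eq_sum (f : (ι → ℝ) → ℝ) (x v : ι → ℝ) :
    fderiv ℝ f x v = ∑ i, v i * pd i f x := by
  conv_lhs => rw [← Finset.univ_sum_single v]
  rw [map_sum]
  refine Finset.sum_congr rfl fun i _ => ?_
  have : (Pi.single i (v i) : ι → ℝ) = v i • Pi.single i 1 := by
    rw [← Pi.single_smul', smul_eq_mul, mul_one]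
  rw [this, map_smul, smul_eq_mul, pd]

theorem pd_add {x : ι → ℝ} (hf : DifferentiableAt ℝ f x) (hg : DifferentiableAt ℝ g x) (i : ι) :
    pd i (fun y => f y + g y) x = pd i f x + pd i g x := by
  simp only [pd, fderiv_fun_add hf hg, _root_.add_apply]

theorem pd_sub {x : ι → ℝ} (hf : DifferentiableAt ℝ f x) (hg : DifferentiableAt ℝ g x) (i : ι) :
    pd i (fun y => f y - g y) x = pd i f x - pd i g x := by
  simp only [pd, fderiv_fun_sub hf hg, _root_.sub_apply]

theorem pd_neg (f : (ι → ℝ) → ℝ) (i : ι) (x : ι → ℝ) :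
    pd i (fun y => -f y) x = -pd i f x := by
  simp only [pd, fderiv_fun_neg, _root_.neg_apply]

theorem pd_mul {x : ι → ℝ} (hf : DifferentiableAt ℝ f x) (hg : DifferentiableAt ℝ g x) (i : ι) :
    pd i (fun y => f y * g y) x = pd i f x * g x + f x * pd i g x := by
  simp only [pd, fderiv_fun_mul hf hg, _root_.add_apply,
    _root_.smul_apply, smul_eq_mul]
  ring

theorem pd_const_mul {x : ι → ℝ} (hf : DifferentiableAt ℝ f x) (c : ℝ) (i : ι) :
    pd i (fun y => c * f y) x = c * pd i f x := by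
  simp only [pd, fderiv_const_mul hf, _root_.smul_apply, smul_eq_mul]

theorem pd_const (c : ℝ) (i : ι) (x : ι → ℝ) : pd i (fun _ => c) x = 0 := by
  simp [pd]

theorem pd_sum {κ : Type*} (s : Finset κ) {F : κ → (ι → ℝ) → ℝ} {x : ι → ℝ}
    (hF : ∀ k ∈ s, DifferentiableAt ℝ (F k) x) (i : ι) :
    pd i (fun y => ∑ k ∈ s, F k y) x = ∑ k ∈ s, pd i (F k) x := by
  simp only [pd, fderiv_fun_sum hF, _root_.sum_apply]

theorem pd_coord (i j : ι) (x : ι → ℝ) :
    pd i (fun y : ι → ℝ => y j) x = if i = j then 1 else 0 := by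
  have : fderiv ℝ (fun y : ι → ℝ => y j) x = ContinuousLinearMap.proj j :=
    (ContinuousLinearMap.proj (R := ℝ) (φ := fun _ : ι => ℝ) j).fderiv
  rw [pd, this, ContinuousLinearMap.proj_apply, Pi.single_apply]
  simp only [eq_comm]

/-- Chain rule with an outer function of one real variable. -/
theorem pd_comp_real {φ : ℝ → ℝ} {x : ι → ℝ} (hφ : DifferentiableAt ℝ φ (f x))
    (hf : DifferentiableAt ℝ f x) (i : ι) :
    pd i (fun y => φ (f y)) x = deriv φ (f x) * pd i f x := by
  have := (hφ.hasDerivAt.comp_hasFDerivAt x hf.hasFDerivAt).fderiv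
  rw [pd, pd]
  erw [this]
  simp

/-- Chain rule. -/
theorem pd_comp {κ : Type*} [Fintype κ] [DecidableEq κ] {Φ : (κ → ℝ) → ℝ}
    {G : (ι → ℝ) → κ → ℝ} {x : ι → ℝ} (hΦ : DifferentiableAt ℝ Φ (G x))
    (hG : ∀ k, DifferentiableAt ℝ (fun y => G y k) x) (i : ι) :
    pd i (fun y => Φ (G y)) x = ∑ k, pd k Φ (G x) * pd i (fun y => G y k) x := by
  have hG' : DifferentiableAt ℝ G x := differentiableAt_pi.2 hG
  have h1 : fderiv ℝ (fun y => Φ (G y)) x = (fderiv ℝ Φ (G x)).comp (fderiv ℝ G x) :=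
    fderiv_comp x hΦ hG'
  have h2 : fderiv ℝ G x = ContinuousLinearMap.pi fun k => fderiv ℝ (fun y => G y k) x :=
    fderiv_pi hG
  rw [pd, h1, ContinuousLinearMap.comp_apply, fderiv_eq_sum, h2]
  exact Finset.sum_congr rfl fun k _ => mul_comm _ _

theorem Sm.comp_pi {κ : Type*} [Fintype κ] [DecidableEq κ] {Φ : (κ → ℝ) → ℝ}
    {G : (ι → ℝ) → κ → ℝ} (hΦ : Sm Φ) (hG : ∀ k, Sm (fun y => G y k)) :
    Sm (fun y => Φ (G y)) := ContDiff.comp hΦ (contDiff_pi' hG)

theorem pd_comm (hf : Sm f) (i j : ι) : pd i (pd j f) = pd j (pd i f) := by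
  funext x
  have hd : DifferentiableAt ℝ (fderiv ℝ f) x :=
    (hf.fderiv_right (m := ∞) le_rfl).differentiable (by simp) x
  have key : ∀ a b : ι, pd a (pd b f) x
      = fderiv ℝ (fderiv ℝ f) x (Pi.single a 1) (Pi.single b 1) := by
    intro a b
    have := fderiv_clm_apply hd (differentiableAt_const (Pi.single b (1 : ℝ) : ι → ℝ))
    unfold pd
    rw [this]
    simp
  rw [key, key]
  exact (hf.contDiffAt.isSymmSndFDerivAt (by
    rw [minSmoothness_of_isRCLikeNormedField]
    exact WithTop.coe_le_coe.2 (le_top : (2 : ℕ∞) ≤ ⊤))).eq _ _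

theorem pds_pd (hf : Sm f) (l : List ι) (i : ι) : pds l (pd i f) = pd i (pds l f) := by
  induction l with
  | nil => rfl
  | cons j l ih => rw [pds_cons, ih, pd_comm (hf.pds l), pds_cons]

theorem pds_append (l m : List ι) (f : (ι → ℝ) → ℝ) : pds (l ++ m) f = pds l (pds m f) := by
  induction l with
  | nil => rfl
  | cons j l ih => rw [List.cons_append, pds_cons, ih, pds_cons]

theorem pds_perm (hf : Sm f) {l m : List ι} (h : l.Perm m) : pds l f = pds m f := by
  induction h with
  | nil => rfl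
  | cons i _ ih => rw [pds_cons, ih, pds_cons]
  | swap i j l => exact pd_comm (hf.pds l) _ _
  | trans _ _ h1 h2 => exact h1.trans h2

theorem pds_add (hf : Sm f) (hg : Sm g) (l : List ι) :
    pds l (fun y => f y + g y) = fun y => pds l f y + pds l g y := by
  induction l with
  | nil => rfl
  | cons j l ih =>
    funext y
    rw [pds_cons, ih, pd_add ((hf.pds l).diff y) ((hg.pds l).diff y)]
    rfl

theorem pds_sub (hf : Sm f) (hg : Sm g) (l : List ι) :
    pds l (fun y => f y - g y) = fun y => pds l f y - pds l g y := by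
  induction l with
  | nil => rfl
  | cons j l ih =>
    funext y
    rw [pds_cons, ih, pd_sub ((hf.pds l).diff y) ((hg.pds l).diff y)]
    rfl

theorem pds_neg (f : (ι → ℝ) → ℝ) (l : List ι) :
    pds l (fun y => -f y) = fun y => -pds l f y := by
  induction l with
  | nil => rfl
  | cons j l ih =>
    funext y
    rw [pds_cons, ih, pd_neg]
    rfl

theorem pds_const_mul (hf : Sm f) (c : ℝ) (l : List ι) :
    pds l (fun y => c * f y) = fun y => c * pds l f y := by
  induction l with
  | nil => rfl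
  | cons j l ih =>
    funext y
    rw [pds_cons, ih, pd_const_mul ((hf.pds l).diff y)]
    rfl

theorem pds_sum {κ : Type*} (s : Finset κ) {F : κ → (ι → ℝ) → ℝ} (hF : ∀ k ∈ s, Sm (F k))
    (l : List ι) : pds l (fun y => ∑ k ∈ s, F k y) = fun y => ∑ k ∈ s, pds l (F k) y := by
  induction l with
  | nil => rfl
  | cons j l ih =>
    funext y
    rw [pds_cons, ih, pd_sum s fun k hk => ((hF k hk).pds l).diff y]
    rfl

theorem pds_const (c : ℝ) {l : List ι} (hl : l ≠ []) : pds l (fun _ => c) = fun _ => 0 := by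
  have h0 : ∀ l : List ι, ∃ d : ℝ, pds l (fun _ => c) = fun _ => d := by
    intro l
    induction l with
    | nil => exact ⟨c, rfl⟩
    | cons j l ih =>
      obtain ⟨d, hd⟩ := ih
      exact ⟨0, funext fun y => by rw [pds_cons, hd, pd_const]⟩
  obtain ⟨j, l, rfl⟩ := List.exists_cons_of_ne_nil hl
  obtain ⟨d, hd⟩ := h0 l
  exact funext fun y => by rw [pds_cons, hd, pd_const]

theorem pds_zero (l : List ι) : pds l (fun _ : ι → ℝ => (0 : ℝ)) = fun _ => 0 := by
  rcases eq_or_ne l [] with rfl | hl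
  · rfl
  · exact pds_const 0 hl

theorem pds_scale (hf : Sm f) (c : ℝ) (l : List ι) :
    pds l (fun y => f (c • y)) = fun y => c ^ l.length * pds l f (c • y) := by
  induction l with
  | nil => simp
  | cons j l ih =>
    funext y
    have hd : DifferentiableAt ℝ (fun y => pds l f (c • y)) y :=
      ((hf.pds l).diff _).comp y (differentiableAt_id.const_smul c)
    rw [pds_cons, ih, pd_const_mul hd, pd, fderiv_comp_smul, pds_cons, pd]
    simp only [_root_.smul_apply, smul_eq_mul, List.length_cons]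
    ring

theorem pds_translate (f : (ι → ℝ) → ℝ) (a : ι → ℝ) (l : List ι) :
    pds l (fun y => f (y + a)) = fun y => pds l f (y + a) := by
  induction l with
  | nil => rfl
  | cons j l ih =>
    funext y
    rw [pds_cons, ih, pd, fderiv_comp_add_right, pds_cons, pd]

theorem Ev.pds_neg (he : Ev f) (hf : Sm f) (l : List ι) (x : ι → ℝ) :
    pds l f (-x) = (-1) ^ l.length * pds l f x := by
  have h1 : (fun y => f ((-1 : ℝ) • y)) = f := funext fun y => by rw [neg_one_smul, he]
  have h2 := congrFun (pds_scale hf (-1) l) (-x)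
  rw [h1] at h2
  simpa using h2

theorem Ev.pd_zero (he : Ev f) (hf : Sm f) (i : ι) : pd i f 0 = 0 := by
  have := he.pds_neg hf [i] 0
  simp only [neg_zero, pds_cons, pds_nil, List.length_singleton, pow_one] at this
  linarith

/-- The drift commutator: `∂^l (x · ∇ f) = x · ∇ ∂^l f + |l| ∂^l f`. -/
theorem pds_drift (hf : Sm f) (l : List ι) :
    pds l (fun y => ∑ i, y i * pd i f y)
      = fun y => ∑ i, y i * pd i (pds l f) y + l.length * pds l f y := by
  induction l with
  | nil => simp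
  | cons j l ih =>
    funext y
    have hg := hf.pds l
    have h1 : ∀ i, DifferentiableAt ℝ (fun y : ι → ℝ => y i * pd i (pds l f) y) y := fun i =>
      ((sm_coord i).mul (hg.pd i)).differentiable (by simp) y
    rw [pds_cons, ih, pd_add (DifferentiableAt.fun_sum fun i _ => h1 i) ((hg.diff y).const_mul _),
      pd_sum _ fun i _ => h1 i, pd_const_mul (hg.diff y)]
    simp only [pd_mul ((sm_coord _).diff y) ((hg.pd _).diff y), pd_coord, Finset.sum_add_distrib,
      ite_mul, one_mul, zero_mul, Finset.sum_ite_eq, Finset.mem_univ, if_true, pds_cons,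
      List.length_cons, pd_comm hg j]
    push_cast
    ring

theorem hasDerivAt_line {x v : ι → ℝ} {s : ℝ} (hf : DifferentiableAt ℝ f (x + s • v)) :
    HasDerivAt (fun r : ℝ => f (x + r • v)) (∑ i, v i * pd i f (x + s • v)) s := by
  have h1 : HasDerivAt (fun r : ℝ => x + r • v) v s := by
    simpa using ((hasDerivAt_id s).smul_const v).const_add x
  rw [← fderiv_eq_sum]
  exact hf.hasFDerivAt.comp_hasDerivAt s h1

theorem hasDerivAt_axis {x : ι → ℝ} {i : ι} {s : ℝ}
    (hf : DifferentiableAt ℝ f (x + s • Pi.single i 1)) :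
    HasDerivAt (fun r : ℝ => f (x + r • Pi.single i 1)) (pd i f (x + s • Pi.single i 1)) s := by
  have h1 : HasDerivAt (fun r : ℝ => x + r • (Pi.single i 1 : ι → ℝ)) (Pi.single i 1) s := by
    simpa using ((hasDerivAt_id s).smul_const (Pi.single i 1 : ι → ℝ)).const_add x
  exact hf.hasFDerivAt.comp_hasDerivAt s h1

/-- Mean value inequality on a sup-norm ball. -/
theorem abs_sub_le_of_pd (hf : Differentiable ℝ f) {x y : ι → ℝ} {ρ C : ℝ}
    (hC : ∀ i z, ‖z - x‖ ≤ ρ → |pd i f z| ≤ C) (hy : ‖y - x‖ ≤ ρ) :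
    |f y - f x| ≤ Fintype.card ι * C * ‖y - x‖ := by
  have hb : ∀ z ∈ Metric.closedBall x ρ, ‖fderiv ℝ f z‖ ≤ Fintype.card ι * C := by
    intro z hz
    rw [mem_closedBall_iff_norm] at hz
    have h0 : 0 ≤ Fintype.card ι * C := by
      have : ∑ i : ι, |pd i f z| ≤ ∑ _i : ι, C := Finset.sum_le_sum fun i _ => hC i z hz
      rw [Finset.sum_const, Finset.card_univ, nsmul_eq_mul] at this
      exact (Finset.sum_nonneg fun _ _ => abs_nonneg _).trans this
    refine ContinuousLinearMap.opNorm_le_bound _ h0 fun v => ?_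
    rw [fderiv_eq_sum, Real.norm_eq_abs]
    refine (Finset.abs_sum_le_sum_abs _ _).trans ?_
    calc ∑ i, |v i * pd i f z| ≤ ∑ _i : ι, C * ‖v‖ := Finset.sum_le_sum fun i _ => by
          rw [abs_mul, mul_comm]
          exact mul_le_mul (hC i z hz) (norm_le_pi_norm v i) (abs_nonneg _)
            ((abs_nonneg _).trans (hC i z hz))
      _ = _ := by rw [Finset.sum_const, Finset.card_univ, nsmul_eq_mul, mul_assoc]
  have hρ : 0 ≤ ρ := (norm_nonneg _).trans hy
  exact (convex_closedBall x ρ).norm_image_sub_le_of_norm_fderiv_le (fun z _ => hf z) hb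
    (Metric.mem_closedBall_self hρ) (mem_closedBall_iff_norm.2 hy)

/-- Mean value inequality along a coordinate axis. -/
theorem abs_sub_axis_le (hf : Differentiable ℝ f) {i : ι} {C : ℝ} (hC : ∀ z, |pd i f z| ≤ C)
    (x : ι → ℝ) (s : ℝ) : |f (x + s • Pi.single i 1) - f x| ≤ C * |s| := by
  have := convex_univ.norm_image_sub_le_of_norm_hasDerivWithin_le
    (f := fun r : ℝ => f (x + r • Pi.single i 1)) (C := C)
    (fun r _ => (hasDerivAt_axis (hf _)).hasDerivWithinAt) (fun r _ => hC _) (mem_univ 0)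
    (mem_univ s)
  simpa using this

/-- Second order Taylor inequality on a sup-norm ball. -/
theorem abs_taylor_le (hf : Sm f) {x y : ι → ℝ} {ρ C : ℝ}
    (hC : ∀ i j z, ‖z - x‖ ≤ ρ → |pd i (pd j f) z| ≤ C) (hy : ‖y‖ ≤ ρ) :
    |f (x + y) - f x - ∑ i, y i * pd i f x| ≤ (Fintype.card ι) ^ 2 * C * ‖y‖ ^ 2 := by
  have hs : Sm fun z : ι → ℝ => ∑ i, (z i - x i) * pd i f x :=
    ContDiff.sum fun i _ => ((sm_coord i).sub contDiff_const).mul contDiff_const
  have hp : ∀ j z, pd j (fun z => f z - ∑ i, (z i - x i) * pd i f x) z = pd j f z - pd j f x := by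
    intro j z
    have h1 : ∀ i, DifferentiableAt ℝ (fun z : ι → ℝ => z i - x i) z := fun i =>
      ((sm_coord i).diff z).sub_const _
    rw [pd_sub (hf.diff z) (hs.diff z), pd_sum _ fun i _ => (h1 i).mul_const _]
    simp [pd_mul (h1 _) (differentiableAt_const _), pd_const,
      pd_sub ((sm_coord _).diff z) (differentiableAt_const _), pd_coord]
  have h := abs_sub_le_of_pd (Sm.diff (hf.sub hs)) (x := x) (y := x + y) (ρ := ‖y‖)
    (C := Fintype.card ι * C * ‖y‖) (fun j z hz => by
      rw [hp]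
      have h2 := abs_sub_le_of_pd (hf.pd j).diff (fun i z hz => hC i j z hz) (hz.trans hy)
      have h0 : 0 ≤ C := (abs_nonneg _).trans (hC j j z (hz.trans hy))
      exact h2.trans (mul_le_mul_of_nonneg_left hz (by positivity))) (by simp)
  simp only [Pi.add_apply, add_sub_cancel_left, sub_self, zero_mul, Finset.sum_const_zero,
    sub_zero] at h
  calc _ = |f (x + y) - ∑ i, y i * pd i f x - f x| := by ring_nf
    _ ≤ _ := h
    _ = _ := by ring

variable {n : ℕ}

theorem hess_isSymm {u : X n → ℝ} (hu : Sm u) (x : X n) : (hess u x).IsSymm := by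
  ext i j
  simp only [Matrix.transpose_apply, hess_apply, pd_comm hu i j]

theorem sm_nsq : Sm (nsq : X n → ℝ) := ContDiff.sum fun i _ => (sm_coord i).pow 2

theorem pd_nsq (i : Fin n) (x : X n) : pd i nsq x = 2 * x i := by
  unfold nsq
  rw [pd_sum (F := fun j (y : X n) => y j ^ 2) _ fun j _ => ((sm_coord j).diff x).pow 2]
  simp only [pow_two, pd_mul ((sm_coord _).diff x) ((sm_coord _).diff x), pd_coord]
  simp [Finset.sum_add_distrib, two_mul]

theorem sm_q0 : Sm (q0 n) := sm_nsq.div_const 2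

theorem ev_q0 : Ev (q0 n) := fun x => by simp [q0, nsq]

theorem pd_q0 (i : Fin n) : pd i (q0 n) = fun x => x i := by
  funext x
  have : q0 n = fun x => 2⁻¹ * nsq x := funext fun x => by rw [q0]; ring
  rw [this, pd_const_mul (sm_nsq.diff x), pd_nsq]
  ring

theorem hess_q0 (x : X n) : hess (q0 n) x = 1 := by
  ext i j
  rw [hess_apply, pd_q0, pd_coord, Matrix.one_apply]

theorem pds_q0 {l : List (Fin n)} (hl : 3 ≤ l.length) (x : X n) : pds l (q0 n) x = 0 := by
  obtain ⟨l', a, b, rfl⟩ : ∃ l' a b, l = l' ++ [a, b] := by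
    rcases List.eq_nil_or_concat l with rfl | ⟨l1, b, rfl⟩
    · simp at hl
    rcases List.eq_nil_or_concat l1 with rfl | ⟨l2, a, rfl⟩
    · simp at hl
    exact ⟨l2, a, b, by simp⟩
  have h1 : pds [a, b] (q0 n) = fun _ => (1 : Mat n) a b := funext fun y => by
    rw [← hess_q0 y]
    rfl
  rw [pds_append, h1, pds_const]
  rintro rfl
  simp at hl

theorem nsq_nonneg (x : X n) : 0 ≤ nsq x := Finset.sum_nonneg fun _ _ => sq_nonneg _

theorem norm_sq_le_nsq (x : X n) : ‖x‖ ^ 2 ≤ nsq x := by
  have : ‖x‖ ≤ Real.sqrt (nsq x) := by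
    refine (pi_norm_le_iff_of_nonneg (Real.sqrt_nonneg _)).2 fun i => ?_
    exact Real.abs_le_sqrt (Finset.single_le_sum (f := fun i => x i ^ 2)
      (fun _ _ => sq_nonneg _) (Finset.mem_univ i))
  calc ‖x‖ ^ 2 ≤ Real.sqrt (nsq x) ^ 2 := by gcongr
    _ = _ := Real.sq_sqrt (nsq_nonneg x)

theorem nsq_le_norm_sq (x : X n) : nsq x ≤ n * ‖x‖ ^ 2 := by
  calc nsq x ≤ ∑ _i : Fin n, ‖x‖ ^ 2 := Finset.sum_le_sum fun i _ => by
        rw [← sq_abs]
        exact pow_le_pow_left₀ (abs_nonneg _) (norm_le_pi_norm x i) 2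
    _ = _ := by simp

theorem sm_dot (a : X n) : Sm (dot a) := ContDiff.sum fun i _ => contDiff_const.mul (sm_coord i)

theorem pd_dot (a : X n) (i : Fin n) (x : X n) : pd i (dot a) x = a i := by
  unfold dot
  rw [pd_sum _ fun j _ => ((sm_coord j).diff x).const_mul _]
  simp [pd_const_mul ((sm_coord _).diff x), pd_coord]

/-- Derivatives of a ridge function. -/
theorem pds_ridge {φ : ℝ → ℝ} (hφ : ContDiff ℝ ∞ φ) (a : X n) (l : List (Fin n)) (x : X n) :
    pds l (fun y => φ (dot a y)) x = (l.map a).prod * iteratedDeriv l.length φ (dot a x) := by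
  induction l generalizing x with
  | nil => simp
  | cons j l ih =>
    have hd : Differentiable ℝ (iteratedDeriv l.length φ) :=
      hφ.differentiable_iteratedDeriv _ (by exact_mod_cast WithTop.coe_lt_top _)
    rw [pds_cons, funext ih, pd_const_mul (f := fun y => iteratedDeriv l.length φ (dot a y))
        ((hd _).comp x ((sm_dot a).diff x)),
      pd_comp_real (hd _) ((sm_dot a).diff x), pd_dot, List.length_cons, iteratedDeriv_succ]
    simp only [List.map_cons, List.prod_cons]
    ring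

theorem cl_mem {T : ℝ} (hT : 0 ≤ T) (t : ℝ) : cl T t ∈ Icc 0 T := ⟨le_max_left _ _, max_le hT (min_le_right _ _)⟩

theorem cl_of_mem {T t : ℝ} (ht : t ∈ Icc 0 T) : cl T t = t := by
  rw [cl, min_eq_left ht.2, max_eq_right ht.1]

theorem continuous_cl (T : ℝ) : Continuous (cl T) := continuous_const.max (continuous_id.min continuous_const)

theorem abs_cl_sub_le (T s t : ℝ) : |cl T s - cl T t| ≤ |s - t| := by
  unfold cl
  refine (abs_max_sub_max_le_max _ _ _ _).trans ?_
  rw [sub_self, abs_zero, max_eq_right (abs_nonneg _)]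
  refine (abs_min_sub_min_le_max _ _ _ _).trans ?_
  rw [sub_self, abs_zero, max_eq_left (abs_nonneg _)]

end Vale.Agent.P227
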