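import Vale.Agent.P227.Basic

/-! Matrix inequalities. -/

set_option linter.unusedSectionVars false
set_option linter.unusedVariables false

namespace Vale.Agent.P227

open scoped ContDiff
open MeasureTheory Set Filter Topology Matrix

variable {n : ℕ} {A B : Mat n} {c C : ℝ}

theorem bilin_eq_dot (A : Mat n) (ξ η : X n) :
    ∑ i, ∑ j, A i j * ξ i * η j = ξ ⬝ᵥ A *ᵥ η := by
  simp only [dotProduct, mulVec, Finset.mul_sum]
  exact Finset.sum_congr rfl fun i _ => Finset.sum_congr rfl fun j _ => by ring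

theorem qf_eq_dot (A : Mat n) (ξ : X n) : qf A ξ = ξ ⬝ᵥ A *ᵥ ξ := bilin_eq_dot A ξ ξ

theorem nsq_eq_dot (ξ : X n) : nsq ξ = ξ ⬝ᵥ ξ := by
  simp only [nsq, dotProduct, pow_two]

theorem nsq_nonneg' (ξ : X n) : 0 ≤ nsq ξ := Finset.sum_nonneg fun _ _ => sq_nonneg _

theorem nsq_pos' {ξ : X n} (h : ξ ≠ 0) : 0 < nsq ξ := by
  obtain ⟨i, hi⟩ := Function.ne_iff.1 h
  exact Finset.sum_pos' (fun _ _ => sq_nonneg _) ⟨i, Finset.mem_univ _, by
    have : ξ i ≠ 0 := hi
    positivity⟩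

theorem dot_sq_le (ξ η : X n) : (ξ ⬝ᵥ η) ^ 2 ≤ nsq ξ * nsq η :=
  Finset.sum_mul_sq_le_sq_mul_sq _ _ _

theorem dot_mulVec_symm (hA : A.IsSymm) (ξ η : X n) : ξ ⬝ᵥ A *ᵥ η = η ⬝ᵥ A *ᵥ ξ := by
  rw [dotProduct_mulVec, ← mulVec_transpose, hA.eq, dotProduct_comm]

theorem isHerm_of_isSymm (hA : A.IsSymm) : A.IsHermitian := by
  rw [Matrix.IsHermitian, conjTranspose_eq_transpose_of_trivial]; exact hA

theorem isSymm_of_isHerm (hA : A.IsHermitian) : A.IsSymm := by
  rw [Matrix.IsHermitian, conjTranspose_eq_transpose_of_trivial] at hA; exact hA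

theorem qf_comb (hA : A.IsSymm) (a b : ℝ) (ξ η : X n) :
    qf A (a • ξ + b • η) = a ^ 2 * qf A ξ + 2 * a * b * (ξ ⬝ᵥ A *ᵥ η) + b ^ 2 * qf A η := by
  simp only [qf_eq_dot, mulVec_add, mulVec_smul, add_dotProduct, dotProduct_add, smul_dotProduct,
    dotProduct_smul, smul_eq_mul, dot_mulVec_symm hA η ξ]
  ring

theorem qf_single (A : Mat n) (i : Fin n) : qf A (Pi.single i 1) = A i i := by
  simp [qf_eq_dot]

theorem nsq_single (i : Fin n) : nsq (Pi.single i (1 : ℝ) : X n) = 1 := by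
  simp [nsq_eq_dot]

/-- Cauchy-Schwarz for a nonnegative symmetric form. -/
theorem bilin_sq_le (hA : A.IsSymm) (h0 : LB 0 A) (ξ η : X n) :
    (ξ ⬝ᵥ A *ᵥ η) ^ 2 ≤ qf A ξ * qf A η := by
  have h := discrim_le_zero (a := qf A ξ) (b := 2 * (ξ ⬝ᵥ A *ᵥ η)) (c := qf A η) fun t => by
    have h1 := h0 (t • ξ + (1 : ℝ) • η)
    rw [qf_comb hA, zero_mul] at h1
    nlinarith
  unfold discrim at h
  nlinarith

theorem LB.mono {c' : ℝ} (h : LB c A) (hc : c' ≤ c) : LB c' A := fun ξ =>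
  (mul_le_mul_of_nonneg_right hc (nsq_nonneg' ξ)).trans (h ξ)

theorem UB.mono {C' : ℝ} (h : UB C A) (hc : C ≤ C') : UB C' A := fun ξ =>
  (h ξ).trans (mul_le_mul_of_nonneg_right hc (nsq_nonneg' ξ))

theorem lb_one : LB 1 (1 : Mat n) := fun ξ => by simp [qf_eq_dot, nsq_eq_dot]

theorem ub_one : UB 1 (1 : Mat n) := fun ξ => by simp [qf_eq_dot, nsq_eq_dot]

theorem LB.posDef (h : LB c A) (hc : 0 < c) (hA : A.IsSymm) : A.PosDef :=
  PosDef.of_dotProduct_mulVec_pos (isHerm_of_isSymm hA) fun x hx => by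
    rw [star_trivial, ← qf_eq_dot]
    exact (mul_pos hc (nsq_pos' hx)).trans_le (h x)

theorem LB.posSemidef (h : LB c A) (hc : 0 ≤ c) (hA : A.IsSymm) : A.PosSemidef :=
  PosSemidef.of_dotProduct_mulVec_nonneg (isHerm_of_isSymm hA) fun x => by
    rw [star_trivial, ← qf_eq_dot]
    exact (mul_nonneg hc (nsq_nonneg' x)).trans (h x)

theorem lb_of_posSemidef (hA : A.PosSemidef) : LB 0 A := fun x => by
  rw [zero_mul, qf_eq_dot]
  simpa using hA.dotProduct_mulVec_nonneg x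

theorem LB.det_pos (h : LB c A) (hc : 0 < c) (hA : A.IsSymm) : 0 < A.det :=
  (h.posDef hc hA).det_pos

theorem isSymm_inv (hA : A.IsSymm) : A⁻¹.IsSymm := hA.inv

theorem LB.inv_ub (h : LB c A) (hc : 0 < c) (hA : A.IsSymm) : UB c⁻¹ A⁻¹ := fun ξ => by
  have hu : IsUnit A.det := (h.det_pos hc hA).ne'.isUnit
  have h1 : A *ᵥ (A⁻¹ *ᵥ ξ) = ξ := by rw [mulVec_mulVec, mul_nonsing_inv _ hu, one_mulVec]
  have h2 := h (A⁻¹ *ᵥ ξ)
  rw [qf_eq_dot, h1, dotProduct_comm] at h2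
  have h3 := dot_sq_le ξ (A⁻¹ *ᵥ ξ)
  rw [qf_eq_dot]
  have h4 := nsq_nonneg' ξ
  have h5 := nsq_nonneg' (A⁻¹ *ᵥ ξ)
  rw [inv_mul_eq_div, le_div_iff₀ hc]
  by_contra hn
  have h6 : 0 < ξ ⬝ᵥ A⁻¹ *ᵥ ξ := by
    by_contra h7
    nlinarith
  nlinarith [mul_le_mul_of_nonneg_left h2 h4]

theorem UB.inv_lb (h : UB C A) (hC : 0 < C) (hA : A.PosDef) : LB C⁻¹ A⁻¹ := fun ξ => by
  have hs := isSymm_of_isHerm hA.isHermitian
  have hu : IsUnit A.det := hA.det_pos.ne'.isUnit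
  have h1 : A *ᵥ (A⁻¹ *ᵥ ξ) = ξ := by rw [mulVec_mulVec, mul_nonsing_inv _ hu, one_mulVec]
  have h2 := lb_of_posSemidef hA.posSemidef ((-C⁻¹) • ξ + (1 : ℝ) • (A⁻¹ *ᵥ ξ))
  rw [qf_comb hs, h1, qf_eq_dot A (A⁻¹ *ᵥ ξ), h1, dotProduct_comm (A⁻¹ *ᵥ ξ), ← qf_eq_dot,
    ← nsq_eq_dot] at h2
  have h3 := mul_le_mul_of_nonneg_left (h ξ) (sq_nonneg C⁻¹)
  have h4 : C⁻¹ ^ 2 * (C * nsq ξ) = C⁻¹ * nsq ξ := by field_simp
  nlinarith

theorem lb_of_inv_ub (hA : A.PosDef) (hC : 0 < C) (h : UB C A⁻¹) : LB C⁻¹ A := by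
  have := h.inv_lb hC hA.inv
  rwa [nonsing_inv_nonsing_inv _ hA.det_pos.ne'.isUnit] at this

theorem abs_entry_le (hA : A.IsSymm) (h0 : LB 0 A) (h : UB C A) (i j : Fin n) :
    |A i j| ≤ C := by
  have h1 := bilin_sq_le hA h0 (Pi.single i 1) (Pi.single j 1)
  have h2 := h (Pi.single i 1)
  have h3 := h (Pi.single j 1)
  have h4 := h0 (Pi.single i 1)
  have h5 := h0 (Pi.single j 1)
  rw [qf_single, nsq_single] at h2 h3 h4 h5
  rw [qf_single, qf_single] at h1
  simp only [mulVec_single, MulOpposite.op_one, one_smul, single_dotProduct, one_mul,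
    col_apply] at h1
  exact abs_le_of_sq_le_sq' (by nlinarith) (by linarith) |> abs_le.2

theorem LB.abs_inv_entry_le (h : LB c A) (hc : 0 < c) (hA : A.IsSymm) (i j : Fin n) :
    |A⁻¹ i j| ≤ c⁻¹ :=
  abs_entry_le hA.inv (lb_of_posSemidef (h.posDef hc hA).inv.posSemidef) (h.inv_ub hc hA) i j

theorem abs_qf_le {M : ℝ} (h : ∀ i j, |A i j| ≤ M) (ξ : X n) : |qf A ξ| ≤ n * M * nsq ξ := by
  calc |qf A ξ| ≤ ∑ i, ∑ j, M * (ξ i ^ 2 + ξ j ^ 2) / 2 := by
        refine (Finset.abs_sum_le_sum_abs _ _).trans (Finset.sum_le_sum fun i _ => ?_)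
        refine (Finset.abs_sum_le_sum_abs _ _).trans (Finset.sum_le_sum fun j _ => ?_)
        have h1 : |ξ i| * |ξ j| ≤ (ξ i ^ 2 + ξ j ^ 2) / 2 := by
          nlinarith [sq_nonneg (|ξ i| - |ξ j|), sq_abs (ξ i), sq_abs (ξ j)]
        rw [abs_mul, abs_mul, mul_assoc, mul_div_assoc]
        exact mul_le_mul (h i j) h1 (by positivity) ((abs_nonneg _).trans (h i j))
    _ = n * M * nsq ξ := by
        simp only [mul_add, add_div, Finset.sum_add_distrib, Finset.sum_const, Finset.card_univ,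
          Fintype.card_fin, nsmul_eq_mul, nsq, ← Finset.mul_sum, ← Finset.sum_div]
        ring

theorem ub_of_entry {M : ℝ} (h : ∀ i j, |A i j| ≤ M) : UB (n * M) A := fun ξ =>
  (le_abs_self _).trans (abs_qf_le h ξ)

theorem LB.add_small {M : ℝ} (h : LB c A) (hB : ∀ i j, |B i j| ≤ M) :
    LB (c - n * M) (A + B) := fun ξ => by
  have h1 := h ξ
  have h2 := (abs_le.1 (abs_qf_le hB ξ)).1
  have h3 : qf (A + B) ξ = qf A ξ + qf B ξ := by
    simp only [qf_eq_dot, add_mulVec, dotProduct_add]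
  rw [h3]
  linarith

theorem trace_le_of_ub (h : UB C A) : A.trace ≤ n * C := by
  calc A.trace = ∑ i, A i i := rfl
    _ ≤ ∑ _i : Fin n, C := Finset.sum_le_sum fun i _ => by
        have := h (Pi.single i 1)
        rwa [qf_single, nsq_single, mul_one] at this
    _ = n * C := by simp

/-- Cauchy-Schwarz type bound for the bilinear form of a symmetric `0 ≤ A ≤ C`. -/
theorem abs_bilin_le (hA : A.IsSymm) (h0 : LB 0 A) (h : UB C A) (ξ η : X n) :
    |∑ i, ∑ j, A i j * ξ i * η j| ≤ C * (Real.sqrt (nsq ξ) * Real.sqrt (nsq η)) := by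
  rcases Nat.eq_zero_or_pos n with rfl | hn
  · simp [nsq]
  have hC : 0 ≤ C := by
    have h1 := (h0 (Pi.single ⟨0, hn⟩ 1)).trans (h _)
    rwa [nsq_single, zero_mul, mul_one] at h1
  rw [bilin_eq_dot]
  refine abs_le_of_sq_le_sq' ?_ (by positivity) |> abs_le.2
  have h1 := h0 ξ
  have h2 := h0 η
  rw [zero_mul] at h1 h2
  rw [mul_pow, mul_pow, Real.sq_sqrt (nsq_nonneg' ξ), Real.sq_sqrt (nsq_nonneg' η)]
  calc _ ≤ qf A ξ * qf A η := bilin_sq_le hA h0 ξ η
    _ ≤ (C * nsq ξ) * (C * nsq η) := mul_le_mul (h ξ) (h η) h2 (h1.trans (h ξ))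
    _ = _ := by ring

/-- For symmetric `A`, `(ξ · A ξ)² ≤ |ξ|² |A ξ|²`. -/
theorem qf_sq_le (A : Mat n) (ξ : X n) : qf A ξ ^ 2 ≤ nsq ξ * nsq (A *ᵥ ξ) := by
  rw [qf_eq_dot]; exact dot_sq_le _ _

theorem exists_abs_log_det_le (n : ℕ) {c : ℝ} (hc : 0 < c) (M : ℝ) :
    ∃ K, ∀ A : Mat n, A.IsSymm → LB c A → (∀ i j, |A i j| ≤ M) → |Real.log A.det| ≤ K := by
  have key : ∀ (B : Mat n) (x : ℝ), (∀ i j, |B i j| ≤ x) →
      Real.log B.det ≤ n.factorial * x ^ n := fun B x hB => by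
    have h1 := Matrix.det_le (A := B) (abv := AbsoluteValue.abs) (x := x) hB
    simp only [AbsoluteValue.abs_apply, Fintype.card_fin, nsmul_eq_mul] at h1
    rw [← Real.log_abs]
    exact (Real.log_le_self (abs_nonneg _)).trans h1
  refine ⟨max (n.factorial * M ^ n) (n.factorial * c⁻¹ ^ n), fun A hA h hM => abs_le.2 ⟨?_, ?_⟩⟩
  · have h1 := key A⁻¹ c⁻¹ (h.abs_inv_entry_le hc hA)
    rw [det_nonsing_inv, Ring.inverse_eq_inv', Real.log_inv] at h1
    linarith [le_max_right (n.factorial * M ^ n) (n.factorial * c⁻¹ ^ n)]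
  · exact (key A M hM).trans (le_max_left _ _)

open scoped MatrixOrder in
theorem exists_sq (hA : A.PosSemidef) : ∃ D : Mat n, A = Dᵀ * D := by
  obtain ⟨D, hD⟩ := CStarAlgebra.nonneg_iff_eq_star_mul_self.mp hA.nonneg
  exact ⟨D, by rw [hD, star_eq_conjTranspose, conjTranspose_eq_transpose_of_trivial]⟩

theorem psd_conj (hA : A.PosSemidef) (D : Mat n) : (D * A * Dᵀ).PosSemidef := by
  have := hA.mul_mul_conjTranspose_same D
  rwa [conjTranspose_eq_transpose_of_trivial] at this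

theorem trace_mul_nonneg (hA : A.PosSemidef) (hB : B.PosSemidef) : 0 ≤ (A * B).trace := by
  obtain ⟨D, rfl⟩ := exists_sq hA
  rw [Matrix.mul_assoc, trace_mul_comm]
  exact (psd_conj hB D).trace_nonneg

theorem LB.trace_mul (h : LB c A) (hA : A.IsSymm) (hB : B.PosSemidef) :
    c * B.trace ≤ (A * B).trace := by
  have h1 : (A - c • (1 : Mat n)).PosSemidef := by
    refine LB.posSemidef (c := 0) (fun ξ => ?_) le_rfl (hA.sub (isSymm_one.smul c))
    have := h ξ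
    simp only [qf_eq_dot, nsq_eq_dot, sub_mulVec, smul_mulVec, one_mulVec, dotProduct_sub,
      dotProduct_smul, smul_eq_mul] at this ⊢
    linarith
  have h2 := trace_mul_nonneg h1 hB
  simp only [Matrix.sub_mul, Matrix.smul_mul, Matrix.one_mul, trace_sub, trace_smul,
    smul_eq_mul] at h2
  linarith

theorem UB.trace_mul (h : UB C A) (hA : A.IsSymm) (hB : B.PosSemidef) :
    (A * B).trace ≤ C * B.trace := by
  have h1 : LB (-C) (-A) := fun ξ => by
    have := h ξ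
    simp only [qf_eq_dot, neg_mulVec, dotProduct_neg] at this ⊢
    linarith
  have h2 := h1.trace_mul hA.neg hB
  simp only [Matrix.neg_mul, trace_neg] at h2
  linarith

theorem trace_mul_self (hB : B.IsSymm) : (B * B).trace = ∑ i, ∑ j, B i j ^ 2 := by
  simp only [trace, diag_apply, Matrix.mul_apply, pow_two]
  exact Finset.sum_congr rfl fun i _ => Finset.sum_congr rfl fun j _ => by rw [hB.apply j i]

theorem psd_sandwich (hA : A.PosSemidef) (hB : B.IsSymm) : (B * A * B).PosSemidef := by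
  have := psd_conj hA B
  rwa [hB.eq] at this

theorem trace_sq_ge (hA : A.IsSymm) (hc : 0 ≤ c) (h : LB c A) (hB : B.IsSymm) :
    c ^ 2 * ∑ i, ∑ j, B i j ^ 2 ≤ (A * B * A * B).trace := by
  have hP := h.posSemidef hc hA
  have h1 := h.trace_mul hA (psd_sandwich hP hB)
  have h2 := h.trace_mul hA (psd_sandwich PosSemidef.one hB)
  rw [Matrix.mul_one, trace_mul_self hB] at h2
  rw [trace_mul_cycle, trace_mul_comm] at h1
  simp only [Matrix.mul_assoc] at h1 h2 ⊢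
  nlinarith [mul_le_mul_of_nonneg_left h2 hc]

theorem trace_sq_le (hA : A.IsSymm) (h0 : LB 0 A) (h : UB C A) (hB : B.IsSymm) :
    (A * B * A * B).trace ≤ C ^ 2 * ∑ i, ∑ j, B i j ^ 2 := by
  rcases Nat.eq_zero_or_pos n with rfl | hn
  · simp [trace]
  have hC : 0 ≤ C := by
    have h1 := (h0 (Pi.single ⟨0, hn⟩ 1)).trans (h _)
    rwa [nsq_single, zero_mul, mul_one] at h1
  have hP := h0.posSemidef le_rfl hA
  have h1 := h.trace_mul hA (psd_sandwich hP hB)
  have h2 := h.trace_mul hA (psd_sandwich PosSemidef.one hB)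
  rw [Matrix.mul_one, trace_mul_self hB] at h2
  rw [trace_mul_cycle B A B, trace_mul_comm (B * B) A] at h1
  simp only [Matrix.mul_assoc] at h1 h2 ⊢
  nlinarith [mul_le_mul_of_nonneg_left h2 hC]

/-- The Gram matrix `tr (A H_a A H_b)` is positive semidefinite. -/
theorem posSemidef_gram (hA : A.PosSemidef) {H : Fin n → Mat n} (hH : ∀ a, (H a).IsSymm) :
    (Matrix.of fun a b => (A * H a * A * H b).trace : Mat n).PosSemidef := by
  refine LB.posSemidef (c := 0) (fun ξ => ?_) le_rfl ?_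
  · have hs : (∑ a, ξ a • H a).IsSymm := by
      simp only [Matrix.IsSymm, transpose_sum, transpose_smul, (hH _).eq]
    have h1 := trace_mul_nonneg hA (psd_sandwich hA hs)
    have h2 : (A * ((∑ a, ξ a • H a) * A * ∑ a, ξ a • H a)).trace =
        qf (Matrix.of fun a b => (A * H a * A * H b).trace) ξ := by
      simp only [qf, of_apply, Matrix.sum_mul, Matrix.smul_mul, Matrix.mul_smul,
        trace_sum, trace_smul, smul_eq_mul, Finset.mul_sum, Matrix.mul_assoc]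
      rw [Finset.sum_comm]
      exact Finset.sum_congr rfl fun i _ => Finset.sum_congr rfl fun j _ => by ring
    rw [zero_mul, ← h2]
    exact h1
  · ext a b
    simp only [transpose_apply, of_apply]
    rw [Matrix.mul_assoc (A * H b), trace_mul_comm, Matrix.mul_assoc (A * H a)]

/-- Orthonormal frames with uniform bounds. -/
theorem exists_frame (n : ℕ) {c : ℝ} (hc : 0 < c) (C : ℝ) :
    ∃ K, ∀ A : Mat n, A.IsSymm → LB c A → UB C A →
      ∃ E : Mat n, IsUnit E.det ∧ Eᵀ * A * E = 1 ∧ (∀ i j, |E i j| ≤ K) ∧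
        ∀ i j, |E⁻¹ i j| ≤ K := by
  refine ⟨max (1 + c⁻¹) (1 + C), fun A hA h hC => ?_⟩
  obtain ⟨D, hD⟩ := exists_sq (h.posSemidef hc.le hA)
  have hdet := h.det_pos hc hA
  have hu : IsUnit D.det := by
    rw [hD, det_mul, det_transpose] at hdet
    exact IsUnit.mk0 _ fun h0 => by simp [h0] at hdet
  have hE : D⁻¹ᵀ * A * D⁻¹ = 1 := by
    rw [hD, ← Matrix.mul_assoc, ← transpose_mul, Matrix.mul_assoc, mul_nonsing_inv _ hu,
      transpose_one, Matrix.one_mul]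
  have habs : ∀ x y : ℝ, x ^ 2 ≤ y → |x| ≤ 1 + y := fun x y hxy => by
    nlinarith [sq_abs x, sq_nonneg (|x| - 1), abs_nonneg x]
  refine ⟨D⁻¹, isUnit_nonsing_inv_det _ hu, hE, fun i j => ?_, fun i j => ?_⟩
  · refine (habs _ _ ?_).trans (le_max_left _ _)
    have h1 := h fun k => D⁻¹ k j
    have h2 : qf A (fun k => D⁻¹ k j) = (D⁻¹ᵀ * A * D⁻¹) j j := by
      simp only [qf, Matrix.mul_apply, transpose_apply, Finset.sum_mul]
      rw [Finset.sum_comm]
      exact Finset.sum_congr rfl fun a _ => Finset.sum_congr rfl fun b _ => by ring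
    rw [h2, hE, one_apply_eq] at h1
    have h3 : D⁻¹ i j ^ 2 ≤ nsq fun k => D⁻¹ k j :=
      Finset.single_le_sum (f := fun k => D⁻¹ k j ^ 2) (fun _ _ => sq_nonneg _) (Finset.mem_univ i)
    rw [← one_div c, le_div_iff₀ hc]
    nlinarith
  · refine (habs _ _ ?_).trans (le_max_right _ _)
    rw [nonsing_inv_nonsing_inv _ hu]
    have h1 := hC (Pi.single j 1)
    rw [qf_single, nsq_single, mul_one, hD] at h1
    refine le_trans ?_ h1
    simp only [Matrix.mul_apply, transpose_apply, ← pow_two]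
    exact Finset.single_le_sum (f := fun k => D k j ^ 2) (fun _ _ => sq_nonneg _)
      (Finset.mem_univ i)

end Vale.Agent.P227
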