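import Vale.Agent.P227.Grade
import Vale.Agent.P227.Mat

/-! Closure properties of the ungraded classes DS, JC, PGF, PG, BS, V2. -/

set_option linter.unusedSectionVars false
set_option linter.unusedVariables false

namespace Vale.Agent.P227

open scoped ContDiff
open MeasureTheory Set Filter Topology Matrix

section DS
variable {α ι : Type*} [Fintype ι] [DecidableEq ι] {S : Subalgebra ℝ (α → (ι → ℝ) → ℝ)}
  {f g : α → (ι → ℝ) → ℝ}

theorem DS.mem (hg : DS S g) : g ∈ S := hg.2 []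

theorem DS.pd (hg : DS S g) (i : ι) : DS S fun a => pd i (g a) := ⟨fun a => (hg.1 a).pd i, fun l => by
    have := hg.2 (l ++ [i])
    simpa only [pds_append, pds_cons, pds_nil] using this⟩

theorem DS.pds (hg : DS S g) (l : List ι) : DS S fun a => pds l (g a) := ⟨fun a => (hg.1 a).pds l, fun m => by
    have := hg.2 (m ++ l)
    simpa only [pds_append] using this⟩

theorem DS.of_pd (hs : ∀ a, Sm (g a)) (h0 : g ∈ S)
    (h1 : ∀ i, DS S fun a => P227.pd i (g a)) : DS S g := (ds_iff_dq 0).2 fun K =>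
  DQ.of_pd hs (fun _ => h0) fun i => (ds_iff_dq 1).1 (h1 i) K

theorem DS.add (hf : DS S f) (hg : DS S g) : DS S fun a x => f a x + g a x := (ds_iff_dq 0).2 fun K =>
  ((ds_iff_dq 0).1 hf K).add ((ds_iff_dq 0).1 hg K)

theorem DS.sub (hf : DS S f) (hg : DS S g) : DS S fun a x => f a x - g a x := (ds_iff_dq 0).2 fun K =>
  ((ds_iff_dq 0).1 hf K).sub ((ds_iff_dq 0).1 hg K)

theorem DS.neg (hf : DS S f) : DS S fun a x => -f a x := (ds_iff_dq 0).2 fun K => ((ds_iff_dq 0).1 hf K).neg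

theorem DS.const_mul (hf : DS S f) (c : ℝ) : DS S fun a x => c * f a x := (ds_iff_dq 0).2 fun K =>
  ((ds_iff_dq 0).1 hf K).const_mul c

theorem DS.mul (hf : DS S f) (hg : DS S g) : DS S fun a x => f a x * g a x := (ds_iff_dq 0).2 fun K =>
  ((ds_iff_dq 0).1 hf K).mul ((ds_iff_dq 0).1 hg K) le_rfl le_rfl (by omega)

theorem DS.sum {κ : Type*} (s : Finset κ) {F : κ → α → (ι → ℝ) → ℝ}
    (hF : ∀ k ∈ s, DS S (F k)) : DS S fun a x => ∑ k ∈ s, F k a x := (ds_iff_dq 0).2 fun K =>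
  DQ.sum s fun k hk => (ds_iff_dq 0).1 (hF k hk) K

theorem DS.param {c : α → ℝ} (hc : (fun a (_ : ι → ℝ) => c a) ∈ S) :
    DS S fun a _ => c a := (ds_iff_dq 0).2 fun _ => DQ.param fun _ => hc

theorem DS.const (c : ℝ) : DS S fun _ _ => c := (ds_iff_dq 0).2 fun _ => DQ.const c

theorem DS.coord (j : ι) (hj : (fun (_ : α) (x : ι → ℝ) => x j) ∈ S) :
    DS S fun _ x => x j := DS.of_pd (fun _ => sm_coord j) hj fun i => by
  have : (fun (_ : α) => P227.pd i fun x : ι → ℝ => x j)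
      = fun _ _ => if i = j then (1 : ℝ) else 0 := by
    funext a x
    exact pd_coord i j x
  rw [this]
  exact DS.const _

theorem DS.comp {κ : Type*} [Fintype κ] [DecidableEq κ] {Φ : α → (κ → ℝ) → ℝ}
    {Y : α → (ι → ℝ) → κ → ℝ} (hΦ : ∀ a, Sm (Φ a)) (hY : ∀ a k, Sm fun x => Y a x k)
    (hY' : ∀ i k, DS S fun a => P227.pd i fun x => Y a x k)
    (hQ : ∀ m : List κ, (fun a x => P227.pds m (Φ a) (Y a x)) ∈ S) :
    DS S fun a x => Φ a (Y a x) := (ds_iff_dq 2).2 fun K =>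
  DQ.comp hΦ hY (fun i k => (ds_iff_dq 3).1 (hY' i k) K) fun m _ => hQ m

theorem DS.comp_real {φ : α → ℝ → ℝ} (hφ : ∀ a, ContDiff ℝ ∞ (φ a)) (hg : ∀ a, Sm (g a))
    (hg' : ∀ i, DS S fun a => P227.pd i (g a))
    (hQ : ∀ k, (fun a x => iteratedDeriv k (φ a) (g a x)) ∈ S) :
    DS S fun a x => φ a (g a x) := (ds_iff_dq 2).2 fun K =>
  DQ.comp_real hφ hg (fun i => (ds_iff_dq 3).1 (hg' i) K) fun k _ => hQ k

variable {n : ℕ} {h : α → (ι → ℝ) → Mat n}

theorem DS.inv (hh : ∀ i j, DS S fun a x => h a x i j) (hd : ∀ a x, (h a x).det ≠ 0)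
    (hQ : ∀ i j, (fun a x => (h a x)⁻¹ i j) ∈ S) (i j : Fin n) :
    DS S fun a x => (h a x)⁻¹ i j := (ds_iff_dq 2).2 fun K =>
  DQ.inv (fun a i j => (hh i j).1 a) hd (fun k i j => (ds_iff_dq 3).1 ((hh i j).pd k) K)
    (fun _ => hQ) i j

theorem DS.logdet (hh : ∀ i j, DS S fun a x => h a x i j) (hd : ∀ a x, 0 < (h a x).det)
    (hQ : ∀ i j, (fun a x => (h a x)⁻¹ i j) ∈ S)
    (hL : (fun a x => Real.log (h a x).det) ∈ S) :
    DS S fun a x => Real.log (h a x).det := (ds_iff_dq 2).2 fun K =>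
  DQ.logdet (fun a i j => (hh i j).1 a) hd (fun k i j => (ds_iff_dq 3).1 ((hh i j).pd k) K)
    (fun _ => hQ) fun _ => hL

/-- Bounded inverse and log det for uniformly positive symmetric bounded families. -/
theorem DS.inv_Qb {h : α → (ι → ℝ) → Mat n} {c : ℝ} (hc : 0 < c)
    (hh : ∀ i j, DS (Qb ⊤) fun a x => h a x i j) (hs : ∀ a x, (h a x).IsSymm)
    (hl : ∀ a x, LB c (h a x)) (i j : Fin n) : DS (Qb ⊤) fun a x => (h a x)⁻¹ i j := DS.inv hh (fun a x => ((hl a x).det_pos hc (hs a x)).ne')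
    (fun i j => mem_Qb_top.2 ⟨c⁻¹, fun a x => (hl a x).abs_inv_entry_le hc (hs a x) i j⟩) i j

theorem DS.logdet_Qb {h : α → (ι → ℝ) → Mat n} {c : ℝ} (hc : 0 < c)
    (hh : ∀ i j, DS (Qb ⊤) fun a x => h a x i j) (hs : ∀ a x, (h a x).IsSymm)
    (hl : ∀ a x, LB c (h a x)) : DS (Qb ⊤) fun a x => Real.log (h a x).det := by
  refine DS.logdet hh (fun a x => (hl a x).det_pos hc (hs a x))
    (fun i j => mem_Qb_top.2 ⟨c⁻¹, fun a x => (hl a x).abs_inv_entry_le hc (hs a x) i j⟩) ?_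
  choose C hC using fun i j => mem_Qb_top.1 (hh i j).mem
  obtain ⟨K, hK⟩ := exists_abs_log_det_le n hc (∑ p : Fin n × Fin n, |C p.1 p.2|)
  refine mem_Qb_top.2 ⟨K, fun a x => hK _ (hs a x) (hl a x) fun i j => ?_⟩
  exact (hC i j a x).trans ((le_abs_self _).trans (Finset.single_le_sum
    (f := fun p : Fin n × Fin n => |C p.1 p.2|) (fun _ _ => abs_nonneg _)
    (Finset.mem_univ (i, j))))

theorem DS.toQp (hg : DS (Qb ⊤) g) : PGF g := ⟨hg.1, fun l => by
  obtain ⟨C, hC⟩ := mem_Qb_top.1 (hg.2 l)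
  exact ⟨C, 0, fun a x => by simpa using hC a x⟩⟩

end DS

section single
variable {ι : Type*} [Fintype ι] [DecidableEq ι] {f g : (ι → ℝ) → ℝ}

theorem coord_mem_Qp {α : Type*} (j : ι) : (fun (_ : α) (x : ι → ℝ) => x j) ∈ Qp :=
  ⟨1, 1, fun _ x => by
    have := norm_le_pi_norm x j
    rw [Real.norm_eq_abs] at this
    linarith⟩

theorem PG.pd (hf : PG f) (i : ι) : PG (pd i f) := pg_iff.2 ((pg_iff.1 hf).pd i)
theorem PG.pds (hf : PG f) (l : List ι) : PG (pds l f) := pg_iff.2 ((pg_iff.1 hf).pds l)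
theorem PG.add (hf : PG f) (hg : PG g) : PG fun x => f x + g x := pg_iff.2 ((pg_iff.1 hf).add (pg_iff.1 hg))
theorem PG.sub (hf : PG f) (hg : PG g) : PG fun x => f x - g x := pg_iff.2 ((pg_iff.1 hf).sub (pg_iff.1 hg))
theorem PG.neg (hf : PG f) : PG fun x => -f x := pg_iff.2 (pg_iff.1 hf).neg
theorem PG.mul (hf : PG f) (hg : PG g) : PG fun x => f x * g x := pg_iff.2 ((pg_iff.1 hf).mul (pg_iff.1 hg))
theorem PG.const_mul (hf : PG f) (c : ℝ) : PG fun x => c * f x := pg_iff.2 ((pg_iff.1 hf).const_mul c)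
theorem PG.const (c : ℝ) : PG fun _ : ι → ℝ => c := pg_iff.2 (DS.const c)
theorem PG.coord (j : ι) : PG fun x : ι → ℝ => x j := pg_iff.2 (DS.coord j (coord_mem_Qp j))
theorem PG.sum {κ : Type*} (s : Finset κ) {F : κ → (ι → ℝ) → ℝ} (hF : ∀ k ∈ s, PG (F k)) :
    PG fun x => ∑ k ∈ s, F k x := pg_iff.2 (DS.sum s fun k hk => pg_iff.1 (hF k hk))
theorem PG.bound (hf : PG f) : ∃ (C : ℝ) (N : ℕ), ∀ x, |f x| ≤ C * (1 + ‖x‖) ^ N := hf.2 []
theorem PGF.pg {α : Type*} {F : α → (ι → ℝ) → ℝ} (hF : PGF F) (a : α) : PG (F a) := ⟨hF.1 a, fun l => (hF.2 l).imp fun _ h => h.imp fun _ h => h a⟩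
theorem PG.pgf {α : Type*} (hf : PG f) : PGF fun _ : α => f := ⟨fun _ => hf.1, fun l => (hf.2 l).imp fun _ h => h.imp fun _ h _ => h⟩

theorem BS.pd (hf : BS f) (i : ι) : BS (pd i f) := bs_iff.2 ((bs_iff.1 hf).pd i)
theorem BS.pds (hf : BS f) (l : List ι) : BS (pds l f) := bs_iff.2 ((bs_iff.1 hf).pds l)
theorem BS.add (hf : BS f) (hg : BS g) : BS fun x => f x + g x := bs_iff.2 ((bs_iff.1 hf).add (bs_iff.1 hg))
theorem BS.sub (hf : BS f) (hg : BS g) : BS fun x => f x - g x := bs_iff.2 ((bs_iff.1 hf).sub (bs_iff.1 hg))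
theorem BS.mul (hf : BS f) (hg : BS g) : BS fun x => f x * g x := bs_iff.2 ((bs_iff.1 hf).mul (bs_iff.1 hg))
theorem BS.const_mul (hf : BS f) (c : ℝ) : BS fun x => c * f x := bs_iff.2 ((bs_iff.1 hf).const_mul c)
theorem BS.const (c : ℝ) : BS fun _ : ι → ℝ => c := bs_iff.2 (DS.const c)
theorem BS.translate (hf : BS f) (a : ι → ℝ) : BS fun x => f (x + a) := ⟨hf.1.comp (contDiff_id.add contDiff_const), fun l => (hf.2 l).imp fun C hC x => by
    rw [pds_translate]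
    exact hC _⟩
theorem BS.pg (hf : BS f) : PG f := pg_iff.2 (bs_iff.1 hf).toQp
theorem BS.v2 (hf : BS f) : V2 f := ⟨hf.1, fun l _ => hf.2 l⟩

theorem pgf_of_bdd' {α : Type*} {F : α → (ι → ℝ) → ℝ} (hs : ∀ a, Sm (F a))
    (h0 : ∃ C, ∀ a, |F a 0| ≤ C) (h1 : ∀ i, ∃ C, ∀ a, |pd i (F a) 0| ≤ C)
    (hb : ∀ l : List ι, 2 ≤ l.length → ∃ C, ∀ a x, |pds l (F a) x| ≤ C) : PGF F := by
  have key : ∀ G : α → (ι → ℝ) → ℝ, (∀ a, Sm (G a)) → (∃ C, ∀ a, |G a 0| ≤ C) →
      (∀ i, (fun a => pd i (G a)) ∈ Qp) → G ∈ Qp := by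
    intro G hG ⟨C0, hC0⟩ hd
    choose C N hC using hd
    set D := ∑ i, |C i|
    set K := ∑ i, N i
    refine ⟨|C0| + Fintype.card ι * D, K + 1, fun a x => ?_⟩
    have h1 : (1 : ℝ) ≤ 1 + ‖x‖ := by linarith [norm_nonneg x]
    have hD : 0 ≤ D := Finset.sum_nonneg fun _ _ => abs_nonneg _
    have h2 := abs_sub_le_of_pd (hG a).diff (x := 0) (y := x) (ρ := ‖x‖)
      (C := D * (1 + ‖x‖) ^ K) (fun i z hz => by
        rw [sub_zero] at hz
        have e1 : |C i| ≤ D := Finset.single_le_sum (f := fun i => |C i|)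
          (fun _ _ => abs_nonneg _) (Finset.mem_univ i)
        have e2 : N i ≤ K := Finset.single_le_sum (f := N) (fun _ _ => Nat.zero_le _)
          (Finset.mem_univ i)
        calc _ ≤ C i * (1 + ‖z‖) ^ N i := hC i a z
          _ ≤ |C i| * (1 + ‖z‖) ^ N i :=
            mul_le_mul_of_nonneg_right (le_abs_self _) (by positivity)
          _ ≤ D * (1 + ‖x‖) ^ N i := by gcongr
          _ ≤ D * (1 + ‖x‖) ^ K := by gcongr) (by simp)
    rw [sub_zero] at h2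
    have e3 : (1 : ℝ) ≤ (1 + ‖x‖) ^ (K + 1) := one_le_pow₀ h1
    have e4 : (1 + ‖x‖) ^ K * ‖x‖ ≤ (1 + ‖x‖) ^ (K + 1) := by
      rw [pow_succ]
      gcongr
      linarith
    have e5 := mul_le_mul_of_nonneg_left e4 (by positivity : 0 ≤ Fintype.card ι * D)
    have e6 := mul_le_mul_of_nonneg_left e3 (abs_nonneg C0)
    have e7 := abs_sub_abs_le_abs_sub (G a x) (G a 0)
    linarith [hC0 a, le_abs_self C0]
  have h2 : ∀ l : List ι, 2 ≤ l.length → (fun a => pds l (F a)) ∈ Qp := fun l hl => by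
    obtain ⟨C, hC⟩ := hb l hl
    exact ⟨C, 0, fun a x => by simpa using hC a x⟩
  have h3 : ∀ i, (fun a => pd i (F a)) ∈ Qp := fun i =>
    key _ (fun a => (hs a).pd i) (h1 i) fun j => h2 [j, i] le_rfl
  refine ⟨hs, fun l => ?_⟩
  match l with
  | [] => exact key F hs h0 h3
  | [i] => exact h3 i
  | i :: j :: l => exact h2 _ (by simp)

theorem V2.pg (hf : V2 f) : PG f := (pgf_of_bdd' (F := fun _ : Unit => f) (fun _ => hf.1)
  ⟨_, fun _ => le_rfl⟩ (fun _ => ⟨_, fun _ => le_rfl⟩)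
  fun l hl => (hf.2 l hl).imp fun _ h _ => h).pg ()
theorem V2.bs_pd_pd (hf : V2 f) (i j : ι) : BS (pd i (pd j f)) := ⟨(hf.1.pd j).pd i, fun l => by
    have := hf.2 (l ++ [i, j]) (by simp)
    rwa [pds_append] at this⟩
theorem V2.add (hf : V2 f) (hg : V2 g) : V2 fun x => f x + g x := ⟨hf.1.add hg.1, fun l hl => by
    obtain ⟨C, hC⟩ := hf.2 l hl
    obtain ⟨D, hD⟩ := hg.2 l hl
    refine ⟨C + D, fun x => ?_⟩
    rw [pds_add hf.1 hg.1]
    exact (abs_add_le _ _).trans (add_le_add (hC x) (hD x))⟩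
theorem V2.const_mul (hf : V2 f) (c : ℝ) : V2 fun x => c * f x := ⟨contDiff_const.mul hf.1, fun l hl => by
    obtain ⟨C, hC⟩ := hf.2 l hl
    refine ⟨|c| * C, fun x => ?_⟩
    rw [pds_const_mul hf.1, abs_mul]
    exact mul_le_mul_of_nonneg_left (hC x) (abs_nonneg c)⟩
theorem V2.sum {κ : Type*} (s : Finset κ) {F : κ → (ι → ℝ) → ℝ} (hF : ∀ k ∈ s, V2 (F k)) :
    V2 fun x => ∑ k ∈ s, F k x := by
  classical
  induction s using Finset.induction_on with
  | empty => simpa using (BS.const (ι := ι) 0).v2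
  | insert k s hk ih =>
    simp only [Finset.sum_insert hk]
    exact (hF k (Finset.mem_insert_self _ _)).add
      (ih fun j hj => hF j (Finset.mem_insert_of_mem hj))
/-- One bound per order. -/
theorem V2.exists_bound (hf : V2 f) :
    ∃ M : ℕ → ℝ, ∀ l : List ι, 2 ≤ l.length → ∀ x, |P227.pds l f x| ≤ M l.length := by
  choose! C hC using hf.2
  refine ⟨fun k => ∑ l ∈ wordsEq ι k, |C l|, fun l hl x => (hC l hl x).trans ?_⟩
  exact (le_abs_self _).trans (Finset.single_le_sum (f := fun l => |C l|)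
    (fun _ _ => abs_nonneg _) (mem_wordsEq.2 rfl))

/-- A family of even functions with uniformly bounded higher derivatives and bounded values at
the origin has uniform polynomial growth. -/
theorem pgf_of_bdd {α : Type*} {F : α → (ι → ℝ) → ℝ} (hs : ∀ a, Sm (F a)) (he : ∀ a, Ev (F a))
    (h0 : ∃ C, ∀ a, |F a 0| ≤ C)
    (hb : ∀ l : List ι, 2 ≤ l.length → ∃ C, ∀ a x, |pds l (F a) x| ≤ C) : PGF F := pgf_of_bdd' hs h0 (fun i => ⟨0, fun a => by rw [(he a).pd_zero (hs a), abs_zero]⟩) hb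

end single

section JC
variable {ι : Type*} [Fintype ι] [DecidableEq ι] {u : ℝ → (ι → ℝ) → ℝ}

protected theorem JC.pd (hu : JC u) (i : ι) : JC fun t => pd i (u t) := DS.pd (S := Qc) hu i
protected theorem JC.pds (hu : JC u) (l : List ι) : JC fun t => pds l (u t) := DS.pds (S := Qc) hu l
protected theorem JC.add {w : ℝ → (ι → ℝ) → ℝ} (hu : JC u) (hw : JC w) : JC fun t x => u t x + w t x :=
  DS.add (S := Qc) hu hw
protected theorem JC.sub {w : ℝ → (ι → ℝ) → ℝ} (hu : JC u) (hw : JC w) : JC fun t x => u t x - w t x :=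
  DS.sub (S := Qc) hu hw
protected theorem JC.mul {w : ℝ → (ι → ℝ) → ℝ} (hu : JC u) (hw : JC w) : JC fun t x => u t x * w t x :=
  DS.mul (S := Qc) hu hw
protected theorem JC.const_mul (hu : JC u) (c : ℝ) : JC fun t x => c * u t x := DS.const_mul (S := Qc) hu c
protected theorem JC.sum {κ : Type*} (s : Finset κ) {F : κ → ℝ → (ι → ℝ) → ℝ} (hF : ∀ k ∈ s, JC (F k)) :
    JC fun t x => ∑ k ∈ s, F k t x := DS.sum (S := Qc) s hF
protected theorem JC.coord (j : ι) : JC fun (_ : ℝ) (x : ι → ℝ) => x j :=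
  ⟨fun _ => sm_coord j, fun l => ((sm_coord j).pds l).cont.comp continuous_snd⟩
protected theorem PGF.pd {α : Type*} {u : α → (ι → ℝ) → ℝ} (hu : PGF u) (i : ι) :
    PGF fun t => pd i (u t) := DS.pd (S := Qp) hu i
protected theorem PGF.pds {α : Type*} {u : α → (ι → ℝ) → ℝ} (hu : PGF u) (l : List ι) :
    PGF fun t => pds l (u t) := DS.pds (S := Qp) hu l
protected theorem PGF.add {α : Type*} {u w : α → (ι → ℝ) → ℝ} (hu : PGF u) (hw : PGF w) :
    PGF fun t x => u t x + w t x := DS.add (S := Qp) hu hw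
protected theorem PGF.sub {α : Type*} {u w : α → (ι → ℝ) → ℝ} (hu : PGF u) (hw : PGF w) :
    PGF fun t x => u t x - w t x := DS.sub (S := Qp) hu hw
protected theorem PGF.mul {α : Type*} {u w : α → (ι → ℝ) → ℝ} (hu : PGF u) (hw : PGF w) :
    PGF fun t x => u t x * w t x := DS.mul (S := Qp) hu hw
protected theorem PGF.const_mul {α : Type*} {u : α → (ι → ℝ) → ℝ} (hu : PGF u) (c : ℝ) :
    PGF fun t x => c * u t x := DS.const_mul (S := Qp) hu c
protected theorem PGF.sum {α κ : Type*} (s : Finset κ) {F : κ → α → (ι → ℝ) → ℝ}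
    (hF : ∀ k ∈ s, PGF (F k)) : PGF fun t x => ∑ k ∈ s, F k t x := DS.sum (S := Qp) s hF
protected theorem PGF.coord {α : Type*} (j : ι) : PGF fun (_ : α) (x : ι → ℝ) => x j := (PG.coord j).pgf

theorem JC.cont (hu : JC u) : Continuous fun p : ℝ × (ι → ℝ) => u p.1 p.2 := hu.2 []
theorem JC.of_sm {f : (ι → ℝ) → ℝ} (hf : Sm f) : JC fun _ => f := ⟨fun _ => hf, fun l => (hf.pds l).cont.comp continuous_snd⟩
theorem JC.time {c : ℝ → ℝ} (hc : Continuous c) : JC fun t (_ : ι → ℝ) => c t := DS.param (S := Qc) (hc.comp continuous_fst)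
theorem JC.comp_time (hu : JC u) {c : ℝ → ℝ} (hc : Continuous c) : JC fun t => u (c t) := ⟨fun t => hu.1 _, fun l => (hu.2 l).comp ((hc.comp continuous_fst).prodMk continuous_snd)⟩
theorem JC.scale (hu : JC u) {c : ℝ → ℝ} (hc : Continuous c) :
    JC fun t x => u t (c t • x) := ⟨fun t => (hu.1 t).comp (contDiff_id.const_smul _), fun l => by
    simp only [pds_scale (hu.1 _)]
    exact ((hc.comp continuous_fst).pow _).mul ((hu.2 l).comp
      (continuous_fst.prodMk ((hc.comp continuous_fst).smul continuous_snd)))⟩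

variable {n : ℕ}

theorem JC.linear {u : ℝ → X n → ℝ} (hu : JC u) (A : Mat n) :
    JC fun t x => u t (A *ᵥ x) := by
  have h1 : ∀ k, (fun x : X n => (A *ᵥ x) k) = dot (A k) := fun k => rfl
  refine DS.comp (S := Qc) (Y := fun _ x => A *ᵥ x) hu.1 (fun _ k => h1 k ▸ sm_dot _)
    (fun i k => ?_) fun m => ?_
  · have : (fun _ : ℝ => P227.pd i fun x : X n => (A *ᵥ x) k) = fun _ _ => A k i := by
      funext t x
      rw [h1, pd_dot]
    rw [this]
    exact DS.const _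
  · exact (hu.2 m).comp (continuous_fst.prodMk (continuous_const.matrix_mulVec continuous_snd))
theorem JC.tau {u : ℝ → X n → ℝ} (hu : JC u) (hd : ∀ t x, (hess (u t) x).det ≠ 0)
    (i j : Fin n) : JC fun t x => tau (u t) x i j := DS.inv (S := Qc) (h := fun t x => hess (u t) x) (fun a b => (hu.pd b).pd a) hd
    (fun a b => continuous_inv_entry (A := fun p : ℝ × X n => hess (u p.1) p.2)
      (fun a b => hu.2 [a, b]) (fun p => hd _ _) a b) i j
theorem JC.nop {V : X n → ℝ} {u : ℝ → X n → ℝ} (hV : Sm V) (hu : JC u)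
    (hd : ∀ t x, 0 < (hess (u t) x).det) : JC fun t => Nop V (u t) := by
  have h1 : JC fun t x => Real.log (hess (u t) x).det :=
    DS.logdet (S := Qc) (h := fun t x => hess (u t) x) (fun a b => (hu.pd b).pd a) hd
      (fun a b => (hu.tau (fun t x => (hd t x).ne') a b).cont)
      (continuous_logdet (A := fun p : ℝ × X n => hess (u p.1) p.2) (fun a b => hu.2 [a, b])
        fun p => (hd _ _).ne')
  exact ((h1.sub (JC.sum _ fun i _ => (JC.coord i).mul (hu.pd i))).add hu).add (JC.of_sm hV)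
theorem JC.lop {τ : ℝ → X n → Mat n} {u : ℝ → X n → ℝ} (hτ : ∀ i j, JC fun t x => τ t x i j)
    (hu : JC u) : JC fun t => Lop (τ t) (u t) := (JC.sum _ fun i _ => JC.sum _ fun j _ => (hτ i j).mul ((hu.pd j).pd i)).sub
    (JC.sum _ fun i _ => (JC.coord i).mul (hu.pd i))
theorem JC.gam {τ : ℝ → X n → Mat n} {u w : ℝ → X n → ℝ} (hτ : ∀ i j, JC fun t x => τ t x i j)
    (hu : JC u) (hw : JC w) : JC fun t => Gam (τ t) (u t) (w t) := JC.sum _ fun i _ => JC.sum _ fun j _ => ((hτ i j).mul (hu.pd i)).mul (hw.pd j)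

theorem PGF.lop {α : Type*} {τ : α → X n → Mat n} {u : α → X n → ℝ}
    (hτ : ∀ i j, PGF fun a x => τ a x i j) (hu : PGF u) : PGF fun a => Lop (τ a) (u a) := (PGF.sum _ fun i _ => PGF.sum _ fun j _ => (hτ i j).mul ((hu.pd j).pd i)).sub
    (PGF.sum _ fun i _ => (PGF.coord i).mul (hu.pd i))
theorem PGF.gam {α : Type*} {τ : α → X n → Mat n} {u w : α → X n → ℝ}
    (hτ : ∀ i j, PGF fun a x => τ a x i j) (hu : PGF u) (hw : PGF w) :
    PGF fun a => Gam (τ a) (u a) (w a) := PGF.sum _ fun i _ => PGF.sum _ fun j _ => ((hτ i j).mul (hu.pd i)).mul (hw.pd j)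
theorem PG.lop {τ : X n → Mat n} {u : X n → ℝ} (hτ : ∀ i j, PG fun x => τ x i j) (hu : PG u) :
    PG (Lop τ u) := (PG.sum _ fun i _ => PG.sum _ fun j _ => (hτ i j).mul ((hu.pd j).pd i)).sub
    (PG.sum _ fun i _ => (PG.coord i).mul (hu.pd i))
theorem PG.gam {τ : X n → Mat n} {u w : X n → ℝ} (hτ : ∀ i j, PG fun x => τ x i j) (hu : PG u)
    (hw : PG w) : PG (Gam τ u w) := PG.sum _ fun i _ => PG.sum _ fun j _ => ((hτ i j).mul (hu.pd i)).mul (hw.pd j)

theorem ds_hess {α : Type*} {u : α → X n → ℝ} (hs : ∀ a, Sm (u a))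
    (hb : ∀ l : List (Fin n), 2 ≤ l.length → ∃ C, ∀ a x, |pds l (u a) x| ≤ C) (i j : Fin n) :
    DS (Qb ⊤) fun a x => hess (u a) x i j :=
  ds_Qb_top_iff.2 ⟨fun a => ((hs a).pd j).pd i, fun l => by
    have := hb (l ++ [i, j]) (by simp)
    simp only [pds_append] at this
    exact this⟩

/-- Inverse Hessians of a uniformly convex family with bounded higher derivatives. -/
theorem ds_tau {α : Type*} {u : α → X n → ℝ} {c : ℝ} (hc : 0 < c) (hs : ∀ a, Sm (u a))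
    (hb : ∀ l : List (Fin n), 2 ≤ l.length → ∃ C, ∀ a x, |pds l (u a) x| ≤ C)
    (hl : ∀ a x, LB c (hess (u a) x)) (i j : Fin n) :
    DS (Qb ⊤) fun a x => tau (u a) x i j := DS.inv_Qb hc (ds_hess hs hb) (fun a x => hess_isSymm (hs a) x) hl i j

theorem bs_tau {u : X n → ℝ} {c : ℝ} (hc : 0 < c) (hu : V2 u) (hl : ∀ x, LB c (hess u x))
    (i j : Fin n) : BS fun x => tau u x i j := bs_iff.2 (ds_tau (u := fun _ : Unit => u) hc (fun _ => hu.1)
    (fun l h => (hu.2 l h).imp fun _ h _ => h) (fun _ => hl) i j)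

theorem pgf_nop {α : Type*} {V : X n → ℝ} {u : α → X n → ℝ} {c : ℝ} (hc : 0 < c) (hV : PG V)
    (hu : PGF u) (hb : ∀ l : List (Fin n), 2 ≤ l.length → ∃ C, ∀ a x, |pds l (u a) x| ≤ C)
    (hl : ∀ a x, LB c (hess (u a) x)) : PGF fun a => Nop V (u a) := by
  have h1 : PGF fun a x => Real.log (hess (u a) x).det :=
    (DS.logdet_Qb hc (ds_hess hu.1 hb) (fun a x => hess_isSymm (hu.1 a) x) hl).toQp
  exact ((h1.sub (PGF.sum _ fun i _ => (PGF.coord i).mul (hu.pd i))).add hu).add hV.pgf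

theorem Sol.pgf {Op : (X n → ℝ) → X n → ℝ} {T : ℝ} {u : ℝ → X n → ℝ} (hu : Sol Op T u) :
    PGF u := pgf_of_bdd hu.jc.1 hu.ev hu.bdd0 hu.bdd
theorem Sol.v2 {Op : (X n → ℝ) → X n → ℝ} {T : ℝ} {u : ℝ → X n → ℝ} (hu : Sol Op T u)
    (t : ℝ) : V2 (u t) := ⟨hu.jc.1 t, fun l hl => (hu.bdd l hl).imp fun _ h => h t⟩
theorem NSol.det_pos {V : X n → ℝ} {T : ℝ} {u : ℝ → X n → ℝ} (hu : NSol V T u) (t : ℝ)
    (x : X n) : 0 < (hess (u t) x).det := by
  obtain ⟨c, hc, h⟩ := hu.pos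
  exact (h t x).det_pos hc (hess_isSymm (hu.sol.jc.1 t) x)
theorem tau_isSymm {u : X n → ℝ} (hu : Sm u) (x : X n) : (tau u x).IsSymm := isSymm_inv (hess_isSymm hu x)
theorem tau_neg {u : X n → ℝ} (hu : Sm u) (he : Ev u) (x : X n) : tau u (-x) = tau u x := by
  have : hess u (-x) = hess u x := by
    ext i j
    simpa using he.pds_neg hu [i, j] x
  rw [tau, tau, this]

end JC

end Vale.Agent.P227
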