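import Vale.Agent.P227.Var

/-! Log-concavity of the partition function under independent dilations. -/

set_option linter.unusedSectionVars false
set_option linter.unusedVariables false

namespace Vale.Agent.P227

open scoped ContDiff
open MeasureTheory Set Filter Topology Matrix

theorem dui {n : ℕ} {c : ℝ} (hc : 0 < c) {V F G : ℝ → X n → ℝ} (hV : ∀ t x, c * nsq x ≤ V t x)
    (cV : Continuous fun p : ℝ × X n => V p.1 p.2) (cF : Continuous fun p : ℝ × X n => F p.1 p.2)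
    (cG : Continuous fun p : ℝ × X n => G p.1 p.2)
    (pF : (fun (t : Icc (0 : ℝ) 1) x => F t x) ∈ Qp)
    (pG : (fun (t : Icc (0 : ℝ) 1) x => G t x) ∈ Qp)
    (hd : ∀ t x, HasDerivAt (fun s => F s x * Real.exp (-V s x)) (G t x * Real.exp (-V t x)) t) :
    ContinuousOn (fun t => ∫ x, F t x * Real.exp (-V t x)) (Icc 0 1) ∧
      ∀ t ∈ Ioo (0 : ℝ) 1, HasDerivAt (fun t => ∫ x, F t x * Real.exp (-V t x))
        (∫ x, G t x * Real.exp (-V t x)) t := by
  obtain ⟨C, N, hC⟩ := Qp.add_mem (Qp.add_mem Qp.one_mem (Qp.mul_mem pF pF)) (Qp.mul_mem pG pG)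
  have key : ∀ t ∈ Icc (0 : ℝ) 1, ∀ x,
      |F t x| ≤ C * (1 + ‖x‖) ^ N ∧ |G t x| ≤ C * (1 + ‖x‖) ^ N := by
    intro t ht x
    have h1 : |1 + F t x * F t x + G t x * G t x| ≤ C * (1 + ‖x‖) ^ N := hC ⟨t, ht⟩ x
    have h2 := le_abs_self (1 + F t x * F t x + G t x * G t x)
    constructor <;> rw [abs_le] <;> constructor <;>
      nlinarith [sq_nonneg (F t x + 1), sq_nonneg (F t x - 1), sq_nonneg (G t x + 1),
        sq_nonneg (G t x - 1), sq_nonneg (F t x), sq_nonneg (G t x)]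
  have fin : ∀ {y : ℝ} (t : ℝ) (x : X n), |y| ≤ C * (1 + ‖x‖) ^ N →
      |y * Real.exp (-V t x)| ≤ C * (1 + ‖x‖) ^ N * Real.exp (-(c * nsq x)) := by
    intro y t x hy
    simpa using abs_mul_exp_le (a := c * nsq x) (b := V t x) (C₀ := 0) (by linarith [hV t x]) hy
  exact deriv_under_integral (f := fun t x => F t x * Real.exp (-V t x))
    (f' := fun t x => G t x * Real.exp (-V t x)) hc (cF.mul (Real.continuous_exp.comp cV.neg))
    (cG.mul (Real.continuous_exp.comp cV.neg)) (fun t _ x => (hd t x).hasDerivWithinAt)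
    (fun t ht x => fin t x (key t ht x).1) (fun t ht x => fin t x (key t ht x).2)

theorem Prof.abs_deriv2_le {ψ : ℝ → ℝ} (hψ : Prof ψ) : ∃ C, ∀ s, |deriv (deriv ψ) s| ≤ C := by
  simpa [iteratedDeriv_succ] using hψ.bdd 2 le_rfl

theorem Prof.abs_deriv_le {ψ : ℝ → ℝ} (hψ : Prof ψ) :
    ∃ C D, ∀ s, |deriv ψ s| ≤ |D + C * (1 + s * s)| := by
  obtain ⟨C, hC⟩ := hψ.abs_deriv2_le
  have h1 : Differentiable ℝ (deriv ψ) :=
    (contDiff_infty_iff_deriv.1 (contDiff_infty_iff_deriv.1 hψ.sm).2).1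
  refine ⟨C, |deriv ψ 0|, fun s => le_trans ?_ (le_abs_self _)⟩
  have h2 := convex_univ.norm_image_sub_le_of_norm_deriv_le (fun x _ => h1 x) (fun x _ => hC x)
    (mem_univ 0) (mem_univ s)
  rw [Real.norm_eq_abs, Real.norm_eq_abs, sub_zero] at h2
  have h3 := abs_sub_abs_le_abs_sub (deriv ψ s) (deriv ψ 0)
  have h4 : |s| ≤ 1 + s * s := by
    rw [abs_le]; constructor <;> nlinarith [sq_nonneg (s + 1), sq_nonneg (s - 1)]
  have h5 := mul_le_mul_of_nonneg_left h4 ((abs_nonneg _).trans (hC 0))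
  linarith

theorem Qp_of_le {α : Type*} {n : ℕ} {f g : α → X n → ℝ} (hg : g ∈ Qp)
    (h : ∀ a x, |f a x| ≤ |g a x|) : f ∈ Qp := by
  obtain ⟨C, N, hC⟩ := hg
  exact ⟨C, N, fun a x => (h a x).trans (hC a x)⟩

theorem Qp_sum {α J : Type*} [Fintype J] {n : ℕ} {f : J → α → X n → ℝ} (h : ∀ j, f j ∈ Qp) :
    (fun a x => ∑ j, f j a x) ∈ Qp := by
  have : (fun a x => ∑ j, f j a x) = ∑ j, f j := by
    funext a x
    simp
  rw [this]
  exact Qp.sum_mem fun j _ => h j

theorem Qp_const {α : Type*} {n : ℕ} (c : ℝ) : (fun (_ : α) (_ : X n) => c) ∈ Qp :=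
  Qp.algebraMap_mem c

theorem variance_at {n : ℕ} {J : Type} [Fintype J] {ψ : ℝ → ℝ} (hψ : Prof ψ)
    {ε : ℝ} (hε : 0 < ε) (a : J → X n) (δ w : J → ℝ) {V f r : X n → ℝ}
    (hV : V = fun x => ε / 2 * nsq x + ∑ j, ψ (w j * dot (a j) x))
    (hf : f = fun x => ∑ j, δ j * (deriv ψ (w j * dot (a j) x) * (w j * dot (a j) x)))
    (hr : r = fun x => ∑ j, δ j ^ 2 * (deriv (deriv ψ) (w j * dot (a j) x) *
      (w j * dot (a j) x) ^ 2 + deriv ψ (w j * dot (a j) x) * (w j * dot (a j) x))) :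
    (∫ x, f x ^ 2 * Real.exp (-V x)) * (∫ x, Real.exp (-V x))
        - (∫ x, f x * Real.exp (-V x)) ^ 2
      ≤ (∫ x, r x * Real.exp (-V x)) * ∫ x, Real.exp (-V x) := by
  have d1 : ∀ (i : Fin n) (x : X n), dot (Pi.single i 1) x = x i := fun i x => by
    simp [dot, Pi.single_apply]
  have d2 : ∀ (c : ℝ) (b x : X n), dot (c • b) x = c * dot b x := fun c b x => by
    simp [dot, Finset.mul_sum, mul_assoc]
  have d3 : deriv (fun s : ℝ => ε * (s ^ 2 / 2)) = fun s => ε * s := by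
    funext s
    simp
  have d4 : ∀ s, deriv (fun s : ℝ => ε * s) s = ε := fun s => by simp
  refine variance (J := Fin n ⊕ J)
    (ψ := Sum.elim (fun _ s => ε * (s ^ 2 / 2)) fun _ => ψ) ?_
    (Sum.elim (fun i => Pi.single i 1) fun j => w j • a j) (Sum.elim (fun _ => 0) δ)
    ⟨ε, hε, fun x ξ => ?_⟩ ?_ ?_ ?_
  · rintro (i | j)
    · exact prof_sq.const_mul hε.le
    · exact hψ
  · simp only [Fintype.sum_sum_type, Sum.elim_inl, Sum.elim_inr, d1, d3, d4, nsq, Finset.mul_sum]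
    exact le_add_of_nonneg_right
      (Finset.sum_nonneg fun j _ => mul_nonneg (hψ.conv _) (sq_nonneg _))
  · rw [hV]
    funext x
    simp only [Fintype.sum_sum_type, Sum.elim_inl, Sum.elim_inr, d1, d2, nsq, Finset.mul_sum]
    congr 1
    exact Finset.sum_congr rfl fun i _ => by ring
  · rw [hf]
    funext x
    simp [Fintype.sum_sum_type, d2]
  · rw [hr]
    funext x
    simp [Fintype.sum_sum_type, d2]

theorem concave_of {n : ℕ} {c : ℝ} (hε2 : 0 < c) {V f r : ℝ → X n → ℝ}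
    (hVl : ∀ t x, c * nsq x ≤ V t x) (cV : Continuous fun p : ℝ × X n => V p.1 p.2)
    (cf : Continuous fun p : ℝ × X n => f p.1 p.2) (cr : Continuous fun p : ℝ × X n => r p.1 p.2)
    (pf : (fun (t : Icc (0 : ℝ) 1) x => f t x) ∈ Qp)
    (pr : (fun (t : Icc (0 : ℝ) 1) x => r t x) ∈ Qp)
    (dE : ∀ t x, HasDerivAt (fun s => Real.exp (-V s x)) (f t x * Real.exp (-V t x)) t)
    (df : ∀ t x, HasDerivAt (fun s => f s x) (-r t x) t)
    (hv : ∀ t, (∫ x, f t x ^ 2 * Real.exp (-V t x)) * (∫ x, Real.exp (-V t x))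
        - (∫ x, f t x * Real.exp (-V t x)) ^ 2
      ≤ (∫ x, r t x * Real.exp (-V t x)) * ∫ x, Real.exp (-V t x)) {I : ℝ → ℝ}
    (hI' : I = fun t => ∫ x, Real.exp (-V t x))
    {t : ℝ} (ht0 : 0 ≤ t) (ht1 : t ≤ 1) : I 0 ^ (1 - t) * I 1 ^ t ≤ I t := by
  obtain ⟨k1, k2⟩ := dui hε2 (F := fun _ _ => 1) hVl cV continuous_const cf (Qp_const 1) pf
    fun t x => by simpa using dE t x
  obtain ⟨-, k3⟩ := dui hε2 (G := fun t x => f t x ^ 2 - r t x) hVl cV cf ((cf.pow 2).sub cr) pf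
    (Qp.sub_mem (Qp.pow_mem pf 2) pr) fun t x =>
      HasDerivAt.congr_deriv ((df t x).mul (dE t x)) (by ring)
  simp only [one_mul, ← hI'] at k1 k2
  have cVt : ∀ t, Continuous (V t) := fun t => cV.comp (Continuous.prodMk_right t)
  have co : ∀ t, ∃ c > 0, ∃ C, ∀ x, c * nsq x - C ≤ V t x := fun t =>
    ⟨c, hε2, 0, fun x => by linarith [hVl t x]⟩
  have hpos : ∀ t, 0 < I t := fun t => by
    rw [hI']
    exact integral_exp_pos (cVt t) (co t)
  have hcon : ConcaveOn ℝ (Icc (0 : ℝ) 1) fun t => Real.log (I t) := by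
    refine concaveOn_of_hasDerivWithinAt2_nonpos (convex_Icc 0 1)
      (f' := fun t => (∫ x, f t x * Real.exp (-V t x)) / I t)
      (f'' := fun t => ((∫ x, (f t x ^ 2 - r t x) * Real.exp (-V t x)) * I t -
        (∫ x, f t x * Real.exp (-V t x)) * ∫ x, f t x * Real.exp (-V t x)) / I t ^ 2)
      (k1.log fun t _ => (hpos t).ne') (fun t ht => ?_) (fun t ht => ?_) fun t ht => ?_
    · rw [interior_Icc] at ht
      exact ((k2 t ht).log (hpos t).ne').hasDerivWithinAt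
    · rw [interior_Icc] at ht
      exact ((k3 t ht).div (k2 t ht) (hpos t).ne').hasDerivWithinAt
    · rw [interior_Icc] at ht
      refine div_nonpos_of_nonpos_of_nonneg ?_ (sq_nonneg _)
      have v := hv t
      have bd : ∀ {g : ℝ → X n → ℝ}, (fun (t : Icc (0 : ℝ) 1) x => g t x) ∈ Qp →
          ∃ (C : ℝ) (N : ℕ), ∀ x, |g t x| ≤ C * (1 + ‖x‖) ^ N := fun ⟨C, N, h⟩ =>
        ⟨C, N, h ⟨t, Ioo_subset_Icc_self ht⟩⟩
      have i1 := integrable_mul_exp (cVt t) (co t) (f := fun x => f t x ^ 2)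
        ((cf.pow 2).comp (Continuous.prodMk_right t))
        (bd (g := fun t x => f t x ^ 2) (Qp.pow_mem pf 2))
      have i2 := integrable_mul_exp (cVt t) (co t) (f := r t)
        (cr.comp (Continuous.prodMk_right t)) (bd pr)
      simp only [sub_mul]
      rw [integral_sub i1 i2, hI']
      linarith
  have h1 := hcon.2 (left_mem_Icc.2 zero_le_one) (right_mem_Icc.2 zero_le_one)
    (sub_nonneg.2 ht1) ht0 (by ring)
  simp only [smul_eq_mul, mul_zero, mul_one, zero_add] at h1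
  rw [Real.rpow_def_of_pos (hpos 0), Real.rpow_def_of_pos (hpos 1), ← Real.exp_add,
    ← Real.exp_log (hpos t), Real.exp_le_exp]
  linarith

theorem log_concave {n : ℕ} {J : Type} [Fintype J] {ψ : ℝ → ℝ} (hψ : Prof ψ)
    (h0 : ∀ s, 0 ≤ ψ s) {ε : ℝ} (hε : 0 < ε) (a : J → X n) (δ : J → ℝ) {I : ℝ → ℝ}
    (hI : I = fun t => ∫ x, Real.exp
      (-(ε / 2 * nsq x + ∑ j, ψ (Real.exp (-(δ j * t)) * dot (a j) x))))
    {t : ℝ} (ht0 : 0 ≤ t) (ht1 : t ≤ 1) : I 0 ^ (1 - t) * I 1 ^ t ≤ I t := by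
  let S : J → ℝ → X n → ℝ := fun j t x => Real.exp (-(δ j * t)) * dot (a j) x
  let V : ℝ → X n → ℝ := fun t x => ε / 2 * nsq x + ∑ j, ψ (S j t x)
  let f : ℝ → X n → ℝ := fun t x => ∑ j, δ j * (deriv ψ (S j t x) * S j t x)
  let r : ℝ → X n → ℝ := fun t x => ∑ j, δ j ^ 2 *
    (deriv (deriv ψ) (S j t x) * S j t x ^ 2 + deriv ψ (S j t x) * S j t x)
  have s1 := contDiff_infty_iff_deriv.1 hψ.sm
  have s2 := contDiff_infty_iff_deriv.1 s1.2
  have c0 : Continuous ψ := hψ.sm.continuous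
  have c1 : Continuous (deriv ψ) := s1.2.continuous
  have c2 : Continuous (deriv (deriv ψ)) := s2.2.continuous
  have cS : ∀ j, Continuous fun p : ℝ × X n => S j p.1 p.2 := fun j =>
    (Real.continuous_exp.comp (continuous_const.mul continuous_fst).neg).mul
      ((sm_dot (a j)).cont.comp continuous_snd)
  have cV : Continuous fun p : ℝ × X n => V p.1 p.2 :=
    (continuous_const.mul (sm_nsq.cont.comp continuous_snd)).add
      (continuous_finsetSum _ fun j _ => c0.comp (cS j))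
  have cf : Continuous fun p : ℝ × X n => f p.1 p.2 :=
    continuous_finsetSum _ fun j _ => continuous_const.mul ((c1.comp (cS j)).mul (cS j))
  have cr : Continuous fun p : ℝ × X n => r p.1 p.2 :=
    continuous_finsetSum _ fun j _ => continuous_const.mul
      (((c2.comp (cS j)).mul ((cS j).pow 2)).add ((c1.comp (cS j)).mul (cS j)))
  have hVl : ∀ t x, ε / 2 * nsq x ≤ V t x := fun t x =>
    le_add_of_nonneg_right (Finset.sum_nonneg fun j _ => h0 _)
  have pS : ∀ j, (fun (t : Icc (0 : ℝ) 1) x => S j t x) ∈ Qp := by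
    intro j
    refine Qp.mul_mem (x := fun (t : Icc (0 : ℝ) 1) (_ : X n) => Real.exp (-(δ j * t)))
      (y := fun _ x => dot (a j) x) (Qp_of_le (Qp_const (Real.exp |δ j|)) fun t x => ?_)
      (Qp_sum fun i => Qp.mul_mem (Qp_const (a j i)) (coord_mem_Qp i))
    rw [abs_of_pos (Real.exp_pos _), abs_of_pos (Real.exp_pos _), Real.exp_le_exp]
    have h1 := t.2.1
    have h2 := t.2.2
    nlinarith [neg_abs_le (δ j), abs_nonneg (δ j)]
  obtain ⟨C2, hC2⟩ := hψ.abs_deriv2_le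
  obtain ⟨C1, D1, hC1⟩ := hψ.abs_deriv_le
  have p1 : ∀ j, (fun (t : Icc (0 : ℝ) 1) x => deriv ψ (S j t x)) ∈ Qp := fun j =>
    Qp_of_le (Qp.add_mem (Qp_const D1) (Qp.mul_mem (Qp_const C1)
      (Qp.add_mem (Qp_const 1) (Qp.mul_mem (pS j) (pS j))))) fun t x => hC1 _
  have p2 : ∀ j, (fun (t : Icc (0 : ℝ) 1) x => deriv (deriv ψ) (S j t x)) ∈ Qp := fun j =>
    Qp_of_le (Qp_const C2) fun t x => (hC2 _).trans (le_abs_self _)
  have pf : (fun (t : Icc (0 : ℝ) 1) x => f t x) ∈ Qp :=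
    Qp_sum fun j => Qp.mul_mem (Qp_const (δ j)) (Qp.mul_mem (p1 j) (pS j))
  have pr : (fun (t : Icc (0 : ℝ) 1) x => r t x) ∈ Qp :=
    Qp_sum fun j => Qp.mul_mem (Qp_const (δ j ^ 2))
      (Qp.add_mem (Qp.mul_mem (p2 j) (Qp.pow_mem (pS j) 2)) (Qp.mul_mem (p1 j) (pS j)))
  have dS : ∀ j t x, HasDerivAt (fun s => S j s x) (-(δ j * S j t x)) t := by
    intro j t x
    have h1 := (((hasDerivAt_id t).const_mul (δ j)).neg.exp).mul_const (dot (a j) x)
    refine HasDerivAt.congr_deriv h1 ?_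
    simp only [S, id, Pi.neg_apply]
    ring
  have dE : ∀ t x, HasDerivAt (fun s => Real.exp (-V s x)) (f t x * Real.exp (-V t x)) t := by
    intro t x
    have h1 := ((HasDerivAt.fun_sum (u := Finset.univ) fun j _ =>
      (s1.1 _).hasDerivAt.comp t (dS j t x)).const_add (ε / 2 * nsq x)).fun_neg.exp
    refine HasDerivAt.congr_deriv h1 ?_
    rw [mul_comm, ← Finset.sum_neg_distrib]
    congr 1
    exact Finset.sum_congr rfl fun j _ => by ring
  have df : ∀ t x, HasDerivAt (fun s => f s x) (-r t x) t := by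
    intro t x
    have h1 := HasDerivAt.fun_sum (u := Finset.univ) fun j _ =>
      (((s2.1 _).hasDerivAt.comp t (dS j t x)).mul (dS j t x)).const_mul (δ j)
    refine HasDerivAt.congr_deriv h1 ?_
    rw [← Finset.sum_neg_distrib]
    exact Finset.sum_congr rfl fun j _ => by simp only [Function.comp_apply]; ring
  exact concave_of (by positivity) hVl cV cf cr pf pr dE df
    (fun t => variance_at hψ hε a δ (fun j => Real.exp (-(δ j * t))) rfl rfl rfl) hI ht0 ht1

end Vale.Agent.P227
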