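import Vale.Agent.P227.Calc
import Vale.Agent.P227.Mat

/-! Calculus of the parabolic operator and the maximum principle. -/

set_option linter.unusedSectionVars false
set_option linter.unusedVariables false

namespace Vale.Agent.P227

open scoped ContDiff
open MeasureTheory Set Filter Topology Matrix

variable {n : ℕ} {T t p q : ℝ} {τ : X n → Mat n} {f g : ℝ → X n → ℝ} {x : X n}

theorem pd_add_fun {f g : X n → ℝ} (hf : Sm f) (hg : Sm g) (i : Fin n) :
    pd i (fun y => f y + g y) = fun y => pd i f y + pd i g y :=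
  funext fun y => pd_add (hf.diff y) (hg.diff y) i

theorem pd_mul_fun {f g : X n → ℝ} (hf : Sm f) (hg : Sm g) (i : Fin n) :
    pd i (fun y => f y * g y) = fun y => pd i f y * g y + f y * pd i g y :=
  funext fun y => pd_mul (hf.diff y) (hg.diff y) i

theorem pd_const_mul_fun {f : X n → ℝ} (hf : Sm f) (c : ℝ) (i : Fin n) :
    pd i (fun y => c * f y) = fun y => c * pd i f y :=
  funext fun y => pd_const_mul (hf.diff y) c i

theorem lop_add {f g : X n → ℝ} (hf : Sm f) (hg : Sm g) (τ : X n → Mat n) (x : X n) :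
    Lop τ (fun y => f y + g y) x = Lop τ f x + Lop τ g x := by
  simp only [Lop, pd_add_fun hf hg, pd_add_fun (hf.pd _) (hg.pd _), mul_add,
    Finset.sum_add_distrib]
  ring

theorem lop_const_mul {f : X n → ℝ} (hf : Sm f) (c : ℝ) (τ : X n → Mat n) (x : X n) :
    Lop τ (fun y => c * f y) x = c * Lop τ f x := by
  simp only [Lop, pd_const_mul_fun hf, pd_const_mul_fun (hf.pd _), mul_sub, Finset.mul_sum]
  congr 1
  · exact Finset.sum_congr rfl fun i _ => Finset.sum_congr rfl fun j _ => by ring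
  · exact Finset.sum_congr rfl fun i _ => by ring

theorem lop_sub {f g : X n → ℝ} (hf : Sm f) (hg : Sm g) (τ : X n → Mat n) (x : X n) :
    Lop τ (fun y => f y - g y) x = Lop τ f x - Lop τ g x := by
  have h1 : (fun y => f y - g y) = fun y => f y + (-1) * g y := funext fun y => by ring
  rw [h1, lop_add hf (contDiff_const.mul hg), lop_const_mul hg]
  ring

theorem lop_const (c : ℝ) (τ : X n → Mat n) (x : X n) : Lop τ (fun _ => c) x = 0 := by
  have h : ∀ (i : Fin n) (d : ℝ), pd i (fun _ : X n => d) = fun _ => 0 :=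
    fun i d => funext fun y => pd_const d i y
  simp [Lop, h]

theorem lop_mul {f g : X n → ℝ} (hf : Sm f) (hg : Sm g) (hτ : (τ x).IsSymm) :
    Lop τ (fun y => f y * g y) x
      = f x * Lop τ g x + g x * Lop τ f x + 2 * Gam τ f g x := by
  have h1 : ∀ i j, pd i (pd j fun y => f y * g y) x
      = f x * pd i (pd j g) x + g x * pd i (pd j f) x + pd i f x * pd j g x
        + pd j f x * pd i g x := by
    intro i j
    rw [pd_mul_fun hf hg, pd_add_fun ((hf.pd j).mul hg) (hf.mul (hg.pd j)),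
      pd_mul_fun (hf.pd j) hg, pd_mul_fun hf (hg.pd j)]
    ring
  have h2 : ∑ i, ∑ j, τ x i j * (pd j f x * pd i g x) = Gam τ f g x := by
    rw [Gam, Finset.sum_comm]
    refine Finset.sum_congr rfl fun i _ => Finset.sum_congr rfl fun j _ => ?_
    rw [hτ.apply i j, mul_assoc]
  have h3 : ∑ i, ∑ j, τ x i j * (pd i f x * pd j g x) = Gam τ f g x := by
    simp only [Gam, mul_assoc]
  have h4 : ∀ (c : ℝ) (F : Fin n → Fin n → ℝ),
      ∑ i, ∑ j, τ x i j * (c * F i j) = c * ∑ i, ∑ j, τ x i j * F i j := by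
    intro c F
    simp only [Finset.mul_sum]
    exact Finset.sum_congr rfl fun i _ => Finset.sum_congr rfl fun j _ => by ring
  have h5 : ∑ i, x i * pd i (fun y => f y * g y) x
      = f x * ∑ i, x i * pd i g x + g x * ∑ i, x i * pd i f x := by
    simp only [Finset.mul_sum, ← Finset.sum_add_distrib]
    refine Finset.sum_congr rfl fun i _ => ?_
    rw [pd_mul (hf.diff x) (hg.diff x)]
    ring
  simp only [Lop, h1, mul_add, Finset.sum_add_distrib, h2, h3, h4, h5]
  ring

theorem HasP.congr (hf : HasP T τ f t x p) (h : p = q) : HasP T τ f t x q := h ▸ hf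

theorem HasP.const (c : ℝ) : HasP T τ (fun _ _ => c) t x 0 :=
  ⟨contDiff_const, by
    rw [lop_const, add_zero]
    exact hasDerivWithinAt_const _ _ _⟩

theorem HasP.add (hf : HasP T τ f t x p) (hg : HasP T τ g t x q) :
    HasP T τ (fun s y => f s y + g s y) t x (p + q) :=
  ⟨hf.sm.add hg.sm, by
    rw [lop_add hf.sm hg.sm]
    exact (hf.dt.add hg.dt).congr_deriv (by ring)⟩

theorem HasP.const_mul (hf : HasP T τ f t x p) (c : ℝ) :
    HasP T τ (fun s y => c * f s y) t x (c * p) :=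
  ⟨contDiff_const.mul hf.sm, by
    rw [lop_const_mul hf.sm]
    exact (hf.dt.const_mul c).congr_deriv (by ring)⟩

theorem HasP.sum {κ : Type*} (s : Finset κ) {F : κ → ℝ → X n → ℝ} {P : κ → ℝ}
    (hF : ∀ k ∈ s, HasP T τ (F k) t x (P k)) :
    HasP T τ (fun r y => ∑ k ∈ s, F k r y) t x (∑ k ∈ s, P k) := by
  classical
  induction s using Finset.induction_on with
  | empty => simpa using HasP.const (T := T) (τ := τ) (t := t) (x := x) 0
  | insert a s ha ih =>
    simp only [Finset.sum_insert ha]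
    exact (hF a (Finset.mem_insert_self a s)).add
      (ih fun k hk => hF k (Finset.mem_insert_of_mem hk))

theorem HasP.mul (hf : HasP T τ f t x p) (hg : HasP T τ g t x q) (hτ : (τ x).IsSymm) :
    HasP T τ (fun s y => f s y * g s y) t x
      (f t x * q + g t x * p - 2 * Gam τ (f t) (g t) x) :=
  ⟨hf.sm.mul hg.sm, by
    rw [lop_mul hf.sm hg.sm hτ]
    exact (hf.dt.mul hg.dt).congr_deriv (by ring)⟩

theorem gam_self (f : X n → ℝ) : Gam τ f f x = qf (τ x) fun i => pd i f x := rfl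

theorem gam_one (hτ : τ x = 1) (f g : X n → ℝ) :
    Gam τ f g x = ∑ i, pd i f x * pd i g x := by
  simp [Gam, hτ, Matrix.one_apply]

/-- Second derivative test in one variable. -/
theorem second_nonpos_of_max {φ φ' : ℝ → ℝ} {d : ℝ} (h1 : ∀ s, HasDerivAt φ (φ' s) s)
    (h2 : HasDerivAt φ' d 0) (hm : ∀ s, φ s ≤ φ 0) : d ≤ 0 := by
  by_contra hd
  push Not at hd
  have e1 : deriv φ = φ' := funext fun s => (h1 s).deriv
  have hmax : IsLocalMax φ 0 := Eventually.of_forall hm
  have hmin : IsLocalMin φ 0 :=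
    isLocalMin_of_deriv_deriv_pos (by rw [e1, h2.deriv]; exact hd) hmax.deriv_eq_zero
      (h1 0).continuousAt
  have hc : φ =ᶠ[𝓝 0] fun _ => φ 0 := by
    filter_upwards [hmin] with s hs using le_antisymm (hm s) hs
  have h3 : deriv (deriv φ) 0 = 0 := by
    rw [hc.deriv.deriv_eq]
    simp
  rw [e1, h2.deriv] at h3
  exact hd.ne' h3

/-- At a global maximum the gradient vanishes. -/
theorem pd_eq_zero_of_max {F : X n → ℝ} (hm : ∀ y, F y ≤ F x) (i : Fin n) : pd i F x = 0 := by
  have hmax : IsLocalMax F x := Eventually.of_forall hm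
  simp [pd, hmax.fderiv_eq_zero]

/-- At a global maximum the Hessian is negative semidefinite. -/
theorem qf_hess_nonpos_of_max {F : X n → ℝ} (hF : Sm F) (hm : ∀ y, F y ≤ F x) (ξ : X n) :
    qf (hess F x) ξ ≤ 0 := by
  have h2 : HasDerivAt (fun s : ℝ => ∑ j, ξ j * pd j F (x + s • ξ))
      (∑ j, ξ j * ∑ i, ξ i * pd i (pd j F) (x + (0 : ℝ) • ξ)) 0 :=
    HasDerivAt.fun_sum fun j _ => (hasDerivAt_line ((hF.pd j).diff _)).const_mul (ξ j)
  have h := second_nonpos_of_max (fun s => hasDerivAt_line (x := x) (v := ξ) (hF.diff _)) h2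
    (fun s => by simpa using hm _)
  refine le_of_eq_of_le ?_ h
  simp only [qf, hess_apply, zero_smul, add_zero, Finset.mul_sum]
  rw [Finset.sum_comm]
  exact Finset.sum_congr rfl fun i _ => Finset.sum_congr rfl fun j _ => by ring

theorem lop_nonpos_of_max {F : X n → ℝ} (hF : Sm F) (hm : ∀ y, F y ≤ F x)
    (hτ : (τ x).PosSemidef) : Lop τ F x ≤ 0 := by
  have hs : (-hess F x).IsSymm := (hess_isSymm hF x).neg
  have hl : LB 0 (-hess F x) := fun ξ => by
    have := qf_hess_nonpos_of_max hF hm ξ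
    simp only [qf, Matrix.neg_apply, neg_mul, Finset.sum_neg_distrib, zero_mul] at this ⊢
    linarith
  have h := trace_mul_nonneg hτ (hl.posSemidef le_rfl hs)
  simp only [Matrix.trace, Matrix.diag_apply, Matrix.mul_apply, Matrix.neg_apply, hess_apply,
    mul_neg, Finset.sum_neg_distrib] at h
  simp only [Lop, pd_eq_zero_of_max hm, mul_zero, Finset.sum_const_zero, sub_zero]
  have e : ∑ i, ∑ j, τ x i j * pd i (pd j F) x = ∑ i, ∑ j, τ x i j * pd j (pd i F) x :=
    Finset.sum_congr rfl fun i _ => Finset.sum_congr rfl fun j _ => by rw [pd_comm hF i j]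
  linarith

theorem lop_nsq (τ : X n → Mat n) (x : X n) : Lop τ nsq x = 2 * (τ x).trace - 2 * nsq x := by
  have h1 : ∀ j : Fin n, pd j nsq = fun y : X n => 2 * y j := fun j => funext fun y => pd_nsq j y
  have h2 : ∀ i j : Fin n, pd i (fun y : X n => 2 * y j) x = if i = j then 2 else 0 := by
    intro i j
    rw [pd_const_mul ((sm_coord j).diff x), pd_coord]
    split_ifs <;> simp
  simp only [Lop, h1, h2, mul_ite, mul_zero, Finset.sum_ite_eq, Finset.mem_univ, if_true,
    Matrix.trace, Matrix.diag_apply, nsq, Finset.mul_sum]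
  congr 1
  · exact Finset.sum_congr rfl fun i _ => by ring
  · exact Finset.sum_congr rfl fun i _ => by ring

/-- Weak maximum principle on the whole space for bounded subsolutions. -/
theorem max_principle {τ : ℝ → X n → Mat n} {C M : ℝ}
    (hc : Continuous fun p : ℝ × X n => f p.1 p.2)
    (hb : ∃ B, ∀ t ∈ Icc 0 T, ∀ x, f t x ≤ B)
    (hτ : ∀ t ∈ Icc 0 T, ∀ x, (τ t x).PosSemidef ∧ (τ t x).trace ≤ C)
    (hP : ∀ t ∈ Ioc 0 T, ∀ x, M < f t x → ∃ p ≤ 0, HasP T (τ t) f t x p)
    (h0 : ∀ x, f 0 x ≤ M) : ∀ t ∈ Icc 0 T, ∀ x, f t x ≤ M := by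
  intro t1 ht1 x1
  by_contra hlt
  push Not at hlt
  obtain ⟨B, hB⟩ := hb
  set K : ℝ := 2 * |C| + 1 with hK
  have hK0 : 0 < K := by positivity
  have hw : 0 ≤ nsq x1 + K * t1 := add_nonneg (nsq_nonneg _) (mul_nonneg hK0.le ht1.1)
  obtain ⟨ε, hε, hε1⟩ : ∃ ε > 0, ε * (nsq x1 + K * t1) < f t1 x1 - M := by
    refine ⟨(f t1 x1 - M) / (nsq x1 + K * t1 + 1), div_pos (by linarith) (by linarith), ?_⟩
    rw [div_mul_eq_mul_div, div_lt_iff₀ (by linarith)]
    nlinarith
  set z : ℝ × X n → ℝ := fun q => f q.1 q.2 - ε * (nsq q.2 + K * q.1) with hz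
  have hzc : Continuous z :=
    hc.sub (continuous_const.mul ((sm_nsq.cont.comp continuous_snd).add
      (continuous_const.mul continuous_fst)))
  set R : ℝ := ‖x1‖ + |B - M| / ε + 1 with hR
  have hR1 : 0 ≤ |B - M| / ε := by positivity
  have hcomp : IsCompact (Icc 0 T ×ˢ Metric.closedBall (0 : X n) R) :=
    isCompact_Icc.prod (isCompact_closedBall _ _)
  have hmem : (t1, x1) ∈ Icc 0 T ×ˢ Metric.closedBall (0 : X n) R :=
    ⟨ht1, by simp only [mem_closedBall_zero_iff]; linarith⟩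
  obtain ⟨⟨t0, x0⟩, ⟨ht0, -⟩, hmax⟩ := hcomp.exists_isMaxOn ⟨_, hmem⟩ hzc.continuousOn
  have hz1 : M < z (t0, x0) := lt_of_lt_of_le (by simp only [hz]; linarith) (hmax hmem)
  have hall : ∀ s ∈ Icc 0 T, ∀ y, z (s, y) ≤ z (t0, x0) := by
    intro s hs y
    by_cases hy : ‖y‖ ≤ R
    · exact hmax (a := (s, y)) ⟨hs, by simpa using hy⟩
    · push Not at hy
      have e1 := norm_sq_le_nsq y
      have e2 := hB s hs y
      have e3 : 0 ≤ K * s := mul_nonneg hK0.le hs.1
      have e4 : 1 ≤ ‖y‖ := by linarith [norm_nonneg x1]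
      have e5 : |B - M| / ε ≤ ‖y‖ ^ 2 := by nlinarith [norm_nonneg x1]
      have e6 : |B - M| ≤ ε * (nsq y + K * s) := by
        rw [div_le_iff₀ hε] at e5
        nlinarith
      have e7 := le_abs_self (B - M)
      simp only [hz] at hz1 ⊢
      linarith
  have hpos : 0 ≤ ε * (nsq x0 + K * t0) :=
    mul_nonneg hε.le (add_nonneg (nsq_nonneg _) (mul_nonneg hK0.le ht0.1))
  have hf0 : M < f t0 x0 := by
    simp only [hz] at hz1
    linarith
  have ht0' : 0 < t0 := by
    refine lt_of_le_of_ne ht0.1 fun h => ?_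
    have h' : t0 = 0 := h.symm
    rw [h'] at hf0
    exact absurd (h0 x0) (not_le.2 hf0)
  obtain ⟨p, hp, hH⟩ := hP t0 ⟨ht0', ht0.2⟩ x0 hf0
  have hsp : Lop (τ t0) (fun y => f t0 y - ε * nsq y) x0 ≤ 0 :=
    lop_nonpos_of_max (hH.sm.sub (contDiff_const.mul sm_nsq)) (fun y => by
      have := hall t0 ht0 y
      simp only [hz] at this
      linarith) (hτ t0 ht0 x0).1
  rw [lop_sub hH.sm (contDiff_const.mul sm_nsq), lop_const_mul sm_nsq, lop_nsq] at hsp
  have hd : HasDerivWithinAt (fun s => f s x0 - ε * K * s)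
      (p + Lop (τ t0) (f t0) x0 - ε * K * 1) (Icc 0 T) t0 :=
    hH.dt.sub ((hasDerivWithinAt_id t0 _).const_mul (ε * K))
  have hlm : IsLocalMaxOn (fun s => f s x0 - ε * K * s) (Icc 0 T) t0 := by
    refine IsMaxOn.localize fun s hs => ?_
    have := hall s hs x0
    simp only [hz, mem_ofPred_eq] at this ⊢
    linarith
  have htc : (0 : ℝ) - t0 ∈ posTangentConeAt (Icc 0 T) t0 :=
    sub_mem_posTangentConeAt_of_segment_subset
      ((convex_Icc 0 T).segment_subset ht0 ⟨le_rfl, ht0.1.trans ht0.2⟩)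
  have h5 := hlm.hasFDerivWithinAt_nonpos hd.hasFDerivWithinAt htc
  simp only [ContinuousLinearMap.toSpanSingleton_apply, smul_eq_mul] at h5
  have h6 : 0 ≤ p + Lop (τ t0) (f t0) x0 - ε * K * 1 := by
    by_contra h
    push Not at h
    nlinarith
  have h7 := (hτ t0 ht0 x0).2
  have h8 := le_abs_self C
  have h9 := nsq_nonneg x0
  rw [hK] at h6
  nlinarith

end Vale.Agent.P227
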