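import Vale.Agent.P227.Calc

/-! Ultrafilter limits of smooth functions with locally bounded derivatives. -/

set_option linter.unusedSectionVars false
set_option linter.unusedVariables false

namespace Vale.Agent.P227

open scoped ContDiff
open MeasureTheory Set Filter Topology Matrix

variable {ι : Type*} [Fintype ι] [DecidableEq ι]

theorem hasFDerivAt_of_taylor {φ : (ι → ℝ) → ℝ} {x a : ι → ℝ} {C ρ : ℝ} (hρ : 0 < ρ)
    (h : ∀ y, ‖y‖ ≤ ρ → |φ (x + y) - φ x - ∑ i, y i * a i| ≤ C * ‖y‖ ^ 2) :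
    HasFDerivAt φ (∑ i, a i • (ContinuousLinearMap.proj i : (ι → ℝ) →L[ℝ] ℝ)) x := by
  rw [hasFDerivAt_iff_isLittleO_nhds_zero]
  have h1 : (fun y : ι → ℝ => φ (x + y) - φ x -
      (∑ i, a i • (ContinuousLinearMap.proj i : (ι → ℝ) →L[ℝ] ℝ)) y) =O[𝓝 0]
      fun y => ‖y‖ ^ 2 := by
    refine Asymptotics.IsBigO.of_bound C ?_
    filter_upwards [Metric.closedBall_mem_nhds 0 hρ] with y hy
    simpa [mul_comm] using h y (by simpa using hy)
  exact h1.trans_isLittleO (Asymptotics.isLittleO_norm_pow_id one_lt_two)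

theorem sm_of_family {g : List ι → (ι → ℝ) → ℝ}
    (hg : ∀ l x, ∃ C ρ : ℝ, 0 < ρ ∧ ∀ y, ‖y‖ ≤ ρ →
      |g l (x + y) - g l x - ∑ i, y i * g (i :: l) x| ≤ C * ‖y‖ ^ 2) :
    Sm (g []) ∧ ∀ l, pds l (g []) = g l := by
  have h1 : ∀ l x, HasFDerivAt (g l)
      (∑ i, g (i :: l) x • (ContinuousLinearMap.proj i : (ι → ℝ) →L[ℝ] ℝ)) x := fun l x => by
    obtain ⟨C, ρ, hρ, h⟩ := hg l x
    exact hasFDerivAt_of_taylor hρ h
  have h2 : ∀ l, fderiv ℝ (g l) =
      fun x => ∑ i, g (i :: l) x • (ContinuousLinearMap.proj i : (ι → ℝ) →L[ℝ] ℝ) :=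
    fun l => funext fun x => (h1 l x).fderiv
  have h3 : ∀ (k : ℕ) l, ContDiff ℝ k (g l) := by
    intro k
    induction k with
    | zero =>
      intro l
      exact contDiff_zero.2 (continuous_iff_continuousAt.2 fun x => (h1 l x).continuousAt)
    | succ k ih =>
      intro l
      rw [Nat.cast_succ, contDiff_succ_iff_fderiv]
      refine ⟨fun x => (h1 l x).differentiableAt, by simp, ?_⟩
      rw [h2]
      exact ContDiff.sum fun i _ => (ih _).smul contDiff_const
  refine ⟨contDiff_infty.2 fun k => h3 k [], fun l => ?_⟩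
  induction l with
  | nil => rfl
  | cons i l ih =>
    funext x
    rw [pds_cons, ih, pd, h2]
    simp [Pi.single_apply]

theorem exists_ulim (U : Ultrafilter ℕ) {f : ℕ → (ι → ℝ) → ℝ} (hs : ∀ N, Sm (f N))
    (hb : ∀ (l : List ι) (x : ι → ℝ), ∃ C, ∀ᶠ N in (U : Filter ℕ), ∀ y, ‖y - x‖ ≤ 1 →
      |pds l (f N) y| ≤ C) :
    ∃ g, Sm g ∧ ∀ (l : List ι) (x : ι → ℝ),
      Tendsto (fun N => pds l (f N) x) (U : Filter ℕ) (𝓝 (pds l g x)) := by
  have h1 : ∀ (l : List ι) (x : ι → ℝ), ∃ a,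
      Tendsto (fun N => pds l (f N) x) (U : Filter ℕ) (𝓝 a) := fun l x => by
    obtain ⟨C, hC⟩ := hb l x
    obtain ⟨a, _, ha⟩ := (isCompact_Icc (a := -C) (b := C)).ultrafilter_le_nhds
      (U.map fun N => pds l (f N) x) (by
        rw [Ultrafilter.coe_map, le_principal_iff, mem_map]
        filter_upwards [hC] with N hN
        exact abs_le.1 (hN x (by simp)))
    exact ⟨a, ha⟩
  choose g hg using h1
  have h2 := sm_of_family (g := g) fun l x => by
    choose C hC using fun p : ι × ι => hb (p.1 :: p.2 :: l) x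
    refine ⟨(Fintype.card ι) ^ 2 * ∑ p, |C p|, 1, one_pos, fun y hy => ?_⟩
    refine le_of_tendsto (((hg l (x + y)).sub (hg l x)).sub
      (tendsto_finsetSum Finset.univ fun i _ => (hg (i :: l) x).const_mul (y i))).abs ?_
    filter_upwards [eventually_all.2 hC] with N hN
    refine abs_taylor_le ((hs N).pds l) (fun i j z hz => ?_) hy
    exact ((hN (i, j) z hz).trans (le_abs_self _)).trans
      (Finset.single_le_sum (f := fun p => |C p|) (fun p _ => abs_nonneg _) (Finset.mem_univ _))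
  refine ⟨g [], h2.1, fun l x => ?_⟩
  rw [h2.2]
  exact hg l x

/-- Joint continuity from Lipschitz bounds in time and bounded space derivatives. -/
theorem jc_of_lip {v : ℝ → (ι → ℝ) → ℝ} (hs : ∀ t, Sm (v t))
    (hb : ∀ l : List ι, ∃ C, ∀ t x, |pds l (v t) x| ≤ C)
    (ht : ∀ l : List ι, ∃ C, ∀ s t x, |pds l (v s) x - pds l (v t) x| ≤ C * |s - t|) :
    JC v := by
  refine ⟨hs, fun l => continuous_iff_continuousAt.2 fun q => ?_⟩
  obtain ⟨C, hC⟩ := ht l
  have h1 : Tendsto (fun p : ℝ × (ι → ℝ) => pds l (v p.1) p.2 - pds l (v q.1) p.2) (𝓝 q)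
      (𝓝 0) := by
    refine squeeze_zero_norm (fun p => hC p.1 q.1 p.2) ?_
    have : Continuous fun p : ℝ × (ι → ℝ) => C * |p.1 - q.1| := by fun_prop
    simpa using this.tendsto q
  have h2 : Tendsto (fun p : ℝ × (ι → ℝ) => pds l (v q.1) p.2) (𝓝 q) (𝓝 (pds l (v q.1) q.2)) :=
    (((hs q.1).pds l).cont.comp continuous_snd).tendsto q
  simpa [ContinuousAt] using h1.add h2

end Vale.Agent.P227
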