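import Vale.Agent.P227.Classes
import Vale.Agent.P227.ULim

/-! Parameter integrals and evolution equations for space derivatives. -/

set_option linter.unusedSectionVars false
set_option linter.unusedVariables false

namespace Vale.Agent.P227

open scoped ContDiff
open MeasureTheory Set Filter Topology Matrix

variable {ι : Type*} [Fintype ι] [DecidableEq ι] {u G : ℝ → (ι → ℝ) → ℝ} {T : ℝ}

theorem JC.cont_time (hG : JC G) (l : List ι) (x : ι → ℝ) :
    Continuous fun s => P227.pds l (G s) x :=
  (hG.2 l).comp (continuous_id.prodMk continuous_const)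

theorem JC.family_integral (hG : JC G) (a b : ℝ) :
    Sm (fun x => ∫ s in a..b, G s x) ∧
      ∀ l, P227.pds l (fun x => ∫ s in a..b, G s x)
        = fun x => ∫ s in a..b, P227.pds l (G s) x := by
  refine sm_of_family (g := fun l x => ∫ s in a..b, P227.pds l (G s) x) fun l x => ?_
  have hK : IsCompact (uIcc a b ×ˢ Metric.closedBall x 1) :=
    isCompact_uIcc.prod (isCompact_closedBall _ _)
  choose C hC using fun p : ι × ι =>
    hK.exists_bound_of_continuousOn (hG.2 (p.1 :: p.2 :: l)).continuousOn
  refine ⟨(Fintype.card ι) ^ 2 * (∑ p, |C p|) * |b - a|, 1, one_pos, fun y hy => ?_⟩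
  have hi : ∀ (m : List ι) (z : ι → ℝ),
      IntervalIntegrable (fun s => P227.pds m (G s) z) volume a b :=
    fun m z => (hG.cont_time m z).intervalIntegrable _ _
  have hs : IntervalIntegrable (fun s => ∑ i, y i * P227.pds (i :: l) (G s) x) volume a b :=
    (continuous_finsetSum _ fun i _ =>
      continuous_const.mul (hG.cont_time (i :: l) x)).intervalIntegrable _ _
  simp only [← intervalIntegral.integral_const_mul]
  rw [← intervalIntegral.integral_finsetSum fun i _ => (hi (i :: l) x).const_mul (y i),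
    ← intervalIntegral.integral_sub (hi _ _) (hi _ _),
    ← intervalIntegral.integral_sub ((hi _ _).sub (hi _ _)) hs]
  have := intervalIntegral.norm_integral_le_of_norm_le_const (a := a) (b := b)
    (f := fun s => P227.pds l (G s) (x + y) - P227.pds l (G s) x
      - ∑ i, y i * P227.pds (i :: l) (G s) x)
    (C := (Fintype.card ι) ^ 2 * (∑ p, |C p|) * ‖y‖ ^ 2) fun s hs => by
      refine abs_taylor_le ((hG.1 s).pds l) (fun i j z hz => ?_) hy
      exact ((hC (i, j) (s, z) ⟨uIoc_subset_uIcc hs, mem_closedBall_iff_norm.2 hz⟩).trans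
        (le_abs_self _)).trans
        (Finset.single_le_sum (f := fun p => |C p|) (fun p _ => abs_nonneg _) (Finset.mem_univ _))
  exact this.trans_eq (by ring)

theorem JC.sm_integral (hG : JC G) (a b : ℝ) : Sm fun x => ∫ s in a..b, G s x :=
  (hG.family_integral a b).1

theorem JC.pds_integral (hG : JC G) (a b : ℝ) (l : List ι) (x : ι → ℝ) :
    P227.pds l (fun x => ∫ s in a..b, G s x) x = ∫ s in a..b, P227.pds l (G s) x := by
  rw [(hG.family_integral a b).2]

theorem JC.integral (hG : JC G) : JC fun t x => ∫ s in (0 : ℝ)..t, G s x := by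
  refine ⟨fun t => hG.sm_integral 0 t, fun l => ?_⟩
  simp only [hG.pds_integral]
  have h := intervalIntegral.continuous_parametric_primitive_of_continuous (μ := volume)
    (f := fun (x : ι → ℝ) (s : ℝ) => P227.pds l (G s) x) (a₀ := 0)
    ((hG.2 l).comp continuous_swap)
  exact h.comp continuous_swap

theorem PGF.pg_integral (hG : JC G) (hp : PGF G) (a b : ℝ) :
    PG fun x => ∫ s in a..b, G s x := by
  refine ⟨hG.sm_integral a b, fun l => ?_⟩
  obtain ⟨C, N, hC⟩ := hp.2 l
  refine ⟨C * |b - a|, N, fun x => ?_⟩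
  rw [hG.pds_integral]
  have := intervalIntegral.norm_integral_le_of_norm_le_const (a := a) (b := b)
    (f := fun s => P227.pds l (G s) x) (C := C * (1 + ‖x‖) ^ N) fun s _ => hC s x
  exact this.trans_eq (by ring)

theorem eq_add_integral' (hG : Continuous fun p : ℝ × (ι → ℝ) => G p.1 p.2)
    (h : ∀ t ∈ Icc 0 T, ∀ x, HasDerivWithinAt (fun s => u s x) (G t x) (Icc 0 T) t)
    {t : ℝ} (ht : t ∈ Icc 0 T) (x : ι → ℝ) : u t x = u 0 x + ∫ s in (0 : ℝ)..t, G s x := by
  have hs : Icc 0 t ⊆ Icc 0 T := Icc_subset_Icc_right ht.2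
  have := intervalIntegral.integral_eq_sub_of_hasDerivAt_of_le (f := fun s => u s x)
    (f' := fun s => G s x) ht.1
    (fun s hs' => ((h s (hs hs') x).continuousWithinAt).mono hs)
    (fun s hs' => (h s (hs (Ioo_subset_Icc_self hs')) x).hasDerivAt
      (Icc_mem_nhds hs'.1 (hs'.2.trans_le ht.2)))
    ((hG.comp (continuous_id.prodMk continuous_const)).intervalIntegrable _ _)
  rw [this]
  ring

/-- Fundamental theorem of calculus in time. -/
theorem eq_add_integral (hu : JC u) (hG : JC G)
    (h : ∀ t ∈ Icc 0 T, ∀ x, HasDerivWithinAt (fun s => u s x) (G t x) (Icc 0 T) t)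
    {t : ℝ} (ht : t ∈ Icc 0 T) (x : ι → ℝ) : u t x = u 0 x + ∫ s in (0 : ℝ)..t, G s x :=
  eq_add_integral' (hG.2 []) h ht x

/-- The evolution equation may be differentiated in space. -/
theorem evol (hu : JC u) (hG : JC G)
    (h : ∀ t ∈ Icc 0 T, ∀ x, HasDerivWithinAt (fun s => u s x) (G t x) (Icc 0 T) t)
    (l : List ι) {t : ℝ} (ht : t ∈ Icc 0 T) (x : ι → ℝ) :
    HasDerivWithinAt (fun s => pds l (u s) x) (pds l (G t) x) (Icc 0 T) t := by
  have key : ∀ s ∈ Icc 0 T,
      pds l (u s) x = pds l (u 0) x + ∫ r in (0 : ℝ)..s, pds l (G r) x := by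
    intro s hs
    have e : u s = fun y => u 0 y + ∫ r in (0 : ℝ)..s, G r y :=
      funext fun y => eq_add_integral hu hG h hs y
    rw [e, pds_add (hu.1 0) (hG.sm_integral 0 s)]
    simp only [hG.pds_integral]
  have h1 := (((hG.cont_time l x).integral_hasStrictDerivAt 0 t).hasDerivAt.const_add
    (pds l (u 0) x)).hasDerivWithinAt (s := Icc 0 T)
  exact h1.congr key (key t ht)

theorem hasDerivAt_integral_moving (hG : Continuous fun p : ℝ × (ι → ℝ) => G p.1 p.2)
    {y : ℝ → ι → ℝ} {t : ℝ} (hy : ContinuousAt y t) :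
    HasDerivAt (fun s => ∫ r in t..s, G r (y s)) (G t (y t)) t := by
  rw [hasDerivAt_iff_isLittleO, Asymptotics.isLittleO_iff]
  intro ε hε
  obtain ⟨δ, hδ, hd⟩ := Metric.continuousAt_iff.1 (hG.continuousAt (x := (t, y t))) ε hε
  filter_upwards [Metric.ball_mem_nhds t hδ, hy (Metric.ball_mem_nhds _ hδ)] with s hs hys
  have hi : IntervalIntegrable (fun r => G r (y s)) volume t s :=
    (hG.comp (continuous_id.prodMk continuous_const)).intervalIntegrable _ _
  have e : (∫ r in t..s, G r (y s)) - (∫ r in t..t, G r (y t)) - (s - t) • G t (y t)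
      = ∫ r in t..s, (G r (y s) - G t (y t)) := by
    rw [intervalIntegral.integral_sub hi intervalIntegrable_const]
    simp
  rw [e]
  refine intervalIntegral.norm_integral_le_of_norm_le_const fun r hr => ?_
  have h1 : dist r t < δ := by
    have := abs_sub_left_of_mem_uIcc (uIoc_subset_uIcc hr)
    rw [Metric.mem_ball, Real.dist_eq] at hs
    rw [Real.dist_eq]
    linarith
  exact (hd (x := (r, y s)) (max_lt h1 hys)).le

/-- Chain rule along a moving point. -/
theorem hasDerivWithinAt_moving (hu : JC u)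
    (hG : Continuous fun p : ℝ × (ι → ℝ) => G p.1 p.2)
    (h : ∀ t ∈ Icc 0 T, ∀ x, HasDerivWithinAt (fun s => u s x) (G t x) (Icc 0 T) t)
    {y : ℝ → ι → ℝ} {y' : ι → ℝ} {t : ℝ} (ht : t ∈ Icc 0 T) (hy : HasDerivAt y y' t) :
    HasDerivWithinAt (fun s => u s (y s)) (G t (y t) + ∑ i, y' i * pd i (u t) (y t))
      (Icc 0 T) t := by
  have key : ∀ s ∈ Icc 0 T, u s (y s) = (∫ r in t..s, G r (y s)) + u t (y s) := by
    intro s hs
    have hi : ∀ a b, IntervalIntegrable (fun r => G r (y s)) volume a b := fun a b =>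
      (hG.comp (continuous_id.prodMk continuous_const)).intervalIntegrable _ _
    rw [eq_add_integral' hG h hs, eq_add_integral' hG h ht,
      ← intervalIntegral.integral_add_adjacent_intervals (hi 0 t) (hi t s)]
    ring
  have h2 : HasDerivAt (fun s => u t (y s)) (∑ i, y' i * pd i (u t) (y t)) t := by
    rw [← fderiv_eq_sum]
    exact ((hu.1 t).diff _).hasFDerivAt.comp_hasDerivAt t hy
  exact ((hasDerivAt_integral_moving hG hy.continuousAt).add h2).hasDerivWithinAt.congr key
    (key t ht)

variable {n : ℕ}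

theorem lop_integral {G : ℝ → X n → ℝ} (hG : JC G) (τ : X n → Mat n) (a b : ℝ) (x : X n) :
    Lop τ (fun x => ∫ s in a..b, G s x) x = ∫ s in a..b, Lop τ (G s) x := by
  have h1 : ∀ i j, pd i (pd j fun x => ∫ s in a..b, G s x) x
      = ∫ s in a..b, pd i (pd j (G s)) x := fun i j => hG.pds_integral a b [i, j] x
  have h2 : ∀ i, pd i (fun x => ∫ s in a..b, G s x) x = ∫ s in a..b, pd i (G s) x :=
    fun i => hG.pds_integral a b [i] x
  have c1 : ∀ i j, Continuous fun s => τ x i j * pd i (pd j (G s)) x := fun i j =>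
    continuous_const.mul (hG.cont_time [i, j] x)
  have c2 : ∀ i, Continuous fun s => x i * pd i (G s) x := fun i =>
    continuous_const.mul (hG.cont_time [i] x)
  simp only [Lop, h1, h2, ← intervalIntegral.integral_const_mul]
  rw [intervalIntegral.integral_sub
      ((continuous_finsetSum _ fun i _ => continuous_finsetSum _ fun j _ =>
        c1 i j).intervalIntegrable _ _)
      ((continuous_finsetSum _ fun i _ => c2 i).intervalIntegrable _ _),
    intervalIntegral.integral_finsetSum fun i _ =>
      (continuous_finsetSum _ fun j _ => c1 i j).intervalIntegrable _ _,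
    intervalIntegral.integral_finsetSum fun i _ => (c2 i).intervalIntegrable _ _]
  congr 1
  exact Finset.sum_congr rfl fun i _ =>
    (intervalIntegral.integral_finsetSum fun j _ => (c1 i j).intervalIntegrable _ _).symm

end Vale.Agent.P227
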