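import Vale.Agent.P227.Gauss

/-! A crude Poincare inequality. -/

set_option linter.unusedSectionVars false
set_option linter.unusedVariables false

namespace Vale.Agent.P227

open scoped ContDiff
open MeasureTheory Set Filter Topology Matrix

variable {n : ℕ}

theorem integrable_prod_compact {β : Type*} [MeasureSpace β] [TopologicalSpace β] [BorelSpace β]
    [T2Space β] [SecondCountableTopology β] [SFinite (volume : Measure β)]
    [IsFiniteMeasureOnCompacts (volume : Measure β)] {Q : Set (X n)} {S : Set β}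
    (hQ : IsCompact Q) (hS : IsCompact S) {F : X n × β → ℝ} (hF : Continuous F) :
    Integrable F (((volume : Measure (X n)).restrict Q).prod ((volume : Measure β).restrict S)) := by
  rw [Measure.prod_restrict]
  exact hF.continuousOn.integrableOn_compact (hQ.prod hS)

/-- Contracting a convex set towards one of its points. -/
theorem integral_contract_le {Q : Set (X n)} (hQ : IsCompact Q) (hc : Convex ℝ Q)
    {G : X n → ℝ} (hG : Continuous G) (h0 : ∀ x, 0 ≤ G x) {y : X n} (hy : y ∈ Q) {s : ℝ}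
    (hs : s ∈ Icc (1 / 2 : ℝ) 1) :
    ∫ x in Q, G (y + s • (x - y)) ≤ 2 ^ n * ∫ x in Q, G x := by
  have hm := hQ.measurableSet
  have hs0 : 0 < s := by linarith [hs.1]
  have hi : Integrable (Q.indicator G) :=
    (integrable_indicator_iff hm).2 (hG.continuousOn.integrableOn_compact hQ)
  have hi2 := (hi.comp_add_left (y - s • y)).comp_smul hs0.ne'
  have hI : 0 ≤ ∫ x in Q, G x := integral_nonneg h0
  calc ∫ x in Q, G (y + s • (x - y)) = ∫ x in Q, Q.indicator G (y - s • y + s • x) := by
        refine setIntegral_congr_fun hm fun x hx => ?_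
        have e : y - s • y + s • x = y + s • (x - y) := by
          rw [smul_sub]
          abel
        simp only [e]
        rw [indicator_of_mem (hc.add_smul_sub_mem hy hx ⟨hs0.le, hs.2⟩)]
    _ ≤ ∫ x, Q.indicator G (y - s • y + s • x) :=
        setIntegral_le_integral hi2 (Eventually.of_forall fun x =>
          indicator_nonneg (fun z _ => h0 z) _)
    _ = (s ^ n)⁻¹ * ∫ x in Q, G x := by
        rw [Measure.integral_comp_smul volume (fun x => Q.indicator G (y - s • y + x)) s,
          integral_add_left_eq_self, integral_indicator hm]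
        simp [abs_of_pos hs0]
    _ ≤ 2 ^ n * ∫ x in Q, G x := by
        refine mul_le_mul_of_nonneg_right ?_ hI
        rw [← inv_pow]
        refine pow_le_pow_left₀ (by positivity) ?_ n
        rw [inv_le_comm₀ hs0 two_pos]
        linarith [hs.1]

theorem sq_integral_half_le {φ : ℝ → ℝ} (hφ : Continuous φ) :
    (∫ s in (1 / 2 : ℝ)..1, φ s) ^ 2 ≤ ∫ s in (1 / 2 : ℝ)..1, φ s ^ 2 := by
  set I := ∫ s in (1 / 2 : ℝ)..1, φ s with hI
  have h1 : 0 ≤ ∫ s in (1 / 2 : ℝ)..1, (φ s ^ 2 - 2 * I * φ s + I ^ 2) :=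
    intervalIntegral.integral_nonneg (by norm_num) fun s _ => by nlinarith [sq_nonneg (φ s - I)]
  have i1 : IntervalIntegrable (fun s => φ s ^ 2) volume (1 / 2) 1 :=
    (hφ.pow 2).intervalIntegrable _ _
  have i2 : IntervalIntegrable (fun s => 2 * I * φ s) volume (1 / 2) 1 :=
    (continuous_const.mul hφ).intervalIntegrable _ _
  rw [intervalIntegral.integral_add (i1.sub i2) intervalIntegrable_const,
    intervalIntegral.integral_sub i1 i2, intervalIntegral.integral_const_mul, ← hI,
    intervalIntegral.integral_const, smul_eq_mul] at h1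
  nlinarith [sq_nonneg I]

theorem sq_sub_mid_le {f : X n → ℝ} (hf : Sm f) (x y : X n) :
    (f x - f (y + (1 / 2 : ℝ) • (x - y))) ^ 2
      ≤ nsq (x - y) * ∫ s in Icc (1 / 2 : ℝ) 1, ∑ i, pd i f (y + s • (x - y)) ^ 2 := by
  have hl : Continuous fun s : ℝ => y + s • (x - y) := by fun_prop
  have hc : Continuous fun s : ℝ => ∑ i, (x - y) i * pd i f (y + s • (x - y)) :=
    continuous_finsetSum _ fun i _ => continuous_const.mul ((hf.pd i).cont.comp hl)
  have hc2 : Continuous fun s : ℝ => ∑ i, pd i f (y + s • (x - y)) ^ 2 :=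
    continuous_finsetSum _ fun i _ => ((hf.pd i).cont.comp hl).pow 2
  have h1 := intervalIntegral.integral_eq_sub_of_hasDerivAt (a := 1 / 2) (b := 1)
    (fun s _ => hasDerivAt_line (x := y) (v := x - y) (s := s) (hf.diff _))
    (hc.intervalIntegrable _ _)
  rw [one_smul, add_sub_cancel] at h1
  rw [← h1, integral_Icc_eq_integral_Ioc, ← intervalIntegral.integral_of_le (by norm_num),
    ← intervalIntegral.integral_const_mul]
  refine (sq_integral_half_le hc).trans (intervalIntegral.integral_mono_on (by norm_num)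
    ((hc.pow 2).intervalIntegrable _ _) ((continuous_const.mul hc2).intervalIntegrable _ _)
    fun s _ => ?_)
  exact Finset.sum_mul_sq_le_sq_mul_sq _ _ _

theorem integral_sq_sub_mid_le {R : ℝ} {f : X n → ℝ} (hf : Sm f) {y : X n}
    (hy : y ∈ Metric.closedBall (0 : X n) R) :
    ∫ x in Metric.closedBall (0 : X n) R, (f x - f (y + (1 / 2 : ℝ) • (x - y))) ^ 2
      ≤ n * (2 * R) ^ 2 * 2 ^ n * ∫ x in Metric.closedBall (0 : X n) R, ∑ i, pd i f x ^ 2 := by
  set Q := Metric.closedBall (0 : X n) R with hQd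
  have hQ : IsCompact Q := isCompact_closedBall _ _
  have hG : Continuous fun x => ∑ i, pd i f x ^ 2 :=
    continuous_finsetSum _ fun i _ => (hf.pd i).cont.pow 2
  have h0 : ∀ x, 0 ≤ ∑ i, pd i f x ^ 2 := fun x => Finset.sum_nonneg fun _ _ => sq_nonneg _
  have hI : 0 ≤ ∫ x in Q, ∑ i, pd i f x ^ 2 := integral_nonneg h0
  have hF : Integrable (fun q : X n × ℝ => ∑ i, pd i f (y + q.2 • (q.1 - y)) ^ 2) _ :=
    integrable_prod_compact hQ (isCompact_Icc (a := (1 / 2 : ℝ)) (b := 1))
      (hG.comp (by fun_prop))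
  have hfc := hf.cont
  calc ∫ x in Q, (f x - f (y + (1 / 2 : ℝ) • (x - y))) ^ 2
      ≤ ∫ x in Q, n * (2 * R) ^ 2 *
          ∫ s in Icc (1 / 2 : ℝ) 1, ∑ i, pd i f (y + s • (x - y)) ^ 2 := by
        refine setIntegral_mono_on (ContinuousOn.integrableOn_compact hQ (by fun_prop))
          (hF.integral_prod_left.const_mul _) hQ.measurableSet fun x hx => ?_
        refine (sq_sub_mid_le hf x y).trans (mul_le_mul_of_nonneg_right ?_
          (integral_nonneg fun s => h0 _))
        refine (nsq_le_norm_sq _).trans (mul_le_mul_of_nonneg_left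
          (pow_le_pow_left₀ (norm_nonneg _) ?_ 2) (Nat.cast_nonneg _))
        have h1 := norm_sub_le x y
        rw [hQd, mem_closedBall_zero_iff] at hx hy
        linarith
    _ = n * (2 * R) ^ 2 *
          ∫ s in Icc (1 / 2 : ℝ) 1, ∫ x in Q, ∑ i, pd i f (y + s • (x - y)) ^ 2 := by
        rw [integral_const_mul, integral_integral_swap hF]
    _ ≤ n * (2 * R) ^ 2 * ∫ s in Icc (1 / 2 : ℝ) 1, 2 ^ n * ∫ x in Q, ∑ i, pd i f x ^ 2 := by
        refine mul_le_mul_of_nonneg_left ?_ (by positivity)
        exact setIntegral_mono_on hF.integral_prod_right (integrableOn_const (by simp))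
          measurableSet_Icc fun s hs =>
            integral_contract_le hQ (convex_closedBall _ _) hG h0 hy hs
    _ ≤ _ := by
        rw [mul_assoc _ (2 ^ n : ℝ)]
        refine mul_le_mul_of_nonneg_left ?_ (by positivity)
        have : 0 ≤ 2 ^ n * ∫ x in Q, ∑ i, pd i f x ^ 2 := by positivity
        rw [setIntegral_const, Real.volume_real_Icc_of_le (by norm_num), smul_eq_mul]
        linarith

/-- Local Poincare inequality on a cube. -/
theorem poincare_local (n : ℕ) {R : ℝ} (hR : 0 < R) : ∃ C, 0 ≤ C ∧ ∀ f : X n → ℝ, Sm f →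
    ∃ m : ℝ, ∫ x in Metric.closedBall (0 : X n) R, (f x - m) ^ 2
      ≤ C * ∫ x in Metric.closedBall (0 : X n) R, ∑ i, pd i f x ^ 2 := by
  refine ⟨4 * (n * (2 * R) ^ 2 * 2 ^ n), by positivity, fun f hf => ?_⟩
  have hA := fun y hy => integral_sq_sub_mid_le (R := R) hf (y := y) hy
  set Q := Metric.closedBall (0 : X n) R with hQd
  set A := n * (2 * R) ^ 2 * 2 ^ n * ∫ x in Q, ∑ i, pd i f x ^ 2 with hAd
  have hQ : IsCompact Q := isCompact_closedBall _ _
  have hfc := hf.cont
  have hv0 : volume Q ≠ 0 := (Metric.measure_closedBall_pos volume _ hR).ne'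
  have hv1 : volume Q ≠ ⊤ := hQ.measure_lt_top.ne
  have hv : 0 < volume.real Q := ENNReal.toReal_pos hv0 hv1
  have i0 : Integrable (fun q : X n × X n => (f q.2 - f q.1) ^ 2) _ :=
    integrable_prod_compact hQ hQ (by fun_prop)
  have i1 : Integrable (fun q : X n × X n =>
      (f q.2 - f (q.1 + (1 / 2 : ℝ) • (q.2 - q.1))) ^ 2) _ :=
    integrable_prod_compact hQ hQ (by fun_prop)
  have i2 : Integrable (fun q : X n × X n =>
      (f q.1 - f (q.2 + (1 / 2 : ℝ) • (q.1 - q.2))) ^ 2) _ :=
    integrable_prod_compact hQ hQ (by fun_prop)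
  have b1 : ∫ y in Q, ∫ x in Q, (f x - f (y + (1 / 2 : ℝ) • (x - y))) ^ 2
      ≤ volume.real Q * A := by
    rw [← smul_eq_mul, ← setIntegral_const]
    exact setIntegral_mono_on i1.integral_prod_left (integrableOn_const hv1) hQ.measurableSet hA
  have b2 : ∫ y in Q, ∫ x in Q, (f y - f (x + (1 / 2 : ℝ) • (y - x))) ^ 2
      ≤ volume.real Q * A := by
    rw [integral_integral_swap i2]
    exact b1
  have b3 : ∫ y in Q, ∫ x in Q, (f x - f y) ^ 2 ≤ 2 * (volume.real Q * A)
      + 2 * (volume.real Q * A) := by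
    rw [integral_integral i0]
    rw [integral_integral i1] at b1
    rw [integral_integral i2] at b2
    refine le_trans ?_ (add_le_add (mul_le_mul_of_nonneg_left b1 two_pos.le)
      (mul_le_mul_of_nonneg_left b2 two_pos.le))
    rw [← integral_const_mul, ← integral_const_mul,
      ← integral_add (i1.const_mul 2) (i2.const_mul 2)]
    refine integral_mono i0 ((i1.const_mul 2).add (i2.const_mul 2)) fun q => ?_
    have e : q.2 + (1 / 2 : ℝ) • (q.1 - q.2) = q.1 + (1 / 2 : ℝ) • (q.2 - q.1) := by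
      funext i
      simp only [Pi.add_apply, Pi.smul_apply, Pi.sub_apply, smul_eq_mul]
      ring
    simp only [e]
    nlinarith [sq_nonneg (f q.1 + f q.2 - 2 * f (q.1 + (1 / 2 : ℝ) • (q.2 - q.1)))]
  obtain ⟨y, -, hy⟩ := exists_le_setAverage hv0 hv1 i0.integral_prod_left
  refine ⟨f y, hy.trans ?_⟩
  rw [setAverage_eq, smul_eq_mul, inv_mul_le_iff₀ hv, mul_assoc, ← hAd]
  linarith

theorem poincare {V : X n → ℝ} (hV : Pot V) : ∃ C, 0 ≤ C ∧ ∀ f : X n → ℝ, PG f →
    ∃ m : ℝ, ∫ x, (f x - m) ^ 2 * Real.exp (-V x)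
      ≤ C * ∫ x, (∑ i, pd i f x ^ 2) * Real.exp (-V x) := by
  obtain ⟨c, hc, hl⟩ := hV.lb
  have hco := hV.coer
  have hVp := hV.v2.pg
  have hVc := hV.v2.1.cont
  set R : ℝ := 2 * (n + 1) / c + 1 with hRd
  have hR1 : 0 ≤ 2 * (n + 1) / c := by positivity
  have hR : 0 < R := by linarith
  obtain ⟨C, hC0, hC⟩ := poincare_local n hR
  set Q := Metric.closedBall (0 : X n) R with hQd
  have hQ : IsCompact Q := isCompact_closedBall _ _
  obtain ⟨B, hB⟩ := hQ.exists_bound_of_continuousOn hVc.continuousOn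
  refine ⟨2 / c + (n + 1) * (Real.exp B * (C * Real.exp B)), by positivity, fun f hf => ?_⟩
  obtain ⟨m, hm⟩ := hC f hf.1
  refine ⟨m, ?_⟩
  have hg : PG fun x => (f x - m) ^ 2 := by
    simpa only [pow_two] using (hf.sub (PG.const m)).mul (hf.sub (PG.const m))
  have hG : PG fun x => ∑ i, pd i f x ^ 2 :=
    PG.sum _ fun i _ => by simpa only [pow_two] using (hf.pd i).mul (hf.pd i)
  have h0 : ∀ x, 0 ≤ ∑ i, pd i f x ^ 2 := fun x => Finset.sum_nonneg fun _ _ => sq_nonneg _
  have hxg : ∀ a, PG fun x => x a * (f x - m) ^ 2 := fun a => (PG.coord a).mul hg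
  have ig := hg.integrable hVc hco
  have iG := hG.integrable hVc hco
  have i1 := fun a => ((hVp.pd a).mul (hxg a)).integrable hVc hco
  have i2 := fun a => ((hxg a).pd a).integrable hVc hco
  have ibp := fun a => integral_pd_mul_exp hVp hco (hxg a) a
  have iQ := (integrable_indicator_iff hQ.measurableSet).2 ig.integrableOn
  have i3 : ∀ a, Integrable fun x => pd a V x * (x a * (f x - m) ^ 2) * Real.exp (-V x)
      - pd a (fun x => x a * (f x - m) ^ 2) x * Real.exp (-V x) := fun a => (i1 a).sub (i2 a)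
  have i4 : Integrable fun x => 2 / c * ((∑ i, pd i f x ^ 2) * Real.exp (-V x))
      + (n + 1) * Q.indicator (fun x => (f x - m) ^ 2 * Real.exp (-V x)) x :=
    (iG.const_mul _).add (iQ.const_mul _)
  have hpd : ∀ a x, pd a (fun x => x a * (f x - m) ^ 2) x
      = (f x - m) ^ 2 + 2 * x a * (f x - m) * pd a f x := by
    intro a x
    have d1 : DifferentiableAt ℝ (fun x => f x - m) x := (hf.1.diff x).sub_const m
    simp only [pow_two]
    rw [pd_mul ((sm_coord a).diff x) (d1.fun_mul d1), pd_mul d1 d1,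
      pd_sub (hf.1.diff x) (differentiableAt_const m), pd_const, pd_coord, if_pos rfl]
    ring
  have key : ∫ x, (f x - m) ^ 2 * Real.exp (-V x) ≤ ∫ x,
      (∑ a, (pd a V x * (x a * (f x - m) ^ 2) * Real.exp (-V x)
        - pd a (fun x => x a * (f x - m) ^ 2) x * Real.exp (-V x))
      + (2 / c * ((∑ i, pd i f x ^ 2) * Real.exp (-V x))
        + (n + 1) * Q.indicator (fun x => (f x - m) ^ 2 * Real.exp (-V x)) x)) := by
    refine integral_mono ig ((integrable_finsetSum _ fun a _ => i3 a).add i4) fun x => ?_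
    have hw := Real.exp_pos (-V x)
    have e1 := dot_grad_ge hV.v2.1 hV.ev hl x
    have hg0 := sq_nonneg (f x - m)
    have e2 : ∑ a, 2 * x a * (f x - m) * pd a f x
        ≤ c / 2 * nsq x * (f x - m) ^ 2 + 2 / c * ∑ i, pd i f x ^ 2 := by
      rw [nsq, Finset.mul_sum, Finset.sum_mul, Finset.mul_sum, ← Finset.sum_add_distrib]
      refine Finset.sum_le_sum fun a _ => ?_
      have := mul_nonneg (show 0 ≤ 2 / c by positivity)
        (sq_nonneg (c / 2 * x a * (f x - m) - pd a f x))
      have e : 2 / c * (c / 2 * x a * (f x - m) - pd a f x) ^ 2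
          = c / 2 * x a ^ 2 * (f x - m) ^ 2 + 2 / c * pd a f x ^ 2
            - 2 * x a * (f x - m) * pd a f x := by
        field_simp
        ring
      linarith
    have e3 : ∑ a, (pd a V x * (x a * (f x - m) ^ 2) * Real.exp (-V x)
        - pd a (fun x => x a * (f x - m) ^ 2) x * Real.exp (-V x))
        = ((∑ a, x a * pd a V x) * (f x - m) ^ 2 - n * (f x - m) ^ 2
          - ∑ a, 2 * x a * (f x - m) * pd a f x) * Real.exp (-V x) := by
      have : (n : ℝ) * (f x - m) ^ 2 = ∑ _a : Fin n, (f x - m) ^ 2 := by simp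
      rw [this, Finset.sum_mul, ← Finset.sum_sub_distrib, ← Finset.sum_sub_distrib,
        Finset.sum_mul]
      exact Finset.sum_congr rfl fun a _ => by rw [hpd]; ring
    have e4 := mul_le_mul_of_nonneg_right e1 hg0
    simp only [e3]
    by_cases hx : x ∈ Q
    · rw [indicator_of_mem hx]
      have e5 : 0 ≤ c / 2 * nsq x * (f x - m) ^ 2 :=
        mul_nonneg (mul_nonneg (by positivity) (nsq_nonneg x)) hg0
      nlinarith
    · rw [indicator_of_notMem hx]
      rw [hQd, mem_closedBall_zero_iff, not_le] at hx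
      have e5 : 2 * (n + 1) / c ≤ nsq x := by nlinarith [norm_sq_le_nsq x]
      rw [div_le_iff₀ hc] at e5
      have e6 : (n + 1) * (f x - m) ^ 2 ≤ c / 2 * nsq x * (f x - m) ^ 2 :=
        mul_le_mul_of_nonneg_right (by linarith) hg0
      nlinarith
  rw [integral_add (integrable_finsetSum _ fun a _ => i3 a) i4,
    integral_add (iG.const_mul _) (iQ.const_mul _),
    integral_finsetSum _ fun a _ => i3 a, integral_const_mul, integral_const_mul,
    integral_indicator hQ.measurableSet,
    Finset.sum_eq_zero fun a _ => by rw [integral_sub (i1 a) (i2 a), ibp a, sub_self]] at key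
  have b1 : ∫ x in Q, (f x - m) ^ 2 * Real.exp (-V x)
      ≤ Real.exp B * ∫ x in Q, (f x - m) ^ 2 := by
    rw [← integral_const_mul]
    refine setIntegral_mono_on ig.integrableOn
      ((hg.1.cont.continuousOn.integrableOn_compact hQ).const_mul _) hQ.measurableSet
      fun x hx => ?_
    rw [mul_comm]
    refine mul_le_mul_of_nonneg_right (Real.exp_le_exp.2 ?_) (sq_nonneg _)
    linarith [(abs_le.1 (hB x hx)).1]
  have b2 : ∫ x in Q, ∑ i, pd i f x ^ 2
      ≤ Real.exp B * ∫ x, (∑ i, pd i f x ^ 2) * Real.exp (-V x) := by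
    refine le_trans ?_ (mul_le_mul_of_nonneg_left (setIntegral_le_integral (s := Q) iG
      (Eventually.of_forall fun x => mul_nonneg (h0 x) (Real.exp_pos _).le)) (Real.exp_pos B).le)
    rw [← integral_const_mul]
    refine setIntegral_mono_on (hG.1.cont.continuousOn.integrableOn_compact hQ)
      (iG.integrableOn.const_mul _) hQ.measurableSet fun x hx => ?_
    rw [mul_left_comm, ← Real.exp_add]
    refine le_mul_of_one_le_right (h0 x) (Real.one_le_exp ?_)
    linarith [(abs_le.1 (hB x hx)).2]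
  have b3 := mul_le_mul_of_nonneg_left (b1.trans (mul_le_mul_of_nonneg_left
    (hm.trans (mul_le_mul_of_nonneg_left b2 hC0)) (Real.exp_pos B).le))
    (show (0 : ℝ) ≤ n + 1 by positivity)
  linarith

theorem poincare_odd {V : X n → ℝ} (hV : Pot V) : ∃ C, 0 ≤ C ∧ ∀ f : X n → ℝ, PG f →
    (∀ x, f (-x) = -f x) → ∫ x, f x ^ 2 * Real.exp (-V x)
      ≤ C * ∫ x, (∑ i, pd i f x ^ 2) * Real.exp (-V x) := by
  obtain ⟨C, hC0, hC⟩ := poincare hV
  refine ⟨C, hC0, fun f hf ho => ?_⟩
  obtain ⟨m, hm⟩ := hC f hf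
  refine le_trans ?_ hm
  have hco := hV.coer
  have hVc := hV.v2.1.cont
  have hg : PG fun x => (f x - m) ^ 2 := by
    simpa only [pow_two] using (hf.sub (PG.const m)).mul (hf.sub (PG.const m))
  have h2 : PG fun x => f x ^ 2 := by simpa only [pow_two] using hf.mul hf
  have i1 := h2.integrable hVc hco
  have i2 := (hf.integrable hVc hco).const_mul (2 * m)
  have h := integral_mono (i1.sub i2) (hg.integrable hVc hco) fun x => by
    have := mul_nonneg (sq_nonneg m) (Real.exp_pos (-V x)).le
    simp only [Pi.sub_apply]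
    nlinarith
  simp only [Pi.sub_apply] at h
  rwa [integral_sub i1 i2, integral_const_mul, integral_odd hV.ev ho, mul_zero, sub_zero] at h

end Vale.Agent.P227
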