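import Vale.Agent.P227.PGRing
import Vale.Agent.P227.Poincare
import Vale.Agent.P227.Param
import Vale.Agent.P227.MaxPr

/-! Decay along the linear flow started at an even function. -/

set_option linter.unusedSectionVars false
set_option linter.unusedVariables false

namespace Vale.Agent.P227

open scoped ContDiff
open MeasureTheory Set Filter Topology Matrix

variable {n : ℕ} {V u : X n → ℝ}

theorem decay_deriv (hV : Pot V) (h : KEPair V u) {T : ℝ} {v : ℝ → X n → ℝ}
    (hv : Sol (Lop (tau u)) T v) :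
    ContinuousOn (fun t => ∫ x, Gam (tau u) (v t) (v t) x * Real.exp (-V x)) (Icc 0 T) ∧
      ∀ t ∈ Ioo 0 T, HasDerivAt (fun t => ∫ x, Gam (tau u) (v t) (v t) x * Real.exp (-V x))
        (-2 * ∫ x, Lop (tau u) (v t) x ^ 2 * Real.exp (-V x)) t := by
  have jτ : ∀ i j, JC fun (_ : ℝ) x => tau u x i j := fun i j => JC.of_sm (h.pg_tau i j).1
  have pτ : ∀ i j, PGF fun (_ : ℝ) x => tau u x i j := fun i j => (h.pg_tau i j).pgf
  have jL : JC fun t => Lop (tau u) (v t) := JC.lop (τ := fun _ => tau u) jτ hv.jc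
  have pL : PGF fun t => Lop (tau u) (v t) := PGF.lop (τ := fun _ => tau u) pτ hv.pgf
  have key := deriv_under_integral_exp (T := T) h.pgW.1.cont h.coer
    (JC.gam (τ := fun _ => tau u) jτ hv.jc hv.jc)
    ((JC.gam (τ := fun _ => tau u) jτ jL hv.jc).const_mul 2)
    (PGF.gam (τ := fun _ => tau u) pτ hv.pgf hv.pgf)
    ((PGF.gam (τ := fun _ => tau u) pτ pL hv.pgf).const_mul 2) fun t ht x => by
      have h1 : ∀ i, HasDerivWithinAt (fun s => pd i (v s) x) (pd i (Lop (tau u) (v t)) x)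
          (Icc 0 T) t := fun i => evol hv.jc jL hv.eq [i] ht x
      have h2 := HasDerivWithinAt.fun_sum (u := Finset.univ) fun i _ =>
        HasDerivWithinAt.fun_sum (u := Finset.univ) fun j _ =>
          ((h1 i).const_mul (tau u x i j)).fun_mul (h1 j)
      refine HasDerivWithinAt.congr_deriv h2 ?_
      simp only [Gam, Finset.sum_add_distrib, two_mul]
      congr 1
      rw [Finset.sum_comm]
      refine Finset.sum_congr rfl fun i _ => Finset.sum_congr rfl fun j _ => ?_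
      rw [(tau_isSymm h.v2.1 x).apply i j]
      ring
  refine ⟨key.1, fun t ht => (key.2 t ht).congr_deriv ?_⟩
  have h1 := h.integral_mul_lop (pL.pg t) (hv.pgf.pg t)
  simp only [mul_assoc, integral_const_mul, sq] at h1 ⊢
  linarith

theorem decay (hV : Pot V) (h : KEPair V u) {f : X n → ℝ} (hf : PG f) :
    ∃ C, ∀ (T : ℝ) (v : ℝ → X n → ℝ), 0 < T → Sol (Lop (tau u)) T v → v 0 = f →
      ∃ t ∈ Icc 0 T, (∃ m : ℝ, ∫ x, (v t x - m) ^ 2 * Real.exp (-V x) ≤ C / T) ∧
        Real.exp (2 * t) * ∫ x, Lop (tau u) (v t) x ^ 2 * Real.exp (-V x) ≤ C / T := by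
  obtain ⟨c, hc, hl⟩ := h.lb
  obtain ⟨M, hM⟩ := h.v2.exists_bound
  obtain ⟨Cp, hCp, hp⟩ := poincare hV
  obtain ⟨Co, hCo, ho⟩ := poincare_odd hV
  have hs := hess_isSymm h.v2.1
  have hb : 0 < n * |M 2| + 1 := by positivity
  have hτl : ∀ x, LB (n * |M 2| + 1)⁻¹ (tau u x) := fun x =>
    ((ub_of_entry (M := |M 2|) fun i j => (hM [i, j] le_rfl x).trans (le_abs_self _)).mono
      (by simp)).inv_lb hb ((hl x).posDef hc (hs x))
  have hτu : ∀ x, UB c⁻¹ (tau u x) := fun x => (hl x).inv_ub hc (hs x)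
  set b := (n * |M 2| + 1)⁻¹
  have hb0 : 0 < b := inv_pos.2 hb
  have hI : ∀ {g : X n → ℝ}, PG g → Integrable fun x => g x * Real.exp (-V x) :=
    fun hg => hg.integrable h.pgW.1.cont h.coer
  have hG0 : ∀ g : X n → ℝ, 0 ≤ ∫ x, Gam (tau u) g g x * Real.exp (-V x) := fun g =>
    integral_nonneg fun x => mul_nonneg (by
      rw [gam_self]
      exact (mul_nonneg hb0.le (nsq_nonneg _)).trans (hτl x _)) (Real.exp_pos _).le
  set K := 1 + (Cp + c⁻¹) * (Co / b ^ 2)
  refine ⟨K * ((∫ x, Gam (tau u) f f x * Real.exp (-V x)) / 2), fun T v hT hv h0 => ?_⟩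
  obtain ⟨a1, a2⟩ := decay_deriv hV h hv
  have hE : ∀ t : ℝ, HasDerivAt (fun t => Real.exp (2 * t)) (Real.exp (2 * t) * 2) t :=
    fun t => by simpa using ((hasDerivAt_id t).const_mul 2).exp
  obtain ⟨t, ht, e⟩ := exists_hasDerivAt_eq_slope _ _ hT
    ((by fun_prop : Continuous fun t : ℝ => Real.exp (2 * t)).continuousOn.mul a1)
    fun t ht => (hE t).mul (a2 t ht)
  simp only [Pi.mul_apply, h0, mul_zero, Real.exp_zero, one_mul, sub_zero] at e
  have hz := hv.pgf.pg t
  have hB := h.bochner2 hz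
  set B := ∫ x, (tau u x * hess (v t) x * tau u x * hess (v t) x).trace * Real.exp (-V x)
  set A := ∫ x, Gam (tau u) (v t) (v t) x * Real.exp (-V x)
  have h1 : Real.exp (2 * t) * B ≤ (∫ x, Gam (tau u) f f x * Real.exp (-V x)) / 2 / T := by
    rw [hB, eq_div_iff hT.ne'] at e
    rw [le_div_iff₀ hT]
    nlinarith [mul_nonneg (Real.exp_pos (2 * T)).le (hG0 (v T))]
  have sq' : ∀ {g : X n → ℝ}, PG g → PG fun x => g x ^ 2 := fun hg => by
    simpa only [sq] using hg.mul hg
  have p1 : ∀ {g : X n → ℝ}, PG g → PG fun x => ∑ i, pd i g x ^ 2 := fun hg =>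
    PG.sum _ fun i _ => sq' (hg.pd i)
  have p2 := PG.sum Finset.univ fun i _ => p1 (hz.pd i)
  have p3 : PG fun x => (tau u x * hess (v t) x * tau u x * hess (v t) x).trace := by
    simp only [Matrix.trace, Matrix.diag_apply, Matrix.mul_apply, hess_apply]
    exact PG.sum _ fun i _ => PG.sum _ fun j _ => (PG.sum _ fun k _ => (PG.sum _ fun l _ =>
      (h.pg_tau _ _).mul ((hz.pd _).pd _)).mul (h.pg_tau _ _)).mul ((hz.pd _).pd _)
  set D := ∫ x, (∑ i, pd i (v t) x ^ 2) * Real.exp (-V x) with hD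
  set H := ∫ x, (∑ i, ∑ j, pd j (pd i (v t)) x ^ 2) * Real.exp (-V x) with hH
  have h2 : b ^ 2 * H ≤ B := by
    rw [← integral_const_mul]
    refine integral_mono ((hI p2).const_mul _) (hI p3) fun x => ?_
    simp only
    rw [← mul_assoc, Finset.sum_comm]
    exact mul_le_mul_of_nonneg_right
      (trace_sq_ge (tau_isSymm h.v2.1 x) hb0.le (hτl x) (hess_isSymm hz.1 x)) (Real.exp_pos _).le
  have h3 : D ≤ Co * H := by
    simp only [hD, hH, Finset.sum_mul (s := Finset.univ) (f := fun i => pd i (v t) _ ^ 2),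
      Finset.sum_mul (s := Finset.univ) (f := fun i => ∑ j, pd j (pd i (v t)) _ ^ 2)]
    rw [integral_finsetSum _ fun i _ => hI (sq' (hz.pd i)),
      integral_finsetSum _ fun i _ => hI (p1 (hz.pd i)), Finset.mul_sum]
    exact Finset.sum_le_sum fun i _ => ho _ (hz.pd i) fun x => by
      simpa using (hv.ev t).pds_neg hz.1 [i] x
  have h4 : A ≤ c⁻¹ * D := by
    rw [← integral_const_mul]
    refine integral_mono (hI (PG.gam h.pg_tau hz hz)) ((hI (p1 hz)).const_mul _) fun x => ?_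
    simp only
    rw [← mul_assoc, gam_self]
    exact mul_le_mul_of_nonneg_right (hτu x _) (Real.exp_pos _).le
  have hH0 : 0 ≤ H := integral_nonneg fun x => by positivity
  have hB0 : 0 ≤ B := le_trans (by positivity) h2
  have h5 : D ≤ Co / b ^ 2 * B := by
    rw [div_mul_eq_mul_div, le_div_iff₀ (by positivity)]
    nlinarith [mul_le_mul_of_nonneg_left h2 hCo, mul_le_mul_of_nonneg_left h3 (sq_nonneg b)]
  have hc' : 0 < c⁻¹ := inv_pos.2 hc
  have hq : 0 ≤ Co / b ^ 2 * B := by positivity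
  have hK : 0 ≤ K := by positivity
  have hE1 : 1 ≤ Real.exp (2 * t) := Real.one_le_exp (by linarith [ht.1])
  have h6 := mul_le_mul_of_nonneg_left h1 hK
  rw [← mul_div_assoc] at h6
  have hKB : K * B = B + (Cp + c⁻¹) * (Co / b ^ 2 * B) := by ring
  obtain ⟨m, hm⟩ := hp _ hz
  refine ⟨t, Ioo_subset_Icc_self ht, ⟨m, hm.trans (le_trans ?_ h6)⟩, le_trans ?_ h6⟩
  · calc Cp * D ≤ K * B := by
          nlinarith [mul_le_mul_of_nonneg_left h5 hCp, mul_nonneg hc'.le hq]
      _ ≤ K * (Real.exp (2 * t) * B) := by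
          gcongr
          exact le_mul_of_one_le_left hB0 hE1
  · rw [hB, mul_left_comm]
    gcongr
    nlinarith [mul_le_mul_of_nonneg_left h5 hc'.le, mul_nonneg hCp hq]

end Vale.Agent.P227
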