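import Mathlib

/-! Statement-level definitions for the logarithmic Brunn-Minkowski inequality. -/

namespace Vale.Agent.P227

open scoped RealInnerProductSpace

/-- An origin-symmetric convex body: compact, convex, nonempty interior, `K = -K`. -/
def IsSymmBody {n : ℕ} (K : Set (EuclideanSpace ℝ (Fin n))) : Prop :=
  IsCompact K ∧ Convex ℝ K ∧ (interior K).Nonempty ∧ ∀ x ∈ K, -x ∈ K

/-- The support function `h_K(u) = sup_{x ∈ K} ⟨x, u⟩`. -/
noncomputable def supp {n : ℕ} (K : Set (EuclideanSpace ℝ (Fin n)))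
    (u : EuclideanSpace ℝ (Fin n)) : ℝ :=
  sSup ((fun x => ⟪x, u⟫) '' K)

/-- The Wulff shape of `f`: the intersection over unit vectors `u` of `{x | ⟨x, u⟩ ≤ f u}`. -/
def wulff {n : ℕ} (f : EuclideanSpace ℝ (Fin n) → ℝ) : Set (EuclideanSpace ℝ (Fin n)) :=
  ⋂ u ∈ Metric.sphere (0 : EuclideanSpace ℝ (Fin n)) 1, {x | ⟪x, u⟫ ≤ f u}

end Vale.Agent.P227
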