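import Vale.Agent.P227.Classes

/-! Gluing and restricting solutions. -/

set_option linter.unusedSectionVars false
set_option linter.unusedVariables false

namespace Vale.Agent.P227

open scoped ContDiff
open MeasureTheory Set Filter Topology Matrix

variable {n : ℕ} {Op : (X n → ℝ) → X n → ℝ} {a b T T' : ℝ} {u w : ℝ → X n → ℝ}

/-- Concatenation in time. -/
noncomputable def glue (a : ℝ) (u w : ℝ → X n → ℝ) : ℝ → X n → ℝ :=
  fun t => if t ≤ a then u t else w (t - a)

theorem glue_zero (ha : 0 ≤ a) : glue a u w 0 = u 0 := by simp [glue, ha]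

theorem Sol.mono (hu : Sol Op T u) (h : T' ≤ T) : Sol Op T' u :=
  ⟨hu.jc, hu.ev, hu.bdd0, hu.bdd, fun t ht x =>
    (hu.eq t ⟨ht.1, ht.2.trans h⟩ x).mono (Icc_subset_Icc_right h)⟩

theorem NSol.mono {V : X n → ℝ} (hu : NSol V T u) (h : T' ≤ T) : NSol V T' u :=
  ⟨hu.sol.mono h, hu.pos⟩

theorem glue_cases (P : (X n → ℝ) → Prop) (hu : ∀ t, P (u t)) (hw : ∀ t, P (w t)) (t : ℝ) :
    P (glue a u w t) := by
  unfold glue
  split_ifs
  exacts [hu _, hw _]

theorem Sol.glue (ha : 0 ≤ a) (hb : 0 ≤ b) (hu : Sol Op a u) (hw : Sol Op b w)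
    (h0 : w 0 = u a) : Sol Op (a + b) (glue a u w) := by
  have e1 : ∀ t, t ≤ a → P227.glue a u w t = u t := fun t ht => if_pos ht
  have e2 : ∀ t, a ≤ t → P227.glue a u w t = w (t - a) := fun t ht => by
    rcases ht.eq_or_lt with rfl | ht
    · rw [e1 _ le_rfl, sub_self, h0]
    · exact if_neg (not_le.2 ht)
  refine ⟨⟨glue_cases Sm hu.jc.1 hw.jc.1, fun l => ?_⟩, glue_cases Ev hu.ev hw.ev, ?_,
    fun l hl => ?_, fun t ht x => ?_⟩
  · have := Continuous.if_le (hu.jc.2 l) ((hw.jc.2 l).comp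
      ((continuous_fst.sub continuous_const).prodMk continuous_snd :
        Continuous fun p : ℝ × X n => (p.1 - a, p.2))) continuous_fst continuous_const
      (fun p (hp : p.1 = a) => by simp [hp, h0])
    refine this.congr fun p => ?_
    simp only [P227.glue]
    split_ifs <;> rfl
  · obtain ⟨C, hC⟩ := hu.bdd0
    obtain ⟨D, hD⟩ := hw.bdd0
    exact ⟨max C D, glue_cases (fun f => |f 0| ≤ max C D) (fun t => le_max_of_le_left (hC t))
      fun t => le_max_of_le_right (hD t)⟩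
  · obtain ⟨C, hC⟩ := hu.bdd l hl
    obtain ⟨D, hD⟩ := hw.bdd l hl
    exact ⟨max C D, glue_cases (fun f => ∀ x, |pds l f x| ≤ max C D)
      (fun t x => le_max_of_le_left (hC t x)) fun t x => le_max_of_le_right (hD t x)⟩
  · have k1 : HasDerivWithinAt (fun s => P227.glue a u w s x) (Op (P227.glue a u w t) x)
        (Icc 0 a) t := by
      by_cases h : t ∈ Icc 0 a
      · rw [e1 t h.2]
        exact (hu.eq t h x).congr (fun s hs => by rw [e1 s hs.2]) (by rw [e1 t h.2])
      · exact hasDerivWithinAt_iff_hasFDerivWithinAt.2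
          (HasFDerivWithinAt.of_notMem_closure (by rwa [closure_Icc]))
    have k2 : HasDerivWithinAt (fun s => P227.glue a u w s x) (Op (P227.glue a u w t) x)
        (Icc a (a + b)) t := by
      by_cases h : t ∈ Icc a (a + b)
      · rw [e2 t h.1]
        have := (hw.eq (t - a) ⟨by linarith [h.1], by linarith [h.2]⟩ x).comp t
          ((hasDerivWithinAt_id t (Icc a (a + b))).sub_const a)
          fun s hs => mem_Icc.2 ⟨sub_nonneg.2 hs.1, sub_le_iff_le_add'.2 hs.2⟩
        rw [mul_one] at this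
        exact this.congr (fun s hs => by rw [e2 s hs.1]; rfl) (by rw [e2 t h.1]; rfl)
      · exact hasDerivWithinAt_iff_hasFDerivWithinAt.2
          (HasFDerivWithinAt.of_notMem_closure (by rwa [closure_Icc]))
    rw [← Icc_union_Icc_eq_Icc ha (le_add_of_nonneg_right hb)]
    exact k1.union k2

theorem NSol.glue {V : X n → ℝ} (ha : 0 ≤ a) (hb : 0 ≤ b) (hu : NSol V a u) (hw : NSol V b w)
    (h0 : w 0 = u a) : NSol V (a + b) (P227.glue a u w) := by
  obtain ⟨c, hc, h1⟩ := hu.pos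
  obtain ⟨d, hd, h2⟩ := hw.pos
  have hn : ∀ ξ : X n, 0 ≤ nsq ξ := fun ξ => Finset.sum_nonneg fun _ _ => sq_nonneg _
  exact ⟨hu.sol.glue ha hb hw.sol h0, min c d, lt_min hc hd,
    glue_cases (fun f => ∀ x, LB (min c d) (hess f x))
      (fun t x ξ => (mul_le_mul_of_nonneg_right (min_le_left _ _) (hn ξ)).trans (h1 t x ξ))
      fun t x ξ => (mul_le_mul_of_nonneg_right (min_le_right _ _) (hn ξ)).trans (h2 t x ξ)⟩

/-- Long time existence from uniform short time existence. -/
theorem exists_sol_of_short {T0 : ℝ} (hT0 : 0 < T0)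
    (h : ∀ f, V2 f → Ev f → ∃ v, Sol Op T0 v ∧ v 0 = f) {f : X n → ℝ} (hf : V2 f) (he : Ev f)
    (T : ℝ) : ∃ v, Sol Op T v ∧ v 0 = f := by
  have key : ∀ k : ℕ, ∃ v, Sol Op (k * T0) v ∧ v 0 = f := by
    intro k
    induction k with
    | zero =>
      obtain ⟨v, hv, h0⟩ := h f hf he
      exact ⟨v, hv.mono (by simpa using hT0.le), h0⟩
    | succ k ih =>
      obtain ⟨v, hv, h0⟩ := ih
      obtain ⟨w, hw, h1⟩ := h (v (k * T0)) ⟨hv.jc.1 _, fun l hl =>
        (hv.bdd l hl).imp fun C hC => hC _⟩ (hv.ev _)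
      refine ⟨_, ?_, (glue_zero (a := k * T0) (w := w) (by positivity)).trans h0⟩
      rw [Nat.cast_succ, add_one_mul]
      exact hv.glue (by positivity) hT0.le hw h1
  obtain ⟨k, hk⟩ := exists_nat_ge (T / T0)
  obtain ⟨v, hv, h0⟩ := key k
  exact ⟨v, hv.mono ((div_le_iff₀ hT0).1 hk), h0⟩

end Vale.Agent.P227
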