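import Vale.Agent.P227.Scheme
import Vale.Agent.P227.ULim

/-! Short time existence for fully nonlinear parabolic equations. -/

set_option linter.unusedSectionVars false
set_option linter.unusedVariables false

namespace Vale.Agent.P227

open scoped ContDiff
open MeasureTheory Set Filter Topology Matrix

theorem tele_le (a : ℕ → ℝ) (c ε : ℝ) {j j' : ℕ} (hj : j ≤ j')
    (h : ∀ k, j ≤ k → k < j' → |a (k + 1) - a k - c| ≤ ε) :
    |a j' - a j - (j' - j) * c| ≤ (j' - j) * ε := by
  induction j', hj using Nat.le_induction with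
  | base => simp
  | succ m hm ih =>
    have h1 := abs_le.1 (ih fun k h1 h2 => h k h1 (by omega))
    have h2 := abs_le.1 (h m hm (by omega))
    push_cast
    rw [abs_le]
    constructor <;> linarith [h1.1, h1.2, h2.1, h2.2]

/-- Telescoping between two step numbers. -/
theorem tele (a : ℕ → ℝ) (c ε : ℝ) {dt : ℝ} (hdt : 0 ≤ dt) (j j' : ℕ)
    (h : ∀ k : ℕ, min j j' ≤ k → k < max j j' → |a (k + 1) - a k - dt * c| ≤ dt * ε) :
    |a j' - a j - (j' * dt - j * dt) * c| ≤ |j' * dt - j * dt| * ε := by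
  rcases le_total j j' with hj | hj
  · have h1 := tele_le a _ _ hj fun k h1 h2 => h k (by omega) (by omega)
    have h2 : (j : ℝ) ≤ j' := by exact_mod_cast hj
    rw [abs_of_nonneg (a := j' * dt - j * dt) (by nlinarith)]
    rw [show (j' * dt - j * dt) * c = (j' - j) * (dt * c) by ring]
    linarith
  · have h1 := tele_le a _ _ hj fun k h1 h2 => h k (by omega) (by omega)
    have h2 : (j' : ℝ) ≤ j := by exact_mod_cast hj
    rw [abs_of_nonpos (a := j' * dt - j * dt) (by nlinarith), ← abs_neg]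
    rw [show -(a j' - a j - (j' * dt - j * dt) * c) = a j - a j' - (j - j') * (dt * c) by ring]
    linarith

/-- Uniform bounds for the increments of the scheme. -/
theorem incr_bound {n : ℕ} {α : Type*} {L : Filter α} {Φ : α → (JI n → ℝ) → ℝ}
    {w : α → X n → ℝ} {h : α → ℝ} (hh : ∀ a, 0 < h a) (hΦ : ∀ a, Sm (Φ a))
    (hB : ∀ l : List (JI n), ∃ C, ∀ a y, |pds l (Φ a) y| ≤ C) (hw : DS (Qb L) w) :
    DS (Qb L) fun a x => Φ a (jet x (fdh (h a) (w a) x)) := by
  have h1 : ∀ i j, DS (Qb L) fun a x => fdh (h a) (w a) x i j := fun i j => by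
    refine ⟨fun a => ((hw.1 a).dm _ j).dp _ i, fun l => ?_⟩
    obtain ⟨C, hC⟩ := hw.2 (i :: j :: l)
    refine ⟨C, ?_⟩
    filter_upwards [hC] with a ha x
    rw [pds_fdh (hw.1 a)]
    exact abs_dp_dm_le ((hw.1 a).pds l) (hh a) ha x
  refine DS.comp (Y := fun a x => jet x (fdh (h a) (w a) x)) hΦ
    (fun a k => sm_jet (fun i j => (h1 i j).1 a) k) (fun i k => ?_) fun m => ?_
  · rcases k with k | k
    · have : (fun a : α => pd i fun x : X n => jet x (fdh (h a) (w a) x) (Sum.inl k)) =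
          fun _ _ => if i = k then 1 else 0 := by
        funext a x
        exact pd_coord i k x
      rw [this]
      exact DS.const _
    · exact (h1 k.1 k.2).pd i
  · obtain ⟨C, hC⟩ := hB m
    exact ⟨C, Eventually.of_forall fun a x => hC a _⟩

theorem ev_bound_eq {n : ℕ} {α : Type*} {L : Filter α} {φ : List (Fin n) → α → X n → ℝ}
    (h : ∀ l, ∃ C, ∀ᶠ a in L, ∀ x, |φ l a x| ≤ C) (k : ℕ) :
    ∃ C, 0 ≤ C ∧ ∀ᶠ a in L, ∀ l : List (Fin n), l.length = k → ∀ x, |φ l a x| ≤ C := by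
  choose C hC using h
  refine ⟨∑ l ∈ wordsEq (Fin n) k, |C l|, Finset.sum_nonneg fun _ _ => abs_nonneg _, ?_⟩
  filter_upwards [(eventually_all_finset (wordsEq (Fin n) k)).2 fun l _ => hC l] with a ha l hl x
  exact ((ha l (mem_wordsEq.2 hl) x).trans (le_abs_self _)).trans
    (Finset.single_le_sum (f := fun l => |C l|) (fun _ _ => abs_nonneg _) (mem_wordsEq.2 hl))

/-- The time grid. -/
theorem exists_grid {T θ : ℝ} (hT : 0 < T) (hθ : 0 < θ) :
    ∃ (dt h : ℕ → ℝ) (m : ℕ → ℝ → ℕ), (∀ N, 0 < dt N) ∧ (∀ N, 0 < h N) ∧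
      (∀ N, dt N ≤ θ * h N ^ 2) ∧ Tendsto dt atTop (𝓝 0) ∧ Tendsto h atTop (𝓝 0) ∧
      (∀ N, m N 0 = 0) ∧ (∀ N t, m N t * dt N ≤ cl T t) ∧
      ∀ N t, cl T t - dt N ≤ m N t * dt N := by
  have h1 : ∀ N : ℕ, 0 < T / (N + 1) := fun N => by positivity
  have h2 : Tendsto (fun N : ℕ => T / (N + 1)) atTop (𝓝 0) :=
    tendsto_const_nhds.div_atTop (tendsto_natCast_atTop_atTop.atTop_add tendsto_const_nhds)
  refine ⟨fun N => T / (N + 1), fun N => √(T / (N + 1) / θ), fun N t => ⌊cl T t / (T / (N + 1))⌋₊,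
    h1, fun N => by positivity, fun N => ?_, h2, ?_, fun N => ?_, fun N t => ?_, fun N t => ?_⟩
  · rw [Real.sq_sqrt (by positivity), mul_div_cancel₀ _ hθ.ne']
  · simpa using (h2.div_const θ).sqrt
  · simp [cl_of_mem (T := T) (t := 0) ⟨le_rfl, hT.le⟩]
  · exact (le_div_iff₀ (h1 N)).1 (Nat.floor_le (div_nonneg (cl_mem hT.le t).1 (h1 N).le))
  · have := (div_lt_iff₀ (h1 N)).1 (Nat.lt_floor_add_one (cl T t / (T / (N + 1))))
    linarith

theorem short_time (n : ℕ) (M : ℝ) {lam rho : ℝ} (hlam : 0 < lam) (hrho : 0 < rho) :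
    ∃ T : ℝ, 0 < T ∧ T ≤ 1 ∧ ∀ F : ℝ → (JI n → ℝ) → ℝ,
      (∀ t, Sm (F t)) →
      Continuous (fun p : ℝ × (JI n → ℝ) => F p.1 p.2) →
      (∀ l : List (JI n), l.length ≤ k1 n → ∀ t y, |pds l (F t) y| ≤ M) →
      (∀ l : List (JI n), ∃ C, ∀ t y, |pds l (F t) y| ≤ C) →
      (∀ t x (r : Mat n), (∀ i j, |r i j| ≤ rho) → LB lam (symb (F t) (jet x r))) →
      (∀ t x (r : Mat n), F t (jet (-x) rᵀ) = F t (jet x r)) →
      ∃ v : ℝ → X n → ℝ, JC v ∧ v 0 = (fun _ => 0) ∧ (∀ t, Ev (v t)) ∧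
        (∀ l : List (Fin n), ∃ C, ∀ t x, |pds l (v t) x| ≤ C) ∧
        (∀ t x i j, |hess (v t) x i j| ≤ rho) ∧
        ∀ t ∈ Icc 0 T, ∀ x,
          HasDerivWithinAt (fun s => v s x) (F t (jet x (hess (v t) x))) (Icc 0 T) t := by
  obtain ⟨T, θ, hT, hT1, hθ, hS⟩ := scheme_bounds n M hlam hrho
  refine ⟨T, hT, hT1, fun F hF hFc hM hB hL hE => ?_⟩
  obtain ⟨⟨h0, hh0, hH⟩, hb⟩ := hS F hF hM hB hL
  obtain ⟨dt, h, m, hdt, hh, hdh, hdt0, hh0', hm0, hm1, hm2⟩ := exists_grid hT hθ
  have hBS : ∀ t, BS (F t) := fun t => ⟨hF t, fun l => (hB l).imp fun C h => h t⟩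
  obtain ⟨w, hw⟩ : ∃ w : ℕ → ℕ → X n → ℝ, ∀ N j, w N j = sch F (h N) (dt N) j :=
    ⟨_, fun _ _ => rfl⟩
  have hws : ∀ N j, Sm (w N j) := fun N j => by rw [hw]; exact (bs_sch hBS _ _ _).1
  have hmT : ∀ N t, m N t * dt N ≤ T := fun N t => (hm1 N t).trans (cl_mem hT.le t).2
  have hU : (hyperfilter ℕ : Filter ℕ) ≤ atTop := Nat.hyperfilter_le_atTop
  have hmt : ∀ t, Tendsto (fun N => m N t * dt N) (hyperfilter ℕ : Filter ℕ) (𝓝 (cl T t)) :=
    fun t => (tendsto_of_tendsto_of_tendsto_of_le_of_le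
      (by simpa using (tendsto_const_nhds (x := cl T t)).sub hdt0) tendsto_const_nhds
      (fun N => hm2 N t) fun N => hm1 N t).mono_left hU
  obtain ⟨L, hL'⟩ : ∃ L : Filter (ℕ × ℕ), ∀ P : ℕ × ℕ → Prop,
      (∀ᶠ a in L, P a) ↔ ∀ᶠ N in atTop, ∀ j : ℕ, j * dt N ≤ T → P (N, j) :=
    ⟨comap Prod.fst atTop ⊓ 𝓟 {a | a.2 * dt a.1 ≤ T}, fun P => by
      rw [eventually_inf_principal, eventually_comap]
      refine eventually_congr (Eventually.of_forall fun N => ⟨fun h j => h (N, j) rfl, ?_⟩)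
      rintro h ⟨N', j⟩ rfl
      exact h j⟩
  have hwb : DS (Qb L) fun a => w a.1 a.2 := ⟨fun a => hws _ _, fun l => by
    obtain ⟨C, h1, hh1, hC⟩ := hb l
    refine ⟨C, (hL' _).2 ?_⟩
    filter_upwards [hh0'.eventually (ge_mem_nhds hh1)] with N hN j hj x
    simpa only [hw] using hC j (h N) (dt N) (hh N) hN (hdt N).le (hdh N) hj x⟩
  have hinc := incr_bound (Φ := fun a : ℕ × ℕ => F (a.2 * dt a.1)) (h := fun a => h a.1)
    (fun a => hh _) (fun a => hF _) (fun l => (hB l).imp fun C h a => h _) hwb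
  have hstep : ∀ N j l x, pds l (w N (j + 1)) x = pds l (w N j) x +
      dt N * pds l (fun y => F (j * dt N) (jet y (fdh (h N) (w N j) y))) x := fun N j l x => by
    rw [hw N (j + 1), sch, ← hw, pds_step (hF _) (hws N j)]
  have hlip : ∀ k, ∃ C, 0 ≤ C ∧ ∀ᶠ N in atTop, ∀ l : List (Fin n), l.length = k →
      ∀ (j j' : ℕ) x, j * dt N ≤ T → j' * dt N ≤ T →
      |pds l (w N j') x - pds l (w N j) x| ≤ |j' * dt N - j * dt N| * C := fun k => by
    obtain ⟨C, hC0, hC⟩ := ev_bound_eq hinc.2 k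
    refine ⟨C, hC0, ?_⟩
    filter_upwards [(hL' _).1 hC] with N hN l hl j j' x hj hj'
    have := tele (fun k => pds l (w N k) x) 0 C (hdt N).le j j' fun k _ hk => by
      rw [hstep, mul_zero, sub_zero, add_sub_cancel_left, abs_mul, abs_of_pos (hdt N)]
      refine mul_le_mul_of_nonneg_left (hN k ?_ l hl x) (hdt N).le
      rcases lt_max_iff.1 hk with h1 | h1
      · exact (mul_le_mul_of_nonneg_right (by exact_mod_cast h1.le) (hdt N).le).trans hj
      · exact (mul_le_mul_of_nonneg_right (by exact_mod_cast h1.le) (hdt N).le).trans hj'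
    simpa using this
  have hex := fun t => exists_ulim (hyperfilter ℕ) (f := fun N => w N (m N t))
    (fun N => hws _ _) fun l x => by
      obtain ⟨C, hC⟩ := hwb.2 l
      refine ⟨C, hU ?_⟩
      filter_upwards [(hL' _).1 hC] with N hN y _
      exact hN _ (hmT N t) y
  choose v hvs hv using hex
  have hvb : ∀ l : List (Fin n), ∃ C, ∀ t x, |pds l (v t) x| ≤ C := fun l => by
    obtain ⟨C, hC⟩ := hwb.2 l
    refine ⟨C, fun t x => le_of_tendsto (hv t l x).abs (hU ?_)⟩
    filter_upwards [(hL' _).1 hC] with N hN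
    exact hN _ (hmT N t) x
  refine ⟨v, jc_of_lip hvs hvb fun l => ?_, ?_, fun t x => ?_, hvb, fun t x i j => ?_,
    fun t ht x => ?_⟩
  · obtain ⟨C, hC0, hC⟩ := hlip l.length
    refine ⟨C, fun s t x => ?_⟩
    have := le_of_tendsto_of_tendsto ((hv s l x).sub (hv t l x)).abs
      (((hmt s).sub (hmt t)).abs.mul_const C) (hU (by
        filter_upwards [hC] with N hN
        exact hN l rfl _ _ x (hmT N t) (hmT N s)))
    exact this.trans (by nlinarith [abs_cl_sub_le T s t])
  · funext x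
    refine tendsto_nhds_unique (hv 0 [] x) ?_
    simp only [hm0, hw, sch, pds_nil, tendsto_const_nhds_iff]
  · refine tendsto_nhds_unique (hv t [] (-x)) ((hv t [] x).congr fun N => ?_)
    rw [pds_nil, hw]
    exact (ev_sch hE _ _ _ x).symm
  · refine le_of_tendsto (hv t [i, j] x).abs (hU ?_)
    filter_upwards [hh0'.eventually (ge_mem_nhds hh0)] with N hN
    rw [hw]
    exact hH _ (h N) (dt N) (hh N) hN (hdt N).le (hdh N) (hmT N t) x i j
  · obtain ⟨H, hH'⟩ : ∃ H, H = hess (v t) x := ⟨_, rfl⟩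
    rw [← hH', hasDerivWithinAt_iff_isLittleO, Asymptotics.isLittleO_iff]
    intro ε hε
    obtain ⟨C2, hC2, hC2'⟩ := hlip 2
    obtain ⟨C3, hC3, hC3'⟩ := ev_bound_eq hwb.2 3
    have hc : ContinuousAt (fun σ => F σ (jet x H)) t :=
      (hFc.comp (continuous_id.prodMk continuous_const)).continuousAt
    obtain ⟨δ, hδ, hδ'⟩ := Metric.continuousAt_iff.1 hc (ε / 2) (half_pos hε)
    have hc2 : Continuous fun s : ℝ => (n : ℝ) ^ 2 * M * (|s - t| * C2) := by fun_prop
    have hc3 : Continuous fun s : ℝ => |s - t| := by fun_prop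
    filter_upwards [self_mem_nhdsWithin,
      nhdsWithin_le_nhds (hc2.continuousAt.eventually_lt (continuousAt_const (y := ε / 2))
        (by simpa using hε)),
      nhdsWithin_le_nhds (hc3.continuousAt.eventually_lt (continuousAt_const (y := δ))
        (by simpa using hδ))] with s hs hs1 hs2
    have e1 : Tendsto (fun N => ∑ p : Fin n × Fin n, |hess (w N (m N t)) x p.1 p.2 - H p.1 p.2|)
        (hyperfilter ℕ : Filter ℕ) (𝓝 0) := by
      have := tendsto_finsetSum (Finset.univ : Finset (Fin n × Fin n)) fun p _ =>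
        ((hv t [p.1, p.2] x).sub_const (H p.1 p.2)).abs
      simpa [hH'] using this
    have e2 : Tendsto (fun N => (n : ℝ) ^ 2 * M * (2 * C3 * h N + (|s - t| + dt N) * C2 +
        ∑ p : Fin n × Fin n, |hess (w N (m N t)) x p.1 p.2 - H p.1 p.2|))
        (hyperfilter ℕ : Filter ℕ) (𝓝 ((n : ℝ) ^ 2 * M * (|s - t| * C2))) := by
      simpa using (((((hh0'.mono_left hU).const_mul (2 * C3)).add
        (((hdt0.mono_left hU).const_add |s - t|).mul_const C2)).add e1).const_mul
        ((n : ℝ) ^ 2 * M))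
    have e3 : Tendsto (fun N => |s - t| + dt N) (hyperfilter ℕ : Filter ℕ) (𝓝 |s - t|) := by
      simpa using (hdt0.mono_left hU).const_add |s - t|
    have := le_of_tendsto_of_tendsto (((hv s [] x).sub (hv t [] x)).sub
      (((hmt s).sub (hmt t)).mul_const (F t (jet x H)))).abs
      (((hmt s).sub (hmt t)).abs.mul_const ε) (by
        filter_upwards [e2.eventually (gt_mem_nhds hs1), e3.eventually (gt_mem_nhds hs2),
          hU hC2', hU ((hL' _).1 hC3')] with N h1 h2 h3 h4
        refine tele (fun k => pds [] (w N k) x) _ ε (hdt N).le _ _ fun k hk hk' => ?_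
        have a1 := hm1 N s
        have a2 := hm2 N s
        have a3 := hm1 N t
        have a4 := hm2 N t
        rw [cl_of_mem hs] at a1 a2
        rw [cl_of_mem ht] at a3 a4
        have a5 := le_abs_self (s - t)
        have a6 := neg_abs_le (s - t)
        have b1 : (k : ℝ) * dt N ≤ T ∧ k * dt N ≤ t + |s - t| ∧
            k * dt N - m N t * dt N ≤ |s - t| + dt N := by
          rcases lt_max_iff.1 hk' with h5 | h5 <;>
          · have := mul_le_mul_of_nonneg_right (Nat.cast_le (α := ℝ).2 h5.le) (hdt N).le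
            refine ⟨?_, ?_, ?_⟩ <;> linarith [hs.2, ht.2, abs_nonneg (s - t), hdt N]
        have b2 : t - |s - t| - dt N ≤ k * dt N ∧
            -(|s - t| + dt N) ≤ k * dt N - m N t * dt N := by
          rcases min_le_iff.1 hk with h5 | h5 <;>
          · have := mul_le_mul_of_nonneg_right (Nat.cast_le (α := ℝ).2 h5) (hdt N).le
            refine ⟨?_, ?_⟩ <;> linarith [abs_nonneg (s - t), hdt N]
        have c1 := hδ' (x := k * dt N) (by
          rw [Real.dist_eq, abs_lt]
          constructor <;> linarith [b1.2.1, b2.1, hdt N])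
        rw [Real.dist_eq] at c1
        have c2 := abs_jet_sub_le (hF (k * dt N)) (M := M)
          (fun p y => hM [Sum.inr p] (by simp [k1]) _ y) x (r := fdh (h N) (w N k) x) (s := H)
          (δ := 2 * C3 * h N + (|s - t| + dt N) * C2 +
            ∑ p : Fin n × Fin n, |hess (w N (m N t)) x p.1 p.2 - H p.1 p.2|) fun i j => by
            have d1 := abs_fdh_sub_le (hws N k) (hh N) (h4 k b1.1) x i j
            have d2 : |hess (w N k) x i j - hess (w N (m N t)) x i j| ≤ _ :=
              (h3 [i, j] rfl _ _ x (hmT N t) b1.1).trans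
                (mul_le_mul_of_nonneg_right (abs_le.2 ⟨b2.2, b1.2.2⟩) hC2)
            have d3 := Finset.single_le_sum
              (f := fun p : Fin n × Fin n => |hess (w N (m N t)) x p.1 p.2 - H p.1 p.2|)
              (fun _ _ => abs_nonneg _) (Finset.mem_univ (i, j))
            have d4 := abs_sub_le (fdh (h N) (w N k) x i j) (hess (w N k) x i j) (H i j)
            have d5 := abs_sub_le (hess (w N k) x i j) (hess (w N (m N t)) x i j) (H i j)
            linarith
        have c3 := abs_sub_le (F (k * dt N) (jet x (fdh (h N) (w N k) x)))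
          (F (k * dt N) (jet x H)) (F t (jet x H))
        rw [hstep, add_sub_cancel_left, ← mul_sub, abs_mul, abs_of_pos (hdt N), pds_nil]
        exact mul_le_mul_of_nonneg_left (by linarith) (hdt N).le)
    rw [cl_of_mem hs, cl_of_mem ht] at this
    simpa [mul_comm] using this

end Vale.Agent.P227
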