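import Vale.Agent.P227.Rescale
import Vale.Agent.P227.ST
import Vale.Agent.P227.Bump
import Vale.Agent.P227.Glue

/-! Existence for the linear flow. -/

set_option linter.unusedSectionVars false
set_option linter.unusedVariables false

namespace Vale.Agent.P227

open scoped ContDiff
open MeasureTheory Set Filter Topology Matrix

variable {n : ℕ} {τ : X n → Mat n} {c : ℝ}

theorem rl_ds_scale {α : Type*} {f : X n → ℝ} (hf : BS f) {a : α → ℝ} {B : ℝ}
    (ha : ∀ p, |a p| ≤ B) : DS (Qb ⊤) fun p x => f (a p • x) := by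
  refine ds_Qb_top_iff.mpr ⟨fun p => hf.1.comp (contDiff_id.const_smul (a p)), fun l => ?_⟩
  obtain ⟨C, hC⟩ := hf.2 l
  refine ⟨B ^ l.length * C, fun p x => ?_⟩
  rw [pds_scale hf.1, abs_mul, abs_pow]
  exact mul_le_mul (pow_le_pow_left₀ (abs_nonneg _) (ha p) _) (hC _) (abs_nonneg _)
    (pow_nonneg ((abs_nonneg _).trans (ha p)) _)

/-- The nonlinearity of the rescaled linear flow. -/
noncomputable def rlF (τ : X n → Mat n) (χ : ℝ → ℝ) (g : X n → ℝ) (s : ℝ) (y : JI n → ℝ) : ℝ :=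
  Real.exp (-2 * s) * ∑ i, ∑ j, τ (Real.exp s • px y) i j
    * (pd i (pd j g) (px y) + χ (y (Sum.inr (i, j))))

theorem rl_dq {α : Type*} {χ : ℝ → ℝ} (hτ : ∀ i j, BS fun x => τ x i j) (hχ : ContDiff ℝ ∞ χ)
    (hχb : ∀ k, ∃ C, ∀ s, |iteratedDeriv k χ s| ≤ C) (K : ℕ) {g : α → X n → ℝ} {s : α → ℝ}
    (hs : ∀ a, s a ∈ Icc (0 : ℝ) 1) (hg : ∀ a, Sm (g a))
    (hb : ∀ l : List (Fin n), 2 ≤ l.length → l.length ≤ K → ∃ C, ∀ a x, |pds l (g a) x| ≤ C) :
    DQ (Grading.ofSub (Qb ⊤) K) 2 fun a => rlF τ χ (g a) (s a) := by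
  have h1 : DQ (Grading.ofSub (Qb ⊤) K) 2 fun a (_ : JI n → ℝ) => Real.exp (-2 * s a) := by
    refine DQ.param fun _ => mem_Qb_top.mpr ⟨1, fun a _ => ?_⟩
    rw [abs_of_pos (Real.exp_pos _)]
    exact Real.exp_le_one_iff.mpr (by linarith [(hs a).1])
  have h2 : ∀ i j, DQ (Grading.ofSub (Qb ⊤) K) 2
      fun a (y : JI n → ℝ) => τ (Real.exp (s a) • px y) i j := fun i j =>
    (ds_iff_dq 2).mp (ds_px (rl_ds_scale (hτ i j) (a := fun a => Real.exp (s a))
      (B := Real.exp 1) fun a => by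
        rw [abs_of_pos (Real.exp_pos _)]
        exact Real.exp_le_exp.mpr (hs a).2)) K
  have h3 : ∀ i j, DQ (Grading.ofSub (Qb ⊤) K) 2
      fun a (y : JI n → ℝ) => pd i (pd j (g a)) (px y) := fun i j =>
    dq_px (f := fun a => pd i (pd j (g a))) K (fun a => ((hg a).pd j).pd i) fun l hl => by
      obtain ⟨C, hC⟩ := hb (l ++ [i, j]) (by simp) (by simpa using hl)
      refine ⟨C, fun a x => ?_⟩
      have := hC a x
      rwa [pds_append] at this
  have h4 : ∀ i j, DQ (Grading.ofSub (Qb ⊤) K) 2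
      fun (_ : α) (y : JI n → ℝ) => χ (y (Sum.inr (i, j))) := fun i j =>
    (ds_iff_dq 2).mp (bs_cut hχ hχb (i, j)).ds K
  exact h1.mul (DQ.sum _ fun i _ => DQ.sum _ fun j _ =>
    (h2 i j).mul ((h3 i j).add (h4 i j)) le_rfl le_rfl (by norm_num)) le_rfl le_rfl (by norm_num)

theorem rl_symb {χ : ℝ → ℝ} (hτ : ∀ i j, BS fun x => τ x i j) (hχ : ContDiff ℝ ∞ χ)
    {g : X n → ℝ} (hg : Sm g) (s : ℝ) (y : JI n → ℝ) (i j : Fin n) :
    symb (rlF τ χ g s) y i j
      = Real.exp (-2 * s) * (τ (Real.exp s • px y) i j * deriv χ (y (Sum.inr (i, j)))) := by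
  have s1 : ∀ a b, Sm fun x : X n => τ (Real.exp s • x) a b := fun a b =>
    (hτ a b).1.comp (contDiff_id.const_smul (Real.exp s))
  have s2 : ∀ a b, Sm fun y : JI n → ℝ => τ (Real.exp s • px y) a b := fun a b => sm_px (s1 a b)
  have s3 : ∀ a b, Sm fun y : JI n → ℝ => pd a (pd b g) (px y) := fun a b =>
    sm_px ((hg.pd b).pd a)
  have s4 : ∀ a b : Fin n, Sm fun y : JI n → ℝ => χ (y (Sum.inr (a, b))) := fun a b =>
    hχ.comp (sm_coord (Sum.inr (a, b)))
  have s5 : ∀ a b, Sm fun y : JI n → ℝ => τ (Real.exp s • px y) a b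
      * (pd a (pd b g) (px y) + χ (y (Sum.inr (a, b)))) := fun a b =>
    (s2 a b).mul ((s3 a b).add (s4 a b))
  have s6 : ∀ a, Sm fun y : JI n → ℝ => ∑ b, τ (Real.exp s • px y) a b
      * (pd a (pd b g) (px y) + χ (y (Sum.inr (a, b)))) := fun a =>
    ContDiff.sum fun b _ => s5 a b
  have e : ∀ a b, pd (Sum.inr (i, j)) (fun y : JI n → ℝ => τ (Real.exp s • px y) a b
      * (pd a (pd b g) (px y) + χ (y (Sum.inr (a, b))))) y
      = if (i, j) = (a, b) then τ (Real.exp s • px y) a b * deriv χ (y (Sum.inr (a, b)))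
        else 0 := by
    intro a b
    rw [pd_mul ((s2 a b).diff y) (Sm.diff ((s3 a b).add (s4 a b)) y),
      pd_add ((s3 a b).diff y) ((s4 a b).diff y), pd_inr_px (s1 a b), pd_inr_px ((hg.pd b).pd a),
      pd_cut hχ]
    split_ifs <;> simp
  rw [symb_apply]
  unfold rlF
  rw [pd_const_mul (Sm.diff (ContDiff.sum fun a _ => s6 a) y), pd_sum _ fun a _ => (s6 a).diff y]
  congr 1
  simp only [pd_sum _ fun b _ => (s5 _ b).diff y, e, Prod.mk.injEq]
  rw [Finset.sum_eq_single i (fun a _ ha => by simp [Ne.symm ha]) (by simp)]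
  simp

theorem rl_cont {χ : ℝ → ℝ} (hτ : ∀ i j, BS fun x => τ x i j) (hχ : ContDiff ℝ ∞ χ)
    {g : X n → ℝ} (hg : Sm g) :
    Continuous fun p : ℝ × (JI n → ℝ) => rlF τ χ g (cl 1 p.1) p.2 := by
  have hc : Continuous (cl 1) := continuous_cl 1
  have hpx : Continuous fun p : ℝ × (JI n → ℝ) => px p.2 := by
    unfold px
    fun_prop
  have hχc := hχ.continuous
  unfold rlF
  refine Continuous.mul (by fun_prop) (continuous_finsetSum _ fun i _ =>
    continuous_finsetSum _ fun j _ => Continuous.mul ?_ (Continuous.add ?_ (by fun_prop)))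
  · exact (hτ i j).1.cont.comp
      ((by fun_prop : Continuous fun p : ℝ × (JI n → ℝ) => Real.exp (cl 1 p.1)).smul hpx)
  · exact ((hg.pd j).pd i).cont.comp hpx

theorem rl_even {χ : ℝ → ℝ} (he : ∀ x, τ (-x) = τ x) (hs : ∀ x, (τ x).IsSymm)
    {g : X n → ℝ} (hg : Sm g) (hge : Ev g) (s : ℝ) (x : X n) (r : Mat n) :
    rlF τ χ g s (jet (-x) rᵀ) = rlF τ χ g s (jet x r) := by
  have h1 : ∀ i j, pd i (pd j g) (-x) = pd j (pd i g) x := fun i j => by
    have := hge.pds_neg hg [i, j] x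
    simp only [pds_cons, pds_nil, List.length] at this
    rw [this, pd_comm hg]
    norm_num
  simp only [rlF, px_jet, jet_inr, smul_neg, he, h1, Matrix.transpose_apply]
  rw [Finset.sum_comm]
  congr 1
  refine Finset.sum_congr rfl fun i _ => Finset.sum_congr rfl fun j _ => ?_
  rw [(hs _).apply i j]

theorem exists_lsol_short (hτ : ∀ i j, BS fun x => τ x i j) (he : ∀ x, τ (-x) = τ x)
    (hs : ∀ x, (τ x).IsSymm) (hc : 0 < c) (hl : ∀ x, LB c (τ x)) :
    ∃ T > 0, ∀ f, V2 f → Ev f → ∃ v, Sol (Lop τ) T v ∧ v 0 = f := by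
  obtain ⟨χ, hχ, hχ1, hχ2, -, hχb⟩ := exists_cutoff (ρ := 1) one_pos
  have hcl : ∀ t, cl 1 t ∈ Icc (0 : ℝ) 1 := cl_mem zero_le_one
  obtain ⟨M, hM⟩ : ∃ M, ∀ l : List (JI n), l.length ≤ k1 n →
      ∀ (a : {g : X n → ℝ // Sm g ∧ ∀ l : List (Fin n), 2 ≤ l.length → l.length ≤ k1 n + 2 →
        ∀ x, |pds l g x| ≤ 1} × ℝ) y, |pds l (rlF τ χ a.1.1 (cl 1 a.2)) y| ≤ M := by
    refine exists_bound_words _ fun l hl => ?_
    exact mem_Qb_top.mp ((rl_dq hτ hχ hχb (k1 n + 2) (fun a => hcl _) (fun a => a.1.2.1)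
      fun l h1 h2 => ⟨1, fun a x => a.1.2.2 l h1 h2 x⟩).2 l (by simp only [Grading.ofSub_K]; omega))
  obtain ⟨T, hT0, hT1, hT⟩ := short_time n M (lam := Real.exp (-2) * c) (rho := 1)
    (by positivity) one_pos
  refine ⟨T, hT0, fun f hf hfe => ?_⟩
  obtain ⟨B, hB0, hB⟩ : ∃ B > 0, ∀ l : List (Fin n), 2 ≤ l.length → l.length ≤ k1 n + 2 →
      ∀ x, |pds l f x| ≤ B := by
    obtain ⟨N, hN⟩ := hf.exists_bound
    refine ⟨1 + ∑ k ∈ Finset.range (k1 n + 3), |N k|, by positivity, fun l h1 h2 x => ?_⟩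
    have := Finset.single_le_sum (f := fun k => |N k|) (fun _ _ => abs_nonneg _)
      (Finset.mem_range.mpr (show l.length < k1 n + 3 by omega))
    linarith [hN l h1 x, le_abs_self (N l.length)]
  set g : X n → ℝ := fun x => B⁻¹ * f x with hg
  have hgv : V2 g := hf.const_mul _
  have hge : Ev g := fun x => by simp only [hg, hfe x]
  have hgp : ∀ l x, pds l g x = B⁻¹ * pds l f x := fun l x => by
    rw [hg, pds_const_mul hf.1]
  have hg1 : ∀ l : List (Fin n), 2 ≤ l.length → l.length ≤ k1 n + 2 → ∀ x, |pds l g x| ≤ 1 := by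
    intro l h1 h2 x
    rw [hgp, abs_mul, abs_of_pos (inv_pos.mpr hB0), inv_mul_le_iff₀ hB0, mul_one]
    exact hB l h1 h2 x
  have hds : DS (Qb ⊤) fun t : ℝ => rlF τ χ g (cl 1 t) :=
    (ds_iff_dq 2).mpr fun K => rl_dq hτ hχ hχb K hcl (fun _ => hgv.1) fun l h1 _ =>
      (hgv.2 l h1).imp fun C hC _ x => hC x
  have hFc := rl_cont hτ hχ hgv.1
  obtain ⟨v, hv, hv0, hve, hvb, hvh, hvd⟩ := hT (fun t => rlF τ χ g (cl 1 t)) hds.1 hFc
    (fun l hl t y => hM l hl (⟨g, hgv.1, hg1⟩, t) y) (ds_Qb_top_iff.mp hds).2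
    (fun t x r hr ξ => by
      have e : qf (symb (rlF τ χ g (cl 1 t)) (jet x r)) ξ
          = Real.exp (-2 * cl 1 t) * qf (τ (Real.exp (cl 1 t) • x)) ξ := by
        simp only [qf, rl_symb hτ hχ hgv.1, jet_inr, px_jet, hχ2 _ (hr _ _), Finset.mul_sum]
        exact Finset.sum_congr rfl fun _ _ => Finset.sum_congr rfl fun _ _ => by ring
      rw [e, mul_assoc]
      refine mul_le_mul (Real.exp_le_exp.mpr (by linarith [(hcl t).2])) (hl _ ξ)
        (mul_nonneg hc.le (nsq_nonneg ξ)) (Real.exp_pos _).le)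
    fun t x r => rl_even he hs hgv.1 hge _ x r
  have hU : JC fun t x => f x + B * v t x :=
    DS.add (S := Qc) (JC.of_sm hf.1) (DS.const_mul (S := Qc) hv B)
  have hUp : ∀ l t x, pds l (fun x => f x + B * v t x) x = pds l f x + B * pds l (v t) x := by
    intro l t x
    rw [pds_add hf.1 (contDiff_const.mul (hv.1 t)), pds_const_mul (hv.1 t)]
  have hG : Continuous fun p : ℝ × X n =>
      B * rlF τ χ g (cl 1 p.1) (jet p.2 (hess (v p.1) p.2)) := by
    refine continuous_const.mul (hFc.comp (continuous_fst.prodMk (continuous_pi fun q => ?_)))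
    cases q with
    | inl i => exact (continuous_apply i).comp continuous_snd
    | inr q => exact hv.2 [q.1, q.2]
  obtain ⟨u, hu⟩ : ∃ u : ℝ → X n → ℝ, u = fun t x => Real.exp (0 * cl T t)
      * (fun t x => f x + B * v t x) (cl T t) (Real.exp (-cl T t) • x) := ⟨_, rfl⟩
  obtain ⟨h1, h2, h3, h4, h5, h6, h7⟩ := rescale (U := fun t x => f x + B * v t x)
    (G := fun t x => B * rlF τ χ g (cl 1 t) (jet x (hess (v t) x))) hT0.le 0 hU hG
    (fun t x => by simp only [hfe x, hve t x])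
    (fun l hl => by
      obtain ⟨C, hC⟩ := hf.2 l hl
      obtain ⟨D, hD⟩ := hvb l
      refine ⟨C + B * D, fun t _ x => ?_⟩
      rw [hUp]
      refine (abs_add_le _ _).trans (add_le_add (hC x) ?_)
      rw [abs_mul, abs_of_pos hB0]
      exact mul_le_mul_of_nonneg_left (hD t x) hB0.le)
    (fun t ht x => ((hvd t ht x).const_mul B).const_add (f x)) hu
  refine ⟨u, ⟨h1, h2, h3, h4, fun t ht x => (h7 t ht x).congr_deriv ?_⟩, h5.trans ?_⟩
  · have e1 : cl 1 t = t := cl_of_mem ⟨ht.1, ht.2.trans hT1⟩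
    have e2 : Real.exp t • Real.exp (-t) • x = x := by
      rw [smul_smul, ← Real.exp_add, add_neg_cancel, Real.exp_zero, one_smul]
    have e3 : ∀ i j, _ = _ := fun i j => congrFun (congrFun (h6 t x) i) j
    simp only [hess_apply, Matrix.smul_apply, smul_eq_mul, cl_of_mem ht] at e3
    have e4 : ∀ i j y, pd i (pd j fun x => f x + B * v t x) y
        = B * (pd i (pd j g) y + pd i (pd j (v t)) y) := by
      intro i j y
      have a1 := hUp [i, j] t y
      have a2 := hgp [i, j] y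
      simp only [pds_cons, pds_nil] at a1 a2
      rw [a1, a2, mul_add, ← mul_assoc, mul_inv_cancel₀ hB0.ne', one_mul]
    have e5 : ∀ i j y, χ (pd i (pd j (v t)) y) = pd i (pd j (v t)) y := fun i j y =>
      hχ1 _ (hvh t y i j)
    simp only [Lop, e3, e4, rlF, e1, px_jet, jet_inr, e2, e5,
      hess_apply, zero_mul, Real.exp_zero, one_mul, zero_sub, Finset.mul_sum]
    rw [neg_add_eq_sub]
    congr 1
    exact Finset.sum_congr rfl fun _ _ => Finset.sum_congr rfl fun _ _ => by ring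
  · funext x
    simp [hv0]

theorem exists_lsol (hτ : ∀ i j, BS fun x => τ x i j) (he : ∀ x, τ (-x) = τ x)
    (hs : ∀ x, (τ x).IsSymm) (hc : 0 < c) (hl : ∀ x, LB c (τ x)) {f : X n → ℝ} (hf : V2 f)
    (hfe : Ev f) (T : ℝ) : ∃ v, Sol (Lop τ) T v ∧ v 0 = f := by
  obtain ⟨T0, hT0, h⟩ := exists_lsol_short hτ he hs hc hl
  exact exists_sol_of_short hT0 h hf hfe T

end Vale.Agent.P227
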