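import Vale.Agent.P227.Decay
import Vale.Agent.P227.RescaleL

/-! Approximate solvability of L (L + 1) w = f for even f. -/

set_option linter.unusedSectionVars false
set_option linter.unusedVariables false

namespace Vale.Agent.P227

open scoped ContDiff
open MeasureTheory Set Filter Topology Matrix

variable {n : ℕ} {V u : X n → ℝ}

theorem density (hV : Pot V) (h : KEPair V u) (he : Ev u) {f : X n → ℝ} (hf : V2 f)
    (hfe : Ev f) {η : ℝ} (hη : 0 < η) :
    ∃ w g : X n → ℝ, PG w ∧ (g = fun x => Lop (tau u) w x + w x) ∧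
      ∫ x, (f x - Lop (tau u) g x) ^ 2 * Real.exp (-V x)
        ≤ (∫ x, f x * Real.exp (-V x)) ^ 2 / (∫ x, Real.exp (-V x)) + η := by
  obtain ⟨c, hc, hl⟩ := h.lb
  obtain ⟨M, hM⟩ := h.v2.exists_bound
  have hτl : ∀ x, LB (n * |M 2| + 1)⁻¹ (tau u x) := fun x =>
    ((ub_of_entry fun i j => (hM [i, j] le_rfl x).trans (le_abs_self _)).mono
      (le_add_of_nonneg_right zero_le_one)).inv_lb (by positivity)
      ((hl x).posDef hc (hess_isSymm h.v2.1 x))
  obtain ⟨C, hC⟩ := decay hV h hf.pg
  set T := 4 * |C| / η + 1 with hT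
  have hT0 : 0 < T := by positivity
  have hCT : 4 * (C / T) ≤ η := by
    rw [← mul_div_assoc, div_le_iff₀ hT0, hT, mul_add, mul_div_cancel₀ _ hη.ne']
    linarith [le_abs_self C]
  obtain ⟨v, hv, hv0⟩ := exists_lsol (bs_tau hc h.v2 hl) (tau_neg h.v2.1 he)
    (tau_isSymm h.v2.1) (by positivity) hτl hf hfe T
  obtain ⟨t, ht, ⟨m, hm⟩, hL⟩ := hC T v hT0 hv hv0
  have hτj : ∀ i j, JC fun (_ : ℝ) x => tau u x i j := fun i j => JC.of_sm (h.pg_tau i j).1
  have hLj : JC fun s => Lop (tau u) (v s) := JC.lop (τ := fun _ => tau u) hτj hv.jc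
  have hcl := continuous_cl T
  have he1 : JC fun s (_ : X n) => Real.exp (cl T s) - 1 := JC.time (by fun_prop)
  have he2 : PGF fun s (_ : X n) => Real.exp (cl T s) - 1 :=
    DS.param (S := Qp) ⟨Real.exp T + 1, 0, fun s _ => by
      have h1 : Real.exp (cl T s) ≤ Real.exp T := Real.exp_le_exp.2 (cl_mem hT0.le s).2
      have h2 := Real.exp_pos (cl T s)
      rw [pow_zero, mul_one, abs_le]
      constructor <;> linarith⟩
  have hG := he1.mul hv.jc
  have hw : PG fun x => ∫ s in (0 : ℝ)..t, (Real.exp (cl T s) - 1) * v s x :=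
    PGF.pg_integral hG (he2.mul hv.pgf) 0 t
  have hsub : Icc 0 t ⊆ Icc 0 T := Icc_subset_Icc_right ht.2
  have hI : ∀ x, ∫ s in (0 : ℝ)..t, Lop (tau u) (v s) x = v t x - f x := fun x => by
    rw [eq_add_integral hv.jc hLj hv.eq ht x, hv0]
    ring
  have hg : (fun x => Lop (tau u) (fun x => ∫ s in (0 : ℝ)..t, (Real.exp (cl T s) - 1) * v s x) x
      + ∫ s in (0 : ℝ)..t, (Real.exp (cl T s) - 1) * v s x)
      = fun x => (Real.exp t - 1) * v t x - ∫ s in (0 : ℝ)..t, v s x := by
    funext x
    have c1 : Continuous fun s => v s x := hv.jc.cont.comp (f := fun s : ℝ => (s, x)) (by fun_prop)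
    have c2 : Continuous fun s => Lop (tau u) (v s) x :=
      hLj.cont.comp (f := fun s : ℝ => (s, x)) (by fun_prop)
    have hD : JC fun s y => (Real.exp (cl T s) - 1) * Lop (tau u) (v s) y
        + ((Real.exp (cl T s) - 1) * v s y + v s y) := (he1.mul hLj).add (hG.add hv.jc)
    have hd : ∀ s ∈ Icc 0 T, ∀ y, HasDerivWithinAt (fun s => (Real.exp (cl T s) - 1) * v s y)
        ((Real.exp (cl T s) - 1) * Lop (tau u) (v s) y
          + ((Real.exp (cl T s) - 1) * v s y + v s y)) (Icc 0 T) s := by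
      intro s hs y
      have d1 : HasDerivWithinAt (fun s => Real.exp (cl T s) - 1) (Real.exp s) (Icc 0 T) s :=
        ((Real.hasDerivAt_exp s).sub_const 1).hasDerivWithinAt.congr
          (fun r hr => by rw [cl_of_mem hr]) (by rw [cl_of_mem hs])
      refine (d1.fun_mul (hv.eq s hs y)).congr_deriv ?_
      rw [cl_of_mem hs]
      ring
    have h1 := eq_add_integral hG hD hd ht x
    have c3 : Continuous fun s => Real.exp (cl T s) - 1 := by fun_prop
    rw [lop_integral hG]
    simp only [lop_const_mul (hv.jc.1 _)]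
    have c4 : Continuous fun s => (Real.exp (cl T s) - 1) * Lop (tau u) (v s) x := c3.mul c2
    have c5 : Continuous fun s => (Real.exp (cl T s) - 1) * v s x := c3.mul c1
    have c6 : Continuous fun s => (Real.exp (cl T s) - 1) * v s x + v s x := c5.add c1
    rw [intervalIntegral.integral_add (c4.intervalIntegrable _ _) (c6.intervalIntegrable _ _),
      intervalIntegral.integral_add (c5.intervalIntegrable _ _)
      (c1.intervalIntegrable _ _), cl_of_mem ht,
      cl_of_mem ⟨le_rfl, hT0.le⟩, Real.exp_zero] at h1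
    linarith
  refine ⟨_, _, hw, rfl, ?_⟩
  have hgp := (PG.lop h.pg_tau hw).add hw
  have hz := h.integral_lop hgp
  rw [hg] at hz hgp ⊢
  have hLg : ∀ x, Lop (tau u) (fun x => (Real.exp t - 1) * v t x - ∫ s in (0 : ℝ)..t, v s x) x
      = (Real.exp t - 1) * Lop (tau u) (v t) x - (v t x - f x) := fun x => by
    rw [lop_sub (contDiff_const.mul (hv.jc.1 t)) (hv.jc.sm_integral 0 t),
      lop_const_mul (hv.jc.1 t), lop_integral hv.jc, hI]
  simp only [hLg] at hz ⊢
  have hint : ∀ {g : X n → ℝ}, PG g → Integrable fun x => g x * Real.exp (-V x) :=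
    fun hg => hg.integrable hV.v2.1.cont hV.coer
  have pv := hv.pgf.pg t
  have pL := PG.lop h.pg_tau pv
  have pf := hf.pg
  have hZ := integral_exp_pos hV.v2.1.cont hV.coer
  set Z := ∫ x, Real.exp (-V x)
  set A := ∫ x, f x * Real.exp (-V x)
  set a := Real.exp t - 1 with ha
  have pq := (pL.const_mul a).sub (pv.sub pf)
  have i1 := hint ((pv.sub (PG.const m)).mul (pv.sub (PG.const m)))
  have i2 := hint (pL.mul pL)
  have i3 := hint pf
  have i4 := hint pq
  have i5 : Integrable fun x => Real.exp (-V x) := by simpa using hint (PG.const 1)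
  have hp : ∀ x, (f x - (a * Lop (tau u) (v t) x - (v t x - f x))) ^ 2 * Real.exp (-V x)
      ≤ 2 * ((v t x - m) * (v t x - m) * Real.exp (-V x))
        + 2 * a ^ 2 * (Lop (tau u) (v t) x * Lop (tau u) (v t) x * Real.exp (-V x))
        + 2 * m * (f x * Real.exp (-V x))
        - 2 * m * ((a * Lop (tau u) (v t) x - (v t x - f x)) * Real.exp (-V x))
        - m ^ 2 * Real.exp (-V x) := by
    intro x
    have := mul_nonneg (sq_nonneg (v t x - m + a * Lop (tau u) (v t) x)) (Real.exp_pos (-V x)).le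
    linarith
  have h3 := integral_mono (by simpa only [pow_two] using hint ((pf.sub pq).mul (pf.sub pq)))
    (((((i1.const_mul 2).add (i2.const_mul (2 * a ^ 2))).add (i3.const_mul (2 * m))).sub
      (i4.const_mul (2 * m))).sub (i5.const_mul (m ^ 2))) hp
  rw [integral_sub' ((((i1.const_mul 2).add (i2.const_mul _)).add (i3.const_mul _)).sub
      (i4.const_mul _)) (i5.const_mul _),
    integral_sub' (((i1.const_mul 2).add (i2.const_mul _)).add (i3.const_mul _)) (i4.const_mul _),
    integral_add' ((i1.const_mul 2).add (i2.const_mul _)) (i3.const_mul _),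
    integral_add' (i1.const_mul 2) (i2.const_mul _)] at h3
  simp only [integral_const_mul, hz, ← pow_two] at h3
  have e1 : 2 * m * A - m ^ 2 * Z ≤ A ^ 2 / Z := by
    rw [le_div_iff₀ hZ]
    nlinarith [sq_nonneg (A - m * Z)]
  have e2 : a ^ 2 ≤ Real.exp (2 * t) := by
    have h1 : 1 ≤ Real.exp t := Real.one_le_exp ht.1
    rw [two_mul, Real.exp_add, ha]
    nlinarith
  have e3 := mul_le_mul_of_nonneg_right e2 (integral_nonneg (μ := volume)
    (f := fun x => Lop (tau u) (v t) x ^ 2 * Real.exp (-V x)) fun x => by positivity)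
  linarith

end Vale.Agent.P227
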