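import Vale.Agent.P227.Classes

/-! Gaussian domination, integration by parts, differentiation under the integral. -/

set_option linter.unusedSectionVars false
set_option linter.unusedVariables false

namespace Vale.Agent.P227

open scoped ContDiff
open MeasureTheory Set Filter Topology Matrix

variable {n : ℕ}

theorem integrable_gauss_poly {c : ℝ} (hc : 0 < c) (N : ℕ) :
    Integrable fun x : X n => (1 + ‖x‖) ^ N * Real.exp (-(c * nsq x)) := by
  have h1 : Integrable fun x : X n => ∏ i, Real.exp (-(c / 2) * x i ^ 2) :=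
    Integrable.fintype_prod (f := fun (_ : Fin n) (s : ℝ) => Real.exp (-(c / 2) * s ^ 2))
      (μ := fun _ => volume) fun _ => integrable_exp_neg_mul_sq (by positivity)
  have hcont : Continuous fun x : X n => (1 + ‖x‖) ^ N * Real.exp (-(c * nsq x)) :=
    ((continuous_const.add continuous_norm).pow N).mul
      (Real.continuous_exp.comp (continuous_const.mul sm_nsq.cont).neg)
  refine (h1.const_mul (Real.exp (N ^ 2 / (2 * c)))).mono' hcont.aestronglyMeasurable
    (Eventually.of_forall fun x => ?_)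
  rw [Real.norm_of_nonneg (by positivity), ← Real.exp_sum, ← Finset.mul_sum, ← Real.exp_add]
  have h2 : (1 + ‖x‖) ^ N ≤ Real.exp (N * ‖x‖) := by
    rw [Real.exp_nat_mul]
    exact pow_le_pow_left₀ (by positivity) (by linarith [Real.add_one_le_exp ‖x‖]) N
  refine (mul_le_mul_of_nonneg_right h2 (Real.exp_pos _).le).trans ?_
  rw [← Real.exp_add]
  refine Real.exp_le_exp.2 ?_
  have h3 : N * ‖x‖ ≤ N ^ 2 / (2 * c) + c / 2 * ‖x‖ ^ 2 := by
    have e : (N : ℝ) ^ 2 / (2 * c) + c / 2 * ‖x‖ ^ 2 - N * ‖x‖ = (N - c * ‖x‖) ^ 2 / (2 * c) := by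
      field_simp
      ring
    have : 0 ≤ ((N : ℝ) - c * ‖x‖) ^ 2 / (2 * c) := by positivity
    linarith
  have h4 := mul_le_mul_of_nonneg_left (norm_sq_le_nsq x) (by positivity : 0 ≤ c / 2)
  have h5 : ∑ i, x i ^ 2 = nsq x := rfl
  rw [h5]
  linarith

theorem integrable_of_gauss_bound {f : X n → ℝ} (hf : Continuous f) {c C : ℝ} (hc : 0 < c)
    {N : ℕ} (h : ∀ x, |f x| ≤ C * (1 + ‖x‖) ^ N * Real.exp (-(c * nsq x))) :
    Integrable f := by
  refine ((integrable_gauss_poly hc N).const_mul C).mono' hf.aestronglyMeasurable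
    (Eventually.of_forall fun x => ?_)
  rw [← mul_assoc]
  exact h x

theorem abs_mul_exp_le {a b y D : ℝ} {C₀ r : ℝ} (h0 : a - C₀ ≤ b) (hy : |y| ≤ D * r) :
    |y * Real.exp (-b)| ≤ D * Real.exp C₀ * r * Real.exp (-a) := by
  rw [abs_mul, abs_of_pos (Real.exp_pos _)]
  calc |y| * Real.exp (-b) ≤ D * r * Real.exp (C₀ + -a) :=
        mul_le_mul hy (Real.exp_le_exp.2 (by linarith)) (Real.exp_pos _).le
          ((abs_nonneg _).trans hy)
    _ = _ := by rw [Real.exp_add]; ring

theorem integrable_mul_exp {W f : X n → ℝ} (hW : Continuous W)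
    (hco : ∃ c > 0, ∃ C, ∀ x, c * nsq x - C ≤ W x) (hf : Continuous f)
    (hb : ∃ (C : ℝ) (N : ℕ), ∀ x, |f x| ≤ C * (1 + ‖x‖) ^ N) :
    Integrable fun x => f x * Real.exp (-W x) := by
  obtain ⟨c, hc, C₀, h0⟩ := hco
  obtain ⟨C, N, hb⟩ := hb
  exact integrable_of_gauss_bound (hf.mul (Real.continuous_exp.comp hW.neg)) hc
    fun x => abs_mul_exp_le (h0 x) (hb x)

theorem PG.integrable {W f : X n → ℝ} (hf : PG f) (hW : Continuous W)
    (hco : ∃ c > 0, ∃ C, ∀ x, c * nsq x - C ≤ W x) :
    Integrable fun x => f x * Real.exp (-W x) :=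
  integrable_mul_exp hW hco hf.1.cont hf.bound

theorem integral_exp_pos {W : X n → ℝ} (hW : Continuous W)
    (hco : ∃ c > 0, ∃ C, ∀ x, c * nsq x - C ≤ W x) : 0 < ∫ x, Real.exp (-W x) := by
  refine MeasureTheory.integral_exp_pos ?_
  simpa using (PG.const (ι := Fin n) 1).integrable hW hco

/-- Integration by parts against `e^{-W}`. -/
theorem integral_pd_mul_exp {W f : X n → ℝ} (hW : PG W)
    (hco : ∃ c > 0, ∃ C, ∀ x, c * nsq x - C ≤ W x) (hf : PG f) (a : Fin n) :
    ∫ x, pd a f x * Real.exp (-W x) = ∫ x, pd a W x * f x * Real.exp (-W x) := by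
  have hd : ∀ x, DifferentiableAt ℝ (fun x => Real.exp (-W x)) x := fun x =>
    (hW.1.diff x).neg.exp
  have he : ∀ x, fderiv ℝ (fun x => Real.exp (-W x)) x (Pi.single a 1) =
      -(pd a W x * Real.exp (-W x)) := by
    intro x
    have h1 := pd_comp_real (φ := Real.exp) (f := fun x => -W x) (x := x)
      Real.differentiableAt_exp (hW.1.diff x).neg a
    rw [pd_neg, Real.deriv_exp] at h1
    exact h1.trans (by ring)
  have h2 := integral_mul_fderiv_eq_neg_fderiv_mul_of_integrable (μ := volume) (f := f)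
    (g := fun x => Real.exp (-W x)) (v := Pi.single a 1) ((hf.pd a).integrable hW.1.cont hco)
    (by
      simp only [he]
      refine (((hW.pd a).mul hf).integrable hW.1.cont hco).neg.congr
        (Eventually.of_forall fun x => ?_)
      simp only [Pi.neg_apply]
      ring)
    (hf.integrable hW.1.cont hco) (fun x _ => hf.1.diff x) (fun x _ => hd x)
  simp only [he] at h2
  have h3 : ∫ x, f x * -(pd a W x * Real.exp (-W x)) =
      -∫ x, pd a W x * f x * Real.exp (-W x) := by
    rw [← integral_neg]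
    exact integral_congr_ae (Eventually.of_forall fun x => by simp only; ring)
  rw [h3] at h2
  exact (neg_injective h2).symm

/-- Odd functions have zero mean for an even weight. -/
theorem integral_odd {W f : X n → ℝ} (hW : Ev W) (hf : ∀ x, f (-x) = -f x) :
    ∫ x, f x * Real.exp (-W x) = 0 := by
  have h1 := integral_neg_eq_self (fun x => f x * Real.exp (-W x)) volume
  simp only [hf, hW _, neg_mul, integral_neg] at h1
  linarith

/-- Differentiation under the integral with Gaussian domination. -/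
theorem deriv_under_integral {f f' : ℝ → X n → ℝ} {T c C : ℝ} {N : ℕ} (hc : 0 < c)
    (hf : Continuous fun p : ℝ × X n => f p.1 p.2)
    (hf' : Continuous fun p : ℝ × X n => f' p.1 p.2)
    (hd : ∀ t ∈ Icc 0 T, ∀ x, HasDerivWithinAt (fun s => f s x) (f' t x) (Icc 0 T) t)
    (hb : ∀ t ∈ Icc 0 T, ∀ x, |f t x| ≤ C * (1 + ‖x‖) ^ N * Real.exp (-(c * nsq x)))
    (hb' : ∀ t ∈ Icc 0 T, ∀ x, |f' t x| ≤ C * (1 + ‖x‖) ^ N * Real.exp (-(c * nsq x))) :
    ContinuousOn (fun t => ∫ x, f t x) (Icc 0 T) ∧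
      ∀ t ∈ Ioo 0 T, HasDerivAt (fun t => ∫ x, f t x) (∫ x, f' t x) t := by
  have hbi := (integrable_gauss_poly (n := n) hc N).const_mul C
  have hm : ∀ t, Continuous (f t) := fun t => hf.comp (Continuous.prodMk_right t)
  have hm' : ∀ t, Continuous (f' t) := fun t => hf'.comp (Continuous.prodMk_right t)
  refine ⟨continuousOn_of_dominated (fun t _ => (hm t).aestronglyMeasurable)
    (fun t ht => Eventually.of_forall fun x => ?_) hbi
    (Eventually.of_forall fun x => (hf.comp (Continuous.prodMk_left x)).continuousOn),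
    fun t ht => ?_⟩
  · rw [← mul_assoc]
    exact hb t ht x
  · refine (hasDerivAt_integral_of_dominated_loc_of_deriv_le (Ioo_mem_nhds ht.1 ht.2)
      (Eventually.of_forall fun s => (hm s).aestronglyMeasurable)
      (integrable_of_gauss_bound (hm t) hc (hb t (Ioo_subset_Icc_self ht)))
      (hm' t).aestronglyMeasurable (Eventually.of_forall fun x s hs => ?_) hbi
      (Eventually.of_forall fun x s hs => ?_)).2
    · rw [← mul_assoc]
      exact hb' s (Ioo_subset_Icc_self hs) x
    · exact (hd s (Ioo_subset_Icc_self hs) x).hasDerivAt (Icc_mem_nhds hs.1 hs.2)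

/-- The same for polynomially bounded families against a fixed weight `e^{-W}`. -/
theorem deriv_under_integral_exp {W : X n → ℝ} (hW : Continuous W)
    (hco : ∃ c > 0, ∃ C, ∀ x, c * nsq x - C ≤ W x) {f f' : ℝ → X n → ℝ} {T : ℝ}
    (hf : JC f) (hf' : JC f') (hp : PGF f) (hp' : PGF f')
    (hd : ∀ t ∈ Icc 0 T, ∀ x, HasDerivWithinAt (fun s => f s x) (f' t x) (Icc 0 T) t) :
    ContinuousOn (fun t => ∫ x, f t x * Real.exp (-W x)) (Icc 0 T) ∧
      ∀ t ∈ Ioo 0 T, HasDerivAt (fun t => ∫ x, f t x * Real.exp (-W x))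
        (∫ x, f' t x * Real.exp (-W x)) t := by
  obtain ⟨c, hc, C₀, h0⟩ := hco
  obtain ⟨C, N, hb⟩ := hp.2 []
  obtain ⟨C', N', hb'⟩ := hp'.2 []
  have hE : Continuous fun p : ℝ × X n => Real.exp (-W p.2) :=
    Real.continuous_exp.comp (hW.comp continuous_snd).neg
  have key : ∀ {y D : ℝ} {M : ℕ} (x : X n), |y| ≤ D * (1 + ‖x‖) ^ M → D ≤ max |C| |C'| →
      M ≤ max N N' → |y| ≤ max |C| |C'| * (1 + ‖x‖) ^ max N N' := by
    intro y D M x h1 h2 h3
    have h4 : (1 : ℝ) ≤ 1 + ‖x‖ := by linarith [norm_nonneg x]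
    exact h1.trans (mul_le_mul h2 (pow_le_pow_right₀ h4 h3) (by positivity)
      ((abs_nonneg _).trans (le_max_left _ _)))
  exact deriv_under_integral (f := fun t x => f t x * Real.exp (-W x))
    (f' := fun t x => f' t x * Real.exp (-W x)) hc (hf.cont.mul hE) (hf'.cont.mul hE)
    (fun t ht x => (hd t ht x).mul_const _)
    (fun t _ x => abs_mul_exp_le (h0 x)
      (key x (hb t x) ((le_abs_self _).trans (le_max_left _ _)) (le_max_left _ _)))
    (fun t _ x => abs_mul_exp_le (h0 x)
      (key x (hb' t x) ((le_abs_self _).trans (le_max_right _ _)) (le_max_right _ _)))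

variable {u : X n → ℝ} {c : ℝ}

theorem hasDerivAt_ray (hu : Sm u) (x : X n) (s : ℝ) :
    HasDerivAt (fun r : ℝ => u (r • x)) (∑ i, x i * pd i u (s • x)) s := by
  simpa only [zero_add] using hasDerivAt_line (x := 0) (v := x) (s := s) (hu.diff _)

theorem ray_mono (hu : Sm u) (hl : ∀ x, LB c (hess u x)) (x : X n) {s t : ℝ} (hst : s ≤ t) :
    c * nsq x * (t - s) ≤ ∑ i, x i * pd i u (t • x) - ∑ i, x i * pd i u (s • x) := by
  have hd : ∀ r : ℝ, HasDerivAt (fun r : ℝ => ∑ i, x i * pd i u (r • x))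
      (∑ i, x i * ∑ j, x j * pd j (pd i u) (r • x)) r := fun r =>
    HasDerivAt.fun_sum fun i _ => (hasDerivAt_ray (hu.pd i) x r).const_mul (x i)
  refine mul_sub_le_image_sub_of_le_deriv (f := fun r : ℝ => ∑ i, x i * pd i u (r • x))
    (fun r => (hd r).differentiableAt) (fun r => ?_) hst
  rw [(hd r).deriv]
  refine (hl (r • x) x).trans (le_of_eq ?_)
  unfold qf
  rw [Finset.sum_comm]
  refine Finset.sum_congr rfl fun i _ => ?_
  rw [Finset.mul_sum]
  exact Finset.sum_congr rfl fun j _ => by rw [hess_apply]; ring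

theorem dot_grad_ge (hu : Sm u) (he : Ev u) (hl : ∀ x, LB c (hess u x)) (x : X n) :
    c * nsq x ≤ ∑ i, x i * pd i u x := by
  have h1 := ray_mono hu hl x (zero_le_one' ℝ)
  simp only [one_smul, zero_smul, he.pd_zero hu, mul_zero, Finset.sum_const_zero] at h1
  linarith

theorem ge_of_lb (hu : Sm u) (he : Ev u) (hl : ∀ x, LB c (hess u x)) (x : X n) :
    u 0 + c / 2 * nsq x ≤ u x := by
  have hd : ∀ s : ℝ, HasDerivAt (fun s : ℝ => u (s • x) - c / 2 * nsq x * s ^ 2)
      (∑ i, x i * pd i u (s • x) - c * nsq x * s) s := by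
    intro s
    have h1 := (hasDerivAt_ray hu x s).sub ((hasDerivAt_pow 2 s).const_mul (c / 2 * nsq x))
    refine HasDerivAt.congr_deriv h1 ?_
    norm_num
    ring
  have hmono := monotoneOn_of_deriv_nonneg (convex_Icc (0 : ℝ) 1)
    (fun s _ => (hd s).continuousAt.continuousWithinAt)
    (fun s _ => (hd s).differentiableAt.differentiableWithinAt) (fun s hs => by
      rw [(hd s).deriv]
      have h1 := ray_mono hu hl x (interior_subset hs).1
      simp only [zero_smul, he.pd_zero hu, mul_zero, Finset.sum_const_zero] at h1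
      linarith)
  have h2 := hmono (left_mem_Icc.2 zero_le_one) (right_mem_Icc.2 zero_le_one) zero_le_one
  simp only [zero_smul, one_smul] at h2
  linarith

theorem legendre_le (hu : Sm u) (hl : ∀ x, LB c (hess u x)) (x : X n) :
    u x - ∑ i, x i * pd i u x ≤ u 0 - c / 2 * nsq x := by
  have hd : ∀ s : ℝ, HasDerivAt (fun s : ℝ => u (s • x) - (∑ i, x i * pd i u x) * s +
      c * nsq x * s - c / 2 * nsq x * s ^ 2)
      (∑ i, x i * pd i u (s • x) - ∑ i, x i * pd i u x + c * nsq x * (1 - s)) s := by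
    intro s
    have h1 := (((hasDerivAt_ray hu x s).sub
      ((hasDerivAt_id s).const_mul (∑ i, x i * pd i u x))).add
      ((hasDerivAt_id s).const_mul (c * nsq x))).sub
      ((hasDerivAt_pow 2 s).const_mul (c / 2 * nsq x))
    refine HasDerivAt.congr_deriv h1 ?_
    norm_num
    ring
  have hmono := antitoneOn_of_deriv_nonpos (convex_Icc (0 : ℝ) 1)
    (fun s _ => (hd s).continuousAt.continuousWithinAt)
    (fun s _ => (hd s).differentiableAt.differentiableWithinAt) (fun s hs => by
      rw [(hd s).deriv]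
      have h1 := ray_mono hu hl x (interior_subset hs).2
      simp only [one_smul] at h1
      linarith)
  have h2 := hmono (left_mem_Icc.2 zero_le_one) (right_mem_Icc.2 zero_le_one) zero_le_one
  simp only [zero_smul, one_smul] at h2
  linarith

theorem Pot.coer {V : X n → ℝ} (hV : Pot V) : ∃ c > 0, ∃ C, ∀ x, c * nsq x - C ≤ V x := by
  obtain ⟨c, hc, hl⟩ := hV.lb
  refine ⟨c / 2, by positivity, -V 0, fun x => ?_⟩
  linarith [ge_of_lb hV.v2.1 hV.ev hl x]

theorem Pot.ub {V : X n → ℝ} (hV : Pot V) : ∃ C, ∀ x, UB C (hess V x) := by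
  obtain ⟨M, hM⟩ := hV.v2.exists_bound
  exact ⟨n * M 2, fun x => ub_of_entry fun i j => hM [i, j] le_rfl x⟩

end Vale.Agent.P227
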