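import Vale.Agent.P227.BochMain
import Vale.Agent.P227.Gauss

/-! The concrete model: functions of polynomial growth. -/

set_option linter.unusedSectionVars false
set_option linter.unusedVariables false

namespace Vale.Agent.P227

open scoped ContDiff
open MeasureTheory Set Filter Topology Matrix

variable {n : ℕ} {W u : X n → ℝ}

theorem KEPair.pg_tau (h : KEPair W u) (i j : Fin n) : PG fun x => tau u x i j := by
  obtain ⟨c, hc, hl⟩ := h.lb
  exact (bs_tau hc h.v2 hl i j).pg

/-- The algebra of functions of polynomial growth. -/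
def PGA (n : ℕ) : Subalgebra ℝ (X n → ℝ) where
  carrier := {f | PG f}
  mul_mem' := fun hf hg => PG.mul hf hg
  add_mem' := fun hf hg => PG.add hf hg
  algebraMap_mem' := fun r => PG.const r

/-- Coordinate derivative as a derivation. -/
noncomputable def dA (i : Fin n) : Derivation ℝ (PGA n) (PGA n) :=
  Derivation.mk'
    { toFun := fun f => ⟨pd i f.1, PG.pd f.2 i⟩
      map_add' := fun f g => Subtype.ext (funext fun x =>
        pd_add (f.2.1.diff x) (g.2.1.diff x) i)
      map_smul' := fun c f => Subtype.ext (funext fun x => pd_const_mul (f.2.1.diff x) c i) }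
    fun f g => Subtype.ext (funext fun x => by
      have := pd_mul (f.2.1.diff x) (g.2.1.diff x) i
      change pd i (fun y => f.1 y * g.1 y) x = f.1 x * pd i g.1 x + g.1 x * pd i f.1 x
      rw [this]
      ring)

@[simp] theorem dA_apply (i : Fin n) (f : PGA n) : (dA i f).1 = pd i f.1 := rfl

/-- Point evaluation. -/
noncomputable def evA (p : X n) : PGA n →ₐ[ℝ] ℝ :=
  (Pi.evalAlgHom ℝ (fun _ : X n => ℝ) p).comp (PGA n).val

theorem evA_apply (p : X n) (f : PGA n) : evA p f = f.1 p := rfl

theorem ext_ev {f g : PGA n} (h : ∀ p, evA p f = evA p g) : f = g := Subtype.ext (funext h)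

theorem KEPair.det_pos (h : KEPair W u) (x : X n) : 0 < (hess u x).det := by
  obtain ⟨c, hc, hl⟩ := h.lb
  exact (hl x).det_pos hc (hess_isSymm h.v2.1 x)

theorem KEPair.tau_mul (h : KEPair W u) (x : X n) : tau u x * hess u x = 1 :=
  Matrix.nonsing_inv_mul _ (h.det_pos x).ne'.isUnit

theorem KEPair.stein (h : KEPair W u) (x : X n) (b : Fin n) :
    ∑ a, (pd a (fun y => tau u y a b) x - pd a W x * tau u x a b) = -x b := by
  have hu := h.v2.1
  have h1 : ∀ q, ∑ a, ∑ p, tau u x a p * hess (pd a u) x p q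
      = ∑ a, x a * hess u x a q - pd q W x := by
    intro q
    rw [← h.eq x q]
    refine Finset.sum_congr rfl fun a _ => Finset.sum_congr rfl fun p _ => ?_
    rw [hess_apply]
    exact congrArg _ (congrFun (pds_perm hu (l := [p, q, a]) (m := [q, a, p])
      (List.perm_append_comm (l₁ := [p]) (l₂ := [q, a]))) x)
  have h2 : hess u x * tau u x = 1 := mul_eq_one_comm.mp (h.tau_mul x)
  have h3 : ∑ q, (∑ a, x a * hess u x a q) * tau u x q b = x b := by
    simp only [Finset.sum_mul]
    rw [Finset.sum_comm]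
    simp only [mul_assoc, ← Finset.mul_sum, ← Matrix.mul_apply, h2]
    simp [Matrix.one_apply]
  simp only [pd_tau hu fun y => (h.det_pos y).ne', Matrix.mul_apply, Finset.sum_sub_distrib,
    Finset.sum_neg_distrib]
  rw [Finset.sum_comm]
  simp only [← Finset.sum_mul, h1, sub_mul, Finset.sum_sub_distrib, h3]
  ring

/-- The concrete setup attached to a moment potential. -/
noncomputable def KEPair.setup (h : KEPair W u) : Setup n (PGA n) where
  d := dA
  d_comm := fun i j f => Subtype.ext (pd_comm f.2.1 i j)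
  x := fun j => ⟨fun x => x j, PG.coord j⟩
  d_x := fun i j => ext_ev fun p => by
    rw [evA_apply, dA_apply, pd_coord]
    split_ifs <;> simp
  g := fun j => ⟨pd j W, h.pgW.pd j⟩
  g_symm := fun i j => Subtype.ext (pd_comm h.pgW.1 i j)
  h := Matrix.of fun i j => ⟨pd i (pd j u), (h.v2.pg.pd j).pd i⟩
  τ := Matrix.of fun i j => ⟨fun x => tau u x i j, h.pg_tau i j⟩
  h_symm := fun i j => Subtype.ext (pd_comm h.v2.1 i j)
  τ_symm := fun i j => Subtype.ext (funext fun x => (tau_isSymm h.v2.1 x).apply j i)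
  τ_mul := by
    ext1 i j
    refine ext_ev fun p => ?_
    have := congrFun (congrFun (h.tau_mul p) i) j
    rw [Matrix.mul_apply, Matrix.one_apply] at this ⊢
    rw [map_sum]
    refine Eq.trans this ?_
    split_ifs <;> simp
  codazzi := fun i j k => Subtype.ext (pd_comm (h.v2.1.pd k) i j)
  stein := fun b => ext_ev fun p => by
    rw [map_sum]
    exact h.stein p b
  E :=
    { toFun := fun f => ∫ x, f.1 x * Real.exp (-W x)
      map_add' := fun f g => by
        rw [← integral_add (PG.integrable f.2 h.pgW.1.cont h.coer)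
          (PG.integrable g.2 h.pgW.1.cont h.coer)]
        exact integral_congr_ae (Eventually.of_forall fun x => add_mul _ _ _)
      map_smul' := fun c f => by
        rw [RingHom.id_apply, smul_eq_mul, ← integral_const_mul]
        exact integral_congr_ae (Eventually.of_forall fun x => mul_assoc _ _ _) }
  ibp := fun a f => integral_pd_mul_exp h.pgW h.coer f.2 a
  ev := evA
  E_nonneg := fun f hf => integral_nonneg fun x => mul_nonneg (hf x) (Real.exp_pos _).le
  h_pos := fun p => by
    obtain ⟨c, hc, hl⟩ := h.lb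
    exact (hl p).posSemidef hc.le (hess_isSymm h.v2.1 p)

theorem KEPair.E_eq (h : KEPair W u) (f : PGA n) {F : X n → ℝ} (hF : ∀ x, evA x f = F x) :
    h.setup.E f = ∫ x, F x * Real.exp (-W x) :=
  integral_congr_ae (Eventually.of_forall fun x => congrArg (· * Real.exp (-W x)) (hF x))

theorem KEPair.ev_L (h : KEPair W u) (f : PGA n) (x : X n) :
    evA x (h.setup.L f) = Lop (tau u) f.1 x := by
  simp only [Setup.L, map_sub, map_sum (evA x), map_mul]
  rfl

theorem KEPair.ev_Γ (h : KEPair W u) (f g : PGA n) (x : X n) :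
    evA x (h.setup.Γ f g) = Gam (tau u) f.1 g.1 x := by
  simp only [Setup.Γ, map_sum (evA x), map_mul]
  rfl

theorem KEPair.ev_P (h : KEPair W u) (f : PGA n) (x : X n) (k b : Fin n) :
    evA x (h.setup.P f k b) = (tau u x * hess f.1 x) b k := by
  simp only [Setup.P, Setup.D, map_sum (evA x), map_mul, Matrix.mul_apply]
  rfl

theorem KEPair.integral_lop (h : KEPair W u) {f : X n → ℝ} (hf : PG f) :
    ∫ x, Lop (tau u) f x * Real.exp (-W x) = 0 := by
  rw [← h.E_eq _ (h.ev_L ⟨f, hf⟩)]
  exact h.setup.E_L _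

theorem KEPair.integral_mul_lop (h : KEPair W u) {f g : X n → ℝ} (hf : PG f) (hg : PG g) :
    ∫ x, f x * Lop (tau u) g x * Real.exp (-W x)
      = -∫ x, Gam (tau u) f g x * Real.exp (-W x) := by
  have := h.setup.E_mul_L ⟨f, hf⟩ ⟨g, hg⟩
  rwa [h.E_eq _ (h.ev_Γ _ _), h.E_eq (F := fun x => f x * Lop (tau u) g x) _ fun x => by
    rw [map_mul, h.ev_L]; rfl] at this

theorem KEPair.bochner2 (h : KEPair W u) {z : X n → ℝ} (hz : PG z) :
    ∫ x, Lop (tau u) z x ^ 2 * Real.exp (-W x)
      = (∫ x, (tau u x * hess z x * tau u x * hess z x).trace * Real.exp (-W x))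
        + ∫ x, Gam (tau u) z z x * Real.exp (-W x) := by
  have := h.setup.bochner2 ⟨z, hz⟩
  rwa [h.E_eq _ (h.ev_Γ _ _), h.E_eq (F := fun x => Lop (tau u) z x ^ 2) _ fun x => by
      rw [map_mul, h.ev_L, pow_two],
    h.E_eq (F := fun x => (tau u x * hess z x * tau u x * hess z x).trace) _ fun x => by
      rw [Matrix.mul_assoc (tau u x * hess z x), Matrix.trace]
      simp only [map_sum (evA x), map_mul, h.ev_P, Matrix.diag_apply]
      exact Finset.sum_congr rfl fun _ _ => (Matrix.mul_apply).symm] at this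

theorem KEPair.main (h : KEPair W u) {J : Type} [Fintype J] (a : J → X n) (δ : J → ℝ)
    {p m : J → X n → ℝ} (hpg : ∀ j, PG (p j)) (hmg : ∀ j, PG (m j))
    (hp : ∀ j k x, pd k (p j) x = m j x * a j k) (hm : ∀ j x, 0 ≤ m j x)
    (hW : ∀ k x, pd k W x = ∑ j, p j x * a j k) {w g : X n → ℝ} (hw : PG w)
    (hg : g = fun x => Lop (tau u) w x + w x) :
    2 * (∫ x, (∑ j, δ j * (p j x * dot (a j) x)) * Lop (tau u) g x * Real.exp (-W x))
        - ∫ x, Lop (tau u) g x ^ 2 * Real.exp (-W x)
      ≤ ∫ x, (∑ j, δ j ^ 2 * (m j x * dot (a j) x ^ 2 + p j x * dot (a j) x))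
          * Real.exp (-W x) := by
  have := h.setup.main a δ (fun j => ⟨p j, hpg j⟩) (fun j => ⟨m j, hmg j⟩)
    (fun j => ⟨dot (a j), PG.sum _ fun k _ => (PG.coord k).const_mul _⟩)
    (fun j => ext_ev fun x => by
      simp only [map_sum (evA x), map_smul]
      rfl)
    (fun j k => ext_ev fun x => by
      rw [map_smul, smul_eq_mul, mul_comm]
      exact hp j k x)
    hm
    (fun k => ext_ev fun x => by
      simp only [map_sum (evA x), map_smul, smul_eq_mul, mul_comm (a _ _)]
      exact hW k x) ⟨w, hw⟩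
  have hG : (h.setup.L ⟨w, hw⟩ + ⟨w, hw⟩ : PGA n).1 = g := by
    funext x
    rw [hg]
    exact congrArg (· + w x) (h.ev_L ⟨w, hw⟩ x)
  rwa [h.E_eq (F := fun x => (∑ j, δ j * (p j x * dot (a j) x)) * Lop (tau u) g x) _ fun x => by
      simp only [map_mul, h.ev_L, hG, map_sum (evA x), map_smul]
      rfl,
    h.E_eq (F := fun x => Lop (tau u) g x ^ 2) _ fun x => by
      rw [map_mul, h.ev_L, hG, pow_two],
    h.E_eq (F := fun x => ∑ j, δ j ^ 2 * (m j x * dot (a j) x ^ 2 + p j x * dot (a j) x)) _
      fun x => by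
        simp only [map_mul, map_add, map_pow, map_sum (evA x), map_smul]
        rfl] at this

end Vale.Agent.P227
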