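import Vale.Agent.P227.Global
import Vale.Agent.P227.PGRing

/-! Monotonicity of the Ding functional along the flow. -/

set_option linter.unusedSectionVars false
set_option linter.unusedVariables false

namespace Vale.Agent.P227

open scoped ContDiff
open MeasureTheory Set Filter Topology Matrix

variable {n : ℕ} {V : X n → ℝ}

theorem ding_coer (V : X n → ℝ) {c : ℝ} (hc : 0 < c) (M : ℝ) : ∃ K, ∀ u : X n → ℝ, Sm u →
    (∀ x, LB c (hess u x)) → (∀ x i j, |hess u x i j| ≤ M) →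
    ∀ x, c / 2 * nsq x - (K + u 0) ≤ V x - Nop V u x := by
  obtain ⟨K, hK⟩ := exists_abs_log_det_le n hc M
  refine ⟨K, fun u hu hl hM x => ?_⟩
  have h1 := (abs_le.1 (hK _ (hess_isSymm hu x) (hl x) (hM x))).2
  have h2 := legendre_le hu hl x
  simp only [Nop]
  linarith

theorem ding_entry {α : Type*} {u : α → X n → ℝ}
    (hb : ∀ l : List (Fin n), 2 ≤ l.length → ∃ C, ∀ a x, |pds l (u a) x| ≤ C) :
    ∃ M, ∀ a x i j, |hess (u a) x i j| ≤ M := by
  choose C hC using fun p : Fin n × Fin n => hb [p.1, p.2] le_rfl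
  refine ⟨∑ p, |C p|, fun a x i j => ((hC (i, j) a x).trans (le_abs_self _)).trans ?_⟩
  exact Finset.single_le_sum (f := fun p => |C p|) (fun _ _ => abs_nonneg _) (Finset.mem_univ _)

/-- Any uniformly convex `u` is a moment potential for its own weight. -/
theorem kePair_self (hV : PG V) {u : X n → ℝ} (hu : V2 u) (hl : ∃ c > 0, ∀ x, LB c (hess u x)) :
    KEPair (fun x => V x - Nop V u x) u := by
  obtain ⟨c, hc, hl⟩ := hl
  have hb : ∀ l : List (Fin n), 2 ≤ l.length → ∃ C, ∀ (_ : Unit) x, |pds l u x| ≤ C :=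
    fun l h => (hu.2 l h).imp fun C hC _ => hC
  have hd : ∀ y, 0 < (hess u y).det := fun y => (hl y).det_pos hc (hess_isSymm hu.1 y)
  have hN : PG (Nop V u) := (pgf_nop (u := fun _ : Unit => u) hc hV hu.pg.pgf hb fun _ => hl).pg ()
  obtain ⟨M, hM⟩ := ding_entry (u := fun _ : Unit => u) hb
  obtain ⟨K, hK⟩ := ding_coer V hc M
  refine ⟨hV.sub hN, ⟨c / 2, by positivity, _, hK u hu.1 hl (hM ())⟩, hu, ⟨c, hc, hl⟩,
    fun x k => ?_⟩
  rw [pd_sub (hV.1.diff x) (hN.1.diff x), pd_nop hV.1 hu.1 hd]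
  ring

theorem ding_deriv (hV : Pot V) {T : ℝ} {u : ℝ → X n → ℝ} (hu : NSol V T u) :
    ContinuousOn (fun t => ∫ x, Real.exp (-(V x - Nop V (u t) x))) (Icc 0 T) ∧
      ∀ t ∈ Ioo 0 T, HasDerivAt (fun t => ∫ x, Real.exp (-(V x - Nop V (u t) x)))
        (∫ x, Nop V (u t) x * Real.exp (-(V x - Nop V (u t) x))) t := by
  obtain ⟨c, hc, hl⟩ := hu.pos
  obtain ⟨M, hM⟩ := ding_entry hu.sol.bdd
  obtain ⟨K, hK⟩ := ding_coer V hc M
  obtain ⟨C₀, hC₀⟩ := hu.sol.bdd0
  have hN : PGF fun t => Nop V (u t) := pgf_nop hc hV.v2.pg hu.sol.pgf hu.sol.bdd hl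
  have hτ : ∀ i j, PGF fun t x => tau (u t) x i j := fun i j =>
    (ds_tau hc hu.sol.jc.1 hu.sol.bdd hl i j).toQp
  have jN : JC fun t => Nop V (u t) := JC.nop hV.v2.1 hu.sol.jc hu.det_pos
  have jL := (JC.lop (hu.sol.jc.tau fun t x => (hu.det_pos t x).ne') jN).add jN
  obtain ⟨C, N, hC⟩ := ((PGF.lop hτ hN).add hN).2 []
  have h0 : ∀ t x, c / 2 * nsq x - (K + C₀) ≤ V x - Nop V (u t) x := fun t x => by
    linarith [hK _ (hu.sol.jc.1 t) (hl t) (hM t) x, (abs_le.1 (hC₀ t)).2]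
  have hE : Continuous fun p : ℝ × X n => Real.exp (-(V p.2 - Nop V (u p.1) p.2)) :=
    Real.continuous_exp.comp ((hV.v2.1.cont.comp continuous_snd).sub jN.cont).neg
  have key := deriv_under_integral (T := T) (C := max C 1 * Real.exp (K + C₀)) (N := N)
    (f := fun t x => Real.exp (-(V x - Nop V (u t) x)))
    (f' := fun t x => (Lop (tau (u t)) (Nop V (u t)) x + Nop V (u t) x) *
      Real.exp (-(V x - Nop V (u t) x))) (half_pos hc) hE (jL.cont.mul hE)
    (fun t ht x => by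
      have := ((hu.deriv_nop hV.v2.1 ht x).const_sub (V x)).fun_neg.exp
      rwa [neg_neg, mul_comm] at this)
    (fun t _ x => by
      have h1 : (1 : ℝ) ≤ (1 + ‖x‖) ^ N := one_le_pow₀ (by linarith [norm_nonneg x])
      have := abs_mul_exp_le (y := 1) (D := max C 1) (r := (1 + ‖x‖) ^ N) (h0 t x)
        (by rw [abs_one]; nlinarith [le_max_right C 1])
      rwa [one_mul] at this)
    (fun t _ x => abs_mul_exp_le (h0 t x) ((hC t x).trans
      (mul_le_mul_of_nonneg_right (le_max_left _ _) (by positivity))))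
  refine ⟨key.1, fun t ht => ?_⟩
  have hK := kePair_self hV.v2.pg (hu.sol.v2 t) ⟨c, hc, hl t⟩
  have h1 := key.2 t ht
  simp only [add_mul] at h1
  rwa [integral_add ((PG.lop hK.pg_tau (hN.pg t)).integrable hK.pgW.1.cont hK.coer)
    ((hN.pg t).integrable hK.pgW.1.cont hK.coer), hK.integral_lop (hN.pg t), zero_add] at h1

theorem ding (hV : Pot V) : ∃ C, ∀ (T : ℝ) (u : ℝ → X n → ℝ), 0 < T → NSol V T u →
    u 0 = q0 n → ∃ t ∈ Icc 0 T, ∃ κ : ℝ,
      Integrable (fun x => (Nop V (u t) x - κ) * (Real.exp (Nop V (u t) x - κ) - 1)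
        * Real.exp (-V x)) ∧
      ∫ x, (Nop V (u t) x - κ) * (Real.exp (Nop V (u t) x - κ) - 1) * Real.exp (-V x)
        ≤ C / T := by
  obtain ⟨c, hc, M, hap⟩ := apriori hV
  obtain ⟨K, hK⟩ := ding_coer V hc (M 2)
  have hVc := hV.v2.1.cont
  have hZ := integral_exp_pos hVc hV.coer
  set Z := ∫ x, Real.exp (-V x) with hZe
  have hgc : Continuous fun x : X n => c / 2 * nsq x := sm_nsq.cont.const_mul _
  have hgo : ∃ c' > 0, ∃ C, ∀ x : X n, c' * nsq x - C ≤ c / 2 * nsq x :=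
    ⟨c / 2, half_pos hc, 0, fun x => by simp⟩
  have hG := integral_exp_pos hgc hgo
  have hGi := (PG.const (ι := Fin n) 1).integrable hgc hgo
  simp only [one_mul] at hGi
  set G := ∫ x : X n, Real.exp (-(c / 2 * nsq x))
  refine ⟨Z * (K + Real.log G - (Real.log (∫ x, Real.exp (-(V x - Nop V (q0 n) x))) -
    (∫ x, q0 n x * Real.exp (-V x)) / Z)), fun T u hT hu h0 => ?_⟩
  obtain ⟨c', hc', hl⟩ := hu.pos
  have hN : PGF fun t => Nop V (u t) := pgf_nop hc' hV.v2.pg hu.sol.pgf hu.sol.bdd hl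
  have jN : JC fun t => Nop V (u t) := JC.nop hV.v2.1 hu.sol.jc hu.det_pos
  have hKE := fun t => kePair_self hV.v2.pg (hu.sol.v2 t) ⟨c', hc', hl t⟩
  have hI := fun t => integral_exp_pos (hKE t).pgW.1.cont (hKE t).coer
  have hIi := fun t => (PG.const (ι := Fin n) 1).integrable (hKE t).pgW.1.cont (hKE t).coer
  have hZi := (PG.const (ι := Fin n) 1).integrable hVc hV.coer
  simp only [one_mul] at hIi hZi
  obtain ⟨a1, a2⟩ := ding_deriv hV hu
  obtain ⟨b1, b2⟩ := deriv_under_integral_exp hVc hV.coer hu.sol.jc jN hu.sol.pgf hN hu.sol.eq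
  obtain ⟨t, ht, e⟩ := exists_hasDerivAt_eq_slope _ _ hT
    ((a1.log fun t _ => (hI t).ne').sub (b1.div_const Z))
    fun t ht => ((a2 t ht).log (hI t).ne').sub ((b2 t ht).div_const Z)
  simp only [Pi.sub_apply, h0, sub_zero] at e
  obtain ⟨hl', hM⟩ := hap T u hu h0 T (right_mem_Icc.2 hT.le)
  have hT1 : Real.log (∫ x, Real.exp (-(V x - Nop V (u T) x))) ≤ K + u T 0 + Real.log G := by
    rw [← Real.log_exp (K + u T 0), ← Real.log_mul (Real.exp_pos _).ne' hG.ne']
    refine Real.log_le_log (hI T) ?_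
    rw [← integral_const_mul]
    refine integral_mono (hIi T) (hGi.const_mul _) fun x => ?_
    simp only
    rw [← Real.exp_add, Real.exp_le_exp]
    linarith [hK _ (hu.sol.jc.1 T) hl' (fun x i j => hM [i, j] le_rfl x) x]
  have hT2 : u T 0 ≤ (∫ x, u T x * Real.exp (-V x)) / Z := by
    rw [le_div_iff₀ hZ, ← integral_const_mul]
    refine integral_mono (hZi.const_mul _) ((hu.sol.pgf.pg T).integrable hVc hV.coer) fun x => ?_
    have := ge_of_lb (hu.sol.jc.1 T) (hu.sol.ev T) hl' x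
    have h2 := mul_nonneg (half_pos hc).le (nsq_nonneg x)
    exact mul_le_mul_of_nonneg_right (by linarith) (Real.exp_pos _).le
  set I := ∫ x, Real.exp (-(V x - Nop V (u t) x)) with hIe
  have i1 := (hN.pg t).integrable (hKE t).pgW.1.cont (hKE t).coer
  have i2 := (hN.pg t).integrable hVc hV.coer
  have hI0 : 0 < I := hI t
  have e2 : (fun x => (Nop V (u t) x - Real.log (I / Z)) *
      (Real.exp (Nop V (u t) x - Real.log (I / Z)) - 1) * Real.exp (-V x)) = fun x =>
      (Z / I * (Nop V (u t) x * Real.exp (-(V x - Nop V (u t) x))) -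
        Real.log (I / Z) * (Z / I) * Real.exp (-(V x - Nop V (u t) x))) -
      (Nop V (u t) x * Real.exp (-V x) - Real.log (I / Z) * Real.exp (-V x)) := by
    ext x
    rw [Real.exp_sub, Real.exp_log (div_pos hI0 hZ), neg_sub, sub_eq_add_neg _ (V x), Real.exp_add]
    field_simp
  have j1 := (i1.const_mul (Z / I)).sub' ((hIi t).const_mul (Real.log (I / Z) * (Z / I)))
  have j2 := i2.sub' (hZi.const_mul (Real.log (I / Z)))
  refine ⟨t, Ioo_subset_Icc_self ht, Real.log (I / Z), e2 ▸ j1.sub j2, ?_⟩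
  rw [e2, integral_sub j1 j2, integral_sub (i1.const_mul _) ((hIi t).const_mul _),
    integral_sub i2 (hZi.const_mul _)]
  simp only [integral_const_mul, ← hIe, ← hZe]
  calc _ = Z * ((∫ x, Nop V (u t) x * Real.exp (-(V x - Nop V (u t) x))) / I -
        (∫ x, Nop V (u t) x * Real.exp (-V x)) / Z) := by
        field_simp
        ring
    _ ≤ _ := by
        rw [e, mul_div_assoc]
        gcongr
        linarith

end Vale.Agent.P227
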