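import Vale.Agent.P227.Weight
import Vale.Agent.P227.Mat

/-! One step energy inequality for a linear explicit scheme. -/

set_option linter.unusedSectionVars false
set_option linter.unusedVariables false

namespace Vale.Agent.P227

open scoped ContDiff
open MeasureTheory Set Filter Topology Matrix

theorem cross_term {n : ℕ} {z : X n} {h K M ε : ℝ} {a y g : X n → ℝ} (hh : 0 < h) (hh1 : h ≤ 1)
    (hε : 0 < ε) (ha : BC a) (hy : BC y) (hg : BC g) (hM : ∀ x, |a x| ≤ M) (i : Fin n)
    (hK : ∀ x, |a x - a (x - h • Pi.single i 1)| ≤ K * h) :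
    ∫ x, wt z x * (a x * y x * dp h i g x)
      ≤ -(∫ x, wt z x * (a x * dm h i y x * g x)) + ε * wn z g
        + 3 * ((K + 3 * M) ^ 2 / (4 * ε)) * wn z y := by
  have e0 : ∀ x : X n, x - h • Pi.single i 1 = x + (-h) • (Pi.single i 1 : X n) := fun x => by
    rw [neg_smul, sub_eq_add_neg]
  have hs : |(-h)| ≤ 1 := by rwa [abs_neg, abs_of_pos hh]
  have h1 := sum_by_parts (ha.mul hy) hg z h i
  have hys : BC fun x => y (x + (-h) • (Pi.single i 1 : X n)) := hy.translate _
  have h2 := wn_shift hy z i hs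
  have i1 : Integrable fun x => wt z x * (a x * dm h i y x * g x) :=
    ((ha.mul (hy.dm h i)).mul hg).integrable_wt z
  have i2 := hg.integrable_wn z
  have i3 := hys.integrable_wn z
  have i0 : Integrable fun x => dm h i (fun x => wt z x * (a x * y x)) x * g x := by
    obtain ⟨C, hC⟩ := hg.2
    have j1 := (ha.mul hy).integrable_wt z
    refine Integrable.mul_bdd (c := C) ?_ hg.1.aestronglyMeasurable (Eventually.of_forall hC)
    exact (j1.sub (j1.comp_sub_right _)).div_const h
  have hp : ∀ x, -(dm h i (fun x => wt z x * (a x * y x)) x * g x)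
      ≤ -(wt z x * (a x * dm h i y x * g x)) + ε * (wt z x * g x ^ 2)
        + (K + 3 * M) ^ 2 / (4 * ε) * (wt z x * y (x + (-h) • (Pi.single i 1 : X n)) ^ 2) := by
    intro x
    have hw := wt_pos z x
    have l1 := wt_lip z x i hs
    have l2 := hK x
    have l3 := hM (x - h • Pi.single i 1)
    rw [abs_neg, abs_of_pos hh] at l1
    simp only [dm]
    rw [e0] at l2 l3 ⊢
    set w' := wt z (x + (-h) • (Pi.single i 1 : X n))
    set a' := a (x + (-h) • (Pi.single i 1 : X n))
    set y' := y (x + (-h) • (Pi.single i 1 : X n))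
    set e := (wt z x * a x - w' * a') / h with he
    have he1 : |e| ≤ (K + 3 * M) * wt z x := by
      rw [he, abs_div, abs_of_pos hh, div_le_iff₀ hh]
      calc |wt z x * a x - w' * a'| = |wt z x * (a x - a') - (w' - wt z x) * a'| := by ring_nf
        _ ≤ |wt z x * (a x - a')| + |(w' - wt z x) * a'| := abs_sub _ _
        _ ≤ wt z x * (K * h) + 3 * h * wt z x * M := by
          rw [abs_mul, abs_mul, abs_of_pos hw]
          exact add_le_add (mul_le_mul_of_nonneg_left l2 hw.le)
            (mul_le_mul l1 l3 (abs_nonneg _) (by positivity))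
        _ = _ := by ring
    have e1 : -((wt z x * (a x * y x) - w' * (a' * y')) / h * g x)
        = -(wt z x * (a x * ((y x - y') / h) * g x)) - e * y' * g x := by
      rw [he]
      ring
    have e2 : -(e * y' * g x) ≤ wt z x * (((K + 3 * M) * |y'|) * |g x|) := by
      calc -(e * y' * g x) ≤ |e * y' * g x| := neg_le_abs _
        _ = |e| * (|y'| * |g x|) := by rw [abs_mul, abs_mul, mul_assoc]
        _ ≤ (K + 3 * M) * wt z x * (|y'| * |g x|) :=
          mul_le_mul_of_nonneg_right he1 (by positivity)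
        _ = _ := by ring
    have e3 : ((K + 3 * M) * |y'|) * |g x|
        ≤ ε * g x ^ 2 + (K + 3 * M) ^ 2 / (4 * ε) * y' ^ 2 := by
      have : 0 ≤ (2 * ε * |g x| - (K + 3 * M) * |y'|) ^ 2 / (4 * ε) := by positivity
      rw [← sq_abs (g x), ← sq_abs y']
      have e4 : (2 * ε * |g x| - (K + 3 * M) * |y'|) ^ 2 / (4 * ε)
          = ε * |g x| ^ 2 + (K + 3 * M) ^ 2 / (4 * ε) * |y'| ^ 2
            - ((K + 3 * M) * |y'|) * |g x| := by
        field_simp
        ring
      linarith
    have e5 := mul_le_mul_of_nonneg_left e3 hw.le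
    rw [e1]
    linarith
  have h3 := integral_mono i0.neg ((i1.neg.add (i2.const_mul ε)).add (i3.const_mul _)) hp
  rw [integral_add' (i1.neg.add (i2.const_mul ε)) (i3.const_mul _),
    integral_add' i1.neg (i2.const_mul ε)] at h3
  simp only [Pi.neg_apply, integral_neg, integral_const_mul] at h3
  have h4 : ∫ x, wt z x * (a x * y x * dp h i g x) = ∫ x, wt z x * (a x * y x) * dp h i g x :=
    integral_congr_ae (Eventually.of_forall fun x => by simp only; ring)
  have h5 := mul_le_mul_of_nonneg_left h2 (by positivity : 0 ≤ (K + 3 * M) ^ 2 / (4 * ε))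
  rw [h4, h1]
  simp only [wn] at h5 ⊢
  linarith

theorem cross_sum {n : ℕ} {z : X n} {h K M lam : ℝ} {a : X n → Mat n} {y : X n → ℝ}
    (hh : 0 < h) (hh1 : h ≤ 1) (hlam : 0 < lam) (ha : ∀ i j, BC fun x => a x i j) (hy : BC y)
    (hM : ∀ x i j, |a x i j| ≤ M)
    (hK : ∀ x k i j, |a x i j - a (x - h • Pi.single k 1) i j| ≤ K * h)
    (hl : ∀ x, LB lam (a x)) :
    ∫ x, wt z x * (y x * ∑ i, ∑ j, a x i j * dp h i (dm h j y) x)
      ≤ -(3 / 4 * lam) * ∑ j, wn z (dm h j y)
        + n ^ 2 * (3 * ((K + 3 * M) ^ 2 / (4 * (lam / (4 * (n + 1)))))) * wn z y := by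
  set ε := lam / (4 * (n + 1)) with hε
  have hε0 : 0 < ε := by positivity
  have i1 : ∀ i j, Integrable fun x => wt z x * (a x i j * y x * dp h i (dm h j y) x) :=
    fun i j => (((ha i j).mul hy).mul ((hy.dm h j).dp h i)).integrable_wt z
  have i2 : ∀ i j, Integrable fun x => wt z x * (a x i j * dm h i y x * dm h j y x) :=
    fun i j => (((ha i j).mul (hy.dm h i)).mul (hy.dm h j)).integrable_wt z
  have e1 : ∫ x, wt z x * (y x * ∑ i, ∑ j, a x i j * dp h i (dm h j y) x)
      = ∑ i, ∑ j, ∫ x, wt z x * (a x i j * y x * dp h i (dm h j y) x) := by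
    rw [← Finset.sum_congr rfl fun i _ => integral_finsetSum _ fun j _ => i1 i j,
      ← integral_finsetSum _ fun i _ => integrable_finsetSum _ fun j _ => i1 i j]
    refine integral_congr_ae (Eventually.of_forall fun x => ?_)
    simp only [Finset.mul_sum]
    exact Finset.sum_congr rfl fun _ _ => Finset.sum_congr rfl fun _ _ => by ring
  have e2 : lam * ∑ j, wn z (dm h j y)
      ≤ ∑ i, ∑ j, ∫ x, wt z x * (a x i j * dm h i y x * dm h j y x) := by
    rw [← Finset.sum_congr rfl fun i _ => integral_finsetSum _ fun j _ => i2 i j,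
      ← integral_finsetSum _ fun i _ => integrable_finsetSum _ fun j _ => i2 i j]
    simp only [wn]
    rw [← integral_finsetSum _ fun j _ => (hy.dm h j).integrable_wn z, ← integral_const_mul]
    refine integral_mono ((integrable_finsetSum _ fun j _ =>
      (hy.dm h j).integrable_wn z).const_mul _)
      (integrable_finsetSum _ fun i _ => integrable_finsetSum _ fun j _ => i2 i j) fun x => ?_
    have := mul_le_mul_of_nonneg_left (hl x fun j => dm h j y x) (wt_pos z x).le
    simp only [nsq, qf, Finset.mul_sum] at this ⊢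
    refine le_trans (le_of_eq ?_) this
    exact Finset.sum_congr rfl fun _ _ => by ring
  have e3 := Finset.sum_le_sum fun i (_ : i ∈ Finset.univ) =>
    Finset.sum_le_sum fun j (_ : j ∈ Finset.univ) =>
      cross_term (z := z) hh hh1 hε0 (ha i j) hy (hy.dm h j) (fun x => hM x i j) i
        fun x => hK x i i j
  simp only [Finset.sum_add_distrib, Finset.sum_neg_distrib, Finset.sum_const, Finset.card_univ,
    Fintype.card_fin, nsmul_eq_mul, ← Finset.mul_sum] at e3
  have hD : 0 ≤ ∑ j, wn z (dm h j y) := Finset.sum_nonneg fun _ _ => wn_nonneg _ _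
  have e4 : (n : ℝ) * ε ≤ lam / 4 := by
    rw [hε, ← mul_div_assoc, div_le_div_iff₀ (by positivity) (by positivity)]
    nlinarith
  have e5 := mul_le_mul_of_nonneg_right e4 hD
  rw [e1]
  linarith

theorem wn_principal {n : ℕ} {z : X n} {h M : ℝ} {a : X n → Mat n} {y : X n → ℝ}
    (hh : 0 < h) (hh1 : h ≤ 1) (ha : ∀ i j, BC fun x => a x i j) (hy : BC y)
    (hM : ∀ x i j, |a x i j| ≤ M) :
    h ^ 2 * wn z (fun x => ∑ i, ∑ j, a x i j * dp h i (dm h j y) x)
      ≤ 8 * n ^ 3 * M ^ 2 * ∑ j, wn z (dm h j y) := by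
  have b1 : ∀ i j, BC fun x => a x i j * dp h i (dm h j y) x :=
    fun i j => (ha i j).mul ((hy.dm h j).dp h i)
  have e1 : ∀ i j, h ^ 2 * wn z (fun x => a x i j * dp h i (dm h j y) x)
      ≤ M ^ 2 * (8 * wn z (dm h j y)) := by
    intro i j
    have h1 := wn_mono (b1 i j) (((hy.dm h j).dp h i).const_mul M) (fun x => by
      rw [abs_mul, abs_mul]
      exact mul_le_mul_of_nonneg_right ((hM x i j).trans (le_abs_self M)) (abs_nonneg _)) z
    rw [wn_const_mul] at h1
    have h2 := wn_dp_le' (hy.dm h j) hh hh1 z i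
    linarith [mul_le_mul_of_nonneg_left h1 (sq_nonneg h),
      mul_le_mul_of_nonneg_left h2 (sq_nonneg M)]
  have e2 := wn_sum_le Finset.univ (fun i _ => BC.sum Finset.univ fun j _ => b1 i j) z
  have e3 : ∀ i, h ^ 2 * wn z (fun x => ∑ j, a x i j * dp h i (dm h j y) x)
      ≤ n * (M ^ 2 * (8 * ∑ j, wn z (dm h j y))) := by
    intro i
    have h1 := wn_sum_le Finset.univ (fun j _ => b1 i j) z
    have h2 := Finset.sum_le_sum fun j (_ : j ∈ Finset.univ) => e1 i j
    simp only [← Finset.mul_sum, Finset.card_univ, Fintype.card_fin] at h1 h2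
    calc _ ≤ h ^ 2 * (n * ∑ j, wn z fun x => a x i j * dp h i (dm h j y) x) :=
          mul_le_mul_of_nonneg_left h1 (sq_nonneg h)
      _ = n * (h ^ 2 * ∑ j, wn z fun x => a x i j * dp h i (dm h j y) x) := by ring
      _ ≤ _ := mul_le_mul_of_nonneg_left h2 (Nat.cast_nonneg n)
  have e4 := Finset.sum_le_sum fun i (_ : i ∈ Finset.univ) => e3 i
  simp only [← Finset.mul_sum, Finset.card_univ, Fintype.card_fin, Finset.sum_const,
    nsmul_eq_mul] at e2 e4
  calc _ ≤ h ^ 2 * (n * ∑ i, wn z fun x => ∑ j, a x i j * dp h i (dm h j y) x) :=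
        mul_le_mul_of_nonneg_left e2 (sq_nonneg h)
    _ = n * (h ^ 2 * ∑ i, wn z fun x => ∑ j, a x i j * dp h i (dm h j y) x) := by ring
    _ ≤ n * (n * (M ^ 2 * (8 * (n * ∑ j, wn z (dm h j y))))) :=
        mul_le_mul_of_nonneg_left e4 (Nat.cast_nonneg n)
    _ = _ := by ring

theorem energy_lin (n : ℕ) (M : ℝ) {lam : ℝ} (hlam : 0 < lam) :
    ∃ θ > 0, ∀ (M' η : ℝ), 0 < η → ∃ C, 0 ≤ C ∧
      ∀ (z : X n) (h dt : ℝ) (a : X n → Mat n) (y R : X n → ℝ),
        0 < h → h ≤ 1 → 0 ≤ dt → dt ≤ θ * h ^ 2 → BC y → BC R →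
        (∀ i j, Continuous fun x => a x i j) → (∀ x i j, |a x i j| ≤ M) →
        (∀ x k i j, |a x i j - a (x - h • Pi.single k 1) i j| ≤ M' * h) →
        (∀ x, LB lam (a x)) →
        wn z (fun x => y x + dt * (∑ i, ∑ j, a x i j * dp h i (dm h j y) x + R x))
          ≤ wn z y - dt * lam * ∑ j, wn z (dm h j y)
            + dt * (C * wn z y + (η + 2 * dt) * wn z R) := by
  refine ⟨lam / (32 * (M ^ 2 + 1) * (n + 1) ^ 3), by positivity, fun M' η hη => ?_⟩
  refine ⟨2 * (n ^ 2 * (3 * ((M' + 3 * M) ^ 2 / (4 * (lam / (4 * (n + 1))))))) + η⁻¹,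
    by positivity, ?_⟩
  intro z h dt a y R hh hh1 hdt hθ hy hR hac hM hK hl
  have ha : ∀ i j, BC fun x => a x i j := fun i j => ⟨hac i j, M, fun x => hM x i j⟩
  have h1 := cross_sum (z := z) hh hh1 hlam ha hy hM hK hl
  have h2 := wn_principal (z := z) hh hh1 ha hy hM
  set S : X n → ℝ := fun x => ∑ i, ∑ j, a x i j * dp h i (dm h j y) x with hS
  have hSb : BC S := BC.sum _ fun i _ => BC.sum _ fun j _ => (ha i j).mul ((hy.dm h j).dp h i)
  set D := ∑ j, wn z (dm h j y)
  have hD : 0 ≤ D := Finset.sum_nonneg fun _ _ => wn_nonneg _ _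
  have i1 := hy.integrable_wn z
  have i2 := (hy.mul hSb).integrable_wt z
  have i3 := hSb.integrable_wn z
  have i4 := hR.integrable_wn z
  have hp : ∀ x, wt z x * (y x + dt * (S x + R x)) ^ 2
      ≤ (1 + dt * η⁻¹) * (wt z x * y x ^ 2) + 2 * dt * (wt z x * (y x * S x))
        + 2 * dt ^ 2 * (wt z x * S x ^ 2) + dt * (η + 2 * dt) * (wt z x * R x ^ 2) := by
    intro x
    have e1 : 2 * (y x * R x) ≤ η⁻¹ * y x ^ 2 + η * R x ^ 2 := by
      have : 0 ≤ η⁻¹ * (y x - η * R x) ^ 2 := by positivity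
      have e : η⁻¹ * (y x - η * R x) ^ 2 = η⁻¹ * y x ^ 2 + η * R x ^ 2 - 2 * (y x * R x) := by
        field_simp
        ring
      linarith
    have e2 := mul_le_mul_of_nonneg_left e1 hdt
    have e3 : 0 ≤ dt ^ 2 * (S x - R x) ^ 2 := by positivity
    have e4 : (y x + dt * (S x + R x)) ^ 2 ≤ (1 + dt * η⁻¹) * y x ^ 2 + 2 * dt * (y x * S x)
        + 2 * dt ^ 2 * S x ^ 2 + dt * (η + 2 * dt) * R x ^ 2 := by linarith
    linarith [mul_le_mul_of_nonneg_left e4 (wt_pos z x).le]
  have h3 := integral_mono ((hy.add ((hSb.add hR).const_mul dt)).integrable_wn z)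
    ((((i1.const_mul _).add (i2.const_mul _)).add (i3.const_mul _)).add (i4.const_mul _)) hp
  rw [integral_add' (((i1.const_mul _).add (i2.const_mul _)).add (i3.const_mul _))
    (i4.const_mul _), integral_add' ((i1.const_mul _).add (i2.const_mul _)) (i3.const_mul _),
    integral_add' (i1.const_mul _) (i2.const_mul _)] at h3
  simp only [integral_const_mul] at h3
  have h4 : 2 * dt ^ 2 * wn z S ≤ dt * (lam / 2 * D) := by
    have g1 : dt * wn z S ≤ lam / (32 * (M ^ 2 + 1) * (n + 1) ^ 3) * (h ^ 2 * wn z S) := by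
      rw [← mul_assoc]
      exact mul_le_mul_of_nonneg_right hθ (wn_nonneg _ _)
    have g2 : lam / (32 * (M ^ 2 + 1) * (n + 1) ^ 3) * (8 * n ^ 3 * M ^ 2) ≤ lam / 4 := by
      rw [div_mul_eq_mul_div, div_le_div_iff₀ (by positivity) (by positivity)]
      have : (n : ℝ) ^ 3 * M ^ 2 ≤ (n + 1) ^ 3 * (M ^ 2 + 1) := by
        gcongr <;> linarith
      nlinarith
    have g3 := mul_le_mul_of_nonneg_left h2
      (by positivity : 0 ≤ lam / (32 * (M ^ 2 + 1) * (n + 1) ^ 3))
    have g4 := mul_le_mul_of_nonneg_right g2 hD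
    have g5 : dt * wn z S ≤ lam / 4 * D := by linarith
    linarith [mul_le_mul_of_nonneg_left g5 hdt]
  have h5 := mul_le_mul_of_nonneg_left h1 (by positivity : 0 ≤ 2 * dt)
  simp only [wn] at h4 h5 ⊢
  linarith

end Vale.Agent.P227
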