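import Vale.Agent.P227.FD

/-! Pointwise Moser type bound for the remainder of the differentiated scheme. -/

set_option linter.unusedSectionVars false
set_option linter.unusedVariables false

namespace Vale.Agent.P227

open scoped ContDiff
open MeasureTheory Set Filter Topology Matrix

theorem rem_bound_fam {α : Type*} {n m K : ℕ} {M A : ℝ} (hm : 3 ≤ m) (hK : 2 ≤ K)
    (hKm : K + 3 ≤ 2 * m) {Φ : α → (JI n → ℝ) → ℝ} {v : α → X n → ℝ} {h : α → ℝ}
    (hh : ∀ a, 0 < h a) (hΦ : ∀ a, Sm (Φ a)) (hv : ∀ a, Sm (v a))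
    (hM : ∀ a (l : List (JI n)), l.length ≤ K + 1 → ∀ y, |pds l (Φ a) y| ≤ M)
    (hA : ∀ a (l : List (Fin n)), l.length ≤ m → ∀ x, |pds l (v a) x| ≤ A) :
    (∀ k i j, ∃ C, ∀ a x,
      |pd k (fun y => symb (Φ a) (jet y (fdh (h a) (v a) y)) i j) x| ≤ C) ∧
    ∀ l : List (Fin n), l.length ≤ K → ∃ C, ∀ a x,
      |pds l (fun y => Φ a (jet y (fdh (h a) (v a) y))) x - ∑ i, ∑ j,
        symb (Φ a) (jet x (fdh (h a) (v a) x)) i j * dp (h a) i (dm (h a) j (pds l (v a))) x|
      ≤ C * (1 + ∑ l' ∈ words (Fin n) (K - 1), ∑ i, ∑ j,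
        |dp (h a) i (dm (h a) j (pds l' (v a))) x|) := by
  obtain ⟨W, hW⟩ : ∃ W : α → X n → ℝ, ∀ a x, W a x = 1 + ∑ l' ∈ words (Fin n) (K - 1), ∑ i, ∑ j,
      |dp (h a) i (dm (h a) j (pds l' (v a))) x| := ⟨_, fun _ _ => rfl⟩
  simp only [← hW]
  have hW1 : ∀ a x, 1 ≤ W a x := fun a x => by
    rw [hW]
    exact le_add_of_nonneg_right (by positivity)
  obtain ⟨G, hGK, hGQ⟩ : ∃ G : Grading α (Fin n), G.K = K + 1 ∧ ∀ r f, f ∈ G.Q r ↔
      ∃ C, ∀ a x, |f a x| ≤ C * (if r ≤ m then 1 else W a x) := by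
    refine ⟨Grading.ofWeight (K + 1) (fun r a x => if r ≤ m then 1 else W a x)
      (fun r a x => ?_) (fun r s hrs a x => ?_) fun r s R hr hs hrs hR a x => ?_, rfl,
      fun _ _ => Iff.rfl⟩
    · split_ifs
      exacts [le_rfl, hW1 a x]
    · split_ifs
      exacts [le_rfl, hW1 a x, by omega, le_rfl]
    · have := hW1 a x
      split_ifs <;> first | omega | linarith
  have hs : ∀ a i j, Sm fun x => fdh (h a) (v a) x i j := fun a i j => ((hv a).dm _ j).dp _ i
  have hr : ∀ i j, DQ G 2 fun a x => fdh (h a) (v a) x i j := fun i j => by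
    refine ⟨fun a => hs a i j, fun l hl => (hGQ _ _).2 ⟨max A 1, fun a x => ?_⟩⟩
    rw [pds_fdh (hv a)]
    split_ifs with h1
    · rw [mul_one]
      exact (abs_dp_dm_le ((hv a).pds l) (hh a)
        (hA a (i :: j :: l) (by simp; omega)) x).trans (le_max_left _ _)
    · refine le_trans ?_ (le_mul_of_one_le_left (zero_le_one.trans (hW1 a x)) (le_max_right _ _))
      rw [hW]
      refine le_add_of_nonneg_of_le zero_le_one (le_trans ?_ (Finset.single_le_sum
        (f := fun l' => ∑ i, ∑ j, |dp (h a) i (dm (h a) j (pds l' (v a))) x|)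
        (fun _ _ => by positivity) (mem_words.2 (show l.length ≤ K - 1 by omega))))
      refine le_trans ?_ (Finset.single_le_sum
        (f := fun i => ∑ j, |dp (h a) i (dm (h a) j (pds l (v a))) x|)
        (fun _ _ => by positivity) (Finset.mem_univ i))
      exact Finset.single_le_sum (f := fun j => |dp (h a) i (dm (h a) j (pds l (v a))) x|)
        (fun _ _ => abs_nonneg _) (Finset.mem_univ j)
  have hc : ∀ k, DQ G 2 fun a x => pd k (Φ a) (jet x (fdh (h a) (v a) x)) := fun k => by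
    refine DQ.comp (Φ := fun a => pd k (Φ a)) (Y := fun a x => jet x (fdh (h a) (v a) x))
      (fun a => (hΦ a).pd k) (fun a => sm_jet (hs a)) (fun i k => ?_) fun l hl => ?_
    · rcases k with k | k
      · have : (fun a : α => pd i fun x : X n => jet x (fdh (h a) (v a) x) (Sum.inl k)) =
            fun _ _ => if i = k then 1 else 0 := by
          funext a x
          exact pd_coord i k x
        rw [this]
        exact DQ.const _
      · exact (hr k.1 k.2).pd i
    · refine (hGQ _ _).2 ⟨M, fun a x => ?_⟩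
      rw [if_pos (by omega), mul_one, pds_pd (hΦ a)]
      exact hM a (k :: l) (by simp; omega) _
  have hfin : ∀ {r} {f : α → X n → ℝ}, f ∈ G.Q r → ∃ C, ∀ a x, |f a x| ≤ C * W a x := by
    intro r f hf
    obtain ⟨C, hC⟩ := (hGQ _ _).1 hf
    refine ⟨|C|, fun a x => (hC a x).trans ?_⟩
    have := hW1 a x
    split_ifs
    · nlinarith [le_abs_self C, abs_nonneg C]
    · nlinarith [le_abs_self C, abs_nonneg C]
  refine ⟨fun k i j => ?_, fun l hl => ?_⟩
  · obtain ⟨C, hC⟩ := (hGQ _ _).1 (((hc (Sum.inr (i, j))).pd k).mem (by omega))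
    exact ⟨C, fun a x => by simpa [hm] using hC a x⟩
  · rcases l with _ | ⟨k, l⟩
    · have h1 : (fun a x => Φ a (jet x (fdh (h a) (v a) x))) ∈ G.Q 2 :=
        (hGQ _ _).2 ⟨M, fun a x => by
          rw [if_pos (by omega), mul_one]
          exact hM a [] (by simp) _⟩
      exact hfin ((G.Q 2).sub_mem h1 ((DQ.sum Finset.univ fun i _ => DQ.sum Finset.univ fun j _ =>
        (hc (Sum.inr (i, j))).mul (hr i j) le_rfl le_rfl (by omega)).mem (by omega)))
    · rw [List.length_cons] at hl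
      have h1 := ((hc (Sum.inl k)).2 l (by omega))
      rw [add_comm] at h1
      obtain ⟨C, hC⟩ := hfin ((G.Q (l.length + 2)).add_mem h1
        ((G.Q _).sum_mem fun i (_ : i ∈ Finset.univ) => (G.Q _).sum_mem
          fun j (_ : j ∈ Finset.univ) =>
            (hc (Sum.inr (i, j))).comm ((hr i j).pd k) l (by omega)))
      refine ⟨C, fun a x => le_trans (le_of_eq ?_) (hC a x)⟩
      have h2 : ∀ i j, Sm fun y => pd (Sum.inr (i, j)) (Φ a) (jet y (fdh (h a) (v a) y)) *
          pd k (fun y => fdh (h a) (v a) y i j) y := fun i j =>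
        ((hc _).1 a).mul ((hs a i j).pd k)
      have h3 : ∀ i j, pds l (pd k fun y => fdh (h a) (v a) y i j) =
          dp (h a) i (dm (h a) j (pds (k :: l) (v a))) := fun i j => by
        rw [pds_pd (hs a i j), ← pds_cons, pds_fdh (hv a)]
      rw [pds_cons, ← pds_pd ((hΦ a).comp_pi (sm_jet (hs a))),
        funext (pd_comp_jet (hΦ a) (hs a) k)]
      simp only [symb_apply]
      rw [pds_add ((hc _).1 a) (ContDiff.sum fun i _ => ContDiff.sum fun j _ => h2 i j),
        pds_sum _ fun i _ => ContDiff.sum fun j _ => h2 i j]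
      simp only [pds_sum _ fun j _ => h2 _ j, Pi.add_apply, Finset.sum_apply,
        Finset.sum_sub_distrib, h3, add_sub_assoc]

/-- The Lipschitz bound for the symbol and the pointwise bound for the remainder. -/
theorem rem_bound (n m K : ℕ) (M A : ℝ) (hm : 3 ≤ m) (hK : 2 ≤ K) (hKm : K + 3 ≤ 2 * m) :
    ∃ C, 0 ≤ C ∧ ∀ (Φ : (JI n → ℝ) → ℝ) (v : X n → ℝ) (h : ℝ), 0 < h → Sm Φ → Sm v →
      (∀ l : List (JI n), l.length ≤ K + 1 → ∀ y, |pds l Φ y| ≤ M) →
      (∀ l : List (Fin n), l.length ≤ m → ∀ x, |pds l v x| ≤ A) →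
      (∀ k i j x, |pd k (fun y => symb Φ (jet y (fdh h v y)) i j) x| ≤ C) ∧
      ∀ l : List (Fin n), l.length ≤ K → ∀ x,
        |pds l (fun y => Φ (jet y (fdh h v y))) x
            - ∑ i, ∑ j, symb Φ (jet x (fdh h v x)) i j * dp h i (dm h j (pds l v)) x|
          ≤ C * (1 + ∑ l' ∈ words (Fin n) (K - 1), ∑ i, ∑ j,
              |dp h i (dm h j (pds l' v)) x|) := by
  obtain ⟨h1, h2⟩ := rem_bound_fam hm hK hKm
    (α := {p : ((JI n → ℝ) → ℝ) × (X n → ℝ) × ℝ // 0 < p.2.2 ∧ Sm p.1 ∧ Sm p.2.1 ∧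
      (∀ l : List (JI n), l.length ≤ K + 1 → ∀ y, |pds l p.1 y| ≤ M) ∧
      ∀ l : List (Fin n), l.length ≤ m → ∀ x, |pds l p.2.1 x| ≤ A})
    (Φ := fun a => a.1.1) (v := fun a => a.1.2.1) (h := fun a => a.1.2.2) (fun a => a.2.1)
    (fun a => a.2.2.1) (fun a => a.2.2.2.1) (fun a => a.2.2.2.2.1) fun a => a.2.2.2.2.2
  choose C1 hC1 using h1
  choose! C2 hC2 using h2
  have p1 : 0 ≤ ∑ p : Fin n × Fin n × Fin n, |C1 p.1 p.2.1 p.2.2| := by positivity
  have p2 : 0 ≤ ∑ l ∈ words (Fin n) K, |C2 l| := by positivity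
  refine ⟨_, add_nonneg p1 p2, fun Φ v h hh hΦ hv hM hA => ⟨fun k i j x => ?_, fun l hl x => ?_⟩⟩
  · refine ((hC1 k i j ⟨(Φ, v, h), hh, hΦ, hv, hM, hA⟩ x).trans (le_abs_self _)).trans
      (le_add_of_le_of_nonneg ?_ p2)
    exact Finset.single_le_sum (f := fun p : Fin n × Fin n × Fin n => |C1 p.1 p.2.1 p.2.2|)
      (fun _ _ => abs_nonneg _) (Finset.mem_univ (k, i, j))
  · refine (hC2 l hl ⟨(Φ, v, h), hh, hΦ, hv, hM, hA⟩ x).trans
      (mul_le_mul_of_nonneg_right ((le_abs_self _).trans (le_add_of_nonneg_of_le p1 ?_))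
        (by positivity))
    exact Finset.single_le_sum (f := fun l => |C2 l|) (fun _ _ => abs_nonneg _) (mem_words.2 hl)

end Vale.Agent.P227
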