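import Vale.Agent.P227.EnergyLin
import Vale.Agent.P227.EnergyRem

/-! One step energy inequality for the nonlinear scheme. -/

set_option linter.unusedSectionVars false
set_option linter.unusedVariables false

namespace Vale.Agent.P227

open scoped ContDiff
open MeasureTheory Set Filter Topology Matrix

/-- Weighted norm of the Moser majorant. -/
theorem wn_major {n K : ℕ} (hK : 1 ≤ K) {v : X n → ℝ} (hv : BS v) {h : ℝ} (hh : 0 < h)
    (hh1 : h ≤ 1) (z : X n) :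
    BC (fun x => 1 + ∑ l ∈ words (Fin n) (K - 1), ∑ i, ∑ j, |dp h i (dm h j (pds l v)) x|) ∧
    wn z (fun x => 1 + ∑ l ∈ words (Fin n) (K - 1), ∑ i, ∑ j, |dp h i (dm h j (pds l v)) x|) ≤
      (2 * Real.pi ^ n + 6 * ((words (Fin n) (K - 1)).card * n ^ 2) ^ 2) *
        (1 + ∑ l ∈ words (Fin n) K, ∑ j, wn z (dm h j (pds l v))) := by
  obtain ⟨D, hD⟩ : ∃ D, D = ∑ l ∈ words (Fin n) K, ∑ j, wn z (dm h j (pds l v)) := ⟨_, rfl⟩
  rw [← hD]
  have b1 : ∀ l i j, BC fun x => |dp h i (dm h j (pds l v)) x| := fun l i j =>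
    (((hv.pds l).bc.dm h j).dp h i).abs
  have b2 : ∀ l i, BC fun x => ∑ j, |dp h i (dm h j (pds l v)) x| := fun l i =>
    BC.sum _ fun j _ => b1 l i j
  have b3 : ∀ l, BC fun x => ∑ i, ∑ j, |dp h i (dm h j (pds l v)) x| := fun l =>
    BC.sum _ fun i _ => b2 l i
  have b4 : BC fun x => ∑ l ∈ words (Fin n) (K - 1), ∑ i, ∑ j, |dp h i (dm h j (pds l v)) x| :=
    BC.sum _ fun l _ => b3 l
  refine ⟨(BC.const 1).add b4, ?_⟩
  have p1 : ∀ l, 0 ≤ ∑ j, wn z (dm h j (pds l v)) := fun l =>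
    Finset.sum_nonneg fun _ _ => wn_nonneg _ _
  have hD0 : 0 ≤ D := hD ▸ Finset.sum_nonneg fun l _ => p1 l
  have c1 : ∀ l ∈ words (Fin n) (K - 1), ∀ i j,
      wn z (fun x => |dp h i (dm h j (pds l v)) x|) ≤ 3 * D := fun l hl i j => by
    rw [wn_abs]
    refine (wn_dp_le ((hv.pds l).dm h j) hh hh1 z i).trans (mul_le_mul_of_nonneg_left ?_ (by norm_num))
    have e : pd i (dm h j (pds l v)) = dm h j (pds (i :: l) v) := pds_dm (hv.1.pds l) h j [i]
    rw [e, hD]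
    refine le_trans ?_ (Finset.single_le_sum (f := fun l => ∑ j, wn z (dm h j (pds l v)))
      (fun l _ => p1 l) (mem_words.2 (show (i :: l).length ≤ K by
        have := mem_words.1 hl
        rw [List.length_cons]
        omega)))
    exact Finset.single_le_sum (f := fun j => wn z (dm h j (pds (i :: l) v)))
      (fun _ _ => wn_nonneg _ _) (Finset.mem_univ j)
  have c0 : ∀ {κ : Type} (s : Finset κ) {F : κ → X n → ℝ} {B : ℝ}, (∀ k ∈ s, BC (F k)) →
      (∀ k ∈ s, wn z (F k) ≤ B) → wn z (fun x => ∑ k ∈ s, F k x) ≤ s.card ^ 2 * B := by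
    intro κ s F B h1 h2
    refine (wn_sum_le s h1 z).trans ?_
    have := Finset.sum_le_card_nsmul s _ B h2
    rw [nsmul_eq_mul] at this
    rw [sq, mul_assoc]
    exact mul_le_mul_of_nonneg_left this (Nat.cast_nonneg _)
  have c2 := c0 _ (fun l _ => b3 l) fun l hl => c0 _ (fun i _ => b2 l i) fun i _ =>
    c0 _ (fun j _ => b1 l i j) fun j _ => c1 l hl i j
  have c3 := wn_add_le (BC.const 1) b4 z
  rw [wn_const] at c3
  rw [Finset.card_fin] at c2
  have p2 : 0 ≤ 2 * Real.pi ^ n * D := by positivity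
  have p3 : 0 ≤ 6 * ((words (Fin n) (K - 1)).card * n ^ 2 : ℝ) ^ 2 := by positivity
  nlinarith

theorem energy_step (n : ℕ) (M0 : ℝ) {lam : ℝ} (hlam : 0 < lam) :
    ∃ θ > 0, ∀ (m K : ℕ) (M A : ℝ), 3 ≤ m → 2 ≤ K → K + 3 ≤ 2 * m →
      ∃ C h0 : ℝ, 0 ≤ C ∧ 0 < h0 ∧
        ∀ (Φ : (JI n → ℝ) → ℝ) (v : X n → ℝ) (h dt : ℝ),
          0 < h → h ≤ h0 → 0 ≤ dt → dt ≤ θ * h ^ 2 → BS Φ → BS v →
          (∀ p y, |pd (Sum.inr p) Φ y| ≤ M0) →
          (∀ l : List (JI n), l.length ≤ K + 1 → ∀ y, |pds l Φ y| ≤ M) →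
          (∀ l : List (Fin n), l.length ≤ m → ∀ x, |pds l v x| ≤ A) →
          (∀ x, LB lam (symb Φ (jet x (fdh h v x)))) →
          ∀ z, En K z (step Φ h dt v) ≤ En K z v + dt * (C * (1 + En K z v)) := by
  obtain ⟨θ, hθ, hE⟩ := energy_lin n M0 hlam
  refine ⟨θ, hθ, fun m K M A hm hK hKm => ?_⟩
  obtain ⟨C0, hC0, hR⟩ := rem_bound n m K M A hm hK hKm
  obtain ⟨B, hB⟩ : ∃ B : ℝ, B = C0 ^ 2 *
      (2 * Real.pi ^ n + 6 * ((words (Fin n) (K - 1)).card * n ^ 2) ^ 2) := ⟨_, rfl⟩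
  have hB0 : 0 ≤ B := by rw [hB]; positivity
  obtain ⟨η, hη, hη'⟩ : ∃ η : ℝ, 0 < η ∧ (words (Fin n) K).card * (2 * η * B) ≤ lam := by
    refine ⟨lam / (2 * ((words (Fin n) K).card * B + 1)), by positivity, ?_⟩
    have : (words (Fin n) K).card * (2 * (lam / (2 * ((words (Fin n) K).card * B + 1))) * B) =
        lam * (((words (Fin n) K).card * B) / ((words (Fin n) K).card * B + 1)) := by
      field_simp
    rw [this]
    exact mul_le_of_le_one_right hlam.le ((div_le_one (by positivity)).2 (by linarith))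
  obtain ⟨C, hC, hE'⟩ := hE C0 η hη
  refine ⟨C + lam, min 1 (η / (2 * θ)), by positivity, by positivity,
    fun Φ v h dt hh hh0 hdt hdt' hΦ hv hM0 hM hA hL z => ?_⟩
  have hh1 : h ≤ 1 := hh0.trans (min_le_left _ _)
  have hdη : 2 * dt ≤ η := by
    have := (le_div_iff₀ (by positivity)).1 (hh0.trans (min_le_right _ _))
    nlinarith [mul_pos hθ hh]
  obtain ⟨hR1, hR2⟩ := hR Φ v h hh hΦ.1 hv.1 hM hA
  obtain ⟨hW1, hW2⟩ := wn_major (K := K) (by omega) hv hh hh1 z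
  obtain ⟨D, hD⟩ : ∃ D, D = ∑ l ∈ words (Fin n) K, ∑ j, wn z (dm h j (pds l v)) := ⟨_, rfl⟩
  have hD0 : 0 ≤ D :=
    hD ▸ Finset.sum_nonneg fun l _ => Finset.sum_nonneg fun _ _ => wn_nonneg _ _
  rw [← hD] at hW2
  have hr : ∀ i j, BS fun x => fdh h v x i j := fun i j => (hv.dm h j).dp h i
  have ha : ∀ i j, BS fun x => symb Φ (jet x (fdh h v x)) i j := fun i j =>
    bs_comp_jet (hΦ.pd _) hr
  have key : ∀ l ∈ words (Fin n) K, wn z (pds l (step Φ h dt v)) ≤
      wn z (pds l v) - dt * lam * ∑ j, wn z (dm h j (pds l v)) +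
        dt * (C * wn z (pds l v) + 2 * η * B * (1 + D)) := fun l hl => by
    have b1 : BC fun x => pds l (fun y => Φ (jet y (fdh h v y))) x - ∑ i, ∑ j,
        symb Φ (jet x (fdh h v x)) i j * dp h i (dm h j (pds l v)) x :=
      ((bs_comp_jet hΦ hr).pds l).bc.sub (BC.sum _ fun i _ => BC.sum _ fun j _ =>
        (ha i j).bc.mul (((hv.pds l).bc.dm h j).dp h i))
    have h1 := hE' z h dt (fun x => symb Φ (jet x (fdh h v x))) (pds l v) _ hh hh1 hdt hdt'
      (hv.pds l).bc b1 (fun i j => (ha i j).1.cont) (fun x i j => hM0 _ _) (fun x k i j => by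
        have := abs_sub_axis_le (ha i j).1.diff (hR1 k i j) x (-h)
        rwa [abs_neg, abs_of_pos hh, neg_smul, ← sub_eq_add_neg, abs_sub_comm] at this) hL
    simp only [add_sub_cancel] at h1
    rw [pds_step hΦ.1 hv.1]
    refine h1.trans (add_le_add_right (mul_le_mul_of_nonneg_left (add_le_add_right ?_ _) hdt) _)
    have h2 := wn_mono b1 (hW1.const_mul C0)
      (fun x => (hR2 l (mem_words.1 hl) x).trans (le_abs_self _)) z
    rw [wn_const_mul] at h2
    have h3 := h2.trans (mul_le_mul_of_nonneg_left hW2 (sq_nonneg C0))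
    rw [← mul_assoc, ← hB] at h3
    rw [mul_assoc (2 * η)]
    exact mul_le_mul (by linarith) h3 (wn_nonneg _ _) (by positivity)
  have h1 := Finset.sum_le_sum key
  have hE0 : 0 ≤ En K z v := Finset.sum_nonneg fun _ _ => wn_nonneg _ _
  simp only [Finset.sum_add_distrib, Finset.sum_sub_distrib, ← Finset.mul_sum, ← hD,
    Finset.sum_const, nsmul_eq_mul] at h1
  change En K z (step Φ h dt v) ≤ En K z v - dt * lam * D + dt * (C * En K z v + _) at h1
  have h2 := mul_le_mul_of_nonneg_left (mul_le_mul_of_nonneg_right hη' (by positivity : 0 ≤ 1 + D)) hdt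
  have h3 := mul_nonneg hdt hC
  have h4 := mul_nonneg (mul_nonneg hdt hlam.le) hE0
  nlinarith

end Vale.Agent.P227
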