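import Vale.Agent.P227.STDefs

/-! Difference quotients. -/

set_option linter.unusedSectionVars false
set_option linter.unusedVariables false

namespace Vale.Agent.P227

open scoped ContDiff
open MeasureTheory Set Filter Topology Matrix

variable {n : ℕ} {f g : X n → ℝ} {h : ℝ}

theorem BS.bc (hf : BS f) : BC f := ⟨hf.1.continuous, hf.2 []⟩
theorem BC.add (hf : BC f) (hg : BC g) : BC fun x => f x + g x := by
  obtain ⟨h1, C, hC⟩ := hf
  obtain ⟨h2, D, hD⟩ := hg
  exact ⟨h1.add h2, C + D, fun x => (abs_add_le _ _).trans (add_le_add (hC x) (hD x))⟩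
theorem BC.sub (hf : BC f) (hg : BC g) : BC fun x => f x - g x := by
  obtain ⟨h1, C, hC⟩ := hf
  obtain ⟨h2, D, hD⟩ := hg
  exact ⟨h1.sub h2, C + D, fun x => (abs_sub _ _).trans (add_le_add (hC x) (hD x))⟩
theorem BC.mul (hf : BC f) (hg : BC g) : BC fun x => f x * g x := by
  obtain ⟨h1, C, hC⟩ := hf
  obtain ⟨h2, D, hD⟩ := hg
  refine ⟨h1.mul h2, C * D, fun x => ?_⟩
  rw [abs_mul]
  exact mul_le_mul (hC x) (hD x) (abs_nonneg _) ((abs_nonneg _).trans (hC x))
theorem BC.const_mul (hf : BC f) (c : ℝ) : BC fun x => c * f x :=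
  BC.mul ⟨continuous_const, |c|, fun _ => le_rfl⟩ hf
theorem BC.const (c : ℝ) : BC fun _ : X n => c := ⟨continuous_const, |c|, fun _ => le_rfl⟩
theorem BC.abs (hf : BC f) : BC fun x => |f x| :=
  ⟨hf.1.abs, hf.2.imp fun _ hC x => by rw [abs_abs]; exact hC x⟩
theorem BC.sum {κ : Type*} (s : Finset κ) {F : κ → X n → ℝ} (hF : ∀ k ∈ s, BC (F k)) :
    BC fun x => ∑ k ∈ s, F k x := by
  classical
  induction s using Finset.induction_on with
  | empty => simpa using BC.const 0
  | insert a s ha ih =>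
    simp only [Finset.sum_insert ha]
    exact (hF a (Finset.mem_insert_self _ _)).add
      (ih fun k hk => hF k (Finset.mem_insert_of_mem hk))
theorem BC.translate (hf : BC f) (a : X n) : BC fun x => f (x + a) :=
  ⟨hf.1.comp (continuous_id.add continuous_const), hf.2.imp fun _ hC _ => hC _⟩

theorem dp_eq (h : ℝ) (i : Fin n) (f : X n → ℝ) :
    dp h i f = fun x => h⁻¹ * (f (x + h • Pi.single i 1) - f x) :=
  funext fun x => div_eq_inv_mul _ _

theorem dm_eq (h : ℝ) (i : Fin n) (f : X n → ℝ) :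
    dm h i f = fun x => h⁻¹ * (f x - f (x + -(h • Pi.single i 1))) :=
  funext fun x => by rw [dm, div_eq_inv_mul, sub_eq_add_neg x]

theorem dm_eq_dp (h : ℝ) (i : Fin n) (f : X n → ℝ) (x : X n) :
    dm h i f x = dp h i f (x - h • Pi.single i 1) := by
  simp only [dm, dp, sub_add_cancel]

theorem sm_translate (hf : Sm f) (a : X n) : Sm fun x => f (x + a) :=
  hf.comp (contDiff_id.add contDiff_const)

theorem BC.dp (hf : BC f) (h : ℝ) (i : Fin n) : BC (dp h i f) := by
  rw [dp_eq]; exact ((hf.translate _).sub hf).const_mul _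
theorem BC.dm (hf : BC f) (h : ℝ) (i : Fin n) : BC (dm h i f) := by
  rw [dm_eq]; exact (hf.sub (hf.translate _)).const_mul _

theorem Sm.dp (hf : Sm f) (h : ℝ) (i : Fin n) : Sm (dp h i f) := by
  rw [dp_eq]; exact contDiff_const.mul ((sm_translate hf _).sub hf)
theorem Sm.dm (hf : Sm f) (h : ℝ) (i : Fin n) : Sm (dm h i f) := by
  rw [dm_eq]; exact contDiff_const.mul (hf.sub (sm_translate hf _))
theorem BS.dp (hf : BS f) (h : ℝ) (i : Fin n) : BS (dp h i f) := by
  rw [dp_eq]; exact ((hf.translate _).sub hf).const_mul _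
theorem BS.dm (hf : BS f) (h : ℝ) (i : Fin n) : BS (dm h i f) := by
  rw [dm_eq]; exact (hf.sub (hf.translate _)).const_mul _

theorem pds_dp (hf : Sm f) (h : ℝ) (i : Fin n) (l : List (Fin n)) :
    pds l (dp h i f) = dp h i (pds l f) := by
  rw [dp_eq, dp_eq, pds_const_mul ((sm_translate hf _).sub hf), pds_sub (sm_translate hf _) hf,
    pds_translate]

theorem pds_dm (hf : Sm f) (h : ℝ) (i : Fin n) (l : List (Fin n)) :
    pds l (dm h i f) = dm h i (pds l f) := by
  rw [dm_eq, dm_eq, pds_const_mul (hf.sub (sm_translate hf _)), pds_sub hf (sm_translate hf _),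
    pds_translate]

theorem pds_fdh (hf : Sm f) (h : ℝ) (i j : Fin n) (l : List (Fin n)) :
    pds l (fun x => fdh h f x i j) = dp h i (dm h j (pds l f)) := by
  rw [← pds_dm hf, ← pds_dp (hf.dm h j)]
  rfl

theorem abs_dp_le (hf : Sm f) (hh : 0 < h) {i : Fin n} {C : ℝ} (hC : ∀ x, |pd i f x| ≤ C)
    (x : X n) : |dp h i f x| ≤ C := by
  have := abs_sub_axis_le hf.diff hC x h
  rw [dp, abs_div, abs_of_pos hh, div_le_iff₀ hh]
  rwa [abs_of_pos hh] at this

theorem abs_dm_le (hf : Sm f) (hh : 0 < h) {i : Fin n} {C : ℝ} (hC : ∀ x, |pd i f x| ≤ C)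
    (x : X n) : |dm h i f x| ≤ C := by
  rw [dm_eq_dp]
  exact abs_dp_le hf hh hC _

theorem abs_dp_dm_le (hf : Sm f) (hh : 0 < h) {i j : Fin n} {C : ℝ}
    (hC : ∀ x, |pd i (pd j f) x| ≤ C) (x : X n) : |dp h i (dm h j f) x| ≤ C := by
  refine abs_dp_le (hf.dm h j) hh (fun y => ?_) x
  have h1 := pds_dm hf h j [i]
  simp only [pds_cons, pds_nil] at h1
  rw [h1]
  refine abs_dm_le (hf.pd i) hh (fun z => ?_) y
  rw [pd_comm hf j i]
  exact hC z

theorem exists_dp_eq (hf : Sm f) (hh : 0 < h) (i : Fin n) (x : X n) :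
    ∃ s ∈ Ioo 0 h, dp h i f x = pd i f (x + s • Pi.single i 1) := by
  obtain ⟨s, hs, he⟩ := exists_hasDerivAt_eq_slope (fun r : ℝ => f (x + r • Pi.single i 1))
    (fun r => pd i f (x + r • Pi.single i 1)) hh
    (fun r _ => (hasDerivAt_axis (hf.diff _)).continuousAt.continuousWithinAt)
    (fun r _ => hasDerivAt_axis (hf.diff _))
  refine ⟨s, hs, ?_⟩
  rw [he, dp]
  simp

theorem abs_dp_sub_le (hf : Sm f) (hh : 0 < h) {i : Fin n} {C : ℝ}
    (hC : ∀ x, |pd i (pd i f) x| ≤ C) (x : X n) : |dp h i f x - pd i f x| ≤ C * h := by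
  obtain ⟨s, hs, he⟩ := exists_dp_eq hf hh i x
  rw [he]
  refine (abs_sub_axis_le (hf.pd i).diff hC x s).trans ?_
  rw [abs_of_pos hs.1]
  exact mul_le_mul_of_nonneg_left hs.2.le ((abs_nonneg _).trans (hC x))

theorem abs_dm_sub_le (hf : Sm f) (hh : 0 < h) {i : Fin n} {C : ℝ}
    (hC : ∀ x, |pd i (pd i f) x| ≤ C) (x : X n) : |dm h i f x - pd i f x| ≤ C * h := by
  obtain ⟨s, hs, he⟩ := exists_dp_eq hf hh i (x - h • Pi.single i 1)
  have h1 : x - h • (Pi.single i 1 : X n) + s • Pi.single i 1 = x + (s - h) • Pi.single i 1 := by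
    rw [sub_smul]; abel
  rw [dm_eq_dp, he, h1]
  refine (abs_sub_axis_le (hf.pd i).diff hC x (s - h)).trans ?_
  rw [abs_of_neg (by linarith [hs.2])]
  exact mul_le_mul_of_nonneg_left (by linarith [hs.1]) ((abs_nonneg _).trans (hC x))

/-- Consistency of the difference Hessian. -/
theorem abs_fdh_sub_le (hf : Sm f) (hh : 0 < h) {C : ℝ}
    (hC : ∀ l : List (Fin n), l.length = 3 → ∀ x, |pds l f x| ≤ C) (x : X n) (i j : Fin n) :
    |fdh h f x i j - hess f x i j| ≤ 2 * C * h := by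
  have h1 : |dp h i (dm h j f) x - pd i (dm h j f) x| ≤ C * h := by
    refine abs_dp_sub_le (hf.dm h j) hh (fun y => ?_) x
    have h2 := pds_dm hf h j [i, i]
    simp only [pds_cons, pds_nil] at h2
    rw [h2]
    exact abs_dm_le ((hf.pd i).pd i) hh (hC [j, i, i] rfl) y
  have h2 := pds_dm hf h j [i]
  simp only [pds_cons, pds_nil] at h2
  rw [h2] at h1
  have h3 := abs_dm_sub_le (hf.pd i) hh (hC [j, j, i] rfl) x
  rw [fdh_apply, hess_apply, pd_comm hf i j]
  linarith [abs_sub_le (dp h i (dm h j f) x) (dm h j (pd i f) x) (pd j (pd i f) x)]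

theorem fdh_neg (he : Ev f) (h : ℝ) (x : X n) : fdh h f (-x) = (fdh h f x)ᵀ := by
  ext i j
  simp only [fdh_apply, transpose_apply, dp, dm]
  rw [← he (-x + h • Pi.single i 1), ← he (-x + h • Pi.single i 1 - h • Pi.single j 1),
    ← he (-x - h • Pi.single j 1), he x]
  have e1 : -(-x + h • (Pi.single i 1 : X n)) = x - h • Pi.single i 1 := by abel
  have e2 : -(-x + h • (Pi.single i 1 : X n) - h • Pi.single j 1)
      = x + h • Pi.single j 1 - h • Pi.single i 1 := by abel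
  have e3 : -(-x - h • (Pi.single j 1 : X n)) = x + h • Pi.single j 1 := by abel
  rw [e1, e2, e3]
  ring

theorem sm_jet {r : X n → Mat n} (hr : ∀ i j, Sm fun x => r x i j) (k : JI n) :
    Sm fun x => jet x (r x) k := by
  rcases k with i | p
  · exact sm_coord i
  · exact hr p.1 p.2

theorem bs_comp_jet {Φ : (JI n → ℝ) → ℝ} (hΦ : BS Φ) {r : X n → Mat n}
    (hr : ∀ i j, BS fun x => r x i j) : BS fun x => Φ (jet x (r x)) := by
  refine bs_iff.2 (DS.comp (Φ := fun _ => Φ) (Y := fun _ x => jet x (r x)) (fun _ => hΦ.1)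
    (fun _ k => sm_jet (fun i j => (hr i j).1) k) (fun i k => bs_iff.1 ?_) fun m => ?_)
  · rcases k with j | p
    · have : (pd i fun x : X n => jet x (r x) (Sum.inl j))
          = fun _ => if i = j then (1 : ℝ) else 0 := funext fun x => pd_coord i j x
      rw [this]
      exact BS.const _
    · exact (hr p.1 p.2).pd i
  · obtain ⟨C, hC⟩ := hΦ.2 m
    exact mem_Qb_top.2 ⟨C, fun _ _ => hC _⟩

theorem BS.step {Φ : (JI n → ℝ) → ℝ} (hΦ : BS Φ) {v : X n → ℝ} (hv : BS v) (h dt : ℝ) :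
    BS (P227.step Φ h dt v) :=
  hv.add ((bs_comp_jet hΦ (r := fdh h v) fun i j => (hv.dm h j).dp h i).const_mul dt)

theorem pds_step {Φ : (JI n → ℝ) → ℝ} (hΦ : Sm Φ) {v : X n → ℝ} (hv : Sm v) (h dt : ℝ)
    (l : List (Fin n)) :
    pds l (step Φ h dt v)
      = fun x => pds l v x + dt * pds l (fun y => Φ (jet y (fdh h v y))) x := by
  have h1 : Sm fun y => Φ (jet y (fdh h v y)) :=
    hΦ.comp_pi (sm_jet (r := fdh h v) fun i j => (hv.dm h j).dp h i)
  unfold step
  rw [pds_add hv (contDiff_const.mul h1), pds_const_mul h1]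

theorem bs_sch {F : ℝ → (JI n → ℝ) → ℝ} (hF : ∀ t, BS (F t)) (h dt : ℝ) (m : ℕ) :
    BS (sch F h dt m) := by
  induction m with
  | zero => exact BS.const 0
  | succ m ih => exact BS.step (hF _) ih h dt

theorem ev_sch {F : ℝ → (JI n → ℝ) → ℝ}
    (hF : ∀ t x r, F t (jet (-x) rᵀ) = F t (jet x r)) (h dt : ℝ) (m : ℕ) :
    Ev (sch F h dt m) := by
  induction m with
  | zero => exact fun _ => rfl
  | succ m ih =>
    intro x
    simp only [sch, step]
    rw [ih x, fdh_neg ih, hF]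

/-- First derivative of a jet composition. -/
theorem pd_comp_jet {Φ : (JI n → ℝ) → ℝ} (hΦ : Sm Φ) {r : X n → Mat n}
    (hr : ∀ i j, Sm fun x => r x i j) (k : Fin n) (x : X n) :
    pd k (fun y => Φ (jet y (r y))) x = pd (Sum.inl k) Φ (jet x (r x))
      + ∑ i, ∑ j, symb Φ (jet x (r x)) i j * pd k (fun y => r y i j) x := by
  rw [pd_comp (G := fun y => jet y (r y)) (hΦ.diff _) (fun q => (sm_jet hr q).diff x),
    Fintype.sum_sum_type, Fintype.sum_prod_type]
  simp [pd_coord]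

/-- Lipschitz bound in the matrix variable. -/
theorem abs_jet_sub_le {Φ : (JI n → ℝ) → ℝ} (hΦ : Sm Φ) {M : ℝ}
    (hM : ∀ p y, |pd (Sum.inr p) Φ y| ≤ M) (x : X n) {r s : Mat n} {δ : ℝ}
    (hδ : ∀ i j, |r i j - s i j| ≤ δ) :
    |Φ (jet x r) - Φ (jet x s)| ≤ n ^ 2 * M * δ := by
  have h1 : ∀ t : ℝ, |∑ q, (jet x r - jet x s) q * pd q Φ (jet x s + t • (jet x r - jet x s))|
      ≤ n ^ 2 * M * δ := fun t => by
    rw [Fintype.sum_sum_type]
    simp only [Pi.sub_apply, jet_inl, jet_inr, sub_self, zero_mul, Finset.sum_const_zero, zero_add]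
    calc _ ≤ ∑ _p : Fin n × Fin n, δ * M :=
          (Finset.abs_sum_le_sum_abs _ _).trans (Finset.sum_le_sum fun p _ => by
            rw [abs_mul]
            exact mul_le_mul (hδ _ _) (hM _ _) (abs_nonneg _) ((abs_nonneg _).trans (hδ p.1 p.2)))
      _ = _ := by simp; ring
  have h2 := convex_univ.norm_image_sub_le_of_norm_hasDerivWithin_le
    (f := fun t : ℝ => Φ (jet x s + t • (jet x r - jet x s))) (C := n ^ 2 * M * δ)
    (fun t _ => (hasDerivAt_line (hΦ.diff _)).hasDerivWithinAt) (fun t _ => h1 t)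
    (mem_univ 0) (mem_univ 1)
  simpa using h2

end Vale.Agent.P227
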