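import Vale.Agent.P227.Rescale
import Vale.Agent.P227.ST
import Vale.Agent.P227.Bump

/-! Uniform short time existence for the nonlinear flow. -/

set_option linter.unusedSectionVars false
set_option linter.unusedVariables false

namespace Vale.Agent.P227

open scoped ContDiff
open MeasureTheory Set Filter Topology Matrix

section background

variable {n : ℕ} {V : X n → ℝ}

/-- Integrand of the background term. -/
noncomputable def bgI (V : X n → ℝ) (s : ℝ) (ξ : X n) : ℝ :=
  Real.exp (-s) * (V (Real.exp s • ξ) - n * s)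

/-- The background term. -/
noncomputable def bgB (V : X n → ℝ) (t : ℝ) (ξ : X n) : ℝ := ∫ s in (0 : ℝ)..t, bgI V s ξ

theorem jc_bgI (hV : Sm V) : JC (bgI V) :=
  DS.mul (S := Qc) (JC.time (c := fun s => Real.exp (-s)) (by fun_prop))
    (DS.sub (S := Qc) ((JC.of_sm hV).scale Real.continuous_exp)
      (JC.time (c := fun s => n * s) (by fun_prop)))

theorem jc_bgB (hV : Sm V) : JC (bgB V) := (jc_bgI hV).integral

theorem pds_bgI (hV : Sm V) {l : List (Fin n)} (hl : l ≠ []) (s : ℝ) (ξ : X n) :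
    pds l (bgI V s) ξ
      = Real.exp (-s) * (Real.exp s ^ l.length * pds l V (Real.exp s • ξ)) := by
  have h1 : Sm fun ξ : X n => V (Real.exp s • ξ) := ((JC.of_sm hV).scale Real.continuous_exp).1 s
  unfold bgI
  rw [pds_const_mul (h1.sub contDiff_const), pds_sub h1 contDiff_const, pds_scale hV,
    pds_const _ hl]
  simp

theorem abs_pds_bgB (hV : Sm V) {l : List (Fin n)} (hl : l ≠ []) {C : ℝ}
    (hC : ∀ x, |pds l V x| ≤ C) {t : ℝ} (ht : t ∈ Icc (0 : ℝ) 1) (ξ : X n) :
    |pds l (bgB V t) ξ| ≤ Real.exp 1 ^ l.length * C := by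
  have h0 : 0 ≤ C := (abs_nonneg _).trans (hC 0)
  unfold bgB
  rw [(jc_bgI hV).pds_integral]
  have := intervalIntegral.norm_integral_le_of_norm_le_const (a := 0) (b := t)
    (f := fun s => pds l (bgI V s) ξ) (C := Real.exp 1 ^ l.length * C) fun s hs => by
      rw [uIoc_of_le ht.1] at hs
      rw [pds_bgI hV hl, Real.norm_eq_abs, abs_mul, abs_mul, abs_of_pos (Real.exp_pos _),
        abs_of_pos (pow_pos (Real.exp_pos _) _)]
      have e1 : Real.exp (-s) ≤ 1 := Real.exp_le_one_iff.2 (by linarith [hs.1])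
      have e2 : Real.exp s ≤ Real.exp 1 := Real.exp_le_exp.2 (hs.2.trans ht.2)
      calc _ ≤ 1 * (Real.exp 1 ^ l.length * C) := by gcongr; exact hC _
        _ = _ := one_mul _
  rw [Real.norm_eq_abs, sub_zero, abs_of_nonneg ht.1] at this
  exact this.trans (mul_le_of_le_one_right (by positivity) ht.2)

theorem qf_hess_bgB (hV : Sm V) (h0 : ∀ x, LB 0 (hess V x)) {t : ℝ} (ht : 0 ≤ t) (ξ η : X n) :
    0 ≤ qf (hess (bgB V t) ξ) η := by
  have hc : ∀ i j, Continuous fun s => pds [i, j] (bgI V s) ξ * η i * η j := fun i j =>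
    ((((jc_bgI hV).2 [i, j]).comp (continuous_id.prodMk continuous_const)).mul
      continuous_const).mul continuous_const
  have e1 : qf (hess (bgB V t) ξ) η
      = ∫ s in (0 : ℝ)..t, ∑ i, ∑ j, pds [i, j] (bgI V s) ξ * η i * η j := by
    rw [intervalIntegral.integral_finsetSum fun i _ =>
      (continuous_finsetSum _ fun j _ => hc i j).intervalIntegrable _ _]
    refine Finset.sum_congr rfl fun i _ => ?_
    rw [intervalIntegral.integral_finsetSum fun j _ => (hc i j).intervalIntegrable _ _]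
    refine Finset.sum_congr rfl fun j _ => ?_
    rw [intervalIntegral.integral_mul_const, intervalIntegral.integral_mul_const,
      ← (jc_bgI hV).pds_integral]
    rfl
  rw [e1]
  refine intervalIntegral.integral_nonneg ht fun s _ => ?_
  have := h0 (Real.exp s • ξ) η
  rw [zero_mul] at this
  have e2 : ∑ i, ∑ j, pds [i, j] (bgI V s) ξ * η i * η j
      = Real.exp (-s) * Real.exp s ^ 2 * qf (hess V (Real.exp s • ξ)) η := by
    simp only [qf, Finset.mul_sum]
    refine Finset.sum_congr rfl fun i _ => Finset.sum_congr rfl fun j _ => ?_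
    rw [pds_bgI hV (List.cons_ne_nil _ _)]
    simp only [pds_cons, pds_nil, hess_apply, List.length_cons, List.length_nil]
    ring
  rw [e2]
  positivity

theorem ev_bgB (he : Ev V) (t : ℝ) : Ev (bgB V t) := fun ξ => by
  simp only [bgB, bgI, smul_neg, he _]

theorem hess_add {f g : X n → ℝ} (hf : Sm f) (hg : Sm g) (x : X n) :
    hess (fun y => f y + g y) x = hess f x + hess g x := by
  ext i j
  exact congrFun (pds_add hf hg [i, j]) x

theorem hess_neg {f : X n → ℝ} (hf : Sm f) (he : Ev f) (x : X n) : hess f (-x) = hess f x := by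
  ext i j
  simpa using he.pds_neg hf [i, j] x

/-- Symmetrised cutoff of the matrix part of a jet. -/
noncomputable def symc (χ : ℝ → ℝ) (y : JI n → ℝ) : Mat n :=
  Matrix.of fun i j => 2⁻¹ * (χ (y (Sum.inr (i, j))) + χ (y (Sum.inr (j, i))))

/-- The matrix under the determinant. -/
noncomputable def HN (V : X n → ℝ) (χ : ℝ → ℝ) (u0 : X n → ℝ) (t : ℝ) (y : JI n → ℝ) : Mat n :=
  hess (fun ξ => u0 ξ + bgB V (cl 1 t) ξ) (px y) + symc χ y

theorem jc_bg (hV : Sm V) {u0 : X n → ℝ} (hu : Sm u0) :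
    JC fun t ξ => u0 ξ + bgB V (cl 1 t) ξ :=
  DS.add (S := Qc) (JC.of_sm hu) ((jc_bgB hV).comp_time (continuous_cl 1))

theorem symb_logdet {χ : ℝ → ℝ} (hχ : ContDiff ℝ ∞ χ) {f : X n → ℝ} (hf : Sm f) (e : ℝ)
    (hd : ∀ y : JI n → ℝ, 0 < (hess f (px y) + symc χ y).det) {y : JI n → ℝ}
    (hy : ∀ p, deriv χ (y (Sum.inr p)) = 1) :
    symb (fun y => e * Real.log (hess f (px y) + symc χ y).det) y
      = e • (hess f (px y) + symc χ y)⁻¹ := by
  have hc : ∀ p : Fin n × Fin n, Sm fun y : JI n → ℝ => χ (y (Sum.inr p)) :=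
    fun p => hχ.comp (sm_coord _)
  have h1 : ∀ a b, Sm fun y : JI n → ℝ => hess f (px y) a b :=
    fun a b => sm_px ((hf.pd b).pd a)
  have h2 : ∀ a b, Sm fun y : JI n → ℝ => symc χ y a b :=
    fun a b => contDiff_const.mul ((hc _).add (hc _))
  have h3 : ∀ a b, Sm fun y : JI n → ℝ => (hess f (px y) + symc χ y) a b :=
    fun a b => (h1 a b).add (h2 a b)
  have hs : (hess f (px y) + symc χ y)⁻¹.IsSymm := by
    refine isSymm_inv ((hess_isSymm hf _).add ?_)
    ext a b
    simp [symc, add_comm]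
  ext i j
  rw [symb_apply, pd_const_mul ((sm_logdet h3 hd).diff y), pd_logdet h3 hd, Matrix.smul_apply,
    smul_eq_mul]
  congr 1
  have h4 : ∀ a b, mpd (Sum.inr (i, j)) (fun y => hess f (px y) + symc χ y) y a b
      = 2⁻¹ * ((if (i, j) = (a, b) then 1 else 0) + if (i, j) = (b, a) then 1 else 0) := by
    intro a b
    rw [mpd_apply]
    simp only [Matrix.add_apply]
    rw [pd_add ((h1 a b).diff y) ((h2 a b).diff y)]
    simp only [hess_apply, symc, Matrix.of_apply]
    rw [pd_inr_px ((hf.pd b).pd a), pd_const_mul (((hc _).add (hc _)).differentiable (by simp) y),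
      pd_add ((hc _).diff y) ((hc _).diff y), pd_cut hχ, pd_cut hχ, hy, hy, zero_add]
  simp only [Matrix.trace, Matrix.diag_apply, Matrix.mul_apply, h4, Prod.mk.injEq, mul_add,
    Finset.sum_add_distrib, ite_and, mul_ite, mul_one, mul_zero]
  simp only [Finset.sum_ite_eq, Finset.mem_univ, if_true, Finset.sum_ite_irrel,
    Finset.sum_const_zero]
  rw [hs.apply i j]
  ring

end background

theorem exists_nsol_short {n : ℕ} {V : X n → ℝ} (hV : Pot V) {c : ℝ} (hc : 0 < c)
    (M : ℕ → ℝ) : ∃ T > 0, ∀ u0 : X n → ℝ, Sm u0 → Ev u0 → (∀ x, LB c (hess u0 x)) →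
      (∀ l : List (Fin n), 2 ≤ l.length → ∀ x, |pds l u0 x| ≤ M l.length) →
      ∃ u, NSol V T u ∧ u 0 = u0 := by
  have hVs := hV.v2.1
  obtain ⟨MV, hMV⟩ := hV.v2.exists_bound
  have hV0 : ∀ x, LB 0 (hess V x) := by
    obtain ⟨c', hc', h⟩ := hV.lb
    exact fun x => (h x).mono hc'.le
  set ρ := c / (6 * (n + 1)) with hρ
  have hρ0 : 0 < ρ := by positivity
  have hρc : c / 2 ≤ c - n * (3 * ρ) := by
    have : n * (3 * ρ) ≤ c / 2 := by
      rw [hρ, ← mul_div_assoc, ← mul_div_assoc, div_le_div_iff₀ (by positivity) (by positivity)]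
      nlinarith
    linarith
  obtain ⟨χ, hχ, hχ1, hχ2, hχ3, hχ4⟩ := exists_cutoff hρ0
  let α := {u0 : X n → ℝ // Sm u0 ∧ (∀ x, LB c (hess u0 x)) ∧
    ∀ l : List (Fin n), 2 ≤ l.length → ∀ x, |pds l u0 x| ≤ M l.length} × ℝ
  have hbgl : ∀ (u0 : X n → ℝ), Sm u0 → (∀ x, LB c (hess u0 x)) → ∀ t x,
      LB c (hess (fun ξ => u0 ξ + bgB V (cl 1 t) ξ) x) := by
    intro u0 hu hl t x η
    have h1 := hl x η
    have h2 := qf_hess_bgB hVs hV0 (cl_mem zero_le_one t).1 x η
    rw [hess_add hu ((jc_bgB hVs).1 _)]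
    simp only [qf, Matrix.add_apply, add_mul, Finset.sum_add_distrib] at h1 h2 ⊢
    linarith
  have hbgb : ∀ (u0 : X n → ℝ), Sm u0 →
      (∀ l : List (Fin n), 2 ≤ l.length → ∀ x, |pds l u0 x| ≤ M l.length) →
      ∀ l : List (Fin n), 2 ≤ l.length → ∀ t x, |pds l (fun ξ => u0 ξ + bgB V (cl 1 t) ξ) x|
        ≤ M l.length + Real.exp 1 ^ l.length * MV l.length := by
    intro u0 hu hb l hl t x
    rw [pds_add hu ((jc_bgB hVs).1 _)]
    exact (abs_add_le _ _).trans (add_le_add (hb l hl x) (abs_pds_bgB hVs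
      (by rintro rfl; simp at hl) (hMV l hl) (cl_mem zero_le_one t) x))
  have hsc : ∀ (y : JI n → ℝ) i j, |symc χ y i j| ≤ 3 * ρ := by
    intro y i j
    have := abs_add_le (χ (y (Sum.inr (i, j)))) (χ (y (Sum.inr (j, i))))
    simp only [symc, Matrix.of_apply, abs_mul, abs_inv, abs_two]
    linarith [hχ3 (y (Sum.inr (i, j))), hχ3 (y (Sum.inr (j, i)))]
  have hHl : ∀ (a : α) y, LB (c / 2) (HN V χ a.1 a.2 y) := fun a y =>
    ((hbgl _ a.1.2.1 a.1.2.2.1 _ _).add_small (hsc y)).mono hρc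
  have hHs : ∀ (a : α) y, (HN V χ a.1 a.2 y).IsSymm := fun a y => by
    refine (hess_isSymm ((jc_bg hVs a.1.2.1).1 _) _).add ?_
    ext i j
    simp [symc, add_comm]
  have hH : ∀ i j, DS (Qb ⊤) fun (a : α) y => HN V χ a.1 a.2 y i j := by
    intro i j
    refine DS.add (ds_px (f := fun (a : α) => pd i (pd j fun ξ => a.1.1 ξ + bgB V (cl 1 a.2) ξ))
      (ds_Qb_top_iff.2 ⟨fun a => ((((jc_bg hVs a.1.2.1).1 _).pd j).pd i), fun l => ?_⟩))
      (BS.ds (((bs_cut hχ hχ4 _).add (bs_cut hχ hχ4 _)).const_mul _))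
    exact ⟨_, fun a x => by
      have := hbgb _ a.1.2.1 a.1.2.2.2 (l ++ [i, j]) (by simp) a.2 x
      rwa [pds_append] at this⟩
  have hF : DS (Qb ⊤) fun (a : α) y =>
      Real.exp (-cl 1 a.2) * Real.log (HN V χ a.1 a.2 y).det := by
    refine DS.mul (DS.param (mem_Qb_top.2 ⟨1, fun a _ => ?_⟩))
      (DS.logdet_Qb (half_pos hc) hH hHs hHl)
    rw [abs_of_pos (Real.exp_pos _)]
    exact Real.exp_le_one_iff.2 (neg_nonpos.2 (cl_mem zero_le_one _).1)
  obtain ⟨MF, hMF⟩ := exists_bound_words (k1 n) fun l _ => (ds_Qb_top_iff.1 hF).2 l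
  obtain ⟨MH, hMH0, hMH⟩ : ∃ MH, 0 ≤ MH ∧ ∀ (a : α) y i j, |HN V χ a.1 a.2 y i j| ≤ MH := by
    refine ⟨|M 2 + Real.exp 1 ^ 2 * MV 2| + 3 * ρ, by positivity, fun a y i j => ?_⟩
    exact (abs_add_le _ _).trans (add_le_add ((hbgb _ a.1.2.1 a.1.2.2.2 [i, j] le_rfl a.2
      (px y)).trans (le_abs_self _)) (hsc y i j))
  obtain ⟨T, hT0, hT1, hST⟩ := short_time n MF
    (lam := Real.exp (-1) * (n * MH + 1)⁻¹) (by positivity) hρ0
  refine ⟨T, hT0, fun u0 hu he hl hb => ?_⟩
  let a : ℝ → α := fun t => (⟨u0, hu, hl, hb⟩, t)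
  have hbg := jc_bg hVs hu
  have hdet : ∀ t y, 0 < (HN V χ u0 t y).det := fun t y =>
    (hHl (a t) y).det_pos (half_pos hc) (hHs (a t) y)
  have hFc : Continuous fun p : ℝ × (JI n → ℝ) =>
      Real.exp (-cl 1 p.1) * Real.log (HN V χ u0 p.1 p.2).det := by
    have h1 := continuous_cl 1
    have h2 := hχ.continuous
    refine Continuous.mul (by fun_prop) (continuous_logdet (fun i j => ?_)
      fun p => (hdet _ _).ne')
    refine Continuous.add ((hbg.2 [i, j]).comp (continuous_fst.prodMk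
      (continuous_pi fun k => (continuous_apply _).comp continuous_snd))) ?_
    simp only [symc, Matrix.of_apply]
    fun_prop
  obtain ⟨v, hv, hv0, hve, hvb, hvρ, hvd⟩ := hST
    (fun t y => Real.exp (-cl 1 t) * Real.log (HN V χ u0 t y).det) (fun t => hF.1 (a t)) hFc
    (fun l hl t y => hMF l hl (a t) y)
    (fun l => ((ds_Qb_top_iff.1 hF).2 l).imp fun C hC t y => hC (a t) y)
    (fun t x r hr ξ => by
      have h1 := symb_logdet hχ (hbg.1 t) (Real.exp (-cl 1 t)) (hdet t) (y := jet x r)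
        fun p => hχ2 _ (hr _ _)
      unfold HN
      rw [h1]
      have h2 := ((ub_of_entry (hMH (a t) (jet x r))).mono (le_add_of_nonneg_right zero_le_one)
        ).inv_lb (by positivity) ((hHl (a t) _).posDef (half_pos hc) (hHs (a t) _)) ξ
      have h3 : Real.exp (-1) ≤ Real.exp (-cl 1 t) :=
        Real.exp_le_exp.2 (neg_le_neg (cl_mem zero_le_one _).2)
      have h4 : ∀ (e : ℝ) (A : Mat n), qf (e • A) ξ = e * qf A ξ := fun e A => by
        simp only [qf, Matrix.smul_apply, smul_eq_mul, Finset.mul_sum, mul_assoc]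
      rw [h4, mul_assoc]
      exact mul_le_mul h3 h2 (mul_nonneg (by positivity) (nsq_nonneg _)) (Real.exp_pos _).le)
    (fun t x r => by
      have : HN V χ u0 t (jet (-x) rᵀ) = HN V χ u0 t (jet x r) := by
        unfold HN
        rw [px_jet, px_jet, hess_neg (hbg.1 t) fun ξ => by simp only [he ξ, ev_bgB hV.ev _ ξ]]
        congr 1
        ext i j
        simp [symc, add_comm]
      rw [this])
  have hU : JC fun t ξ => u0 ξ + bgB V (cl 1 t) ξ + v t ξ := DS.add (S := Qc) hbg hv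
  have hHU : ∀ t ξ, HN V χ u0 t (jet ξ (hess (v t) ξ))
      = hess (fun ξ => u0 ξ + bgB V (cl 1 t) ξ + v t ξ) ξ := by
    intro t ξ
    rw [hess_add (hbg.1 t) (hv.1 t), HN, px_jet]
    congr 1
    ext i j
    simp only [symc, Matrix.of_apply, jet_inr, hχ1 _ (hvρ t ξ _ _)]
    rw [(hess_isSymm (hv.1 t) ξ).apply i j]
    ring
  have hG : Continuous fun p : ℝ × X n => bgI V (cl 1 p.1) p.2
      + Real.exp (-cl 1 p.1) * Real.log (HN V χ u0 p.1 (jet p.2 (hess (v p.1) p.2))).det := by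
    refine (((jc_bgI hVs).comp_time (continuous_cl 1)).cont).add
      (hFc.comp (continuous_fst.prodMk (continuous_pi fun k => ?_)))
    rcases k with k | ⟨i, j⟩
    · exact (continuous_apply k).comp continuous_snd
    · exact hv.2 [i, j]
  obtain ⟨h1, h2, h3, h4, h5, h6, h7⟩ := rescale hT0.le 1 hU hG
    (fun t ξ => by simp only [he ξ, ev_bgB hV.ev _ ξ, hve t ξ])
    (fun l hl => by
      obtain ⟨C, hC⟩ := hvb l
      exact ⟨_, fun t _ x => by
        rw [pds_add (hbg.1 t) (hv.1 t)]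
        exact (abs_add_le _ _).trans (add_le_add (hbgb u0 hu hb l hl t x) (hC t x))⟩)
    (fun t ht x => by
      have hsub : ∀ s ∈ Icc 0 T, cl 1 s = s := fun s hs => cl_of_mem ⟨hs.1, hs.2.trans hT1⟩
      have hc1 : Continuous fun s => bgI V s x :=
        (jc_bgI hVs).cont.comp (continuous_id.prodMk continuous_const)
      have d1 : HasDerivWithinAt (fun s => bgB V (cl 1 s) x) (bgI V (cl 1 t) x) (Icc 0 T) t := by
        rw [hsub t ht]
        exact (hc1.integral_hasStrictDerivAt 0 t).hasDerivAt.hasDerivWithinAt.congr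
          (fun s hs => by rw [hsub s hs]; rfl) (by rw [hsub t ht]; rfl)
      exact (d1.const_add (u0 x)).add (hvd t ht x)) rfl
  refine ⟨_, ⟨⟨h1, h2, h3, h4, fun t ht x => ?_⟩, Real.exp (-1) * (c / 2), by positivity,
    fun t x ξ => ?_⟩, h5.trans ?_⟩
  · refine (h7 t ht x).congr_deriv ?_
    have e1 : cl 1 t = t := cl_of_mem ⟨ht.1, ht.2.trans hT1⟩
    have e2 := hdet t (jet (Real.exp (-t) • x) (hess (v t) (Real.exp (-t) • x)))
    have e3 : Real.exp t * Real.exp (-t) = 1 := by rw [← Real.exp_add, add_neg_cancel, Real.exp_zero]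
    rw [hHU] at e2
    rw [Nop, h6, hHU, cl_of_mem ht, Matrix.det_smul, Real.log_mul (by positivity) e2.ne',
      Real.log_pow, Real.log_exp, bgI, e1, smul_smul, e3, one_smul, one_mul t, Fintype.card_fin]
    linear_combination (V x - n * t + Real.log (hess (fun ξ => u0 ξ + bgB V t ξ + v t ξ)
      (Real.exp (-t) • x)).det) * e3
  · have hs := cl_mem hT0.le t
    have e1 := hHl (a (cl T t)) (jet (Real.exp (-cl T t) • x)
      (hess (v (cl T t)) (Real.exp (-cl T t) • x))) ξ
    have h3 : Real.exp (-1) ≤ Real.exp ((1 - 2) * cl T t) :=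
      Real.exp_le_exp.2 (by linarith [hs.2])
    have h4 : ∀ (e : ℝ) (A : Mat n), qf (e • A) ξ = e * qf A ξ := fun e A => by
      simp only [qf, Matrix.smul_apply, smul_eq_mul, Finset.mul_sum, mul_assoc]
    rw [h6, h4, ← hHU, mul_assoc]
    exact mul_le_mul h3 e1 (mul_nonneg (by positivity) (nsq_nonneg _)) (Real.exp_pos _).le
  · funext ξ
    simp [hv0, bgB, cl]

end Vale.Agent.P227
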