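import Vale.Agent.P227.AP2
import Vale.Agent.P227.Calabi
import Vale.Agent.P227.APk
import Vale.Agent.P227.RescaleN
import Vale.Agent.P227.Glue
import Vale.Agent.P227.Gauss

/-! A priori bounds of all orders and long time existence. -/

set_option linter.unusedSectionVars false
set_option linter.unusedVariables false

namespace Vale.Agent.P227

open scoped ContDiff
open MeasureTheory Set Filter Topology Matrix

variable {n : ℕ} {V : X n → ℝ}

theorem apriori (hV : Pot V) : ∃ c > 0, ∃ M : ℕ → ℝ, ∀ (T : ℝ) (u : ℝ → X n → ℝ),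
    NSol V T u → u 0 = q0 n → ∀ t ∈ Icc 0 T, (∀ x, LB c (hess (u t) x)) ∧
      ∀ l : List (Fin n), 2 ≤ l.length → ∀ x, |pds l (u t) x| ≤ M l.length := by
  obtain ⟨cV, hcV, hVl⟩ := hV.lb
  obtain ⟨MV, hMV⟩ := hV.v2.exists_bound
  have hVs := hV.v2.1
  set c := min 1 cV with hc
  have hc0 : 0 < c := lt_min one_pos hcV
  set C := max 1 (n * MV 2) with hC
  have h2 : ∀ (T : ℝ) (u : ℝ → X n → ℝ), NSol V T u → u 0 = q0 n → ∀ t ∈ Icc 0 T, ∀ x,
      LB c (hess (u t) x) ∧ UB C (hess (u t) x) := fun T u hu h0 t ht x =>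
    ⟨ap_lb hu hVs h0 hc0 (min_le_left _ _) (fun x => (hVl x).mono (min_le_right _ _)) t ht x,
      ap_ub hu hVs h0 (le_max_left _ _)
        (fun x => (ub_of_entry fun i j => hMV [i, j] le_rfl x).mono (le_max_right _ _)) t ht x⟩
  have h3 : ∀ m : ℕ, ∃ M, ∀ (T : ℝ) (u : ℝ → X n → ℝ), NSol V T u → u 0 = q0 n →
      ∀ l : List (Fin n), 2 ≤ l.length → l.length ≤ m + 3 → ∀ t ∈ Icc 0 T, ∀ x,
        |pds l (u t) x| ≤ M := by
    intro m
    induction m with
    | zero =>
      obtain ⟨M, hM⟩ := ap_three hV hc0 C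
      refine ⟨max C M, fun T u hu h0 l hl hl' t ht x => ?_⟩
      rcases Nat.eq_or_lt_of_le hl' with h | h
      · exact (hM T u hu h0 (h2 T u hu h0) l h t ht x).trans (le_max_right _ _)
      · obtain ⟨i, j, rfl⟩ := List.length_eq_two.1 (show l.length = 2 by omega)
        exact (abs_entry_le (hess_isSymm (hu.sol.jc.1 t) x) ((h2 T u hu h0 t ht x).1.mono hc0.le)
          (h2 T u hu h0 t ht x).2 i j).trans (le_max_left _ _)
    | succ m ih =>
      obtain ⟨M, hM⟩ := ih
      obtain ⟨M', hM'⟩ := ap_step hV hc0 (m := m + 3) (by omega) M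
      refine ⟨max M M', fun T u hu h0 l hl hl' t ht x => ?_⟩
      rcases Nat.eq_or_lt_of_le hl' with h | h
      · exact (hM' T u hu h0 (fun t ht x => (h2 T u hu h0 t ht x).1) (hM T u hu h0) l h t ht
          x).trans (le_max_right _ _)
      · exact (hM T u hu h0 l hl (by omega) t ht x).trans (le_max_left _ _)
  choose M hM using h3
  exact ⟨c, hc0, M, fun T u hu h0 t ht => ⟨fun x => (h2 T u hu h0 t ht x).1,
    fun l hl x => hM l.length T u hu h0 l hl (by omega) t ht x⟩⟩

theorem exists_nsol (hV : Pot V) (T : ℝ) : ∃ u, NSol V T u ∧ u 0 = q0 n := by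
  obtain ⟨c, hc, M, hM⟩ := apriori hV
  obtain ⟨T0, hT0, hs⟩ := exists_nsol_short hV (lt_min hc one_pos) fun k => max (M k) 1
  have h1 : ∀ k : ℕ, ∃ u, NSol V ((k + 1) * T0) u ∧ u 0 = q0 n := by
    intro k
    induction k with
    | zero =>
      rw [Nat.cast_zero, zero_add, one_mul]
      refine hs _ sm_q0 ev_q0 (fun x => ?_) fun l hl x => ?_
      · rw [hess_q0]
        exact lb_one.mono (min_le_right _ _)
      · rcases Nat.eq_or_lt_of_le hl with h | h
        · obtain ⟨i, j, rfl⟩ := List.length_eq_two.1 h.symm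
          refine (abs_entry_le (hess_isSymm sm_q0 x) ?_ ?_ i j).trans (le_max_right _ _) <;>
            rw [hess_q0]
          exacts [lb_one.mono zero_le_one, ub_one]
        · rw [pds_q0 h, abs_zero]
          exact zero_le_one.trans (le_max_right _ _)
    | succ k ih =>
      obtain ⟨u, hu, h0⟩ := ih
      have ha : 0 ≤ (k + 1 : ℝ) * T0 := by positivity
      obtain ⟨b1, b2⟩ := hM _ u hu h0 _ ⟨ha, le_rfl⟩
      obtain ⟨w, hw, hw0⟩ := hs (u ((k + 1) * T0)) (hu.sol.jc.1 _) (hu.sol.ev _)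
        (fun x => (b1 x).mono (min_le_left _ _)) fun l hl x => (b2 l hl x).trans (le_max_left _ _)
      refine ⟨glue ((k + 1) * T0) u w, ?_, (glue_zero ha).trans h0⟩
      convert NSol.glue ha hT0.le hu hw hw0 using 1
      push_cast
      ring
  obtain ⟨k, hk⟩ := exists_nat_ge (T / T0)
  obtain ⟨u, hu, h0⟩ := h1 k
  rw [div_le_iff₀ hT0] at hk
  exact ⟨u, hu.mono (by nlinarith), h0⟩

end Vale.Agent.P227
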