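import Vale.Agent.P227.Calc

/-! Derivatives of the inverse matrix and of log det. -/

set_option linter.unusedSectionVars false
set_option linter.unusedVariables false

namespace Vale.Agent.P227

open scoped ContDiff
open MeasureTheory Set Filter Topology Matrix

variable {n : ℕ}

theorem hasDerivWithinAt_det {A : ℝ → Mat n} {A' : Mat n} {S : Set ℝ} {t : ℝ}
    (hA : ∀ i j, HasDerivWithinAt (fun s => A s i j) (A' i j) S t) :
    HasDerivWithinAt (fun s => (A s).det) ((adjugate (A t) * A').trace) S t := by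
  have h1 : HasDerivWithinAt
      (fun s => ∑ σ : Equiv.Perm (Fin n), ((Equiv.Perm.sign σ : ℤ) : ℝ) * ∏ i, A s (σ i) i)
      (∑ σ : Equiv.Perm (Fin n), ((Equiv.Perm.sign σ : ℤ) : ℝ) *
        ∑ i, (∏ j ∈ Finset.univ.erase i, A t (σ j) j) • A' (σ i) i) S t :=
    HasDerivWithinAt.fun_sum fun σ _ =>
      (HasDerivWithinAt.fun_finsetProd fun i _ => hA (σ i) i).const_mul _
  have h2 : (adjugate (A t) * A').trace = ∑ σ : Equiv.Perm (Fin n),
      ((Equiv.Perm.sign σ : ℤ) : ℝ) *
        ∑ i, (∏ j ∈ Finset.univ.erase i, A t (σ j) j) • A' (σ i) i := by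
    simp only [Finset.mul_sum]
    rw [Finset.sum_comm]
    refine Finset.sum_congr rfl fun i _ => ?_
    have h3 : (adjugate (A t) * A').diag i = cramer (A t) (fun k => A' k i) i := by
      rw [cramer_eq_adjugate_mulVec]; rfl
    rw [h3, cramer_apply, det_apply']
    refine Finset.sum_congr rfl fun σ _ => ?_
    rw [← Finset.prod_erase_mul _ _ (Finset.mem_univ i), updateCol_self, smul_eq_mul]
    congr 2
    exact Finset.prod_congr rfl fun j hj => updateCol_ne (Finset.ne_of_mem_erase hj)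
  rw [h2]
  simpa only [det_apply'] using h1

theorem tendsto_inv_entry {β : Type*} {F : Filter β} {A : β → Mat n} {B : Mat n}
    (hA : ∀ i j, Tendsto (fun p => A p i j) F (𝓝 (B i j))) (hd : B.det ≠ 0) (i j : Fin n) :
    Tendsto (fun p => (A p)⁻¹ i j) F (𝓝 (B⁻¹ i j)) := by
  have h1 : Tendsto A F (𝓝 B) := tendsto_pi_nhds.2 fun i => tendsto_pi_nhds.2 fun j => hA i j
  have h2 : ContinuousAt Inv.inv B := continuousAt_matrix_inv B (by
    rw [Ring.inverse_eq_inv']; exact continuousAt_inv₀ hd)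
  exact tendsto_pi_nhds.1 (tendsto_pi_nhds.1 (h2.tendsto.comp h1) i) j

theorem tendsto_det {β : Type*} {F : Filter β} {A : β → Mat n} {B : Mat n}
    (hA : ∀ i j, Tendsto (fun p => A p i j) F (𝓝 (B i j))) :
    Tendsto (fun p => (A p).det) F (𝓝 B.det) := by
  have h1 : Tendsto A F (𝓝 B) := tendsto_pi_nhds.2 fun i => tendsto_pi_nhds.2 fun j => hA i j
  exact ((continuous_id.matrix_det).tendsto B).comp h1

theorem hasDerivWithinAt_logdet {A : ℝ → Mat n} {A' : Mat n} {S : Set ℝ} {t : ℝ}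
    (hA : ∀ i j, HasDerivWithinAt (fun s => A s i j) (A' i j) S t) (hd : 0 < (A t).det) :
    HasDerivWithinAt (fun s => Real.log (A s).det) (((A t)⁻¹ * A').trace) S t := by
  have h1 := (hasDerivWithinAt_det hA).log hd.ne'
  rwa [inv_def, Ring.inverse_eq_inv', Matrix.smul_mul, trace_smul, smul_eq_mul, mul_comm,
    ← div_eq_mul_inv]

theorem hasDerivWithinAt_inv {A : ℝ → Mat n} {A' : Mat n} {S : Set ℝ} {t : ℝ}
    (hA : ∀ i j, HasDerivWithinAt (fun s => A s i j) (A' i j) S t) (hd : (A t).det ≠ 0)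
    (i j : Fin n) :
    HasDerivWithinAt (fun s => (A s)⁻¹ i j) (-((A t)⁻¹ * A' * (A t)⁻¹) i j) S t := by
  have hc : ∀ i j, Tendsto (fun s => A s i j) (𝓝[S \ {t}] t) (𝓝 (A t i j)) := fun i j =>
    (hA i j).continuousWithinAt.tendsto.mono_left (nhdsWithin_mono _ sdiff_subset)
  have hs := fun i j => hasDerivWithinAt_iff_tendsto_slope.1 (hA i j)
  rw [hasDerivWithinAt_iff_tendsto_slope]
  have h1 : Tendsto (fun s => -∑ l, (∑ k, (A s)⁻¹ i k * slope (fun s => A s k l) t s) *
      (A t)⁻¹ l j) (𝓝[S \ {t}] t) (𝓝 (-((A t)⁻¹ * A' * (A t)⁻¹) i j)) := by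
    simp only [Matrix.mul_apply]
    exact (tendsto_finsetSum _ fun l _ => (tendsto_finsetSum _ fun k _ =>
      (tendsto_inv_entry hc hd i k).mul (hs k l)).mul_const _).neg
  refine h1.congr' ?_
  filter_upwards [(tendsto_det hc).eventually_ne hd] with s hs
  have h2 : (A s)⁻¹ - (A t)⁻¹ = -((A s)⁻¹ * (A s - A t) * (A t)⁻¹) := by
    rw [Matrix.mul_sub, Matrix.sub_mul, nonsing_inv_mul _ hs.isUnit, Matrix.mul_assoc,
      mul_nonsing_inv _ hd.isUnit, Matrix.one_mul, Matrix.mul_one, neg_sub]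
  have h3 := congrFun (congrFun h2 i) j
  simp only [Matrix.sub_apply, Matrix.neg_apply, Matrix.mul_apply] at h3
  simp only [slope, vsub_eq_sub, smul_eq_mul, h3, mul_neg, Finset.mul_sum, Finset.sum_mul]
  congr 1
  exact Finset.sum_congr rfl fun l _ => Finset.sum_congr rfl fun k _ => by ring

theorem continuous_inv_entry {P : Type*} [TopologicalSpace P] {A : P → Mat n}
    (hA : ∀ i j, Continuous fun p => A p i j) (hd : ∀ p, (A p).det ≠ 0) (i j : Fin n) :
    Continuous fun p => (A p)⁻¹ i j :=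
  continuous_iff_continuousAt.2 fun p =>
    tendsto_inv_entry (fun i j => (hA i j).tendsto p) (hd p) i j

theorem continuous_logdet {P : Type*} [TopologicalSpace P] {A : P → Mat n}
    (hA : ∀ i j, Continuous fun p => A p i j) (hd : ∀ p, (A p).det ≠ 0) :
    Continuous fun p => Real.log (A p).det :=
  continuous_iff_continuousAt.2 fun p =>
    (tendsto_det fun i j => (hA i j).tendsto p).log (hd p)

theorem tendsto_logdet {β : Type*} {F : Filter β} {A : β → Mat n} {B : Mat n}
    (hA : ∀ i j, Tendsto (fun p => A p i j) F (𝓝 (B i j))) (hd : B.det ≠ 0) :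
    Tendsto (fun p => Real.log (A p).det) F (𝓝 (Real.log B.det)) :=
  (tendsto_det hA).log hd

variable {ι : Type*} [Fintype ι] [DecidableEq ι] {h : (ι → ℝ) → Mat n}

/-- Entrywise coordinate derivative of a matrix function. -/
noncomputable def mpd (k : ι) (h : (ι → ℝ) → Mat n) (x : ι → ℝ) : Mat n :=
  Matrix.of fun a b => pd k (fun y => h y a b) x

@[simp] theorem mpd_apply (k : ι) (h : (ι → ℝ) → Mat n) (x : ι → ℝ) (a b : Fin n) :
    mpd k h x a b = pd k (fun y => h y a b) x := rfl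

theorem sm_det (hh : ∀ i j, Sm fun y => h y i j) : Sm fun y => (h y).det := by
  simp only [det_apply']
  exact ContDiff.sum fun σ _ => contDiff_const.mul (contDiff_prod fun i _ => hh _ _)

theorem hasDerivAt_axis0 {f : (ι → ℝ) → ℝ} (hf : Sm f) (k : ι) (x : ι → ℝ) :
    HasDerivAt (fun r : ℝ => f (x + r • Pi.single k 1)) (pd k f x) 0 := by
  simpa using hasDerivAt_axis (f := f) (x := x) (i := k) (s := 0) (hf.diff _)

theorem sm_inv (hh : ∀ i j, Sm fun y => h y i j) (hd : ∀ y, (h y).det ≠ 0) (i j : Fin n) :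
    Sm fun y => (h y)⁻¹ i j := by
  simp only [inv_def, Ring.inverse_eq_inv', Matrix.smul_apply, smul_eq_mul, adjugate_apply]
  refine ((sm_det hh).inv hd).mul (sm_det fun a b => ?_)
  by_cases hab : a = j
  · simp only [hab, updateRow_self]
    exact contDiff_const
  · simp only [updateRow_ne hab]
    exact hh a b

theorem pd_inv (hh : ∀ i j, Sm fun y => h y i j) (hd : ∀ y, (h y).det ≠ 0) (i j : Fin n)
    (k : ι) (x : ι → ℝ) :
    pd k (fun y => (h y)⁻¹ i j) x = -((h x)⁻¹ * mpd k h x * (h x)⁻¹) i j := by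
  have h1 := hasDerivWithinAt_inv (A := fun r : ℝ => h (x + r • Pi.single k 1)) (A' := mpd k h x)
    (S := univ) (t := 0) (fun a b => (hasDerivAt_axis0 (hh a b) k x).hasDerivWithinAt) (hd _) i j
  rw [hasDerivWithinAt_univ] at h1
  simpa using (hasDerivAt_axis0 (sm_inv hh hd i j) k x).unique h1

theorem sm_logdet (hh : ∀ i j, Sm fun y => h y i j) (hd : ∀ y, 0 < (h y).det) :
    Sm fun y => Real.log (h y).det := (sm_det hh).log fun y => (hd y).ne'

theorem pd_logdet (hh : ∀ i j, Sm fun y => h y i j) (hd : ∀ y, 0 < (h y).det) (k : ι)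
    (x : ι → ℝ) :
    pd k (fun y => Real.log (h y).det) x = ((h x)⁻¹ * mpd k h x).trace := by
  have h1 := hasDerivWithinAt_logdet (A := fun r : ℝ => h (x + r • Pi.single k 1))
    (A' := mpd k h x) (S := univ) (t := 0)
    (fun a b => (hasDerivAt_axis0 (hh a b) k x).hasDerivWithinAt) (hd _)
  rw [hasDerivWithinAt_univ] at h1
  simpa using (hasDerivAt_axis0 (sm_logdet hh hd) k x).unique h1

theorem mpd_hess {u : X n → ℝ} (hu : Sm u) (k : Fin n) (x : X n) :
    mpd k (hess u) x = hess (pd k u) x := by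
  ext a b
  have h1 : pd k (pd a (pd b u)) = pd a (pd b (pd k u)) := by
    rw [pd_comm (hu.pd b) k a, pd_comm hu k b]
  exact congrFun h1 x

theorem sm_hess {u : X n → ℝ} (hu : Sm u) (i j : Fin n) : Sm fun y => hess u y i j :=
  (hu.pd j).pd i

/-- Derivative of an inverse Hessian entry. -/
theorem pd_tau {u : X n → ℝ} (hu : Sm u) (hd : ∀ y, (hess u y).det ≠ 0) (i j k : Fin n)
    (x : X n) :
    pd k (fun y => tau u y i j) x = -(tau u x * hess (pd k u) x * tau u x) i j := by
  rw [← mpd_hess hu]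
  exact pd_inv (sm_hess hu) hd i j k x

theorem sm_tau {u : X n → ℝ} (hu : Sm u) (hd : ∀ y, (hess u y).det ≠ 0) (i j : Fin n) :
    Sm fun y => tau u y i j := sm_inv (sm_hess hu) hd i j

theorem pd_logdet_hess {u : X n → ℝ} (hu : Sm u) (hd : ∀ y, 0 < (hess u y).det) (k : Fin n)
    (x : X n) :
    pd k (fun y => Real.log (hess u y).det) x
      = ∑ a, ∑ b, tau u x a b * pd k (pd a (pd b u)) x := by
  rw [pd_logdet (sm_hess hu) hd]
  simp only [trace, diag_apply, Matrix.mul_apply]
  refine Finset.sum_congr rfl fun a _ => Finset.sum_congr rfl fun b _ => ?_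
  rw [pd_comm hu a b]
  rfl

theorem sm_nop {V u : X n → ℝ} (hV : Sm V) (hu : Sm u) (hd : ∀ y, 0 < (hess u y).det) :
    Sm (Nop V u) :=
  (((sm_logdet (sm_hess hu) hd).sub
    (ContDiff.sum fun i _ => (sm_coord i).mul (hu.pd i))).add hu).add hV

/-- Gradient of the nonlinear operator. -/
theorem pd_nop {V u : X n → ℝ} (hV : Sm V) (hu : Sm u) (hd : ∀ y, 0 < (hess u y).det)
    (k : Fin n) (x : X n) :
    pd k (Nop V u) x = ∑ a, ∑ b, tau u x a b * pd k (pd a (pd b u)) x
      - ∑ a, x a * hess u x a k + pd k V x := by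
  have h1 := sm_logdet (sm_hess hu) hd
  have h2 : Sm fun y : X n => ∑ i, y i * pd i u y :=
    ContDiff.sum fun i _ => (sm_coord i).mul (hu.pd i)
  have h3 := congrFun (pds_drift hu [k]) x
  simp only [pds_cons, pds_nil, List.length_singleton, Nat.cast_one, one_mul] at h3
  unfold Nop
  rw [pd_add (Sm.diff ((h1.sub h2).add hu) x) (hV.diff x),
    pd_add (Sm.diff (h1.sub h2) x) (hu.diff x), pd_sub (h1.diff x) (h2.diff x),
    pd_logdet_hess hu hd, h3]
  simp only [hess_apply]
  ring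

end Vale.Agent.P227
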