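import Vale.Agent.P227.GradeDefs
import Vale.Agent.P227.MatDiff

/-! Closure properties of graded smooth families. -/

set_option linter.unusedSectionVars false
set_option linter.unusedVariables false

namespace Vale.Agent.P227

open scoped ContDiff
open MeasureTheory Set Filter Topology Matrix

variable {α ι : Type*} [Fintype ι] [DecidableEq ι] {G : Grading α ι} {r s R : ℕ}
  {f g : α → (ι → ℝ) → ℝ}

/-- Depth limited version of `DQ`. -/
def DQd (G : Grading α ι) (r j : ℕ) (g : α → (ι → ℝ) → ℝ) : Prop :=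
  (∀ a, Sm (g a)) ∧
    ∀ l : List ι, l.length ≤ j → (fun a => pds l (g a)) ∈ G.Q (r + l.length)

theorem DQd.mem {j : ℕ} (hg : DQd G r j g) : g ∈ G.Q r := hg.2 [] (Nat.zero_le _)

theorem DQd.anti {j j' : ℕ} (hg : DQd G r j' g) (h : j ≤ j') : DQd G r j g :=
  ⟨hg.1, fun l hl => hg.2 l (hl.trans h)⟩

theorem DQd.dpd {j : ℕ} (hg : DQd G r (j + 1) g) (i : ι) :
    DQd G (r + 1) j fun a => pd i (g a) := by
  refine ⟨fun a => (hg.1 a).pd i, fun l hl => ?_⟩
  have h := hg.2 (l ++ [i]) (by simpa using hl)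
  have e : r + (l ++ [i]).length = r + 1 + l.length := by simp; omega
  rw [e] at h
  have e2 : (fun a => pds (l ++ [i]) (g a)) = fun a => pds l (pd i (g a)) := by
    funext a; rw [pds_append]; rfl
  rwa [e2] at h

theorem DQd.zero (hs : ∀ a, Sm (g a)) (h0 : g ∈ G.Q r) : DQd G r 0 g := by
  refine ⟨hs, fun l hl => ?_⟩
  have : l = [] := List.length_eq_zero_iff.mp (Nat.le_zero.mp hl)
  subst this
  exact h0

theorem DQd.succ {j : ℕ} (hs : ∀ a, Sm (g a)) (h0 : g ∈ G.Q r)
    (h1 : ∀ i, DQd G (r + 1) j fun a => pd i (g a)) : DQd G r (j + 1) g := by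
  refine ⟨hs, fun l hl => ?_⟩
  cases l with
  | nil => exact h0
  | cons i l =>
    have h := (h1 i).2 l (by simpa using hl)
    have e : r + (i :: l).length = r + 1 + l.length := by simp; omega
    rw [e]
    have e2 : (fun a => pds (i :: l) (g a)) = fun a => pds l (pd i (g a)) := by
      funext a; rw [pds_pd (hs a)]; rfl
    rwa [e2]

theorem DQd.add {j : ℕ} (hf : DQd G r j f) (hg : DQd G r j g) :
    DQd G r j fun a x => f a x + g a x := by
  refine ⟨fun a => (hf.1 a).add (hg.1 a), fun l hl => ?_⟩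
  have e : (fun a => pds l fun x => f a x + g a x)
      = (fun a => pds l (f a)) + fun a => pds l (g a) := by
    funext a; rw [pds_add (hf.1 a) (hg.1 a)]; rfl
  rw [e]
  exact (G.Q _).add_mem (hf.2 l hl) (hg.2 l hl)

theorem DQd.neg {j : ℕ} (hf : DQd G r j f) : DQd G r j fun a x => -f a x := by
  refine ⟨fun a => (hf.1 a).neg, fun l hl => ?_⟩
  have e : (fun a => pds l fun x => -f a x) = -(fun a => pds l (f a)) := by
    funext a; rw [pds_neg]; rfl
  rw [e]
  exact (G.Q _).neg_mem (hf.2 l hl)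

theorem DQd.zero_fun {j : ℕ} : DQd G r j fun _ _ => (0 : ℝ) := by
  refine ⟨fun a => contDiff_const, fun l hl => ?_⟩
  have e : (fun _ : α => pds l fun _ : ι → ℝ => (0 : ℝ)) = 0 := by
    funext a; rw [pds_zero]; rfl
  rw [e]
  exact (G.Q _).zero_mem

theorem DQd.sum {j : ℕ} {κ : Type*} (s : Finset κ) {F : κ → α → (ι → ℝ) → ℝ}
    (hF : ∀ k ∈ s, DQd G r j (F k)) : DQd G r j fun a x => ∑ k ∈ s, F k a x := by
  classical
  induction s using Finset.induction_on with
  | empty => simpa using DQd.zero_fun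
  | insert k s hk ih =>
    simp only [Finset.sum_insert hk]
    exact (hF k (Finset.mem_insert_self _ _)).add
      (ih fun k' hk' => hF k' (Finset.mem_insert_of_mem hk'))

theorem DQd.congr {j : ℕ} (hf : DQd G r j f) (h : ∀ a x, g a x = f a x) : DQd G r j g := by
  have : g = f := by funext a x; exact h a x
  rwa [this]

theorem DQd.mul {j : ℕ} : ∀ {r s R : ℕ} {f g : α → (ι → ℝ) → ℝ}, DQd G r j f → DQd G s j g →
    r ≤ R → s ≤ R → r + s ≤ R + 3 → R + j ≤ G.K → DQd G R j fun a x => f a x * g a x := by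
  induction j with
  | zero =>
    intro r s R f g hf hg hr hs hrs hK
    exact DQd.zero (fun a => (hf.1 a).mul (hg.1 a)) (G.mul_mem hr hs hrs hK hf.mem hg.mem)
  | succ j ih =>
    intro r s R f g hf hg hr hs hrs hK
    refine DQd.succ (fun a => (hf.1 a).mul (hg.1 a))
      (G.mul_mem hr hs hrs (by omega) hf.mem hg.mem) fun i => ?_
    have h1 := ih (R := R + 1) (hf.dpd i) (hg.anti (Nat.le_succ j)) (by omega) (by omega)
      (by omega) (by omega)
    have h2 := ih (R := R + 1) (hf.anti (Nat.le_succ j)) (hg.dpd i) (by omega) (by omega)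
      (by omega) (by omega)
    exact (h1.add h2).congr fun a x => pd_mul ((hf.1 a).diff x) ((hg.1 a).diff x) i

theorem DQ.dqd (hg : DQ G r g) {j : ℕ} (hj : r + j ≤ G.K) : DQd G r j g :=
  ⟨hg.1, fun l hl => hg.2 l (by omega)⟩

theorem dq_of_dqd (hs : ∀ a, Sm (g a)) (h : ∀ j, r + j ≤ G.K → DQd G r j g) : DQ G r g :=
  ⟨hs, fun l hl => (h l.length hl).2 l le_rfl⟩

theorem DQ.congr (hf : DQ G r f) (h : ∀ a x, g a x = f a x) : DQ G r g := by
  have : g = f := by funext a x; exact h a x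
  rwa [this]

theorem DQ.mem (hg : DQ G r g) (hr : r ≤ G.K) : g ∈ G.Q r := hg.2 [] hr

theorem DQ.mono (hg : DQ G r g) (h : r ≤ s) : DQ G s g :=
  ⟨hg.1, fun l hl => G.mono (by omega) (hg.2 l (by omega))⟩

theorem DQ.pd (hg : DQ G r g) (i : ι) : DQ G (r + 1) fun a => pd i (g a) :=
  dq_of_dqd (fun a => (hg.1 a).pd i) fun j hj => (hg.dqd (j := j + 1) (by omega)).dpd i

theorem DQ.pds (hg : DQ G r g) (l : List ι) : DQ G (r + l.length) fun a => pds l (g a) := by
  induction l with
  | nil => exact hg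
  | cons i l ih => exact ih.pd i

theorem DQ.of_pd (hs : ∀ a, Sm (g a)) (h0 : r ≤ G.K → g ∈ G.Q r)
    (h1 : ∀ i, DQ G (r + 1) fun a => P227.pd i (g a)) : DQ G r g := by
  refine dq_of_dqd hs fun j hj => ?_
  cases j with
  | zero => exact DQd.zero hs (h0 hj)
  | succ j => exact DQd.succ hs (h0 (by omega)) fun i => (h1 i).dqd (by omega)

theorem DQ.add (hf : DQ G r f) (hg : DQ G r g) : DQ G r fun a x => f a x + g a x :=
  dq_of_dqd (fun a => (hf.1 a).add (hg.1 a)) fun j hj => (hf.dqd hj).add (hg.dqd hj)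

theorem DQ.sub (hf : DQ G r f) (hg : DQ G r g) : DQ G r fun a x => f a x - g a x :=
  dq_of_dqd (fun a => (hf.1 a).sub (hg.1 a)) fun j hj =>
    ((hf.dqd hj).add (hg.dqd hj).neg).congr fun a x => sub_eq_add_neg _ _

theorem DQ.neg (hf : DQ G r f) : DQ G r fun a x => -f a x :=
  dq_of_dqd (fun a => (hf.1 a).neg) fun j hj => (hf.dqd hj).neg

theorem DQ.const_mul (hf : DQ G r f) (c : ℝ) : DQ G r fun a x => c * f a x := by
  refine ⟨fun a => contDiff_const.mul (hf.1 a), fun l hl => ?_⟩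
  have e : (fun a => P227.pds l fun x => c * f a x) = c • (fun a => P227.pds l (f a)) := by
    funext a; rw [pds_const_mul (hf.1 a)]; rfl
  rw [e]
  exact (G.Q _).smul_mem c (hf.2 l hl)

theorem DQ.sum {κ : Type*} (s : Finset κ) {F : κ → α → (ι → ℝ) → ℝ}
    (hF : ∀ k ∈ s, DQ G r (F k)) : DQ G r fun a x => ∑ k ∈ s, F k a x :=
  dq_of_dqd (fun a => ContDiff.sum fun k hk => (hF k hk).1 a) fun j hj =>
    DQd.sum s fun k hk => (hF k hk).dqd hj

/-- Functions of the parameter only. -/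
theorem DQ.param {c : α → ℝ} (hc : r ≤ G.K → (fun a (_ : ι → ℝ) => c a) ∈ G.Q r) :
    DQ G r fun a _ => c a := by
  refine ⟨fun a => contDiff_const, fun l hl => ?_⟩
  cases l with
  | nil => exact hc hl
  | cons i l =>
    have e : (fun a : α => P227.pds (i :: l) fun _ : ι → ℝ => c a) = 0 := by
      funext a; rw [pds_const _ (List.cons_ne_nil i l)]; rfl
    rw [e]
    exact (G.Q _).zero_mem

theorem DQ.const (c : ℝ) : DQ G r fun _ _ => c := by
  refine DQ.param fun _ => ?_
  have h := (G.Q r).smul_mem c (G.mono (Nat.zero_le r) G.one_mem)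
  have e : (c • fun (_ : α) (_ : ι → ℝ) => (1 : ℝ)) = fun _ _ => c := by
    funext a x; simp
  rwa [e] at h

theorem DQ.mul (hf : DQ G r f) (hg : DQ G s g) (hr : r ≤ R) (hs : s ≤ R) (hrs : r + s ≤ R + 3) :
    DQ G R fun a x => f a x * g a x :=
  dq_of_dqd (fun a => (hf.1 a).mul (hg.1 a)) fun j hj =>
    (hf.dqd (by omega)).mul (hg.dqd (by omega)) hr hs hrs hj

/-- Commutator estimate. -/
theorem DQ.comm (hf : DQ G 2 f) (hg : DQ G 3 g) (l : List ι) (hl : l.length + 2 ≤ G.K) :
    (fun a x => P227.pds l (fun y => f a y * g a y) x - f a x * P227.pds l (g a) x)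
      ∈ G.Q (l.length + 2) := by
  have key : ∀ l : List ι, DQ G (l.length + 2)
      fun a x => P227.pds l (fun y => f a y * g a y) x - f a x * P227.pds l (g a) x := by
    intro l
    induction l with
    | nil => exact (DQ.const (G := G) 0).congr fun a x => by simp
    | cons i l ih =>
      have h1 := ih.pd i
      have h2 := (hf.pd i).mul (hg.pds l) (R := l.length + 2 + 1) (by omega) (by omega) (by omega)
      have e : (i :: l).length + 2 = l.length + 2 + 1 := by simp
      rw [e]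
      refine (h1.add h2).congr fun a x => ?_
      have s1 : Sm (P227.pds l fun y => f a y * g a y) := Sm.pds ((hf.1 a).mul (hg.1 a)) l
      have s2 : Sm (P227.pds l (g a)) := (hg.1 a).pds l
      have s3 : Sm fun y => f a y * P227.pds l (g a) y := (hf.1 a).mul s2
      rw [pd_sub (s1.diff x) (s3.diff x), pd_mul ((hf.1 a).diff x) (s2.diff x)]
      simp only [pds_cons]
      ring
  exact (key l).mem hl

/-- Composition. -/
theorem DQ.comp {κ : Type*} [Fintype κ] [DecidableEq κ] {Φ : α → (κ → ℝ) → ℝ}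
    {Y : α → (ι → ℝ) → κ → ℝ} (hΦ : ∀ a, Sm (Φ a)) (hY : ∀ a k, Sm fun x => Y a x k)
    (hY' : ∀ i k, DQ G 3 fun a => P227.pd i fun x => Y a x k)
    (hQ : ∀ m : List κ, m.length + 2 ≤ G.K → (fun a x => P227.pds m (Φ a) (Y a x)) ∈ G.Q 2) :
    DQ G 2 fun a x => Φ a (Y a x) := by
  have hsm : ∀ (m : List κ) a, Sm fun x => P227.pds m (Φ a) (Y a x) := fun m a =>
    ((hΦ a).pds m).comp_pi (hY a)
  have key : ∀ j, ∀ m : List κ, m.length + j + 2 ≤ G.K →
      DQd G 2 j fun a x => P227.pds m (Φ a) (Y a x) := by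
    intro j
    induction j with
    | zero => exact fun m hm => DQd.zero (hsm m) (hQ m hm)
    | succ j ih =>
      intro m hm
      refine DQd.succ (hsm m) (hQ m (by omega)) fun i => ?_
      have h : DQd G 3 j fun a x => ∑ k, P227.pds (k :: m) (Φ a) (Y a x)
          * P227.pd i (fun x => Y a x k) x :=
        DQd.sum _ fun k _ => (ih (k :: m) (by simp; omega)).mul ((hY' i k).dqd (by omega))
          (by omega) le_rfl (by omega) (by omega)
      exact h.congr fun a x => pd_comp (((hΦ a).pds m).diff _) (fun k => (hY a k).diff x) i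
  exact dq_of_dqd (hsm []) fun j hj => key j [] (by simp; omega)

/-- Composition with an outer function of one real variable. -/
theorem DQ.comp_real {φ : α → ℝ → ℝ} (hφ : ∀ a, ContDiff ℝ ∞ (φ a)) (hg : ∀ a, Sm (g a))
    (hg' : ∀ i, DQ G 3 fun a => P227.pd i (g a))
    (hQ : ∀ k, k + 2 ≤ G.K → (fun a x => iteratedDeriv k (φ a) (g a x)) ∈ G.Q 2) :
    DQ G 2 fun a x => φ a (g a x) := by
  have hφk : ∀ k a, ContDiff ℝ ∞ (iteratedDeriv k (φ a)) := fun k a => by
    rw [iteratedDeriv_eq_iterate]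
    exact (hφ a).iterate_deriv k
  have hsm : ∀ k a, Sm fun x => iteratedDeriv k (φ a) (g a x) := fun k a =>
    (hφk k a).comp (hg a)
  have key : ∀ j, ∀ k : ℕ, k + j + 2 ≤ G.K →
      DQd G 2 j fun a x => iteratedDeriv k (φ a) (g a x) := by
    intro j
    induction j with
    | zero => exact fun k hk => DQd.zero (hsm k) (hQ k hk)
    | succ j ih =>
      intro k hk
      refine DQd.succ (hsm k) (hQ k (by omega)) fun i => ?_
      have h : DQd G 3 j fun a x => iteratedDeriv (k + 1) (φ a) (g a x) * P227.pd i (g a) x :=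
        (ih (k + 1) (by omega)).mul ((hg' i).dqd (by omega)) (by omega) le_rfl (by omega)
          (by omega)
      refine h.congr fun a x => ?_
      rw [iteratedDeriv_succ]
      exact pd_comp_real (((hφk k a).differentiable (by simp)) _) ((hg a).diff x) i
  have h0 := dq_of_dqd (G := G) (r := 2) (hsm 0) fun j hj => key j 0 (by omega)
  simpa using h0

variable {n : ℕ} {h : α → (ι → ℝ) → Mat n}

theorem DQ.inv (hs : ∀ a i j, Sm fun x => h a x i j) (hd : ∀ a x, (h a x).det ≠ 0)
    (h' : ∀ k i j, DQ G 3 fun a => P227.pd k fun x => h a x i j)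
    (hQ : 2 ≤ G.K → ∀ i j, (fun a x => (h a x)⁻¹ i j) ∈ G.Q 2) (i j : Fin n) :
    DQ G 2 fun a x => (h a x)⁻¹ i j := by
  have hsm : ∀ i j a, Sm fun x => (h a x)⁻¹ i j := fun i j a => sm_inv (hs a) (hd a) i j
  have key : ∀ d, 2 + d ≤ G.K → ∀ i j, DQd G 2 d fun a x => (h a x)⁻¹ i j := by
    intro d
    induction d with
    | zero => exact fun hK i j => DQd.zero (hsm i j) (hQ hK i j)
    | succ d ih =>
      intro hK i j
      refine DQd.succ (hsm i j) (hQ (by omega) i j) fun k => ?_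
      have h1 : DQd G 3 d fun a x => ∑ q, (∑ p, (h a x)⁻¹ i p
          * P227.pd k (fun x => h a x p q) x) * (h a x)⁻¹ q j :=
        DQd.sum _ fun q _ => (DQd.sum _ fun p _ => (ih (by omega) i p).mul
          ((h' k p q).dqd (by omega)) (by omega) le_rfl (by omega) (by omega)).mul
          (ih (by omega) q j) le_rfl (by omega) (by omega) (by omega)
      refine h1.neg.congr fun a x => ?_
      rw [pd_inv (hs a) (hd a)]
      simp [Matrix.mul_apply]
  exact dq_of_dqd (hsm i j) fun d hd' => key d hd' i j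

theorem DQ.pd_logdet (hs : ∀ a i j, Sm fun x => h a x i j) (hd : ∀ a x, 0 < (h a x).det)
    (h' : ∀ k i j, DQ G 3 fun a => P227.pd k fun x => h a x i j)
    (hQ : 2 ≤ G.K → ∀ i j, (fun a x => (h a x)⁻¹ i j) ∈ G.Q 2) (k : ι) :
    DQ G 3 fun a => P227.pd k fun x => Real.log (h a x).det := by
  have h1 : DQ G 3 fun a x => ∑ i, ∑ p, (h a x)⁻¹ i p * P227.pd k (fun x => h a x p i) x :=
    DQ.sum _ fun i _ => DQ.sum _ fun p _ =>
      (DQ.inv hs (fun a x => (hd a x).ne') h' hQ i p).mul (h' k p i) (by omega) le_rfl (by omega)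
  refine h1.congr fun a x => ?_
  rw [P227.pd_logdet (hs a) (hd a)]
  simp [Matrix.trace, Matrix.mul_apply]

theorem DQ.logdet (hs : ∀ a i j, Sm fun x => h a x i j) (hd : ∀ a x, 0 < (h a x).det)
    (h' : ∀ k i j, DQ G 3 fun a => P227.pd k fun x => h a x i j)
    (hQ : 2 ≤ G.K → ∀ i j, (fun a x => (h a x)⁻¹ i j) ∈ G.Q 2)
    (hL : 2 ≤ G.K → (fun a x => Real.log (h a x).det) ∈ G.Q 2) :
    DQ G 2 fun a x => Real.log (h a x).det :=
  DQ.of_pd (fun a => sm_logdet (hs a) (hd a)) hL fun k => DQ.pd_logdet hs hd h' hQ k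

end Vale.Agent.P227
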