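import Vale.Agent.P227.Calc

/-! Gradings and the classes of smooth families they define (proved, no gaps). -/

set_option linter.unusedSectionVars false
set_option linter.unusedVariables false

namespace Vale.Agent.P227

open scoped ContDiff
open MeasureTheory Set Filter Topology Matrix

/-- A filtration of families of functions, multiplicative in the range needed for Moser type
estimates: a product of an order `r` term and an order `s` term has order `R` as soon as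
`r, s ≤ R` and `r + s ≤ R + 3`. -/
structure Grading (α ι : Type*) [Fintype ι] [DecidableEq ι] where
  K : ℕ
  Q : ℕ → Submodule ℝ (α → (ι → ℝ) → ℝ)
  mono : ∀ {r s : ℕ}, r ≤ s → Q r ≤ Q s
  one_mem : (fun _ _ => (1 : ℝ)) ∈ Q 0
  mul_mem : ∀ {r s R : ℕ} {f g : α → (ι → ℝ) → ℝ}, r ≤ R → s ≤ R → r + s ≤ R + 3 → R ≤ K →
    f ∈ Q r → g ∈ Q s → (fun a x => f a x * g a x) ∈ Q R

variable {α ι : Type*} [Fintype ι] [DecidableEq ι]

/-- `g` behaves like a derivative of order `r`: each further derivative raises the order by one. -/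
def DQ (G : Grading α ι) (r : ℕ) (g : α → (ι → ℝ) → ℝ) : Prop :=
  (∀ a, Sm (g a)) ∧
    ∀ l : List ι, r + l.length ≤ G.K → (fun a => pds l (g a)) ∈ G.Q (r + l.length)

/-- All derivatives of the family lie in the subalgebra `S`. -/
def DS (S : Subalgebra ℝ (α → (ι → ℝ) → ℝ)) (g : α → (ι → ℝ) → ℝ) : Prop :=
  (∀ a, Sm (g a)) ∧ ∀ l : List ι, (fun a => pds l (g a)) ∈ S

/-- The trivial grading of a subalgebra, cut off at order `K`. -/
def Grading.ofSub (S : Subalgebra ℝ (α → (ι → ℝ) → ℝ)) (K : ℕ) : Grading α ι where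
  K := K
  Q := fun _ => Subalgebra.toSubmodule S
  mono := fun _ => le_rfl
  one_mem := S.one_mem
  mul_mem := fun _ _ _ _ hf hg => S.mul_mem hf hg

@[simp] theorem Grading.ofSub_K (S : Subalgebra ℝ (α → (ι → ℝ) → ℝ)) (K : ℕ) :
    (Grading.ofSub S K).K = K := rfl

@[simp] theorem Grading.mem_ofSub {S : Subalgebra ℝ (α → (ι → ℝ) → ℝ)} {K r : ℕ}
    {f : α → (ι → ℝ) → ℝ} : f ∈ (Grading.ofSub S K).Q r ↔ f ∈ S := Iff.rfl

/-- Families dominated by a weight. -/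
def domBy (w : α → (ι → ℝ) → ℝ) (hw : ∀ a x, 0 ≤ w a x) : Submodule ℝ (α → (ι → ℝ) → ℝ) where
  carrier := {f | ∃ C, ∀ a x, |f a x| ≤ C * w a x}
  add_mem' := by
    rintro f g ⟨C, hC⟩ ⟨D, hD⟩
    refine ⟨C + D, fun a x => ?_⟩
    have := abs_add_le (f a x) (g a x)
    have h1 := hC a x
    have h2 := hD a x
    simp only [Pi.add_apply]
    linarith
  zero_mem' := ⟨0, fun a x => by simp⟩
  smul_mem' := by
    rintro c f ⟨C, hC⟩
    refine ⟨|c| * C, fun a x => ?_⟩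
    simp only [Pi.smul_apply, smul_eq_mul, abs_mul, mul_assoc]
    exact mul_le_mul_of_nonneg_left (hC a x) (abs_nonneg c)

/-- The grading defined by submultiplicative weights. -/
def Grading.ofWeight (K : ℕ) (w : ℕ → α → (ι → ℝ) → ℝ) (h1 : ∀ r a x, 1 ≤ w r a x)
    (hmono : ∀ r s, r ≤ s → ∀ a x, w r a x ≤ w s a x)
    (hmul : ∀ r s R, r ≤ R → s ≤ R → r + s ≤ R + 3 → R ≤ K →
      ∀ a x, w r a x * w s a x ≤ w R a x) : Grading α ι where
  K := K
  Q := fun r => domBy (w r) fun a x => zero_le_one.trans (h1 r a x)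
  mono := by
    rintro r s hrs f ⟨C, hC⟩
    refine ⟨|C|, fun a x => (hC a x).trans ?_⟩
    have h0 : 0 ≤ w r a x := zero_le_one.trans (h1 r a x)
    calc C * w r a x ≤ |C| * w r a x := mul_le_mul_of_nonneg_right (le_abs_self C) h0
      _ ≤ |C| * w s a x := mul_le_mul_of_nonneg_left (hmono r s hrs a x) (abs_nonneg C)
  one_mem := ⟨1, fun a x => by simpa using h1 0 a x⟩
  mul_mem := by
    rintro r s R f g hr hs hrs hR ⟨C, hC⟩ ⟨D, hD⟩
    refine ⟨|C| * |D|, fun a x => ?_⟩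
    have h0 : 0 ≤ w r a x := zero_le_one.trans (h1 r a x)
    have h0' : 0 ≤ w s a x := zero_le_one.trans (h1 s a x)
    have e1 : |f a x| ≤ |C| * w r a x :=
      (hC a x).trans (mul_le_mul_of_nonneg_right (le_abs_self C) h0)
    have e2 : |g a x| ≤ |D| * w s a x :=
      (hD a x).trans (mul_le_mul_of_nonneg_right (le_abs_self D) h0')
    calc |f a x * g a x| = |f a x| * |g a x| := abs_mul _ _
      _ ≤ (|C| * w r a x) * (|D| * w s a x) :=
        mul_le_mul e1 e2 (abs_nonneg _) (mul_nonneg (abs_nonneg C) h0)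
      _ = (|C| * |D|) * (w r a x * w s a x) := by ring
      _ ≤ (|C| * |D|) * w R a x :=
        mul_le_mul_of_nonneg_left (hmul r s R hr hs hrs hR a x) (by positivity)

@[simp] theorem Grading.ofWeight_K (K : ℕ) (w : ℕ → α → (ι → ℝ) → ℝ) (h1 hmono hmul) :
    (Grading.ofWeight K w h1 hmono hmul).K = K := rfl

@[simp] theorem Grading.mem_ofWeight {K r : ℕ} {w : ℕ → α → (ι → ℝ) → ℝ} {h1 hmono hmul}
    {f : α → (ι → ℝ) → ℝ} :
    f ∈ (Grading.ofWeight K w h1 hmono hmul).Q r ↔ ∃ C, ∀ a x, |f a x| ≤ C * w r a x := Iff.rfl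

/-- Families that are eventually (along `F`) uniformly bounded. -/
def Qb (F : Filter α) : Subalgebra ℝ (α → (ι → ℝ) → ℝ) where
  carrier := {f | ∃ C, ∀ᶠ a in F, ∀ x, |f a x| ≤ C}
  mul_mem' := by
    rintro f g ⟨C, hC⟩ ⟨D, hD⟩
    refine ⟨C * D, ?_⟩
    filter_upwards [hC, hD] with a h1 h2 x
    simp only [Pi.mul_apply, abs_mul]
    exact mul_le_mul (h1 x) (h2 x) (abs_nonneg _) ((abs_nonneg _).trans (h1 x))
  add_mem' := by
    rintro f g ⟨C, hC⟩ ⟨D, hD⟩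
    refine ⟨C + D, ?_⟩
    filter_upwards [hC, hD] with a h1 h2 x
    have := abs_add_le (f a x) (g a x)
    simp only [Pi.add_apply]
    linarith [h1 x, h2 x]
  algebraMap_mem' := fun r => ⟨|r|, Eventually.of_forall fun a x => by simp⟩

theorem mem_Qb {F : Filter α} {f : α → (ι → ℝ) → ℝ} :
    f ∈ Qb F ↔ ∃ C, ∀ᶠ a in F, ∀ x, |f a x| ≤ C := Iff.rfl

theorem mem_Qb_top {f : α → (ι → ℝ) → ℝ} : f ∈ Qb ⊤ ↔ ∃ C, ∀ a x, |f a x| ≤ C := by
  simp [mem_Qb]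

/-- Jointly continuous families. -/
def Qc : Subalgebra ℝ (ℝ → (ι → ℝ) → ℝ) where
  carrier := {f | Continuous fun p : ℝ × (ι → ℝ) => f p.1 p.2}
  mul_mem' := fun hf hg => Continuous.mul hf hg
  add_mem' := fun hf hg => Continuous.add hf hg
  algebraMap_mem' := fun _ => continuous_const

theorem mem_Qc {f : ℝ → (ι → ℝ) → ℝ} :
    f ∈ Qc ↔ Continuous fun p : ℝ × (ι → ℝ) => f p.1 p.2 := Iff.rfl

/-- Uniformly polynomially bounded families. -/
def Qp : Subalgebra ℝ (α → (ι → ℝ) → ℝ) where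
  carrier := {f | ∃ (C : ℝ) (N : ℕ), ∀ a x, |f a x| ≤ C * (1 + ‖x‖) ^ N}
  mul_mem' := by
    rintro f g ⟨C, N, hC⟩ ⟨D, M, hD⟩
    refine ⟨C * D, N + M, fun a x => ?_⟩
    simp only [Pi.mul_apply, abs_mul]
    calc |f a x| * |g a x| ≤ (C * (1 + ‖x‖) ^ N) * (D * (1 + ‖x‖) ^ M) :=
          mul_le_mul (hC a x) (hD a x) (abs_nonneg _) ((abs_nonneg _).trans (hC a x))
      _ = C * D * (1 + ‖x‖) ^ (N + M) := by ring
  add_mem' := by
    rintro f g ⟨C, N, hC⟩ ⟨D, M, hD⟩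
    refine ⟨|C| + |D|, N + M, fun a x => ?_⟩
    have h1 : (1 : ℝ) ≤ 1 + ‖x‖ := by linarith [norm_nonneg x]
    have e1 : (1 + ‖x‖) ^ N ≤ (1 + ‖x‖) ^ (N + M) := pow_le_pow_right₀ h1 (by omega)
    have e2 : (1 + ‖x‖) ^ M ≤ (1 + ‖x‖) ^ (N + M) := pow_le_pow_right₀ h1 (by omega)
    have p1 : 0 ≤ (1 + ‖x‖) ^ N := by positivity
    have p2 : 0 ≤ (1 + ‖x‖) ^ M := by positivity
    have := abs_add_le (f a x) (g a x)
    have f1 : C * (1 + ‖x‖) ^ N ≤ |C| * (1 + ‖x‖) ^ (N + M) :=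
      (mul_le_mul_of_nonneg_right (le_abs_self C) p1).trans
        (mul_le_mul_of_nonneg_left e1 (abs_nonneg C))
    have f2 : D * (1 + ‖x‖) ^ M ≤ |D| * (1 + ‖x‖) ^ (N + M) :=
      (mul_le_mul_of_nonneg_right (le_abs_self D) p2).trans
        (mul_le_mul_of_nonneg_left e2 (abs_nonneg D))
    simp only [Pi.add_apply]
    linarith [hC a x, hD a x]
  algebraMap_mem' := fun r => ⟨|r|, 0, fun a x => by simp⟩

theorem mem_Qp {f : α → (ι → ℝ) → ℝ} :
    f ∈ Qp ↔ ∃ (C : ℝ) (N : ℕ), ∀ a x, |f a x| ≤ C * (1 + ‖x‖) ^ N := Iff.rfl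

theorem jc_iff {f : ℝ → (ι → ℝ) → ℝ} : JC f ↔ DS Qc f := Iff.rfl

theorem pgf_iff {f : α → (ι → ℝ) → ℝ} : PGF f ↔ DS Qp f := Iff.rfl

theorem pg_iff {f : (ι → ℝ) → ℝ} : PG f ↔ DS Qp (fun _ : Unit => f) := by
  simp [PG, DS, mem_Qp]

theorem bs_iff {f : (ι → ℝ) → ℝ} : BS f ↔ DS (Qb ⊤) (fun _ : Unit => f) := by
  simp [BS, DS, mem_Qb_top]

theorem ds_Qb_top_iff {f : α → (ι → ℝ) → ℝ} :
    DS (Qb ⊤) f ↔ (∀ a, Sm (f a)) ∧ ∀ l : List ι, ∃ C, ∀ a x, |pds l (f a) x| ≤ C := by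
  simp [DS, mem_Qb_top]

theorem ds_iff_dq {S : Subalgebra ℝ (α → (ι → ℝ) → ℝ)} {g : α → (ι → ℝ) → ℝ} (r : ℕ) :
    DS S g ↔ ∀ K, DQ (Grading.ofSub S K) r g :=
  ⟨fun h K => ⟨h.1, fun l _ => h.2 l⟩,
    fun h => ⟨(h 0).1, fun l => (h (r + l.length)).2 l le_rfl⟩⟩

end Vale.Agent.P227
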