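import Vale.Agent.P227.Ding
import Vale.Agent.P227.ULim

/-! Existence of the smooth moment potential. -/

set_option linter.unusedSectionVars false
set_option linter.unusedVariables false

namespace Vale.Agent.P227

open scoped ContDiff
open MeasureTheory Set Filter Topology Matrix

variable {n : ℕ} {V : X n → ℝ}

theorem ke_phi_ge {a s : ℝ} (ha : 0 ≤ a) (hs : a ≤ |s|) :
    a * (1 - Real.exp (-a)) ≤ s * (Real.exp s - 1) := by
  have h1 := Real.add_one_le_exp (-a)
  have h2 : Real.exp (-a) ≤ 1 := Real.exp_le_one_iff.2 (by linarith)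
  rcases le_abs.1 hs with h | h
  · have h3 := Real.add_one_le_exp s
    exact mul_le_mul h (by linarith) (by linarith) (by linarith)
  · have h3 : Real.exp s ≤ Real.exp (-a) := Real.exp_le_exp.2 (by linarith)
    have : a * (1 - Real.exp (-a)) ≤ -s * (1 - Real.exp s) :=
      mul_le_mul h (by linarith) (by linarith) (by linarith)
    linarith

theorem ke_phi_nonneg (s : ℝ) : 0 ≤ s * (Real.exp s - 1) := by
  simpa using ke_phi_ge le_rfl (abs_nonneg s)

/-- Locally equi-Lipschitz functions with vanishing symmetric entropy tend to zero. -/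
theorem tendsto_zero_of_entropy (hV : Continuous V) {ψ : ℕ → X n → ℝ}
    (hl : ∀ x, ∃ C, ∀ m y, ‖y - x‖ ≤ 1 → |ψ m y - ψ m x| ≤ C * ‖y - x‖)
    (hi : ∀ m, Integrable fun x => ψ m x * (Real.exp (ψ m x) - 1) * Real.exp (-V x))
    (h0 : Tendsto (fun m => ∫ x, ψ m x * (Real.exp (ψ m x) - 1) * Real.exp (-V x)) atTop (𝓝 0))
    (x : X n) : Tendsto (fun m => ψ m x) atTop (𝓝 0) := by
  obtain ⟨C, hC⟩ := hl x
  rw [Metric.tendsto_nhds]
  intro ε hε
  set r : ℝ := min 1 (ε / 2 / (|C| + 1)) with hr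
  have hr0 : 0 < r := lt_min one_pos (by positivity)
  set δ : ℝ := ε / 2 * (1 - Real.exp (-(ε / 2))) with hδ
  have hδ0 : 0 < δ := mul_pos (by positivity)
    (sub_pos.2 (Real.exp_lt_one_iff.2 (by linarith)))
  have hint : IntegrableOn (fun y => Real.exp (-V y)) (Metric.closedBall x r) :=
    (Real.continuous_exp.comp hV.neg).continuousOn.integrableOn_compact
      (isCompact_closedBall x r)
  have : NeZero (volume.restrict (Metric.closedBall x r)) :=
    ⟨fun h => (Metric.measure_closedBall_pos volume x hr0).ne' (Measure.restrict_eq_zero.1 h)⟩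
  have hpos : 0 < δ * ∫ y in Metric.closedBall x r, Real.exp (-V y) :=
    mul_pos hδ0 (MeasureTheory.integral_exp_pos hint)
  filter_upwards [h0.eventually (gt_mem_nhds hpos)] with m hm
  rw [Real.dist_eq, sub_zero]
  by_contra hc
  refine absurd hm (not_lt.2 ?_)
  rw [← integral_const_mul]
  refine le_trans (setIntegral_mono_on (hint.const_mul δ) (hi m).integrableOn
    measurableSet_closedBall fun y hy => ?_) (setIntegral_le_integral (hi m)
      (ae_of_all _ fun y => mul_nonneg (ke_phi_nonneg _) (Real.exp_pos _).le))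
  refine mul_le_mul_of_nonneg_right (ke_phi_ge (by positivity) ?_) (Real.exp_pos _).le
  rw [Metric.mem_closedBall, dist_eq_norm] at hy
  have h1 := hC m y (hy.trans (min_le_left _ _))
  have h2 : ‖y - x‖ * (|C| + 1) ≤ ε / 2 :=
    (le_div_iff₀ (by positivity)).1 (hy.trans (min_le_right _ _))
  have h3 : C * ‖y - x‖ ≤ |C| * ‖y - x‖ :=
    mul_le_mul_of_nonneg_right (le_abs_self C) (norm_nonneg _)
  have h4 := abs_sub_abs_le_abs_sub (ψ m x) (ψ m y)
  rw [abs_sub_comm] at h4
  nlinarith [norm_nonneg (y - x), not_lt.1 hc]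

theorem PGF.ke_local {α : Type*} {F : α → X n → ℝ} (hF : PGF F) (l : List (Fin n)) (x : X n) :
    ∃ C, ∀ a y, ‖y - x‖ ≤ 1 → |pds l (F a) y| ≤ C := by
  obtain ⟨C, N, h⟩ := hF.2 l
  refine ⟨|C| * (2 + ‖x‖) ^ N, fun a y hy => (h a y).trans ?_⟩
  have h1 : ‖y‖ ≤ ‖y - x‖ + ‖x‖ := by simpa using norm_add_le (y - x) x
  exact mul_le_mul (le_abs_self C) (pow_le_pow_left₀ (by positivity) (by linarith) N)
    (by positivity) (abs_nonneg _)

theorem PGF.ke_lip {α : Type*} {F : α → X n → ℝ} (hF : PGF F) (x : X n) :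
    ∃ C, ∀ a y, ‖y - x‖ ≤ 1 → |F a y - F a x| ≤ C * ‖y - x‖ := by
  choose C hC using fun i : Fin n => hF.ke_local [i] x
  refine ⟨Fintype.card (Fin n) * ∑ i, |C i|, fun a y hy => ?_⟩
  refine abs_sub_le_of_pd (hF.1 a).diff (ρ := 1) (fun i z hz => ?_) hy
  exact ((hC i a z hz).trans (le_abs_self _)).trans
    (Finset.single_le_sum (f := fun i => |C i|) (fun _ _ => abs_nonneg _) (Finset.mem_univ i))

theorem ke_pds_sub {f : X n → ℝ} (hf : Sm f) (c : ℝ) {l : List (Fin n)} (hl : l ≠ []) :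
    pds l (fun y => f y - c) = pds l f := by
  rw [pds_sub hf contDiff_const, pds_const c hl]
  simp

theorem ke_hess_sub {f : X n → ℝ} (hf : Sm f) (c : ℝ) (x : X n) :
    hess (fun y => f y - c) x = hess f x := by
  ext i j
  exact congrFun (ke_pds_sub hf c (l := [i, j]) (by simp)) x

theorem ke_nop_sub {f : X n → ℝ} (hf : Sm f) (c : ℝ) (x : X n) :
    Nop V (fun y => f y - c) x = Nop V f x - c := by
  have h : ∀ i, pd i (fun y => f y - c) = pd i f := fun i =>
    ke_pds_sub hf c (l := [i]) (by simp)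
  simp only [Nop, ke_hess_sub hf, h]
  ring

theorem exists_ke (hV : Pot V) : ∃ u, KEPair V u ∧ Ev u := by
  obtain ⟨c, hc, M, hap⟩ := apriori hV
  obtain ⟨C, hd⟩ := ding hV
  choose u hu hu0 using fun m : ℕ => exists_nsol hV (m + 1)
  choose t ht κ hi hle using fun m : ℕ => hd (m + 1) (u m) (by positivity) (hu m) (hu0 m)
  have hsm : ∀ m, Sm (u m (t m)) := fun m => (hu m).sol.jc.1 _
  let w : ℕ → X n → ℝ := fun m x => u m (t m) x - u m (t m) 0
  have hw : ∀ m, Sm (w m) := fun m => (hsm m).sub contDiff_const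
  have hwe : ∀ m, Ev (w m) := fun m x => by simp only [w, (hu m).sol.ev _ x]
  have hwb : ∀ l : List (Fin n), 2 ≤ l.length → ∀ m x, |pds l (w m) x| ≤ M l.length := by
    intro l hl m x
    rw [ke_pds_sub (hsm m) _ (by rintro rfl; simp at hl)]
    exact (hap _ _ (hu m) (hu0 m) _ (ht m)).2 l hl x
  have hwl : ∀ m x, LB c (hess (w m) x) := fun m x => by
    rw [ke_hess_sub (hsm m)]
    exact (hap _ _ (hu m) (hu0 m) _ (ht m)).1 x
  have hp : PGF w := pgf_of_bdd hw hwe ⟨0, fun m => by simp [w]⟩ fun l hl => ⟨_, hwb l hl⟩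
  have hpn : PGF fun m => Nop V (w m) := pgf_nop hc hV.v2.pg hp (fun l hl => ⟨_, hwb l hl⟩) hwl
  have hdiff : ∀ m x y, Nop V (w m) y - Nop V (w m) x =
      (Nop V (u m (t m)) y - κ m) - (Nop V (u m (t m)) x - κ m) := fun m x y => by
    rw [ke_nop_sub (hsm m), ke_nop_sub (hsm m)]
    ring
  have hψ : ∀ x, Tendsto (fun m => Nop V (u m (t m)) x - κ m) atTop (𝓝 0) := by
    refine tendsto_zero_of_entropy hV.v2.1.cont (fun x => ?_) hi ?_
    · obtain ⟨K, hK⟩ := hpn.ke_lip x
      exact ⟨K, fun m y hy => by rw [← hdiff]; exact hK m y hy⟩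
    · refine squeeze_zero (fun m => integral_nonneg fun y =>
        mul_nonneg (ke_phi_nonneg _) (Real.exp_pos _).le) hle ?_
      exact tendsto_const_nhds.div_atTop (tendsto_natCast_atTop_atTop.atTop_add tendsto_const_nhds)
  obtain ⟨g, hg, hlim⟩ := exists_ulim (hyperfilter ℕ) hw fun l x => by
    obtain ⟨K, hK⟩ := hp.ke_local l x
    exact ⟨K, Eventually.of_forall hK⟩
  have hgl : ∀ x, LB c (hess g x) := fun x ξ => by
    refine ge_of_tendsto' (f := fun m => qf (hess (w m) x) ξ) (x := hyperfilter ℕ) ?_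
      fun m => hwl m x ξ
    exact tendsto_finsetSum _ fun i _ => tendsto_finsetSum _ fun j _ =>
      ((hlim [i, j] x).mul_const _).mul_const _
  have hdet : ∀ x, 0 < (hess g x).det := fun x => (hgl x).det_pos hc (hess_isSymm hg x)
  have hN : ∀ x, Tendsto (fun m => Nop V (w m) x) (hyperfilter ℕ) (𝓝 (Nop V g x)) := fun x =>
    (((tendsto_logdet (fun i j => hlim [i, j] x) (hdet x).ne').sub
      (tendsto_finsetSum _ fun i _ => (hlim [i] x).const_mul _)).add (hlim [] x)).add_const _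
  have hconst : Nop V g = fun _ => Nop V g 0 := by
    funext x
    have h1 := (hN x).sub (hN 0)
    simp only [hdiff] at h1
    have h2 := ((hψ x).sub (hψ 0)).mono_left Nat.hyperfilter_le_atTop
    have h3 := tendsto_nhds_unique h1 h2
    linarith
  refine ⟨g, ⟨hV.v2.pg, hV.coer, ⟨hg, fun l hl => ⟨M l.length, fun x => ?_⟩⟩, ⟨c, hc, hgl⟩,
    fun x k => ?_⟩, fun x => ?_⟩
  · exact le_of_tendsto' (hlim l x).abs fun m => hwb l hl m x
  · have h := pd_nop hV.v2.1 hg hdet k x
    rw [hconst, pd_const] at h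
    linarith
  · have h1 := hlim [] (-x)
    simp only [pds_nil, hwe _ x] at h1
    exact tendsto_nhds_unique h1 (hlim [] x)

end Vale.Agent.P227
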