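import Vale.Agent.P227.Defs

/-! Support functions of symmetric bodies. -/

set_option linter.unusedSectionVars false
set_option linter.unusedVariables false

namespace Vale.Agent.P227

open scoped ContDiff
open MeasureTheory Set Filter Topology Matrix

open scoped RealInnerProductSpace

variable {n : ℕ} {K : Set (EuclideanSpace ℝ (Fin n))}

theorem IsSymmBody.inner_le (hK : IsSymmBody K) {x : EuclideanSpace ℝ (Fin n)} (hx : x ∈ K)
    (u : EuclideanSpace ℝ (Fin n)) : ⟪x, u⟫ ≤ supp K u :=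
  le_csSup (hK.1.image (by fun_prop)).bddAbove ⟨x, hx, rfl⟩

theorem IsSymmBody.abs_inner_le (hK : IsSymmBody K) {x : EuclideanSpace ℝ (Fin n)} (hx : x ∈ K)
    (u : EuclideanSpace ℝ (Fin n)) : |⟪x, u⟫| ≤ supp K u := by
  have h1 := hK.inner_le hx u
  have h2 := hK.inner_le (hK.2.2.2 x hx) u
  rw [inner_neg_left] at h2
  exact abs_le.2 ⟨by linarith, h1⟩

theorem IsSymmBody.supp_pos (hK : IsSymmBody K) {u : EuclideanSpace ℝ (Fin n)} (hu : u ≠ 0) :
    0 < supp K u := by
  obtain ⟨x, hx⟩ := hK.2.2.1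
  obtain ⟨r, hr, hb⟩ := Metric.mem_nhds_iff.1 (mem_interior_iff_mem_nhds.1 hx)
  have hu0 : 0 < ‖u‖ := norm_pos_iff.2 hu
  have hy : x + (r / 2 / ‖u‖) • u ∈ K := by
    refine hb ?_
    rw [mem_ball_iff_norm, add_sub_cancel_left, norm_smul, Real.norm_of_nonneg (by positivity),
      div_mul_cancel₀ _ hu0.ne']
    linarith
  have h1 := hK.inner_le hy u
  have h2 := abs_le.1 (hK.abs_inner_le (interior_subset hx) u)
  rw [inner_add_left, real_inner_smul_left, real_inner_self_eq_norm_sq] at h1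
  have h3 : 0 < r / 2 / ‖u‖ * ‖u‖ ^ 2 := by positivity
  linarith [h2.1]

theorem IsSymmBody.continuous_supp (hK : IsSymmBody K) : Continuous (supp K) :=
  hK.1.continuous_sSup (f := fun u x : EuclideanSpace ℝ (Fin n) => ⟪x, u⟫)
    (continuous_snd.inner continuous_fst)

theorem isClosed_wulff (f : EuclideanSpace ℝ (Fin n) → ℝ) : IsClosed (wulff f) :=
  isClosed_biInter fun _ _ => isClosed_le (by fun_prop) continuous_const

/-- A dense sequence of directions cuts out the Wulff shape. -/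
theorem exists_dirs (hn : 1 ≤ n) : ∃ e : ℕ → EuclideanSpace ℝ (Fin n), (∀ j, ‖e j‖ = 1) ∧
    ∀ f : EuclideanSpace ℝ (Fin n) → ℝ, ContinuousOn f (Metric.sphere 0 1) →
      ∀ x, (∀ j, ⟪x, e j⟫ ≤ f (e j)) → x ∈ wulff f := by
  have : Nonempty (Fin n) := ⟨⟨0, hn⟩⟩
  have hne : Nonempty (Metric.sphere (0 : EuclideanSpace ℝ (Fin n)) 1) :=
    (NormedSpace.sphere_nonempty.2 zero_le_one).to_subtype
  obtain ⟨e, he⟩ := TopologicalSpace.exists_dense_seq
    (Metric.sphere (0 : EuclideanSpace ℝ (Fin n)) 1)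
  refine ⟨fun j => e j, fun j => norm_eq_of_mem_sphere (e j), fun f hf x hx => ?_⟩
  refine mem_biInter fun u hu => ?_
  exact he.induction_on (p := fun v => ⟪x, (v : EuclideanSpace ℝ (Fin n))⟫ ≤ f v) ⟨u, hu⟩
    (isClosed_le (by fun_prop) hf.domRestrict) hx

end Vale.Agent.P227
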