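import Vale.Agent.P227.Poly
import Vale.Agent.P227.Supp

/-! The logarithmic Brunn-Minkowski inequality. -/

set_option linter.unusedSectionVars false
set_option linter.unusedVariables false

namespace Vale.Agent.P227

open scoped ContDiff
open MeasureTheory Set Filter Topology Matrix

open scoped RealInnerProductSpace in
theorem main_gauss {n : ℕ} (hn : 1 ≤ n) {K L : Set (EuclideanSpace ℝ (Fin n))} (hK : IsSymmBody K)
    (hL : IsSymmBody L) {t : ℝ} (ht0 : 0 ≤ t) (ht1 : t ≤ 1) {ε : ℝ} (hε : 0 < ε) :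
    (∫ x in WithLp.toLp 2 ⁻¹' K, Real.exp (-(ε / 2 * nsq x))) ^ (1 - t)
        * (∫ x in WithLp.toLp 2 ⁻¹' L, Real.exp (-(ε / 2 * nsq x))) ^ t
      ≤ ∫ x in WithLp.toLp 2 ⁻¹' (wulff fun u => supp K u ^ (1 - t) * supp L u ^ t),
        Real.exp (-(ε / 2 * nsq x)) := by
  obtain ⟨e, he, hw⟩ := exists_dirs hn
  have he0 : ∀ j, e j ≠ 0 := fun j h => by simpa [h] using he j
  have pK := fun j => hK.supp_pos (he0 j)
  have pL := fun j => hL.supp_pos (he0 j)
  have hg : Integrable fun x : X n => Real.exp (-(ε / 2 * nsq x)) := by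
    simpa using integrable_gauss_poly (n := n) (half_pos hε) 0
  have hg0 : ∀ x : X n, 0 ≤ Real.exp (-(ε / 2 * nsq x)) := fun x => (Real.exp_pos _).le
  have key : ∀ j (s : ℝ) (x : X n), |dot (fun i => (e j).ofLp i / supp K (e j)) x| ≤
      Real.exp (Real.log (supp L (e j) / supp K (e j)) * s) ↔
      |⟪WithLp.toLp 2 x, e j⟫| ≤ supp K (e j) ^ (1 - s) * supp L (e j) ^ s := by
    intro j s x
    have e1 : dot (fun i => (e j).ofLp i / supp K (e j)) x =
        ⟪WithLp.toLp 2 x, e j⟫ / supp K (e j) := by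
      simp only [dot, PiLp.inner_apply, Finset.sum_div, RCLike.inner_apply, conj_trivial]
      exact Finset.sum_congr rfl fun i _ => by ring
    have e2 : Real.exp (Real.log (supp L (e j) / supp K (e j)) * s) * supp K (e j) =
        supp K (e j) ^ (1 - s) * supp L (e j) ^ s := by
      rw [← Real.rpow_def_of_pos (div_pos (pL j) (pK j)), Real.div_rpow (pL j).le (pK j).le,
        Real.rpow_sub (pK j), Real.rpow_one]
      ring
    rw [e1, abs_div, abs_of_pos (pK j), div_le_iff₀ (pK j), e2]
  set P : ℕ → ℝ → Set (X n) := fun m s => {x | ∀ j : Fin m,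
    |⟪WithLp.toLp 2 x, e j⟫| ≤ supp K (e j) ^ (1 - s) * supp L (e j) ^ s} with hP
  have hm : ∀ m, MeasurableSet (P m t) := fun m => by
    refine IsClosed.measurableSet ?_
    simp only [hP, setOf_forall]
    exact isClosed_iInter fun j => isClosed_le (by fun_prop) continuous_const
  have hanti : Antitone fun m => P m t := fun m m' h x hx j => hx (j.castLE h)
  have hlim := tendsto_setIntegral_of_antitone (μ := volume) hm hanti ⟨0, hg.integrableOn⟩
  refine (ge_of_tendsto' hlim fun m => ?_).trans (setIntegral_mono_set hg.integrableOn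
    (Eventually.of_forall hg0) (HasSubset.Subset.eventuallyLE fun x hx => ?_))
  · refine le_trans ?_ (poly_ineq hε (fun (j : Fin m) i => (e j).ofLp i / supp K (e j))
      (fun j => Real.log (supp L (e j) / supp K (e j))) (P := P m) (by simp only [key, hP]) ht0 ht1)
    refine mul_le_mul (Real.rpow_le_rpow (integral_nonneg hg0) ?_ (sub_nonneg.2 ht1))
      (Real.rpow_le_rpow (integral_nonneg hg0) ?_ ht0) (Real.rpow_nonneg (integral_nonneg hg0) _)
      (Real.rpow_nonneg (integral_nonneg hg0) _)
    · refine setIntegral_mono_set hg.integrableOn (Eventually.of_forall hg0)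
        (HasSubset.Subset.eventuallyLE fun x hx j => ?_)
      simpa using hK.abs_inner_le hx (e j)
    · refine setIntegral_mono_set hg.integrableOn (Eventually.of_forall hg0)
        (HasSubset.Subset.eventuallyLE fun x hx j => ?_)
      simpa using hL.abs_inner_le hx (e j)
  · refine hw _ (Continuous.continuousOn ?_) _ fun j => ?_
    · exact (hK.continuous_supp.rpow_const fun _ => Or.inr (sub_nonneg.2 ht1)).mul
        (hL.continuous_supp.rpow_const fun _ => Or.inr ht0)
    · exact (le_abs_self _).trans (mem_iInter.1 hx (j + 1) (Fin.last j))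

theorem main_lower {n : ℕ} {K : Set (EuclideanSpace ℝ (Fin n))} (hK : IsCompact K) {ε R : ℝ}
    (hε : 0 < ε) (hR : ∀ x ∈ K, ‖x‖ ^ 2 ≤ R) :
    Real.exp (-(ε / 2 * R)) * (volume K).toReal ≤
      ∫ x in WithLp.toLp 2 ⁻¹' K, Real.exp (-(ε / 2 * nsq x)) := by
  have hv := (PiLp.volume_preserving_toLp (Fin n)).measure_preimage
    hK.measurableSet.nullMeasurableSet
  have hg : Integrable fun x : X n => Real.exp (-(ε / 2 * nsq x)) := by
    simpa using integrable_gauss_poly (n := n) (half_pos hε) 0
  rw [← hv]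
  refine setIntegral_ge_of_const_le_real
    ((PiLp.volume_preserving_toLp (Fin n)).measurable hK.measurableSet)
    (by rw [hv]; exact hK.measure_lt_top.ne) (fun x hx => ?_) hg.integrableOn
  have := hR _ hx
  rw [EuclideanSpace.real_norm_sq_eq] at this
  exact Real.exp_le_exp.2 (neg_le_neg (mul_le_mul_of_nonneg_left this (half_pos hε).le))

theorem log_bm {n : ℕ} (hn : 1 ≤ n) {K L : Set (EuclideanSpace ℝ (Fin n))} (hK : IsSymmBody K)
    (hL : IsSymmBody L) {t : ℝ} (ht0 : 0 ≤ t) (ht1 : t ≤ 1) :
    volume K ^ (1 - t) * volume L ^ t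
      ≤ volume (wulff fun u => supp K u ^ (1 - t) * supp L u ^ t) := by
  set W := wulff fun u => supp K u ^ (1 - t) * supp L u ^ t with hW
  rcases eq_or_ne (volume W) ⊤ with h | h
  · rw [h]; exact le_top
  have ht : 0 ≤ 1 - t := sub_nonneg.2 ht1
  rw [← ENNReal.toReal_le_toReal (ENNReal.mul_ne_top
    (ENNReal.rpow_ne_top_of_nonneg ht hK.1.measure_lt_top.ne)
    (ENNReal.rpow_ne_top_of_nonneg ht0 hL.1.measure_lt_top.ne)) h, ENNReal.toReal_mul,
    ← ENNReal.toReal_rpow, ← ENNReal.toReal_rpow]
  obtain ⟨R, hR⟩ := (hK.1.union hL.1).isBounded.exists_norm_le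
  have hR' : ∀ x ∈ K ∪ L, ‖x‖ ^ 2 ≤ R ^ 2 := fun x hx =>
    pow_le_pow_left₀ (norm_nonneg _) (hR x hx) 2
  have hv := (PiLp.volume_preserving_toLp (Fin n)).measure_preimage
    (isClosed_wulff fun u => supp K u ^ (1 - t) * supp L u ^ t).measurableSet.nullMeasurableSet
  have key : ∀ ε : ℝ, 0 < ε → Real.exp (-(ε / 2 * R ^ 2)) *
      ((volume K).toReal ^ (1 - t) * (volume L).toReal ^ t) ≤ (volume W).toReal := by
    intro ε hε
    have a1 := main_lower hK.1 hε fun x hx => hR' x (Or.inl hx)
    have a2 := main_lower hL.1 hε fun x hx => hR' x (Or.inr hx)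
    have a3 : ∫ x in WithLp.toLp 2 ⁻¹' W, Real.exp (-(ε / 2 * nsq x)) ≤ (volume W).toReal := by
      have := norm_setIntegral_le_of_norm_le_const (μ := volume) (s := WithLp.toLp 2 ⁻¹' W)
        (f := fun x : X n => Real.exp (-(ε / 2 * nsq x))) (C := 1)
        (by rw [hv]; exact h.lt_top) (fun x _ => by
          rw [Real.norm_of_nonneg (Real.exp_pos _).le, Real.exp_le_one_iff, neg_nonpos]
          exact mul_nonneg (half_pos hε).le (Finset.sum_nonneg fun i _ => sq_nonneg _))
      rw [one_mul, Measure.real, hv] at this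
      exact (le_abs_self _).trans this
    refine le_trans ?_ ((main_gauss hn hK hL ht0 ht1 hε).trans a3)
    refine le_trans (le_of_eq ?_) (mul_le_mul (Real.rpow_le_rpow (by positivity) a1 ht)
      (Real.rpow_le_rpow (by positivity) a2 ht0) (by positivity)
      (Real.rpow_nonneg (le_trans (by positivity) a1) _))
    rw [Real.mul_rpow (by positivity) (by positivity), Real.mul_rpow (by positivity) (by positivity),
      mul_mul_mul_comm, ← Real.rpow_add (Real.exp_pos _), sub_add_cancel, Real.rpow_one]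
  have hc : Continuous fun ε : ℝ => Real.exp (-(ε / 2 * R ^ 2)) *
      ((volume K).toReal ^ (1 - t) * (volume L).toReal ^ t) := by fun_prop
  have := le_of_tendsto ((hc.tendsto 0).mono_left (nhdsWithin_le_nhds (s := Ioi 0)))
    (eventually_mem_nhdsWithin.mono fun ε hε => key ε hε)
  simpa using this

end Vale.Agent.P227
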