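import Vale.Agent.P227.MaxPr
import Vale.Agent.P227.Param

/-! The differentiated flow equation. -/

set_option linter.unusedSectionVars false
set_option linter.unusedVariables false

namespace Vale.Agent.P227

open scoped ContDiff
open MeasureTheory Set Filter Topology Matrix

variable {n : ℕ} {V : X n → ℝ} {T t : ℝ} {u : ℝ → X n → ℝ}

/-- The lower order part of `∂^l log det D² u`. -/
noncomputable def Rem (l : List (Fin n)) (u : X n → ℝ) (x : X n) : ℝ :=
  pds l (fun y => Real.log (hess u y).det) x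
    - ∑ i, ∑ j, tau u x i j * pd i (pd j (pds l u)) x

/-- The matrix `Σ_{ab} = tr (τ h_a τ h_b)`. -/
noncomputable def sig (u : X n → ℝ) (x : X n) : Mat n :=
  Matrix.of fun a b => (tau u x * hess (pd a u) x * tau u x * hess (pd b u) x).trace

/-- Calabi's quantity `τ τ τ D³ u D³ u`. -/
noncomputable def cal (u : X n → ℝ) (x : X n) : ℝ := ∑ a, ∑ b, tau u x a b * sig u x a b

/-- Matrix functions with smooth entries. -/
def MS (A : X n → Mat n) : Prop := ∀ i j, Sm fun y => A y i j

theorem MS.mul {A B : X n → Mat n} (hA : MS A) (hB : MS B) : MS fun y => A y * B y := by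
  intro i j
  simp only [Matrix.mul_apply]
  exact ContDiff.sum fun k _ => (hA i k).mul (hB k j)

theorem MS.neg {A : X n → Mat n} (hA : MS A) : MS fun y => -A y := fun i j => (hA i j).neg

theorem MS.trace {A : X n → Mat n} (hA : MS A) : Sm fun y => (A y).trace := by
  simp only [Matrix.trace, Matrix.diag]
  exact ContDiff.sum fun k _ => hA k k

theorem ms_hess {u : X n → ℝ} (hu : Sm u) : MS (hess u) := fun i j => (hu.pd j).pd i

theorem ms_tau {u : X n → ℝ} (hu : Sm u) (hd : ∀ y, (hess u y).det ≠ 0) : MS (tau u) :=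
  fun i j => sm_tau hu hd i j

theorem mpd_mul {A B : X n → Mat n} (hA : MS A) (hB : MS B) (k : Fin n) (x : X n) :
    mpd k (fun y => A y * B y) x = mpd k A x * B x + A x * mpd k B x := by
  ext i j
  simp only [mpd_apply, Matrix.mul_apply, Matrix.add_apply]
  rw [pd_sum _ fun q _ => Sm.diff ((hA i q).mul (hB q j)) x, ← Finset.sum_add_distrib]
  exact Finset.sum_congr rfl fun q _ => pd_mul ((hA i q).diff x) ((hB q j).diff x) k

theorem mpd_neg (A : X n → Mat n) (k : Fin n) (x : X n) :
    mpd k (fun y => -A y) x = -mpd k A x := by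
  ext i j
  simp only [mpd_apply, Matrix.neg_apply]
  exact pd_neg _ _ _

theorem pd_trace {A : X n → Mat n} (hA : MS A) (k : Fin n) (x : X n) :
    pd k (fun y => (A y).trace) x = (mpd k A x).trace := by
  simp only [Matrix.trace, Matrix.diag, mpd_apply]
  exact pd_sum _ (fun q _ => (hA q q).diff x) k

theorem mpd_tau {u : X n → ℝ} (hu : Sm u) (hd : ∀ y, (hess u y).det ≠ 0) (k : Fin n) :
    mpd k (tau u) = fun x => -(tau u x * hess (pd k u) x * tau u x) := by
  funext x
  ext i j
  rw [mpd_apply, pd_tau hu hd, Matrix.neg_apply]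

theorem sum_eq_trace (τ : Mat n) {f : X n → ℝ} (hf : Sm f) (x : X n) :
    ∑ i, ∑ j, τ i j * pd i (pd j f) x = (τ * hess f x).trace := by
  simp only [Matrix.trace, Matrix.diag, Matrix.mul_apply, hess_apply]
  refine Finset.sum_congr rfl fun i _ => Finset.sum_congr rfl fun j _ => ?_
  rw [pd_comm hf i j]

theorem pd_logdet_trace {u : X n → ℝ} (hu : Sm u) (hd : ∀ y, 0 < (hess u y).det) (a : Fin n) :
    (pd a fun y => Real.log (hess u y).det) = fun y => (tau u y * hess (pd a u) y).trace := by
  funext y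
  rw [pd_logdet (ms_hess hu) hd, mpd_hess hu]
  rfl

theorem pd_pd_logdet_trace {u : X n → ℝ} (hu : Sm u) (hd : ∀ y, 0 < (hess u y).det)
    (a b : Fin n) :
    pd a (pd b fun y => Real.log (hess u y).det) = fun y =>
      (tau u y * hess (pd a (pd b u)) y).trace
        - (tau u y * hess (pd a u) y * tau u y * hess (pd b u) y).trace := by
  have hd' : ∀ y, (hess u y).det ≠ 0 := fun y => (hd y).ne'
  funext y
  rw [pd_logdet_trace hu hd, pd_trace ((ms_tau hu hd').mul (ms_hess (hu.pd b))),
    mpd_mul (ms_tau hu hd') (ms_hess (hu.pd b)), mpd_tau hu hd', mpd_hess (hu.pd b)]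
  simp only [Matrix.trace_add, Matrix.neg_mul, Matrix.trace_neg]
  ring

theorem lop_entry (τ A : X n → Mat n) (x : X n) (a b : Fin n) :
    Lop τ (fun y => A y a b) x
      = (∑ i, ∑ j, τ x i j • mpd i (mpd j A) x - ∑ i, x i • mpd i A x) a b := by
  simp only [Lop, Matrix.sub_apply, Matrix.sum_apply, Matrix.smul_apply, smul_eq_mul, mpd_apply]

theorem sum_eq_sig {u : X n → ℝ} (hu : Sm u) (x : X n) :
    ∑ i, ∑ j, tau u x i j • (hess (pd i u) x * tau u x * hess (pd j u) x) = sig u x := by
  ext a b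
  simp only [sig, Matrix.of_apply, Matrix.trace, Matrix.diag, Matrix.sum_apply, Matrix.smul_apply,
    smul_eq_mul, Matrix.mul_apply, hess_apply, Finset.mul_sum, Finset.sum_mul]
  rw [Finset.sum_comm]
  refine Finset.sum_congr rfl fun j _ => ?_
  rw [Finset.sum_comm]
  refine Finset.sum_congr rfl fun q _ => ?_
  rw [Finset.sum_comm]
  refine Finset.sum_congr rfl fun p _ => Finset.sum_congr rfl fun i _ => ?_
  have e1 : pd a (pd p (pd i u)) = pd i (pd p (pd a u)) :=
    pds_perm (l := [a, p, i]) (m := [i, p, a]) hu (List.reverse_perm [i, p, a])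
  have e2 : pd q (pd b (pd j u)) = pd q (pd j (pd b u)) := by rw [pd_comm hu b j]
  have e3 : tau u x i j = tau u x j i := ((tau_isSymm hu x).apply i j).symm
  rw [e1, e2, e3]
  ring

theorem lop_tau {u : X n → ℝ} (hu : Sm u) (hd : ∀ y, (hess u y).det ≠ 0) (x : X n)
    (a b : Fin n) :
    Lop (tau u) (fun y => tau u y a b) x
      = (tau u x * sig u x * tau u x + tau u x * sig u x * tau u x
        - tau u x * (Matrix.of fun c d => Lop (tau u) (fun y => hess u y c d) x) * tau u x) a b := by
  have hL : (Matrix.of fun c d => Lop (tau u) (fun y => hess u y c d) x : Mat n)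
      = ∑ i, ∑ j, tau u x i j • hess (pd i (pd j u)) x - ∑ i, x i • hess (pd i u) x := by
    ext c d
    rw [Matrix.of_apply, lop_entry]
    have e : ∀ j, mpd j (hess u) = hess (pd j u) := fun j => funext fun y => mpd_hess hu j y
    simp only [e, fun i j => mpd_hess (hu.pd j) i x]
  have h2 : ∀ i j, mpd i (mpd j (tau u)) x
      = tau u x * (hess (pd i u) x * tau u x * hess (pd j u) x) * tau u x
        + tau u x * (hess (pd j u) x * tau u x * hess (pd i u) x) * tau u x
        - tau u x * hess (pd i (pd j u)) x * tau u x := by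
    intro i j
    rw [mpd_tau hu hd j, mpd_neg, mpd_mul ((ms_tau hu hd).mul (ms_hess (hu.pd j))) (ms_tau hu hd),
      mpd_mul (ms_tau hu hd) (ms_hess (hu.pd j)), mpd_tau hu hd i, mpd_hess (hu.pd j)]
    noncomm_ring
  have hS1 := sum_eq_sig hu x
  have hS2 : ∑ i, ∑ j, tau u x i j • (hess (pd j u) x * tau u x * hess (pd i u) x) = sig u x := by
    rw [← hS1, Finset.sum_comm]
    refine Finset.sum_congr rfl fun i _ => Finset.sum_congr rfl fun j _ => ?_
    rw [(tau_isSymm hu x).apply i j]
  rw [lop_entry, hL]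
  refine congrFun (congrFun ?_ a) b
  have e1 : tau u x * sig u x * tau u x = ∑ i, ∑ j, tau u x i j •
      (tau u x * (hess (pd i u) x * tau u x * hess (pd j u) x) * tau u x) := by
    rw [← hS1]
    simp only [Finset.mul_sum, Finset.sum_mul, Matrix.mul_smul, Matrix.smul_mul]
  have e2 : tau u x * sig u x * tau u x = ∑ i, ∑ j, tau u x i j •
      (tau u x * (hess (pd j u) x * tau u x * hess (pd i u) x) * tau u x) := by
    rw [← hS2]
    simp only [Finset.mul_sum, Finset.sum_mul, Matrix.mul_smul, Matrix.smul_mul]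
  nth_rewrite 1 [e1]
  rw [e2]
  simp only [h2]
  simp only [mpd_tau hu hd, smul_add, smul_sub, smul_neg, Finset.sum_add_distrib,
    Finset.sum_sub_distrib, Finset.sum_neg_distrib, Matrix.mul_sub, Matrix.sub_mul, Finset.mul_sum,
    Finset.sum_mul, Matrix.mul_smul, Matrix.smul_mul]
  abel

theorem NSol.evol' (hu : NSol V T u) (hV : Sm V) (ht : t ∈ Icc 0 T) (x : X n)
    (l : List (Fin n)) :
    HasDerivWithinAt (fun s => pds l (u s) x) (pds l (Nop V (u t)) x) (Icc 0 T) t :=
  evol hu.sol.jc (JC.nop hV hu.sol.jc hu.det_pos) hu.sol.eq l ht x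

theorem NSol.hasP_pds (hu : NSol V T u) (hV : Sm V) (ht : t ∈ Icc 0 T) (x : X n)
    (l : List (Fin n)) :
    HasP T (tau (u t)) (fun s => pds l (u s)) t x
      (Rem l (u t) x - ((l.length : ℝ) - 1) * pds l (u t) x + pds l V x) := by
  have hs : Sm (u t) := hu.sol.jc.1 t
  refine ⟨hs.pds l, ?_⟩
  have h := hu.evol' hV ht x l
  have s1 : Sm fun y => Real.log (hess (u t) y).det := sm_logdet (ms_hess hs) (hu.det_pos t)
  have s2 : Sm fun y : X n => ∑ i, y i * pd i (u t) y :=
    ContDiff.sum fun i _ => (sm_coord i).mul (hs.pd i)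
  have e : pds l (Nop V (u t)) x = Rem l (u t) x - ((l.length : ℝ) - 1) * pds l (u t) x
      + pds l V x + Lop (tau (u t)) (pds l (u t)) x := by
    unfold Nop
    rw [pds_add ((s1.sub s2).add hs) hV, pds_add (s1.sub s2) hs, pds_sub s1 s2, pds_drift hs]
    simp only [Rem, Lop]
    ring
  rwa [e] at h

theorem rem_one {u : X n → ℝ} (hu : Sm u) (hd : ∀ y, 0 < (hess u y).det) (a : Fin n) (x : X n) :
    Rem [a] u x = 0 := by
  unfold Rem
  rw [sum_eq_trace _ (hu.pds _)]
  simp only [pds_cons, pds_nil]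
  rw [pd_logdet_trace hu hd, sub_self]

theorem rem_two {u : X n → ℝ} (hu : Sm u) (hd : ∀ y, 0 < (hess u y).det) (a b : Fin n)
    (x : X n) : Rem [a, b] u x = -sig u x a b := by
  unfold Rem
  rw [sum_eq_trace _ (hu.pds _)]
  simp only [pds_cons, pds_nil]
  rw [pd_pd_logdet_trace hu hd]
  simp only [sig, Matrix.of_apply]
  ring

theorem rem_three {u : X n → ℝ} (hu : Sm u) (hd : ∀ y, 0 < (hess u y).det) (a b c : Fin n)
    (x : X n) : Rem [a, b, c] u x =
      -(tau u x * hess (pd a (pd b u)) x * tau u x * hess (pd c u) x).trace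
      - (tau u x * hess (pd a (pd c u)) x * tau u x * hess (pd b u) x).trace
      - (tau u x * hess (pd b (pd c u)) x * tau u x * hess (pd a u) x).trace
      + 2 * (tau u x * hess (pd a u) x * tau u x * hess (pd b u) x * tau u x
          * hess (pd c u) x).trace := by
  have hd' : ∀ y, (hess u y).det ≠ 0 := fun y => (hd y).ne'
  have mt := ms_tau hu hd'
  have mb := ms_hess (hu.pd b)
  have mc := ms_hess (hu.pd c)
  have mbc := ms_hess ((hu.pd c).pd b)
  unfold Rem
  rw [sum_eq_trace _ (hu.pds _)]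
  simp only [pds_cons, pds_nil]
  rw [pd_pd_logdet_trace hu hd, pd_sub ((mt.mul mbc).trace.diff x)
    ((((mt.mul mb).mul mt).mul mc).trace.diff x), pd_trace (mt.mul mbc),
    pd_trace (((mt.mul mb).mul mt).mul mc), mpd_mul mt mbc, mpd_mul ((mt.mul mb).mul mt) mc,
    mpd_mul (mt.mul mb) mt, mpd_mul mt mb, mpd_tau hu hd', mpd_hess (hu.pd b),
    mpd_hess (hu.pd c), mpd_hess ((hu.pd c).pd b)]
  beta_reduce
  have st := tau_isSymm hu x
  have sa := hess_isSymm (hu.pd a) x
  have sb := hess_isSymm (hu.pd b) x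
  have sc := hess_isSymm (hu.pd c) x
  generalize tau u x = τ at *
  generalize hess (pd a u) x = A at *
  generalize hess (pd b u) x = B at *
  generalize hess (pd c u) x = C at *
  generalize hess (pd a (pd b u)) x = AB
  generalize hess (pd a (pd c u)) x = AC
  generalize hess (pd b (pd c u)) x = BC
  generalize hess (pd a (pd b (pd c u))) x = ABC
  have e1 : (τ * A * τ * BC).trace = (τ * BC * τ * A).trace := by
    rw [Matrix.mul_assoc (τ * A), Matrix.trace_mul_comm, ← Matrix.mul_assoc]
  have e2 : (τ * B * τ * AC).trace = (τ * AC * τ * B).trace := by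
    rw [Matrix.mul_assoc (τ * B), Matrix.trace_mul_comm, ← Matrix.mul_assoc]
  have e3 : (τ * B * τ * A * τ * C).trace = (τ * A * τ * B * τ * C).trace := by
    rw [← Matrix.trace_transpose]
    simp only [Matrix.transpose_mul, st.eq, sa.eq, sb.eq, sc.eq]
    rw [Matrix.trace_mul_comm]
    simp only [Matrix.mul_assoc]
  simp only [Matrix.add_mul, Matrix.neg_mul, Matrix.mul_neg, Matrix.trace_add,
    Matrix.trace_neg, ← Matrix.mul_assoc]
  rw [e1, e2, e3]
  ring

theorem NSol.hasP_hess (hu : NSol V T u) (hV : Sm V) (ht : t ∈ Icc 0 T) (x : X n)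
    (a b : Fin n) :
    HasP T (tau (u t)) (fun s y => hess (u s) y a b) t x
      ((hess V x - hess (u t) x - sig (u t) x) a b) := by
  refine (hu.hasP_pds hV ht x [a, b]).congr ?_
  rw [rem_two (hu.sol.jc.1 t) (hu.det_pos t)]
  simp only [Matrix.sub_apply, hess_apply, pds_cons, pds_nil, List.length_cons, List.length_nil]
  push_cast
  ring

theorem NSol.hasP_tau (hu : NSol V T u) (hV : Sm V) (ht : t ∈ Icc 0 T) (x : X n)
    (a b : Fin n) :
    HasP T (tau (u t)) (fun s y => tau (u s) y a b) t x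
      ((tau (u t) x - tau (u t) x * hess V x * tau (u t) x
        - tau (u t) x * sig (u t) x * tau (u t) x) a b) := by
  have hs : Sm (u t) := hu.sol.jc.1 t
  have hd : ∀ y, (hess (u t) y).det ≠ 0 := fun y => (hu.det_pos t y).ne'
  refine ⟨sm_tau hs hd a b, ?_⟩
  have h := hasDerivWithinAt_inv (A := fun s => hess (u s) x)
    (A' := hess V x - hess (u t) x - sig (u t) x
      + Matrix.of fun c d => Lop (tau (u t)) (fun y => hess (u t) y c d) x)
    (fun c d => (hu.hasP_hess hV ht x c d).dt) (hd x) a b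
  refine h.congr_deriv ?_
  rw [lop_tau hs hd, ← Matrix.add_apply, ← Matrix.neg_apply]
  refine congrFun (congrFun ?_ a) b
  have e : tau (u t) x * hess (u t) x * tau (u t) x = tau (u t) x := by
    unfold tau
    rw [Matrix.nonsing_inv_mul _ (Ne.isUnit (hd x)), Matrix.one_mul]
  change -(tau (u t) x * _ * tau (u t) x) = _
  simp only [Matrix.mul_add, Matrix.add_mul, Matrix.mul_sub, Matrix.sub_mul, e]
  abel

theorem sig_posSemidef {u : X n → ℝ} (hu : Sm u) {x : X n} (hp : (hess u x).PosDef) :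
    (sig u x).PosSemidef :=
  posSemidef_gram (H := fun a => hess (pd a u) x) hp.inv.posSemidef
    fun a => hess_isSymm (hu.pd a) x

/-- The coefficient hypotheses of the maximum principle. -/
theorem NSol.tau_max (hu : NSol V T u) :
    ∃ C, ∀ t ∈ Icc 0 T, ∀ x, (tau (u t) x).PosSemidef ∧ (tau (u t) x).trace ≤ C := by
  obtain ⟨c, hc, hl⟩ := hu.pos
  refine ⟨n * c⁻¹, fun t _ x => ?_⟩
  have hs := hess_isSymm (hu.sol.jc.1 t) x
  exact ⟨((hl t x).posDef hc hs).inv.posSemidef, trace_le_of_ub ((hl t x).inv_ub hc hs)⟩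

/-- The time derivative `ψ = u_t` solves the linearised equation. -/
theorem NSol.deriv_nop (hu : NSol V T u) (hV : Sm V) (ht : t ∈ Icc 0 T) (x : X n) :
    HasDerivWithinAt (fun s => Nop V (u s) x)
      (Lop (tau (u t)) (Nop V (u t)) x + Nop V (u t) x) (Icc 0 T) t := by
  have hs : Sm (u t) := hu.sol.jc.1 t
  have hψ : Sm (Nop V (u t)) := sm_nop hV hs (hu.det_pos t)
  have h1 := hasDerivWithinAt_logdet (A := fun s => hess (u s) x) (A' := hess (Nop V (u t)) x)
    (fun i j => hu.evol' hV ht x [i, j]) (hu.det_pos t x)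
  have h2 : HasDerivWithinAt (fun s => ∑ i, x i * pd i (u s) x)
      (∑ i, x i * pd i (Nop V (u t)) x) (Icc 0 T) t :=
    HasDerivWithinAt.fun_sum fun i _ => (hu.evol' hV ht x [i]).const_mul (x i)
  have h3 := ((h1.fun_sub h2).fun_add (hu.evol' hV ht x [])).add_const (V x)
  refine HasDerivWithinAt.congr_deriv h3 ?_
  simp only [Lop, pds_nil]
  rw [sum_eq_trace _ hψ]
  rfl

end Vale.Agent.P227
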