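import Vale.Agent.P227.Concave

/-! The inequality for symmetric polyhedra with a Gaussian weight. -/

set_option linter.unusedSectionVars false
set_option linter.unusedVariables false

namespace Vale.Agent.P227

open scoped ContDiff
open MeasureTheory Set Filter Topology Matrix

theorem poly_ineq {n : ℕ} {J : Type} [Fintype J] {ε : ℝ} (hε : 0 < ε) (a : J → X n)
    (δ : J → ℝ) {P : ℝ → Set (X n)}
    (hP : P = fun t => {x | ∀ j, |dot (a j) x| ≤ Real.exp (δ j * t)})
    {t : ℝ} (ht0 : 0 ≤ t) (ht1 : t ≤ 1) :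
    (∫ x in P 0, Real.exp (-(ε / 2 * nsq x))) ^ (1 - t)
        * (∫ x in P 1, Real.exp (-(ε / 2 * nsq x))) ^ t
      ≤ ∫ x in P t, Real.exp (-(ε / 2 * nsq x)) := by
  obtain ⟨φ, hφ, h1, h2⟩ := exists_prof
  have hφ0 : ∀ s, 0 ≤ φ s := fun s => by
    rcases le_or_gt |s| 1 with h | h
    · exact (h1 s h).ge
    · exact (h2 s h).le
  have hφc : Continuous φ := hφ.sm.continuous
  set I : ℕ → ℝ → ℝ := fun k t => ∫ x, Real.exp
    (-(ε / 2 * nsq x + ∑ j, (k : ℝ) * φ (Real.exp (-(δ j * t)) * dot (a j) x))) with hI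
  have hlim : ∀ r : ℝ, Tendsto (fun k => I k r) atTop
      (𝓝 (∫ x in P r, Real.exp (-(ε / 2 * nsq x)))) := by
    intro r
    have hm : MeasurableSet (P r) := by
      rw [hP]
      simp only [ofPred_forall]
      refine (isClosed_iInter fun j => isClosed_le ?_ continuous_const).measurableSet
      unfold dot
      fun_prop
    have hmem : ∀ x j, |dot (a j) x| ≤ Real.exp (δ j * r) ↔
        |Real.exp (-(δ j * r)) * dot (a j) x| ≤ 1 := by
      intro x j
      rw [abs_mul, abs_of_pos (Real.exp_pos _), Real.exp_neg, inv_mul_le_iff₀ (Real.exp_pos _),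
        mul_one]
    rw [← integral_indicator hm]
    refine tendsto_integral_of_dominated_convergence (fun x => Real.exp (-(ε / 2 * nsq x)))
      (fun k => Continuous.aestronglyMeasurable ?_) ?_ (fun k => Eventually.of_forall fun x => ?_)
      (Eventually.of_forall fun x => ?_)
    · unfold nsq dot
      fun_prop
    · simpa using integrable_gauss_poly (n := n) (half_pos hε) 0
    · rw [Real.norm_of_nonneg (Real.exp_pos _).le, Real.exp_le_exp, neg_le_neg_iff,
        le_add_iff_nonneg_right]
      exact Finset.sum_nonneg fun j _ => mul_nonneg (Nat.cast_nonneg k) (hφ0 _)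
    · by_cases hx : x ∈ P r
      · rw [indicator_of_mem hx]
        rw [hP] at hx
        refine tendsto_const_nhds.congr fun k => ?_
        rw [Finset.sum_eq_zero fun j _ => by rw [h1 _ ((hmem x j).1 (hx j)), mul_zero], add_zero]
      · rw [indicator_of_notMem hx]
        rw [hP] at hx
        simp only [mem_ofPred_eq, not_forall] at hx
        obtain ⟨j, hj⟩ := hx
        have hpos : 0 < ∑ j, φ (Real.exp (-(δ j * r)) * dot (a j) x) :=
          Finset.sum_pos' (fun j _ => hφ0 _)
            ⟨j, Finset.mem_univ _, h2 _ (not_le.1 (mt (hmem x j).2 hj))⟩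
        simp only [← Finset.mul_sum]
        refine Real.tendsto_exp_neg_atTop_nhds_zero.comp (tendsto_atTop_add_const_left _ _ ?_)
        exact tendsto_natCast_atTop_atTop.atTop_mul_const hpos
  refine le_of_tendsto_of_tendsto' (((hlim 0).rpow_const (Or.inr (sub_nonneg.2 ht1))).mul
    ((hlim 1).rpow_const (Or.inr ht0))) (hlim t) fun k => ?_
  exact log_concave (hφ.const_mul (Nat.cast_nonneg k))
    (fun s => mul_nonneg (Nat.cast_nonneg k) (hφ0 s)) hε a δ (I := I k) rfl ht0 ht1

end Vale.Agent.P227
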