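import Vale.Agent.P227.PCalc

/-! Pointwise bounds for the lower order terms. -/

set_option linter.unusedSectionVars false
set_option linter.unusedVariables false

namespace Vale.Agent.P227

open scoped ContDiff
open MeasureTheory Set Filter Topology Matrix

variable {n : ℕ}

/-- Squared norm of the derivatives of order `k`. -/
noncomputable def An (k : ℕ) (u : X n → ℝ) (x : X n) : ℝ :=
  ∑ l ∈ wordsEq (Fin n) k, pds l u x ^ 2

theorem An_nonneg (k : ℕ) (u : X n → ℝ) (x : X n) : 0 ≤ An k u x :=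
  Finset.sum_nonneg fun _ _ => sq_nonneg _

theorem abs_pds_le_sqrt_An (u : X n → ℝ) (x : X n) (l : List (Fin n)) :
    |pds l u x| ≤ Real.sqrt (An l.length u x) :=
  Real.abs_le_sqrt (Finset.single_le_sum (f := fun l => pds l u x ^ 2)
    (fun _ _ => sq_nonneg _) (mem_wordsEq.mpr rfl))

theorem An_succ (k : ℕ) (u : X n → ℝ) (x : X n) :
    An (k + 1) u x = ∑ l ∈ wordsEq (Fin n) k, ∑ i, pd i (pds l u) x ^ 2 := by
  classical
  rw [← Finset.sum_product']
  symm
  refine Finset.sum_nbij (fun p => p.2 :: p.1) ?_ ?_ ?_ fun p _ => rfl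
  · intro p hp
    have := (Finset.mem_product.mp hp).1
    simpa using this
  · rintro ⟨l, i⟩ _ ⟨l', i'⟩ _ h
    simp only [List.cons.injEq] at h
    rw [h.1, h.2]
  · intro l hl
    cases l with
    | nil => simp at hl
    | cons i l => exact ⟨(l, i), by simpa using hl, rfl⟩

/-- The weight used for the remainder bound. -/
noncomputable def remW (m r : ℕ) (u : X n → ℝ) (x : X n) : ℝ :=
  if r ≤ m then 1 else if r = m + 1 then 1 + Real.sqrt (An (m + 1) u x)
    else (1 + Real.sqrt (An (m + 1) u x)) ^ 2 + Real.sqrt (An (m + 2) u x)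

theorem remW_mono (m : ℕ) {r s : ℕ} (h : r ≤ s) (u : X n → ℝ) (x : X n) :
    remW m r u x ≤ remW m s u x := by
  have ha := Real.sqrt_nonneg (An (m + 1) u x)
  have hb := Real.sqrt_nonneg (An (m + 2) u x)
  unfold remW
  split_ifs <;> first | omega | nlinarith

theorem one_le_remW (m r : ℕ) (u : X n → ℝ) (x : X n) : 1 ≤ remW m r u x := by
  have := remW_mono m (Nat.zero_le r) u x
  rwa [remW, if_pos (Nat.zero_le m)] at this

theorem remW_mul {m : ℕ} (hm : 3 ≤ m) {r s R : ℕ} (hr : r ≤ R) (hs : s ≤ R) (hrs : r + s ≤ R + 3)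
    (hR : R ≤ m + 2) (u : X n → ℝ) (x : X n) : remW m r u x * remW m s u x ≤ remW m R u x := by
  by_cases h1 : r ≤ m
  · rw [remW, if_pos h1, one_mul]
    exact remW_mono m hs u x
  by_cases h2 : s ≤ m
  · rw [mul_comm, remW, if_pos h2, one_mul]
    exact remW_mono m hr u x
  have e1 : r = m + 1 := by omega
  have e2 : s = m + 1 := by omega
  have e3 : R = m + 2 := by omega
  have hb := Real.sqrt_nonneg (An (m + 2) u x)
  subst e1 e2 e3
  unfold remW
  rw [if_neg (by omega), if_pos rfl, if_neg (by omega), if_neg (by omega)]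
  nlinarith

theorem rem_cons {u : X n → ℝ} (hu : Sm u) (hd : ∀ y, 0 < (hess u y).det) (i : Fin n)
    (l : List (Fin n)) (x : X n) :
    Rem (i :: l) u x = ∑ a, ∑ b, (pds l (fun y => tau u y a b * pds [i, a, b] u y) x
      - tau u x a b * pds l (pds [i, a, b] u) x) := by
  have hd' : ∀ y, (hess u y).det ≠ 0 := fun y => (hd y).ne'
  have s1 : Sm fun y => Real.log (hess u y).det := sm_logdet (ms_hess hu) hd
  have e : (pd i fun y => Real.log (hess u y).det)
      = fun y => ∑ a, ∑ b, tau u y a b * pds [i, a, b] u y :=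
    funext fun y => pd_logdet_hess hu hd i y
  have sm : ∀ a b, Sm fun y => tau u y a b * pds [i, a, b] u y := fun a b =>
    (sm_tau hu hd' a b).mul (hu.pds _)
  unfold Rem
  rw [pds_cons, ← pds_pd s1, e, pds_sum _ fun a _ => ContDiff.sum fun b _ => sm a b]
  simp only [Finset.sum_sub_distrib]
  congr 1
  · refine Finset.sum_congr rfl fun a _ => ?_
    rw [pds_sum _ fun b _ => sm a b]
  · refine Finset.sum_congr rfl fun a _ => Finset.sum_congr rfl fun b _ => ?_
    rw [← pds_append]
    have hp : (a :: b :: i :: l).Perm (l ++ [i, a, b]) :=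
      (((List.Perm.swap i b l).cons a).trans (List.Perm.swap i a (b :: l))).trans
        (List.perm_append_comm (l₁ := [i, a, b]) (l₂ := l))
    rw [← pds_perm hu hp]
    rfl

/-- The family of functions entering the remainder bound. -/
def RemFam (n : ℕ) (c : ℝ) (m : ℕ) (M : ℝ) : Type :=
  {u : X n → ℝ // Sm u ∧ (∀ x, LB c (hess u x)) ∧
    ∀ l : List (Fin n), 2 ≤ l.length → l.length ≤ m → ∀ x, |pds l u x| ≤ M}

/-- The grading used for the remainder bound. -/
noncomputable def remG (n : ℕ) (c : ℝ) {m : ℕ} (hm : 3 ≤ m) (M : ℝ) :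
    Grading (RemFam n c m M) (Fin n) :=
  Grading.ofWeight (m + 2) (fun r a x => remW m r a.1 x)
    (fun r a x => one_le_remW m r a.1 x) (fun r s h a x => remW_mono m h a.1 x)
    (fun r s R hr hs hrs hR a x => remW_mul hm hr hs hrs hR a.1 x)

theorem mem_remG {c M : ℝ} {m r : ℕ} {hm : 3 ≤ m} {f : RemFam n c m M → X n → ℝ} :
    f ∈ (remG n c hm M).Q r ↔ ∃ C, ∀ a x, |f a x| ≤ C * remW m r a.1 x := Iff.rfl

theorem remG_base {c M : ℝ} {m : ℕ} (hm : 3 ≤ m) (l0 : List (Fin n)) (h0 : 2 ≤ l0.length) :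
    DQ (remG n c hm M) l0.length fun a => pds l0 a.1 := by
  refine ⟨fun a => a.2.1.pds l0, fun l hl => mem_remG.mpr ⟨|M| + 1, fun a x => ?_⟩⟩
  have hK : l0.length + l.length ≤ m + 2 := hl
  have hlen : (l ++ l0).length = l0.length + l.length := by rw [List.length_append, add_comm]
  have h1 := abs_pds_le_sqrt_An a.1 x (l ++ l0)
  rw [hlen] at h1
  have hM0 := abs_nonneg M
  have ha := Real.sqrt_nonneg (An (m + 1) a.1 x)
  have hb := Real.sqrt_nonneg (An (m + 2) a.1 x)
  rw [← pds_append]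
  unfold remW
  split_ifs with c1 c2
  · have := a.2.2.2 (l ++ l0) (by omega) (by omega) x
    linarith [le_abs_self M]
  · rw [c2] at h1
    linarith [mul_nonneg hM0 ha]
  · have c3 : l0.length + l.length = m + 2 := by omega
    rw [c3] at h1
    have h2 := sq_nonneg (1 + Real.sqrt (An (m + 1) a.1 x))
    linarith [mul_nonneg hM0 (add_nonneg h2 hb)]

theorem remG_tau {c M : ℝ} (hc : 0 < c) {m : ℕ} (hm : 3 ≤ m) (i j : Fin n) :
    DQ (remG n c hm M) 2 fun a x => tau a.1 x i j :=
  DQ.inv (G := remG n c hm M) (h := fun a => hess a.1) (fun a => ms_hess a.2.1)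
    (fun a x => ((a.2.2.1 x).det_pos hc (hess_isSymm a.2.1 x)).ne')
    (fun k i j => remG_base hm [k, i, j] (by simp))
    (fun _ i j => mem_remG.mpr ⟨c⁻¹, fun a x => by
      rw [remW, if_pos (by omega), mul_one]
      exact (a.2.2.1 x).abs_inv_entry_le hc (hess_isSymm a.2.1 x) i j⟩) i j

theorem remG_rem {c : ℝ} (hc : 0 < c) {m : ℕ} (hm : 3 ≤ m) (M : ℝ) (l : List (Fin n)) :
    ∃ C, l ≠ [] → l.length ≤ m + 1 →
      ∀ (a : RemFam n c m M) x, |Rem l a.1 x| ≤ C * remW m (l.length + 1) a.1 x := by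
  cases l with
  | nil => exact ⟨0, fun h => absurd rfl h⟩
  | cons i l =>
    by_cases hl : (i :: l).length ≤ m + 1
    · have hl' : l.length + 2 ≤ (remG n c hm M).K := by
        change l.length + 2 ≤ m + 2
        simp only [List.length_cons] at hl
        omega
      have h1 := ((remG n c hm M).Q (l.length + 2)).sum_mem (t := Finset.univ) fun a _ =>
        ((remG n c hm M).Q (l.length + 2)).sum_mem (t := Finset.univ) fun b _ =>
          DQ.comm (remG_tau hc hm a b) (remG_base hm [i, a, b] (by simp)) l hl'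
      obtain ⟨C, hC⟩ := mem_remG.mp h1
      refine ⟨C, fun _ _ a x => ?_⟩
      rw [rem_cons a.2.1 fun x => (a.2.2.1 x).det_pos hc (hess_isSymm a.2.1 x)]
      simpa only [Finset.sum_apply, List.length_cons] using hC a x
    · exact ⟨0, fun _ h => absurd h hl⟩

theorem rem_le (n : ℕ) {c : ℝ} (hc : 0 < c) {m : ℕ} (hm : 3 ≤ m) (M : ℝ) :
    ∃ K, 0 ≤ K ∧ ∀ u : X n → ℝ, Sm u → (∀ x, LB c (hess u x)) →
      (∀ l : List (Fin n), 2 ≤ l.length → l.length ≤ m → ∀ x, |pds l u x| ≤ M) → ∀ x,
      (∀ l : List (Fin n), l.length = m →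
        |Rem l u x| ≤ K * (1 + Real.sqrt (An (m + 1) u x))) ∧
      ∀ l : List (Fin n), l.length = m + 1 →
        |Rem l u x| ≤ K * ((1 + Real.sqrt (An (m + 1) u x)) ^ 2
          + Real.sqrt (An (m + 2) u x)) := by
  choose C hC using remG_rem (n := n) hc hm M
  have hCK : ∀ l : List (Fin n), l.length ≤ m + 1 → C l ≤ ∑ l ∈ words (Fin n) (m + 1), |C l| :=
    fun l hl => (le_abs_self _).trans (Finset.single_le_sum (f := fun l => |C l|)
      (fun _ _ => abs_nonneg _) (mem_words.mpr hl))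
  refine ⟨∑ l ∈ words (Fin n) (m + 1), |C l|, Finset.sum_nonneg fun _ _ => abs_nonneg _,
    fun u h1 h2 h3 x => ⟨fun l hl => ?_, fun l hl => ?_⟩⟩
  · have h := hC l (by rintro rfl; simp at hl; omega) (by omega) ⟨u, h1, h2, h3⟩ x
    rw [hl, remW, if_neg (by omega), if_pos rfl] at h
    exact h.trans (mul_le_mul_of_nonneg_right (hCK l (by omega)) (by positivity))
  · have h := hC l (by rintro rfl; simp at hl) (by omega) ⟨u, h1, h2, h3⟩ x
    rw [hl, remW, if_neg (by omega), if_neg (by omega)] at h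
    exact h.trans (mul_le_mul_of_nonneg_right (hCK l (by omega)) (by positivity))

end Vale.Agent.P227
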