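import Vale.Agent.P227.Param

/-! Removing the drift by the change of variables x = e^t ξ. -/

set_option linter.unusedSectionVars false
set_option linter.unusedVariables false

namespace Vale.Agent.P227

open scoped ContDiff
open MeasureTheory Set Filter Topology Matrix

variable {n : ℕ}

/-- From `U_t = G` to the equation for `u(t, x) = e^{κ t} U(t, e^{-t} x)` (time clamped). -/
theorem rescale {U G : ℝ → X n → ℝ} {T : ℝ} (hT : 0 ≤ T) (κ : ℝ) (hU : JC U)
    (hG : Continuous fun p : ℝ × X n => G p.1 p.2) (he : ∀ t, Ev (U t))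
    (hb : ∀ l : List (Fin n), 2 ≤ l.length → ∃ C, ∀ t ∈ Icc 0 T, ∀ x, |pds l (U t) x| ≤ C)
    (hd : ∀ t ∈ Icc 0 T, ∀ x, HasDerivWithinAt (fun s => U s x) (G t x) (Icc 0 T) t)
    {u : ℝ → X n → ℝ}
    (hu : u = fun t x => Real.exp (κ * cl T t) * U (cl T t) (Real.exp (-cl T t) • x)) :
    JC u ∧ (∀ t, Ev (u t)) ∧ (∃ C, ∀ t, |u t 0| ≤ C) ∧
      (∀ l : List (Fin n), 2 ≤ l.length → ∃ C, ∀ t x, |pds l (u t) x| ≤ C) ∧ u 0 = U 0 ∧
      (∀ t x, hess (u t) x
        = Real.exp ((κ - 2) * cl T t) • hess (U (cl T t)) (Real.exp (-cl T t) • x)) ∧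
      ∀ t ∈ Icc 0 T, ∀ x, HasDerivWithinAt (fun s => u s x)
        (κ * u t x - ∑ i, x i * pd i (u t) x
          + Real.exp (κ * t) * G t (Real.exp (-t) • x)) (Icc 0 T) t := by
  have hc : Continuous (cl T) := continuous_cl T
  have hsm : ∀ s (a : ℝ), Sm fun x : X n => U s (a • x) := fun s a =>
    (hU.1 s).comp (contDiff_id.const_smul a)
  have hp : ∀ (l : List (Fin n)) t x, pds l (u t) x = Real.exp (κ * cl T t)
      * (Real.exp (-cl T t) ^ l.length * pds l (U (cl T t)) (Real.exp (-cl T t) • x)) := by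
    intro l t x
    subst hu
    simp only
    rw [pds_const_mul (hsm _ _), pds_scale (hU.1 _)]
  refine ⟨?_, ?_, ?_, ?_, ?_, ?_, ?_⟩
  · subst hu
    exact DS.mul (S := Qc) (JC.time (by fun_prop))
      ((hU.comp_time hc).scale (c := fun t => Real.exp (-cl T t)) (by fun_prop))
  · intro t x
    subst hu
    simp only
    rw [smul_neg, he]
  · have h1 : Continuous fun s : ℝ => Real.exp (κ * s) * U s 0 :=
      (by fun_prop : Continuous fun s : ℝ => Real.exp (κ * s)).mul
        (hU.cont.comp (continuous_id.prodMk continuous_const))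
    obtain ⟨C, hC⟩ := isCompact_Icc.exists_bound_of_continuousOn (s := Icc 0 T) h1.continuousOn
    refine ⟨C, fun t => ?_⟩
    subst hu
    simp only [smul_zero]
    exact hC _ (cl_mem hT t)
  · intro l hl
    obtain ⟨C, hC⟩ := hb l hl
    refine ⟨Real.exp (|κ| * T) * C, fun t x => ?_⟩
    have hm := cl_mem hT t
    have e1 : Real.exp (κ * cl T t) ≤ Real.exp (|κ| * T) :=
      Real.exp_le_exp.mpr ((mul_le_mul_of_nonneg_right (le_abs_self κ) hm.1).trans
        (mul_le_mul_of_nonneg_left hm.2 (abs_nonneg κ)))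
    have e2 : Real.exp (-cl T t) ^ l.length ≤ 1 :=
      pow_le_one₀ (Real.exp_pos _).le (Real.exp_le_one_iff.mpr (neg_nonpos.mpr hm.1))
    have e3 := hC _ hm (Real.exp (-cl T t) • x)
    rw [hp, abs_mul, abs_mul, abs_of_pos (Real.exp_pos _), abs_of_pos (by positivity)]
    refine mul_le_mul e1 ?_ (by positivity) (Real.exp_pos _).le
    calc _ ≤ 1 * C := mul_le_mul e2 e3 (abs_nonneg _) zero_le_one
      _ = C := one_mul C
  · subst hu
    funext x
    simp [cl_of_mem (left_mem_Icc.mpr hT)]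
  · intro t x
    ext i j
    have := hp [i, j] t x
    simp only [pds_cons, pds_nil, List.length] at this
    rw [hess_apply, this, Matrix.smul_apply, hess_apply, smul_eq_mul, ← mul_assoc,
      ← Real.exp_nat_mul, ← Real.exp_add]
    congr 2
    push_cast
    ring
  · intro t ht x
    have hy : HasDerivAt (fun s : ℝ => Real.exp (-s) • x) ((Real.exp (-t) * -1) • x) t :=
      ((hasDerivAt_neg t).exp).smul_const x
    have h1 := hasDerivWithinAt_moving hU hG hd ht hy
    have h2 : HasDerivWithinAt (fun s : ℝ => Real.exp (κ * s)) (Real.exp (κ * t) * κ)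
        (Icc 0 T) t := by
      simpa using ((hasDerivAt_id t).const_mul κ).exp.hasDerivWithinAt
    have h3 := h2.mul h1
    have h4 : ∀ s ∈ Icc 0 T, u s x = Real.exp (κ * s) * U s (Real.exp (-s) • x) := by
      intro s hs
      subst hu
      simp only [cl_of_mem hs]
    refine (h3.congr h4 (h4 t ht)).congr_deriv ?_
    have h5 : ∀ i, pd i (u t) x = Real.exp (κ * t)
        * (Real.exp (-t) * pd i (U t) (Real.exp (-t) • x)) := by
      intro i
      have := hp [i] t x
      simpa [cl_of_mem ht] using this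
    simp only [h5, h4 t ht, Pi.smul_apply, smul_eq_mul, mul_add, Finset.mul_sum]
    have h6 : ∑ i, Real.exp (κ * t) * (Real.exp (-t) * -1 * x i * pd i (U t) (Real.exp (-t) • x))
        = -∑ i, x i * (Real.exp (κ * t) * (Real.exp (-t) * pd i (U t) (Real.exp (-t) • x))) := by
      rw [← Finset.sum_neg_distrib]
      exact Finset.sum_congr rfl fun i _ => by ring
    rw [h6]
    ring

/-- The space projection of jet space. -/
def px (y : JI n → ℝ) : X n := fun i => y (Sum.inl i)

@[simp] theorem px_jet (x : X n) (r : Mat n) : px (jet x r) = x := rfl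

theorem sm_px {f : X n → ℝ} (hf : Sm f) : Sm fun y : JI n → ℝ => f (px y) :=
  hf.comp_pi fun k => sm_coord (Sum.inl k)

theorem pd_px {f : X n → ℝ} (hf : Sm f) (q : JI n) (y : JI n → ℝ) :
    pd q (fun y : JI n → ℝ => f (px y)) y
      = ∑ k, pd k f (px y) * if q = Sum.inl k then 1 else 0 := by
  rw [pd_comp (G := px) (hf.diff _) (fun k => (sm_coord (Sum.inl k)).diff y)]
  exact Finset.sum_congr rfl fun k _ => by rw [← pd_coord q (Sum.inl k) y]; rfl

theorem pd_inl_px {f : X n → ℝ} (hf : Sm f) (i : Fin n) (y : JI n → ℝ) :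
    pd (Sum.inl i) (fun y : JI n → ℝ => f (px y)) y = pd i f (px y) := by
  simp [pd_px hf]

theorem pd_inr_px {f : X n → ℝ} (hf : Sm f) (p : Fin n × Fin n) (y : JI n → ℝ) :
    pd (Sum.inr p) (fun y : JI n → ℝ => f (px y)) y = 0 := by
  simp [pd_px hf]

theorem pds_px (l : List (JI n)) : ∃ m : List (Fin n), m.length ≤ l.length ∧
    ((∀ f : X n → ℝ, Sm f → pds l (fun y : JI n → ℝ => f (px y)) = fun y => pds m f (px y)) ∨
      ∀ f : X n → ℝ, Sm f → pds l (fun y : JI n → ℝ => f (px y)) = fun _ => 0) := by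
  induction l with
  | nil => exact ⟨[], le_rfl, Or.inl fun _ _ => rfl⟩
  | cons q l ih =>
    obtain ⟨m, hm, h | h⟩ := ih
    · cases q with
      | inl i =>
        refine ⟨i :: m, by simpa using hm, Or.inl fun f hf => ?_⟩
        funext y
        rw [pds_cons, h f hf, pd_inl_px (hf.pds m)]
        rfl
      | inr p =>
        refine ⟨[], Nat.zero_le _, Or.inr fun f hf => ?_⟩
        funext y
        rw [pds_cons, h f hf, pd_inr_px (hf.pds m)]
    · refine ⟨[], Nat.zero_le _, Or.inr fun f hf => ?_⟩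
      funext y
      rw [pds_cons, h f hf, pd_const]

/-- Lifting families on space to jet space, graded version. -/
theorem dq_px {α : Type*} {f : α → X n → ℝ} (K : ℕ) (hs : ∀ a, Sm (f a))
    (hb : ∀ l : List (Fin n), l.length + 2 ≤ K → ∃ C, ∀ a x, |pds l (f a) x| ≤ C) :
    DQ (Grading.ofSub (Qb ⊤) K) 2 fun a (y : JI n → ℝ) => f a (px y) := by
  refine ⟨fun a => sm_px (hs a), fun l hl => ?_⟩
  rw [Grading.mem_ofSub, mem_Qb_top]
  rw [Grading.ofSub_K] at hl
  obtain ⟨m, hm, h | h⟩ := pds_px l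
  · obtain ⟨C, hC⟩ := hb m (by omega)
    exact ⟨C, fun a y => by rw [h _ (hs a)]; exact hC a _⟩
  · exact ⟨0, fun a y => by rw [h _ (hs a)]; simp⟩

theorem ds_px {α : Type*} {f : α → X n → ℝ} (hf : DS (Qb ⊤) f) :
    DS (Qb ⊤) fun a (y : JI n → ℝ) => f a (px y) :=
  (ds_iff_dq 2).mpr fun K => dq_px K hf.1 fun l _ => (ds_Qb_top_iff.mp hf).2 l

/-- A cutoff applied to one matrix coordinate of the jet. -/
theorem bs_cut {χ : ℝ → ℝ} (hχ : ContDiff ℝ ∞ χ) (hb : ∀ k, ∃ C, ∀ s, |iteratedDeriv k χ s| ≤ C)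
    (p : Fin n × Fin n) : BS fun y : JI n → ℝ => χ (y (Sum.inr p)) := by
  rw [bs_iff]
  refine DS.comp_real (φ := fun _ => χ) (g := fun _ y => y (Sum.inr p)) (fun _ => hχ)
    (fun _ => sm_coord _) (fun i => ?_) fun k => ?_
  · have : (fun _ : Unit => pd i fun y : JI n → ℝ => y (Sum.inr p))
        = fun _ _ => if i = Sum.inr p then 1 else 0 := by
      funext _ y
      exact pd_coord _ _ _
    rw [this]
    exact DS.const _
  · obtain ⟨C, hC⟩ := hb k
    exact mem_Qb_top.mpr ⟨C, fun _ _ => hC _⟩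

theorem pd_cut {χ : ℝ → ℝ} (hχ : ContDiff ℝ ∞ χ) (p q : Fin n × Fin n) (y : JI n → ℝ) :
    pd (Sum.inr q) (fun y : JI n → ℝ => χ (y (Sum.inr p))) y
      = if q = p then deriv χ (y (Sum.inr p)) else 0 := by
  rw [pd_comp_real (f := fun y : JI n → ℝ => y (Sum.inr p))
    (hχ.differentiable (by simp) _) ((sm_coord _).diff y), pd_coord]
  simp

theorem BS.ds {α ι : Type*} [Fintype ι] [DecidableEq ι] {f : (ι → ℝ) → ℝ} (hf : BS f) :
    DS (Qb ⊤) fun _ : α => f :=
  ds_Qb_top_iff.mpr ⟨fun _ => hf.1, fun l => (hf.2 l).imp fun _ hC _ x => hC x⟩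

/-- One constant for all words up to a given length. -/
theorem exists_bound_words {α ι : Type*} [Fintype ι] [DecidableEq ι] {f : α → (ι → ℝ) → ℝ}
    (k : ℕ) (h : ∀ l : List ι, l.length ≤ k → ∃ C, ∀ a y, |pds l (f a) y| ≤ C) :
    ∃ M, ∀ l : List ι, l.length ≤ k → ∀ a y, |pds l (f a) y| ≤ M := by
  choose! C hC using h
  refine ⟨∑ l ∈ words ι k, |C l|, fun l hl a y => ((hC l hl a y).trans (le_abs_self _)).trans ?_⟩
  exact Finset.single_le_sum (f := fun l => |C l|) (fun _ _ => abs_nonneg _) (mem_words.mpr hl)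

end Vale.Agent.P227
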