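import Vale.Agent.P227.Classes

/-! Definitions for the explicit finite difference scheme (no gaps). -/

set_option linter.unusedSectionVars false
set_option linter.unusedVariables false

namespace Vale.Agent.P227

open scoped ContDiff
open MeasureTheory Set Filter Topology Matrix

variable {n : ℕ}

/-- Forward difference quotient. -/
noncomputable def dp (h : ℝ) (i : Fin n) (f : X n → ℝ) : X n → ℝ :=
  fun x => (f (x + h • Pi.single i 1) - f x) / h

/-- Backward difference quotient. -/
noncomputable def dm (h : ℝ) (i : Fin n) (f : X n → ℝ) : X n → ℝ :=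
  fun x => (f x - f (x - h • Pi.single i 1)) / h

/-- Finite difference Hessian. -/
noncomputable def fdh (h : ℝ) (f : X n → ℝ) (x : X n) : Mat n :=
  Matrix.of fun i j => dp h i (dm h j f) x

@[simp] theorem fdh_apply (h : ℝ) (f : X n → ℝ) (x : X n) (i j : Fin n) :
    fdh h f x i j = dp h i (dm h j f) x := rfl

/-- One explicit Euler step. -/
noncomputable def step (Φ : (JI n → ℝ) → ℝ) (h dt : ℝ) (v : X n → ℝ) : X n → ℝ :=
  fun x => v x + dt * Φ (jet x (fdh h v x))

/-- The explicit scheme started at zero. -/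
noncomputable def sch (F : ℝ → (JI n → ℝ) → ℝ) (h dt : ℝ) : ℕ → X n → ℝ
  | 0 => fun _ => 0
  | m + 1 => step (F (m * dt)) h dt (sch F h dt m)

/-- The principal symbol `∂Φ / ∂r_{ij}` at a jet. -/
noncomputable def symb (Φ : (JI n → ℝ) → ℝ) (y : JI n → ℝ) : Mat n :=
  Matrix.of fun i j => pd (Sum.inr (i, j)) Φ y

@[simp] theorem symb_apply (Φ : (JI n → ℝ) → ℝ) (y : JI n → ℝ) (i j : Fin n) :
    symb Φ y i j = pd (Sum.inr (i, j)) Φ y := rfl

/-- Integrable weight centred at `z`. -/
noncomputable def wt (z x : X n) : ℝ := ∏ i, (1 + (x i - z i) ^ 2)⁻¹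

/-- Weighted squared `L²` norm. -/
noncomputable def wn (z : X n) (f : X n → ℝ) : ℝ := ∫ x, wt z x * f x ^ 2

/-- Weighted Sobolev energy of order `k`. -/
noncomputable def En (k : ℕ) (z : X n) (v : X n → ℝ) : ℝ :=
  ∑ l ∈ words (Fin n) k, wn z (pds l v)

/-- Bounded continuous functions. -/
def BC (f : X n → ℝ) : Prop := Continuous f ∧ ∃ C, ∀ x, |f x| ≤ C

/-- The order up to which the short time existence theorem needs quantitative bounds. -/
def k1 (n : ℕ) : ℕ := 2 * n + 5

end Vale.Agent.P227
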