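import Vale.Agent.P227.Weight

/-! Uniformly local Sobolev embedding. -/

set_option linter.unusedSectionVars false
set_option linter.unusedVariables false

namespace Vale.Agent.P227

open scoped ContDiff
open MeasureTheory Set Filter Topology Matrix

variable {n : ℕ}

/-- One dimensional weighted Sobolev inequality. -/
theorem sob_one {g g' : ℝ → ℝ} (hg : ∀ t, HasDerivAt g (g' t) t) (hg' : Continuous g') {C : ℝ}
    (h1 : ∀ t, |g t| ≤ C) (h2 : ∀ t, |g' t| ≤ C) (a : ℝ) :
    Integrable (fun t => (1 + (t - a) ^ 2)⁻¹ * (2 * g t ^ 2 + g' t ^ 2)) ∧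
      g a ^ 2 ≤ ∫ t, (1 + (t - a) ^ 2)⁻¹ * (2 * g t ^ 2 + g' t ^ 2) := by
  have hc : Continuous g := continuous_iff_continuousAt.2 fun t => (hg t).continuousAt
  have hp : ∀ t : ℝ, 0 < 1 + (t - a) ^ 2 := fun t => by positivity
  have hη : Continuous fun t : ℝ => (1 + (t - a) ^ 2)⁻¹ :=
    Continuous.inv₀ (by fun_prop) fun t => (hp t).ne'
  have e1 : ∀ t, g t ^ 2 ≤ C ^ 2 := fun t => sq_le_sq' (abs_le.1 (h1 t)).1 (abs_le.1 (h1 t)).2
  have e2 : ∀ t, g' t ^ 2 ≤ C ^ 2 := fun t => sq_le_sq' (abs_le.1 (h2 t)).1 (abs_le.1 (h2 t)).2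
  have hI : Integrable fun t => (1 + (t - a) ^ 2)⁻¹ * (2 * g t ^ 2 + g' t ^ 2) := by
    refine ((integrable_inv_one_add_sq.comp_sub_right a).mul_const (3 * C ^ 2)).mono'
      (by fun_prop : Continuous _).aestronglyMeasurable (Eventually.of_forall fun t => ?_)
    rw [Real.norm_of_nonneg (by positivity)]
    exact mul_le_mul_of_nonneg_left (by linarith [e1 t, e2 t]) (inv_pos.2 (hp t)).le
  refine ⟨hI, ?_⟩
  have hd : ∀ t, HasDerivAt (fun t => (1 + (t - a) ^ 2)⁻¹ * g t ^ 2)
      (-(2 * (t - a)) / (1 + (t - a) ^ 2) ^ 2 * g t ^ 2 + (1 + (t - a) ^ 2)⁻¹ * (2 * g t * g' t))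
      t := fun t => by
    have a1 : HasDerivAt (fun t : ℝ => 1 + (t - a) ^ 2) (2 * (t - a)) t := by
      simpa using (((hasDerivAt_id t).sub_const a).fun_pow 2).const_add 1
    have a2 : HasDerivAt (fun t => g t ^ 2) (2 * g t * g' t) t := by
      simpa using (hg t).fun_pow 2
    exact (a1.fun_inv (hp t).ne').fun_mul a2
  have hb : ∀ t, |-(2 * (t - a)) / (1 + (t - a) ^ 2) ^ 2 * g t ^ 2 +
      (1 + (t - a) ^ 2)⁻¹ * (2 * g t * g' t)| ≤
      (1 + (t - a) ^ 2)⁻¹ * (2 * g t ^ 2 + g' t ^ 2) := fun t => by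
    have a1 : -(2 * (t - a)) / (1 + (t - a) ^ 2) ^ 2 * g t ^ 2 +
        (1 + (t - a) ^ 2)⁻¹ * (2 * g t * g' t) = (1 + (t - a) ^ 2)⁻¹ *
        (-(2 * (t - a)) / (1 + (t - a) ^ 2) * g t ^ 2 + 2 * g t * g' t) := by
      field_simp
    have a2 : |-(2 * (t - a)) / (1 + (t - a) ^ 2)| ≤ 1 := by
      rw [abs_div, abs_of_pos (hp t), div_le_one (hp t), abs_le]
      constructor <;> nlinarith [sq_nonneg (t - a - 1), sq_nonneg (t - a + 1)]
    rw [a1, abs_mul, abs_of_pos (inv_pos.2 (hp t))]
    refine mul_le_mul_of_nonneg_left ?_ (inv_pos.2 (hp t)).le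
    obtain ⟨a3, a4⟩ := abs_le.1 a2
    rw [abs_le]
    constructor <;> nlinarith [sq_nonneg (g t - g' t), sq_nonneg (g t + g' t), sq_nonneg (g t)]
  have hI' : Integrable fun t => -(2 * (t - a)) / (1 + (t - a) ^ 2) ^ 2 * g t ^ 2 +
      (1 + (t - a) ^ 2)⁻¹ * (2 * g t * g' t) := by
    refine hI.mono' (Continuous.aestronglyMeasurable ?_) (Eventually.of_forall hb)
    exact ((Continuous.div (by fun_prop) (by fun_prop) fun t => (pow_pos (hp t) 2).ne').mul
      (by fun_prop)).add (by fun_prop)
  have ht : Tendsto (fun t => (1 + (t - a) ^ 2)⁻¹ * g t ^ 2) atTop (𝓝 0) := by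
    have a1 : Tendsto (fun t : ℝ => (1 + (t - a) ^ 2)⁻¹ * C ^ 2) atTop (𝓝 0) := by
      have := (tendsto_atTop_add_const_left atTop 1 ((tendsto_pow_atTop two_ne_zero).comp
        (tendsto_atTop_add_const_right atTop (-a) tendsto_id))).inv_tendsto_atTop.mul_const (C ^ 2)
      simpa [sub_eq_add_neg] using this
    exact squeeze_zero (fun t => by positivity)
      (fun t => mul_le_mul_of_nonneg_left (e1 t) (inv_pos.2 (hp t)).le) a1
  have h3 := integral_Ioi_of_hasDerivAt_of_tendsto' (fun t _ => hd t) (a := a) hI'.integrableOn ht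
  have h4 := setIntegral_le_integral (s := Ioi a) hI
    (Eventually.of_forall fun t => by positivity)
  have h5 := integral_mono (μ := volume.restrict (Ioi a)) hI'.integrableOn.neg hI.integrableOn
    fun t => (neg_le_abs _).trans (hb t)
  simp only [Pi.neg_apply] at h5
  rw [integral_neg, h3] at h5
  simp only [sub_self, zero_sub, neg_neg] at h5
  refine le_trans (le_of_eq (by simp)) (h5.trans h4)

/-- Weighted square with weight in the directions of `S`. -/
noncomputable def sobF (z : X n) (S : Finset (Fin n)) (g : X n → ℝ) (x : X n) : ENNReal :=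
  ENNReal.ofReal ((∏ i ∈ S, (1 + (x i - z i) ^ 2)⁻¹) * g x ^ 2)

theorem measurable_sobF (z : X n) (S : Finset (Fin n)) {g : X n → ℝ} (hg : Continuous g) :
    Measurable (sobF z S g) := by
  have := hg.measurable
  unfold sobF
  fun_prop

theorem sob_step (z : X n) {S : Finset (Fin n)} {i : Fin n} (hi : i ∉ S) {g : X n → ℝ}
    (hg : BS g) : lmarginal (fun _ => volume) S (sobF z S g) z ≤
      2 * lmarginal (fun _ => volume) (insert i S) (sobF z (insert i S) g) z +
        lmarginal (fun _ => volume) (insert i S) (sobF z (insert i S) (pd i g)) z := by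
  have m1 := measurable_sobF z (insert i S) hg.1.cont
  have m2 := measurable_sobF z (insert i S) (hg.1.pd i).cont
  have e : 2 * lmarginal (fun _ => volume) (insert i S) (sobF z (insert i S) g) z +
      lmarginal (fun _ => volume) (insert i S) (sobF z (insert i S) (pd i g)) z =
      lmarginal (fun _ => volume) (insert i S)
        (fun x => 2 * sobF z (insert i S) g x + sobF z (insert i S) (pd i g) x) z := by
    unfold lmarginal
    exact ((lintegral_add_right _ (m2.comp measurable_updateFinset)).trans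
      (congrArg (· + _) (lintegral_const_mul 2 (m1.comp measurable_updateFinset)))).symm
  rw [e, lmarginal_insert' _ ((m1.const_mul 2).fun_add m2) hi]
  refine lintegral_mono fun y => ?_
  obtain ⟨x, hx⟩ : ∃ x, x = Function.updateFinset z S y := ⟨_, rfl⟩
  have hxi : x i = z i := by simp [hx, Function.updateFinset, hi]
  simp only [← hx]
  obtain ⟨C1, hC1⟩ := hg.2 []
  obtain ⟨C2, hC2⟩ := hg.2 [i]
  have hu : ∀ t, Function.update x i t = Function.update x i 0 + t • Pi.single i 1 := fun t => by
    funext j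
    by_cases h : j = i
    · subst h
      simp
    · simp [h]
  obtain ⟨h1, h2⟩ := sob_one (g := fun t => g (Function.update x i t))
    (g' := fun t => pd i g (Function.update x i t)) (C := max C1 C2)
    (fun t => by
      rw [hu t]
      exact (hasDerivAt_axis (hg.1.diff _)).congr_of_eventuallyEq
        (Eventually.of_forall fun r => congrArg g (hu r)))
    ((hg.1.pd i).cont.comp (continuous_const.update i continuous_id))
    (fun t => (hC1 _).trans (le_max_left _ _)) (fun t => (hC2 _).trans (le_max_right _ _)) (z i)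
  have hP : 0 ≤ ∏ j ∈ S, (1 + (x j - z j) ^ 2)⁻¹ := Finset.prod_nonneg fun j _ => by positivity
  rw [← hxi, Function.update_eq_self, hxi] at h2
  calc sobF z S g x ≤ ENNReal.ofReal (∫ t, (∏ j ∈ S, (1 + (x j - z j) ^ 2)⁻¹) *
        ((1 + (t - z i) ^ 2)⁻¹ * (2 * g (Function.update x i t) ^ 2 +
          pd i g (Function.update x i t) ^ 2))) := by
        rw [integral_const_mul]
        exact ENNReal.ofReal_le_ofReal (mul_le_mul_of_nonneg_left h2 hP)
    _ = _ := by
        rw [ofReal_integral_eq_lintegral_ofReal (h1.const_mul _)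
          (Eventually.of_forall fun t => by positivity)]
        refine lintegral_congr fun t => ?_
        have : ∏ j ∈ insert i S, (1 + (Function.update x i t j - z j) ^ 2)⁻¹ =
            (1 + (t - z i) ^ 2)⁻¹ * ∏ j ∈ S, (1 + (x j - z j) ^ 2)⁻¹ := by
          rw [Finset.prod_insert hi, Function.update_self]
          congr 1
          refine Finset.prod_congr rfl fun j hj => ?_
          rw [Function.update_of_ne (ne_of_mem_of_not_mem hj hi)]
        rw [sobF, sobF, this, ← ENNReal.ofReal_ofNat 2, ← ENNReal.ofReal_mul (by norm_num),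
          ← ENNReal.ofReal_add (by positivity) (by positivity)]
        congr 1
        ring

theorem sob_ind (z : X n) (A : ℝ) (T : Finset (Fin n)) : ∀ g : X n → ℝ, BS g →
    (∀ l : List (Fin n), l.length ≤ T.card → wn z (pds l g) ≤ A) →
    lmarginal (fun _ => volume) Tᶜ (sobF z Tᶜ g) z ≤ 3 ^ T.card * ENNReal.ofReal A := by
  induction T using Finset.induction_on with
  | empty =>
    intro g hg hA
    rw [Finset.compl_empty, lmarginal_univ, Finset.card_empty, pow_zero, one_mul, ← volume_pi]
    refine le_trans (le_of_eq ?_) (ENNReal.ofReal_le_ofReal (hA [] le_rfl))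
    rw [pds_nil, wn, ofReal_integral_eq_lintegral_ofReal (hg.bc.integrable_wn z)
      (Eventually.of_forall fun x => mul_nonneg (wt_pos z x).le (sq_nonneg _))]
    rfl
  | insert i T hi ih =>
    intro g hg hA
    rw [Finset.card_insert_of_notMem hi] at hA ⊢
    refine (sob_step z (i := i) (by simp) hg).trans ?_
    rw [Finset.insert_compl_insert hi]
    have h1 := ih g hg fun l hl => hA l (by omega)
    have h2 := ih (pd i g) (hg.pd i) fun l hl => by
      rw [pds_pd hg.1]
      exact hA (i :: l) (by simpa using hl)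
    refine (add_le_add (mul_le_mul_right h1 2) h2).trans (le_of_eq ?_)
    ring

theorem sq_le_of_wn {f : X n → ℝ} (hf : BS f) (z : X n) {A : ℝ}
    (hA : ∀ l : List (Fin n), l.length ≤ n → wn z (pds l f) ≤ A) : f z ^ 2 ≤ 4 ^ n * A := by
  have h0 : 0 ≤ A := (wn_nonneg z _).trans (hA [] (by simp))
  have h := sob_ind z A Finset.univ f hf (by simpa using hA)
  rw [Finset.compl_univ, lmarginal_empty, sobF, Finset.prod_empty, one_mul, Finset.card_fin,
    ← ENNReal.ofReal_ofNat 3, ← ENNReal.ofReal_pow (by norm_num),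
    ← ENNReal.ofReal_mul (by positivity), ENNReal.ofReal_le_ofReal_iff (by positivity)] at h
  refine h.trans ?_
  gcongr
  norm_num

theorem sq_pds_le_En {v : X n → ℝ} (hv : BS v) (z : X n) {k : ℕ} {l : List (Fin n)}
    (hl : l.length + n ≤ k) : pds l v z ^ 2 ≤ 4 ^ n * En k z v := by
  refine sq_le_of_wn (hv.pds l) z fun l' hl' => ?_
  rw [← pds_append]
  exact Finset.single_le_sum (f := fun l => wn z (pds l v)) (fun _ _ => wn_nonneg _ _)
    (mem_words.2 (by rw [List.length_append]; omega))

end Vale.Agent.P227
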