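import Vale.Agent.P227.EnergyStep
import Vale.Agent.P227.Sobolev

/-! Uniform bounds for the explicit scheme. -/

set_option linter.unusedSectionVars false
set_option linter.unusedVariables false

namespace Vale.Agent.P227

open scoped ContDiff
open MeasureTheory Set Filter Topology Matrix

/-- Discrete Gronwall argument for the scheme. -/
theorem sch_gron {n K : ℕ} {F : ℝ → (JI n → ℝ) → ℝ} {C h dt T : ℝ} (hC : 0 ≤ C) (hdt : 0 ≤ dt)
    (hstep : ∀ N : ℕ, N * dt ≤ T →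
      (∀ z, 1 + En K z (sch F h dt N) ≤ Real.exp (C * (N * dt))) →
      ∀ z, En K z (sch F h dt (N + 1)) ≤
        En K z (sch F h dt N) + dt * (C * (1 + En K z (sch F h dt N)))) :
    ∀ N : ℕ, N * dt ≤ T → ∀ z, 1 + En K z (sch F h dt N) ≤ Real.exp (C * (N * dt)) := by
  intro N
  induction N with
  | zero =>
    intro _ z
    simp [En, sch, pds_zero, wn]
  | succ N ih =>
    intro hN z
    have h1 : (N : ℝ) * dt ≤ T := by
      push_cast at hN
      linarith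
    have h2 := hstep N h1 (ih h1) z
    have h3 := ih h1 z
    have h4 : 1 + C * dt ≤ Real.exp (C * dt) := by linarith [Real.add_one_le_exp (C * dt)]
    have h5 : 0 ≤ 1 + C * dt := by positivity
    calc 1 + En K z (sch F h dt (N + 1))
        ≤ (1 + En K z (sch F h dt N)) * (1 + C * dt) := by linarith
      _ ≤ Real.exp (C * (N * dt)) * Real.exp (C * dt) :=
        mul_le_mul h3 h4 h5 (Real.exp_pos _).le
      _ = _ := by
        rw [← Real.exp_add]
        push_cast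
        ring_nf

theorem exists_time (n : ℕ) (C : ℝ) {r : ℝ} (hr : 0 < r) :
    ∃ T : ℝ, 0 < T ∧ T ≤ 1 ∧ 4 ^ n * (Real.exp (C * T) - 1) ≤ r ^ 2 := by
  have h1 : Continuous fun T : ℝ => (4 : ℝ) ^ n * (Real.exp (C * T) - 1) := by fun_prop
  have h2 : ∀ᶠ T in 𝓝 (0 : ℝ), (4 : ℝ) ^ n * (Real.exp (C * T) - 1) < r ^ 2 :=
    h1.continuousAt.eventually_lt continuousAt_const (by simpa using pow_pos hr 2)
  obtain ⟨T, h3, h4, h5⟩ := ((h2.filter_mono nhdsWithin_le_nhds).and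
    ((Ioc_mem_nhdsGT one_pos : Ioc (0 : ℝ) 1 ∈ 𝓝[>] 0))).exists
  exact ⟨T, h4, h5, h3.le⟩

theorem exists_bound_le {ι α : Type*} [Fintype ι] [DecidableEq ι] {φ : List ι → α → ℝ}
    (h : ∀ l, ∃ C, ∀ a, |φ l a| ≤ C) (k : ℕ) :
    ∃ C, ∀ l : List ι, l.length ≤ k → ∀ a, |φ l a| ≤ C := by
  choose C hC using h
  refine ⟨∑ l ∈ words ι k, |C l|, fun l hl a => ((hC l a).trans (le_abs_self _)).trans ?_⟩
  exact Finset.single_le_sum (f := fun l => |C l|) (fun _ _ => abs_nonneg _) (mem_words.2 hl)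

theorem scheme_bounds (n : ℕ) (M : ℝ) {lam rho : ℝ} (hlam : 0 < lam) (hrho : 0 < rho) :
    ∃ T θ : ℝ, 0 < T ∧ T ≤ 1 ∧ 0 < θ ∧ ∀ F : ℝ → (JI n → ℝ) → ℝ,
      (∀ t, Sm (F t)) →
      (∀ l : List (JI n), l.length ≤ k1 n → ∀ t y, |pds l (F t) y| ≤ M) →
      (∀ l : List (JI n), ∃ C, ∀ t y, |pds l (F t) y| ≤ C) →
      (∀ t x (r : Mat n), (∀ i j, |r i j| ≤ rho) → LB lam (symb (F t) (jet x r))) →
      (∃ h0 > 0, ∀ (N : ℕ) (h dt : ℝ), 0 < h → h ≤ h0 → 0 ≤ dt → dt ≤ θ * h ^ 2 →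
        N * dt ≤ T → ∀ x i j, |hess (sch F h dt N) x i j| ≤ rho) ∧
      ∀ l : List (Fin n), ∃ C h0 : ℝ, 0 < h0 ∧ ∀ (N : ℕ) (h dt : ℝ), 0 < h → h ≤ h0 →
        0 ≤ dt → dt ≤ θ * h ^ 2 → N * dt ≤ T → ∀ x, |pds l (sch F h dt N) x| ≤ C := by
  obtain ⟨θ, hθ, hE⟩ := energy_step n M hlam
  obtain ⟨C, h0, hC, hh0, hS⟩ := hE (n + 4) (2 * n + 4) M 1 (by omega) (by omega) (by omega)
  obtain ⟨T, hT, hT1, hT2⟩ := exists_time n C (lt_min one_pos hrho)
  refine ⟨T, θ, hT, hT1, hθ, fun F hF hM hB hL => ?_⟩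
  have hBS : ∀ t, BS (F t) := fun t => ⟨hF t, fun l => (hB l).imp fun C h => h t⟩
  have hM0 : ∀ t p y, |pd (Sum.inr p) (F t) y| ≤ M := fun t p y =>
    hM [Sum.inr p] (by simp [k1]) t y
  have hsup : ∀ (N : ℕ) (h dt : ℝ), N * dt ≤ T →
      (∀ z, 1 + En (2 * n + 4) z (sch F h dt N) ≤ Real.exp (C * (N * dt))) →
      ∀ l : List (Fin n), l.length ≤ n + 4 → ∀ x, |pds l (sch F h dt N) x| ≤ min 1 rho := by
    intro N h dt hN hz l hl x
    refine abs_le_of_sq_le_sq' ?_ (lt_min one_pos hrho).le |> abs_le.2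
    refine (sq_pds_le_En (bs_sch hBS h dt N) x (k := 2 * n + 4) (by omega)).trans
      (le_trans ?_ hT2)
    have := Real.exp_le_exp.2 (mul_le_mul_of_nonneg_left hN hC)
    exact mul_le_mul_of_nonneg_left (by linarith [hz x]) (by positivity)
  have hlb : ∀ (N : ℕ) (h dt : ℝ), 0 < h →
      (∀ l : List (Fin n), l.length ≤ n + 4 → ∀ x, |pds l (sch F h dt N) x| ≤ min 1 rho) →
      ∀ t x, LB lam (symb (F t) (jet x (fdh h (sch F h dt N) x))) := by
    intro N h dt hh hz t x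
    exact hL t x _ fun i j => abs_dp_dm_le (bs_sch hBS h dt N).1 hh
      (fun y => (hz [i, j] (by simp) y).trans (min_le_right _ _)) x
  have hbase : ∀ (N : ℕ) (h dt : ℝ), 0 < h → h ≤ h0 → 0 ≤ dt → dt ≤ θ * h ^ 2 → N * dt ≤ T →
      ∀ z, 1 + En (2 * n + 4) z (sch F h dt N) ≤ Real.exp (C * (N * dt)) := by
    intro N h dt hh hh' hdt hdt'
    refine sch_gron hC hdt (fun N hN hz => ?_) N
    have := hsup N h dt hN hz
    exact hS (F (N * dt)) _ h dt hh hh' hdt hdt' (hBS _) (bs_sch hBS h dt N) (hM0 _)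
      (fun l hl => hM l hl _) (fun l hl x => (this l hl x).trans (min_le_left _ _))
      (hlb N h dt hh this _)
  have hall : ∀ K, 2 * n + 4 ≤ K → ∃ E h1 : ℝ, 0 < h1 ∧ h1 ≤ h0 ∧ ∀ (N : ℕ) (h dt : ℝ), 0 < h →
      h ≤ h1 → 0 ≤ dt → dt ≤ θ * h ^ 2 → N * dt ≤ T → ∀ z, En K z (sch F h dt N) ≤ E := by
    intro K hK
    induction K, hK using Nat.le_induction with
    | base =>
      refine ⟨Real.exp (C * T), h0, hh0, le_rfl, fun N h dt hh hh' hdt hdt' hN z => ?_⟩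
      have := Real.exp_le_exp.2 (mul_le_mul_of_nonneg_left hN hC)
      linarith [hbase N h dt hh hh' hdt hdt' hN z]
    | succ K hK ih =>
      obtain ⟨E, h1, hh1, hh1', hEK⟩ := ih
      obtain ⟨M', hM'⟩ := exists_bound_le (φ := fun l (a : ℝ × (JI n → ℝ)) => pds l (F a.1) a.2)
        (fun l => (hB l).imp fun C h a => h a.1 a.2) (K + 1 + 1)
      obtain ⟨C', h2, hC', hh2, hS'⟩ := hE (K - n) (K + 1) M' (√(4 ^ n * E)) (by omega) (by omega)
        (by omega)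
      refine ⟨Real.exp (C' * T), min h1 h2, lt_min hh1 hh2, (min_le_left _ _).trans hh1',
        fun N h dt hh hh' hdt hdt' hN z => ?_⟩
      have h3 := Real.exp_le_exp.2 (mul_le_mul_of_nonneg_left hN hC')
      have h4 := hh'.trans (min_le_left _ _)
      have h5 : 1 + En (K + 1) z (sch F h dt N) ≤ Real.exp (C' * (N * dt)) := by
        refine sch_gron hC' hdt (fun N hN _ => ?_) N hN z
        refine hS' (F (N * dt)) _ h dt hh (hh'.trans (min_le_right _ _)) hdt hdt' (hBS _)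
          (bs_sch hBS h dt N) (hM0 _) (fun l hl y => hM' l hl (_, y)) (fun l hl x => ?_)
          (hlb N h dt hh (hsup N h dt hN (hbase N h dt hh (h4.trans hh1') hdt hdt' hN)) _)
        refine Real.abs_le_sqrt ((sq_pds_le_En (bs_sch hBS h dt N) x (k := K) (by omega)).trans ?_)
        exact mul_le_mul_of_nonneg_left (hEK N h dt hh h4 hdt hdt' hN x) (by positivity)
      linarith
  refine ⟨⟨h0, hh0, fun N h dt hh hh' hdt hdt' hN x i j => ?_⟩, fun l => ?_⟩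
  · exact (hsup N h dt hN (hbase N h dt hh hh' hdt hdt' hN) [i, j] (by simp) x).trans
      (min_le_right _ _)
  · obtain ⟨E, h1, hh1, -, hEK⟩ := hall (2 * n + 4 + l.length) (by omega)
    refine ⟨√(4 ^ n * E), h1, hh1, fun N h dt hh hh' hdt hdt' hN x => ?_⟩
    refine Real.abs_le_sqrt ((sq_pds_le_En (bs_sch hBS h dt N) x (k := 2 * n + 4 + l.length)
      (by omega)).trans ?_)
    exact mul_le_mul_of_nonneg_left (hEK N h dt hh hh' hdt hdt' hN x) (by positivity)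

end Vale.Agent.P227
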