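import Vale.Agent.P227.Basic

/-! Abstract algebraic setting for the Bochner identities (no gaps). -/

set_option linter.unusedSectionVars false
set_option linter.unusedVariables false

namespace Vale.Agent.P227

open scoped ContDiff
open MeasureTheory Set Filter Topology Matrix

/-- A commutative algebra of functions with commuting derivations, an integration functional
for the weight `e^{-W}` (`g` is the gradient of `W`), a Hessian metric `h` with inverse `τ`
which is a Stein kernel, and point evaluations. -/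
structure Setup (n : ℕ) (A : Type) [CommRing A] [Algebra ℝ A] where
  d : Fin n → Derivation ℝ A A
  d_comm : ∀ i j f, d i (d j f) = d j (d i f)
  x : Fin n → A
  d_x : ∀ i j, d i (x j) = if i = j then 1 else 0
  g : Fin n → A
  g_symm : ∀ i j, d i (g j) = d j (g i)
  h : Matrix (Fin n) (Fin n) A
  τ : Matrix (Fin n) (Fin n) A
  h_symm : ∀ i j, h i j = h j i
  τ_symm : ∀ i j, τ i j = τ j i
  τ_mul : τ * h = 1
  codazzi : ∀ i j k, d i (h j k) = d j (h i k)
  stein : ∀ b, ∑ a, (d a (τ a b) - g a * τ a b) = -x b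
  E : A →ₗ[ℝ] ℝ
  ibp : ∀ a f, E (d a f) = E (g a * f)
  ev : X n → A →ₐ[ℝ] ℝ
  E_nonneg : ∀ f, (∀ p, 0 ≤ ev p f) → 0 ≤ E f
  h_pos : ∀ p, (h.map (ev p)).PosSemidef

namespace Setup

variable {n : ℕ} {A : Type} [CommRing A] [Algebra ℝ A] (S : Setup n A)

/-- `D_a = τ_{ak} ∂_k`. -/
def D (a : Fin n) (f : A) : A := ∑ k, S.τ a k * S.d k f

/-- Adjoint of `∂_a`. -/
def ds (a : Fin n) (f : A) : A := -S.d a f + S.g a * f

/-- Adjoint of `D_a`. -/
def Ds (a : Fin n) (f : A) : A := -S.D a f + S.x a * f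

/-- The generator. -/
def L (f : A) : A := ∑ i, ∑ j, S.τ i j * S.d i (S.d j f) - ∑ i, S.x i * S.d i f

/-- Carre du champ. -/
def Γ (f f' : A) : A := ∑ i, ∑ j, S.τ i j * S.d i f * S.d j f'

/-- `P_{kb} = D_b ∂_k w`. -/
def P (w : A) (k b : Fin n) : A := S.D b (S.d k w)

end Setup

end Vale.Agent.P227
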