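import Vale.Agent.P227.Density
import Vale.Agent.P227.KE
import Vale.Agent.P227.Bump

/-! The variance inequality. -/

set_option linter.unusedSectionVars false
set_option linter.unusedVariables false

namespace Vale.Agent.P227

open scoped ContDiff
open MeasureTheory Set Filter Topology Matrix

theorem variance {n : ℕ} {J : Type} [Fintype J] {ψ : J → ℝ → ℝ} (hψ : ∀ j, Prof (ψ j))
    (a : J → X n) (δ : J → ℝ)
    (hc : ∃ c > 0, ∀ x ξ, c * nsq ξ ≤ ∑ j, deriv (deriv (ψ j)) (dot (a j) x) * dot (a j) ξ ^ 2)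
    {V f r : X n → ℝ} (hV : V = fun x => ∑ j, ψ j (dot (a j) x))
    (hf : f = fun x => ∑ j, δ j * (deriv (ψ j) (dot (a j) x) * dot (a j) x))
    (hr : r = fun x => ∑ j, δ j ^ 2 * (deriv (deriv (ψ j)) (dot (a j) x) * dot (a j) x ^ 2
      + deriv (ψ j) (dot (a j) x) * dot (a j) x)) :
    (∫ x, f x ^ 2 * Real.exp (-V x)) * (∫ x, Real.exp (-V x))
        - (∫ x, f x * Real.exp (-V x)) ^ 2
      ≤ (∫ x, r x * Real.exp (-V x)) * ∫ x, Real.exp (-V x) := by
  have hP : Pot V := hV ▸ pot_ridge_sum hψ a hc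
  obtain ⟨u, hu, hue⟩ := exists_ke hP
  have hf2 : V2 f ∧ Ev f := hf ▸ v2_test hψ a δ
  have hVc : Continuous V := hP.v2.1.cont
  have hZ := integral_exp_pos hVc hP.coer
  have key : ∀ η : ℝ, 0 < η → ∫ x, f x ^ 2 * Real.exp (-V x) ≤ (∫ x, r x * Real.exp (-V x)) +
      (∫ x, f x * Real.exp (-V x)) ^ 2 / (∫ x, Real.exp (-V x)) + η := by
    intro η hη
    obtain ⟨w, g, hw, hg, hd⟩ := density hP hu hue hf2.1 hf2.2 hη
    have hm := hu.main a δ (p := fun j x => deriv (ψ j) (dot (a j) x))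
      (m := fun j x => deriv (deriv (ψ j)) (dot (a j) x)) (fun j => (hψ j).pg_deriv _)
      (fun j => (hψ j).pg_deriv2 _)
      (fun j k x => pd_ridge (contDiff_infty_iff_deriv.1 (hψ j).sm).2 _ k x)
      (fun j x => (hψ j).conv _)
      (fun k x => by
        rw [hV, pd_sum (F := fun j y => ψ j (dot (a j) y)) _ fun j _ =>
          (Sm.diff ((hψ j).sm.comp (sm_dot (a j))) x)]
        exact Finset.sum_congr rfl fun j _ => pd_ridge (hψ j).sm _ k x) hw hg
    have hpg : PG g := hg ▸ (PG.lop hu.pg_tau hw).add hw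
    have hL : PG (Lop (tau u) g) := PG.lop hu.pg_tau hpg
    have i1 := (hf2.1.pg.mul hf2.1.pg).integrable hVc hP.coer
    have i2 := (hf2.1.pg.mul hL).integrable hVc hP.coer
    have i3 := (hL.mul hL).integrable hVc hP.coer
    have e : ∫ x, (f x - Lop (tau u) g x) ^ 2 * Real.exp (-V x) =
        (∫ x, f x * f x * Real.exp (-V x)) - 2 * (∫ x, f x * Lop (tau u) g x * Real.exp (-V x)) +
          ∫ x, Lop (tau u) g x * Lop (tau u) g x * Real.exp (-V x) := by
      have i4 : Integrable fun x => f x * f x * Real.exp (-V x) -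
        2 * (f x * Lop (tau u) g x * Real.exp (-V x)) := i1.sub (i2.const_mul 2)
      rw [← integral_const_mul, ← integral_sub i1 (i2.const_mul 2), ← integral_add i4 i3]
      congr 1
      funext x
      ring
    rw [e] at hd
    have e1 : ∀ x, ∑ j, δ j * (deriv (ψ j) (dot (a j) x) * dot (a j) x) = f x := fun x => by rw [hf]
    have e2 : ∀ x, ∑ j, δ j ^ 2 * (deriv (deriv (ψ j)) (dot (a j) x) * dot (a j) x ^ 2
      + deriv (ψ j) (dot (a j) x) * dot (a j) x) = r x := fun x => by rw [hr]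
    simp only [e1, e2] at hm
    simp only [sq] at hm hd ⊢
    linarith
  have h1 : ∫ x, f x ^ 2 * Real.exp (-V x) ≤ (∫ x, r x * Real.exp (-V x)) +
      (∫ x, f x * Real.exp (-V x)) ^ 2 / (∫ x, Real.exp (-V x)) :=
    le_of_forall_pos_le_add key
  have h2 := mul_le_mul_of_nonneg_right h1 hZ.le
  rw [add_mul, div_mul_cancel₀ _ hZ.ne'] at h2
  linarith

end Vale.Agent.P227
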