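import Vale.Agent.P227.FD

/-! The weight, weighted norms, summation by parts. -/

set_option linter.unusedSectionVars false
set_option linter.unusedVariables false

namespace Vale.Agent.P227

open scoped ContDiff
open MeasureTheory Set Filter Topology Matrix

variable {n : ℕ} {f g : X n → ℝ} {h : ℝ}

theorem wt_pos (z x : X n) : 0 < wt z x := Finset.prod_pos fun _ _ => by positivity

theorem wt_le_one (z x : X n) : wt z x ≤ 1 :=
  Finset.prod_le_one (fun _ _ => by positivity) fun i _ =>
    inv_le_one_of_one_le₀ (by nlinarith [sq_nonneg (x i - z i)])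

theorem continuous_wt (z : X n) : Continuous (wt z) :=
  continuous_finsetProd _ fun i _ => Continuous.inv₀ (by fun_prop) fun x => by positivity

theorem integrable_wt (z : X n) : Integrable (wt z) :=
  Integrable.fintype_prod (f := fun i (s : ℝ) => (1 + (s - z i) ^ 2)⁻¹)
    fun i => integrable_inv_one_add_sq.comp_sub_right (z i)

theorem integral_wt (z : X n) : ∫ x, wt z x = Real.pi ^ n := by
  have h1 := integral_fintype_prod_volume_eq_prod (fun i (s : ℝ) => (1 + (s - z i) ^ 2)⁻¹)
  have h2 : ∀ i, ∫ s : ℝ, (1 + (s - z i) ^ 2)⁻¹ = Real.pi := fun i => by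
    rw [integral_sub_right_eq_self (fun s : ℝ => (1 + s ^ 2)⁻¹), integral_univ_inv_one_add_sq]
  simp only [h2, Finset.prod_const, Finset.card_univ, Fintype.card_fin] at h1
  exact h1

theorem wt_split (z x : X n) (i : Fin n) (s : ℝ) :
    wt z (x + s • Pi.single i 1) = (1 + (x i - z i + s) ^ 2)⁻¹ *
      ∏ j ∈ Finset.univ.erase i, (1 + (x j - z j) ^ 2)⁻¹ := by
  rw [wt, ← Finset.mul_prod_erase _ _ (Finset.mem_univ i)]
  congr 1
  · simp only [Pi.add_apply, Pi.smul_apply, Pi.single_eq_same, smul_eq_mul, mul_one]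
    congr 3
    ring
  · refine Finset.prod_congr rfl fun j hj => ?_
    simp [Pi.single_eq_of_ne (Finset.ne_of_mem_erase hj)]

theorem wt_split0 (z x : X n) (i : Fin n) :
    wt z x = (1 + (x i - z i) ^ 2)⁻¹ * ∏ j ∈ Finset.univ.erase i, (1 + (x j - z j) ^ 2)⁻¹ := by
  rw [wt, ← Finset.mul_prod_erase _ _ (Finset.mem_univ i)]

theorem wt_shift (z x : X n) (i : Fin n) {s : ℝ} (hs : |s| ≤ 1) :
    wt z (x + s • Pi.single i 1) ≤ 3 * wt z x := by
  rw [wt_split, wt_split0 z x i, ← mul_assoc]
  refine mul_le_mul_of_nonneg_right ?_ (Finset.prod_nonneg fun _ _ => by positivity)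
  have h1 : s ^ 2 ≤ 1 := by rw [← sq_abs]; nlinarith [abs_nonneg s]
  rw [← div_eq_mul_inv, ← one_div, div_le_div_iff₀ (by positivity) (by positivity)]
  nlinarith [sq_nonneg (x i - z i + 2 * s), sq_nonneg (x i - z i + s)]

theorem wt_lip (z x : X n) (i : Fin n) {s : ℝ} (hs : |s| ≤ 1) :
    |wt z (x + s • Pi.single i 1) - wt z x| ≤ 3 * |s| * wt z x := by
  have hP : 0 ≤ ∏ j ∈ Finset.univ.erase i, (1 + (x j - z j) ^ 2)⁻¹ :=
    Finset.prod_nonneg fun _ _ => by positivity
  rw [wt_split, wt_split0 z x i, ← mul_assoc, ← sub_mul, abs_mul, abs_of_nonneg hP]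
  refine mul_le_mul_of_nonneg_right ?_ hP
  generalize x i - z i = a
  have h1 : (1 + (a + s) ^ 2)⁻¹ - (1 + a ^ 2)⁻¹
      = (s - 2 * (a + s)) / (1 + (a + s) ^ 2) * (s * (1 + a ^ 2)⁻¹) := by
    field_simp
    ring
  have h2 : |(s - 2 * (a + s)) / (1 + (a + s) ^ 2)| ≤ 3 := by
    have h3 := abs_le.1 hs
    rw [abs_div, abs_of_pos (by positivity : 0 < 1 + (a + s) ^ 2), div_le_iff₀ (by positivity),
      abs_le]
    constructor <;> nlinarith [sq_nonneg (a + s - 1), sq_nonneg (a + s + 1)]
  rw [h1, abs_mul, abs_mul, abs_of_pos (by positivity : 0 < (1 + a ^ 2)⁻¹), mul_assoc]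
  exact mul_le_mul_of_nonneg_right h2 (by positivity)

theorem BC.integrable_wt (hf : BC f) (z : X n) : Integrable fun x => wt z x * f x := by
  obtain ⟨h1, C, hC⟩ := hf
  exact (P227.integrable_wt z).mul_bdd (c := C) h1.aestronglyMeasurable
    (Eventually.of_forall hC)

theorem BC.integrable_wn (hf : BC f) (z : X n) : Integrable fun x => wt z x * f x ^ 2 := by
  simpa only [pow_two] using (hf.mul hf).integrable_wt z

theorem wn_nonneg (z : X n) (f : X n → ℝ) : 0 ≤ wn z f :=
  integral_nonneg fun x => mul_nonneg (wt_pos z x).le (sq_nonneg _)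

theorem wn_mono (hf : BC f) (hg : BC g) (hfg : ∀ x, |f x| ≤ |g x|) (z : X n) :
    wn z f ≤ wn z g :=
  integral_mono (hf.integrable_wn z) (hg.integrable_wn z) fun x =>
    mul_le_mul_of_nonneg_left (sq_le_sq.2 (hfg x)) (wt_pos z x).le

theorem wn_const_mul (z : X n) (c : ℝ) (f : X n → ℝ) :
    wn z (fun x => c * f x) = c ^ 2 * wn z f := by
  rw [wn, wn, ← integral_const_mul]
  exact integral_congr_ae (Eventually.of_forall fun x => by ring)

theorem wn_const (z : X n) (c : ℝ) : wn z (fun _ => c) = c ^ 2 * Real.pi ^ n := by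
  rw [wn, integral_mul_const, integral_wt, mul_comm]

theorem wn_abs (z : X n) (f : X n → ℝ) : wn z (fun x => |f x|) = wn z f := by
  simp only [wn, sq_abs]

theorem wn_add_le (hf : BC f) (hg : BC g) (z : X n) :
    wn z (fun x => f x + g x) ≤ 2 * wn z f + 2 * wn z g := by
  rw [wn, wn, wn, ← integral_const_mul, ← integral_const_mul,
    ← integral_add ((hf.integrable_wn z).const_mul 2) ((hg.integrable_wn z).const_mul 2)]
  refine integral_mono ((hf.add hg).integrable_wn z)
    (((hf.integrable_wn z).const_mul 2).add ((hg.integrable_wn z).const_mul 2)) fun x => ?_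
  nlinarith [mul_nonneg (wt_pos z x).le (sq_nonneg (f x - g x))]

theorem wn_sum_le {κ : Type*} (s : Finset κ) {F : κ → X n → ℝ} (hF : ∀ k ∈ s, BC (F k))
    (z : X n) : wn z (fun x => ∑ k ∈ s, F k x) ≤ s.card * ∑ k ∈ s, wn z (F k) := by
  simp only [wn]
  rw [← integral_finsetSum _ fun k hk => (hF k hk).integrable_wn z, ← integral_const_mul]
  refine integral_mono ((BC.sum s hF).integrable_wn z)
    ((integrable_finsetSum _ fun k hk => (hF k hk).integrable_wn z).const_mul _) fun x => ?_
  have h1 := mul_le_mul_of_nonneg_left (sq_sum_le_card_mul_sum_sq (s := s) (f := fun k => F k x))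
    (wt_pos z x).le
  simp only [← Finset.mul_sum]
  linarith

theorem wn_shift (hf : BC f) (z : X n) (i : Fin n) {s : ℝ} (hs : |s| ≤ 1) :
    wn z (fun x => f (x + s • Pi.single i 1)) ≤ 3 * wn z f := by
  have h1 := integral_add_right_eq_self (μ := volume)
    (fun y => wt z (y + (-s) • Pi.single i 1) * f y ^ 2) (s • (Pi.single i 1 : X n))
  have h2 : Integrable fun y => wt z (y + (-s) • Pi.single i 1) * f y ^ 2 := by
    have := ((hf.translate (s • Pi.single i 1)).integrable_wn z).comp_add_right
      ((-s) • Pi.single i 1)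
    simpa using this
  simp only [neg_smul, add_neg_cancel_right] at h1
  rw [wn, h1, wn, ← integral_const_mul]
  simp only [← neg_smul]
  refine integral_mono h2 ((hf.integrable_wn z).const_mul 3) fun y => ?_
  have := mul_le_mul_of_nonneg_right (wt_shift z y i (s := -s) (by rwa [abs_neg])) (sq_nonneg (f y))
  simpa only [mul_assoc] using this

theorem dp_sq_le (hf : Sm f) (hh : 0 < h) (i : Fin n) (x : X n) :
    dp h i f x ^ 2 ≤ ∫ s in (0 : ℝ)..1, pd i f (x + (s * h) • Pi.single i 1) ^ 2 := by
  have hc : Continuous fun s : ℝ => pd i f (x + (s * h) • Pi.single i 1) :=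
    (hf.pd i).cont.comp (by fun_prop)
  have h1 : ∫ s in (0 : ℝ)..1, pd i f (x + (s * h) • Pi.single i 1) * h
      = f (x + (1 * h) • Pi.single i 1) - f (x + (0 * h) • Pi.single i 1) :=
    intervalIntegral.integral_eq_sub_of_hasDerivAt
      (f := fun s : ℝ => f (x + (s * h) • Pi.single i 1))
      (fun s _ => (hasDerivAt_axis (hf.diff _)).comp s (hasDerivAt_mul_const h))
      ((hc.mul continuous_const).intervalIntegrable _ _)
  have h2 : ∫ s in (0 : ℝ)..1, pd i f (x + (s * h) • Pi.single i 1) = dp h i f x := by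
    rw [intervalIntegral.integral_mul_const] at h1
    rw [dp, eq_div_iff hh.ne', h1]
    simp
  have h3 := intervalIntegral.integral_mono_on (μ := volume) zero_le_one
    (((hc.const_mul (2 * dp h i f x)).sub
      (continuous_const (y := dp h i f x ^ 2))).intervalIntegrable 0 1)
    ((hc.pow 2).intervalIntegrable 0 1) fun s _ => by
      simp only [Pi.sub_apply, Pi.pow_apply]
      nlinarith [sq_nonneg (pd i f (x + (s * h) • Pi.single i 1) - dp h i f x)]
  simp only [Pi.sub_apply, Pi.pow_apply] at h3
  rw [intervalIntegral.integral_sub ((hc.const_mul _).intervalIntegrable _ _)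
    (continuous_const.intervalIntegrable _ _), intervalIntegral.integral_const_mul, h2] at h3
  simp only [intervalIntegral.integral_const, sub_zero, smul_eq_mul, one_mul] at h3
  linarith

/-- A difference quotient is controlled by the derivative. -/
theorem wn_dp_le (hf : BS f) (hh : 0 < h) (hh1 : h ≤ 1) (z : X n) (i : Fin n) :
    wn z (dp h i f) ≤ 3 * wn z (pd i f) := by
  obtain ⟨hc, C, hC⟩ := (hf.pd i).bc
  have hI : Integrable (Function.uncurry fun (x : X n) (s : ℝ) =>
      wt z x * pd i f (x + (s * h) • Pi.single i 1) ^ 2)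
      (volume.prod (volume.restrict (Ioc (0 : ℝ) 1))) := by
    have h1 : Integrable (fun p : X n × ℝ => wt z p.1 * (1 : ℝ))
        (volume.prod (volume.restrict (Ioc (0 : ℝ) 1))) :=
      (integrable_wt z).mul_prod (integrable_const (1 : ℝ))
    simp only [mul_one] at h1
    refine h1.mul_bdd (c := C ^ 2) (Continuous.aestronglyMeasurable ?_)
      (Eventually.of_forall fun p => ?_)
    · exact (hc.comp (by fun_prop)).pow 2
    · rw [Real.norm_eq_abs, abs_pow]
      exact pow_le_pow_left₀ (abs_nonneg _) (hC _) 2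
  calc wn z (dp h i f)
      ≤ ∫ x, ∫ s in Ioc (0 : ℝ) 1, wt z x * pd i f (x + (s * h) • Pi.single i 1) ^ 2 := by
        refine integral_mono ((hf.dp h i).bc.integrable_wn z) hI.integral_prod_left fun x => ?_
        have := mul_le_mul_of_nonneg_left (dp_sq_le hf.1 hh i x) (wt_pos z x).le
        rwa [intervalIntegral.integral_of_le zero_le_one, ← integral_const_mul] at this
    _ = ∫ s in Ioc (0 : ℝ) 1, ∫ x, wt z x * pd i f (x + (s * h) • Pi.single i 1) ^ 2 :=
        integral_integral_swap hI
    _ ≤ ∫ _s in Ioc (0 : ℝ) 1, 3 * wn z (pd i f) := by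
        refine setIntegral_mono_on hI.integral_prod_right (integrable_const _) measurableSet_Ioc
          fun s hs => wn_shift (hf.pd i).bc z i ?_
        rw [abs_of_pos (mul_pos hs.1 hh)]
        nlinarith [hs.1, hs.2]
    _ = 3 * wn z (pd i f) := by simp

/-- Inverse inequality. -/
theorem wn_dp_le' (hf : BC f) (hh : 0 < h) (hh1 : h ≤ 1) (z : X n) (i : Fin n) :
    h ^ 2 * wn z (dp h i f) ≤ 8 * wn z f := by
  have h1 := wn_add_le (hf.translate (h • Pi.single i 1)) (hf.const_mul (-1)) z
  have h2 := wn_shift hf z i (s := h) (by rwa [abs_of_pos hh])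
  have h3 : (fun x => f (x + h • Pi.single i 1) + -1 * f x) = fun x => h * dp h i f x := by
    funext x
    rw [dp]
    field_simp
    ring
  rw [h3, wn_const_mul, wn_const_mul] at h1
  linarith

/-- Summation by parts. -/
theorem sum_by_parts (hf : BC f) (hg : BC g) (z : X n) (h : ℝ) (i : Fin n) :
    ∫ x, wt z x * f x * dp h i g x = -∫ x, dm h i (fun y => wt z y * f y) x * g x := by
  have h0 : Integrable fun x => wt z x * f x * g x := by
    simpa only [mul_assoc] using (hf.mul hg).integrable_wt z
  have h1 : Integrable fun x => wt z x * f x * g (x + h • Pi.single i 1) := by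
    simpa only [mul_assoc] using (hf.mul (hg.translate _)).integrable_wt z
  have h2 : Integrable fun x =>
      wt z (x - h • Pi.single i 1) * f (x - h • Pi.single i 1) * g x := by
    refine (h1.comp_sub_right (h • Pi.single i 1)).congr (Eventually.of_forall fun x => ?_)
    simp only
    rw [sub_add_cancel]
  have h3 := integral_sub_right_eq_self (μ := volume)
    (fun x => wt z x * f x * g (x + h • Pi.single i 1)) (h • (Pi.single i 1 : X n))
  have h4 : ∀ x : X n, x - h • Pi.single i 1 + h • Pi.single i 1 = x := fun x => sub_add_cancel _ _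
  simp only [h4] at h3
  have e1 : ∀ x, wt z x * f x * dp h i g x = h⁻¹ *
      (wt z x * f x * g (x + h • Pi.single i 1) - wt z x * f x * g x) := fun x => by
    rw [dp]; ring
  have e2 : ∀ x, dm h i (fun y => wt z y * f y) x * g x = h⁻¹ * (wt z x * f x * g x -
      wt z (x - h • Pi.single i 1) * f (x - h • Pi.single i 1) * g x) := fun x => by
    rw [dm]; ring
  simp only [e1, e2]
  rw [integral_const_mul, integral_const_mul, integral_sub h1 h0, integral_sub h0 h2, h3]
  ring

end Vale.Agent.P227
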